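import Vale.Agent.Lib.P310V.WL

/-!
Deterministic single-tape Turing machines with a two-way infinite tape, and deciding WL equivalence
with such machines.

`DTM Q Γ` has states `Q`, tape symbols `Γ`, a transition function, a start state, an accepting state,
a rejecting state and a blank symbol.  An input word `w` over `Bool` is written with a map
`ι : Bool → Γ`, on the cells `0, …, |w| - 1`.  A pair of graphs on `Fin N` is written as the two
adjacency matrices, row by row, one after the other.
-/

namespace Vale.Agent.Lib.P310V

/-- Moves of the head. -/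
inductive Dir : Type
  | left
  | right
  | stay

/-- The change of the head position. -/
def Dir.shift : Dir → ℤ
  | Dir.left => -1
  | Dir.right => 1
  | Dir.stay => 0

/-- A deterministic single-tape Turing machine: `δ q a = (q', a', move)`. -/
structure DTM (Q Γ : Type) where
  δ : Q → Γ → Q × Γ × Dir
  start : Q
  acc : Q
  rej : Q
  blank : Γ
  acc_ne_rej : acc ≠ rej

/-- A configuration: state, tape contents and head position. -/
structure TConf (Q Γ : Type) where
  st : Q
  tape : ℤ → Γ
  pos : ℤ

namespace DTM

variable {Q Γ : Type} (M : DTM Q Γ)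

/-- One step of the machine. -/
def step (c : TConf Q Γ) : TConf Q Γ :=
  let r := M.δ c.st (c.tape c.pos)
  ⟨r.1, Function.update c.tape c.pos r.2.1, c.pos + r.2.2.shift⟩

/-- The initial configuration on the input `x`: state `start`, head on cell 0, `x` on the cells
`0, …, n - 1` and blanks elsewhere. -/
def init {n : ℕ} (x : Fin n → Γ) : TConf Q Γ :=
  ⟨M.start, fun p => if h : 0 ≤ p ∧ p < n then x ⟨p.toNat, by omega⟩ else M.blank, 0⟩

/-- The configuration after `t` steps. -/
def run {n : ℕ} (x : Fin n → Γ) (t : ℕ) : TConf Q Γ := (M.step)^[t] (M.init x)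

/-- The machine on the word `w` halts at step `t` with answer `b`: at step `t` it is in the accepting
state (`b = true`) or in the rejecting state (`b = false`), and before step `t` in neither. -/
def HaltsAt (ι : Bool → Γ) (w : List Bool) (t : ℕ) (b : Bool) : Prop :=
  (M.run (fun i : Fin w.length => ι (w.get i)) t).st = (if b then M.acc else M.rej) ∧
    ∀ t' < t, (M.run (fun i : Fin w.length => ι (w.get i)) t').st ≠ M.acc ∧
      (M.run (fun i : Fin w.length => ι (w.get i)) t').st ≠ M.rej

end DTM

open Classical in
/-- The adjacency matrix of a graph on `Fin N`, row by row. -/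
noncomputable def adjBits {N : ℕ} (G : SimpleGraph (Fin N)) : List Bool :=
  (List.finRange N).flatMap fun i => (List.finRange N).map fun j => decide (G.Adj i j)

/-- The input word of a pair of graphs on `Fin N`. -/
noncomputable def encPair {N : ℕ} (G H : SimpleGraph (Fin N)) : List Bool := adjBits G ++ adjBits H

/-- The machine `A` decides `k`-WL equivalence of pairs of graphs with `N` vertices each within
`f N` steps. -/
def DecidesWL {Q Γ : Type} (A : DTM Q Γ) (ι : Bool → Γ) (k : ℕ) (f : ℕ → ℕ) : Prop :=
  ∀ (N : ℕ) (G H : SimpleGraph (Fin N)), ∃ t b, t ≤ f N ∧ A.HaltsAt ι (encPair G H) t b ∧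
    (b = true ↔ WLEquiv k G H)

end Vale.Agent.Lib.P310V
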