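import Vale.Agent.Lib.P310V.Prog
import Vale.Agent.Lib.P310V.TM

/-!
Pieces of Turing machines with one exit, and their composition.
-/

namespace Vale.Agent.Lib.P310V

open Function

/-- A piece of a Turing machine: states, entry state and transition function, which may leave the
piece. -/
structure Block (Γ : Type) : Type 1 where
  Q : Type
  fin : Finite Q
  entry : Q
  δ : Q → Γ → (Q ⊕ Unit) × Γ × Dir

variable {Γ : Type}

/-- The runs of a piece from a state to its exit: the number of steps and the final tape and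
position. -/
inductive Steps (B : Block Γ) : B.Q → (ℤ → Γ) → ℤ → ℕ → (ℤ → Γ) → ℤ → Prop
  | exit {q : B.Q} {tape : ℤ → Γ} {pos : ℤ} {a : Γ} {m : Dir} :
      B.δ q (tape pos) = (Sum.inr (), a, m) → Steps B q tape pos 1 (update tape pos a) (pos + m.shift)
  | next {q q' : B.Q} {tape tape' : ℤ → Γ} {pos pos' : ℤ} {a : Γ} {m : Dir} {t : ℕ} :
      B.δ q (tape pos) = (Sum.inl q', a, m) →
      Steps B q' (update tape pos a) (pos + m.shift) t tape' pos' → Steps B q tape pos (t + 1) tape' pos'

namespace Block

/-- Sequential composition. -/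
def seq (B C : Block Γ) : Block Γ where
  Q := B.Q ⊕ C.Q
  fin := by
    have := B.fin
    have := C.fin
    infer_instance
  entry := Sum.inl B.entry
  δ q s := match q with
    | Sum.inl q => match B.δ q s with
      | (Sum.inl q', a, m) => (Sum.inl (Sum.inl q'), a, m)
      | (Sum.inr _, a, m) => (Sum.inl (Sum.inr C.entry), a, m)
    | Sum.inr q => match C.δ q s with
      | (Sum.inl q', a, m) => (Sum.inl (Sum.inr q'), a, m)
      | (Sum.inr u, a, m) => (Sum.inr u, a, m)

/-- The runs of the second part inside a composition. -/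
lemma steps_seq_right {B C : Block Γ} {q : C.Q} {tape tape' : ℤ → Γ} {pos pos' : ℤ} {t : ℕ}
    (h : Steps C q tape pos t tape' pos') :
    Steps (seq B C) (Sum.inr q) tape pos t tape' pos' := by
  induction h with
  | exit he =>
    refine Steps.exit ?_
    simp only [seq, he]
  | next he _ ih =>
    refine Steps.next ?_ ih
    simp only [seq, he]

/-- The runs of the first part followed by the second part. -/
lemma steps_seq_left {B C : Block Γ} {q : B.Q} {tape tape₁ tape₂ : ℤ → Γ} {pos pos₁ pos₂ : ℤ}
    {t₁ t₂ : ℕ} (h : Steps B q tape pos t₁ tape₁ pos₁)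
    (h' : Steps C C.entry tape₁ pos₁ t₂ tape₂ pos₂) :
    Steps (seq B C) (Sum.inl q) tape pos (t₁ + t₂) tape₂ pos₂ := by
  induction h with
  | @exit q₀ _ _ a m he =>
    have := Steps.next (B := seq B C) (q := Sum.inl q₀) (q' := Sum.inr C.entry) (a := a) (m := m)
      (by simp only [seq, he]) (steps_seq_right h')
    rwa [Nat.add_comm] at this
  | @next q₀ q₁ _ _ _ _ a m _ he _ ih =>
    have := Steps.next (B := seq B C) (q := Sum.inl q₀) (q' := Sum.inl q₁) (a := a) (m := m)
      (by simp only [seq, he]) (ih h')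
    convert this using 1
    omega

theorem steps_seq {B C : Block Γ} {tape tape₁ tape₂ : ℤ → Γ} {pos pos₁ pos₂ : ℤ}
    {t₁ t₂ : ℕ} (h : Steps B B.entry tape pos t₁ tape₁ pos₁)
    (h' : Steps C C.entry tape₁ pos₁ t₂ tape₂ pos₂) :
    Steps (seq B C) (seq B C).entry tape pos (t₁ + t₂) tape₂ pos₂ :=
  steps_seq_left h h'

end Block

end Vale.Agent.Lib.P310V
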