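import Vale.Agent.Lib.P310V.SNo
import Vale.Agent.Lib.P310V.Carry

set_option linter.unusedSectionVars false

namespace Vale.Agent.Lib.P310V

open Finset

section

variable {Sg : Type} [Fintype Sg] [DecidableEq Sg] {n Lt Lq : ℕ}
variable {Δ : Sg → Sg → Sg → Sg} {xin : Fin n → Sg} {bl : Sg} {acc : Sg → Prop}

/-- The string position of time digit `i`. -/
def tI (i : Fin Lt) : Fin (Lt + Lq + 1 + 1) := ⟨i.val + 1, by have := i.isLt; omega⟩

/-- The string position of position digit `j`. -/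
def pI (j : Fin (Lq + 1)) : Fin (Lt + Lq + 1 + 1) := ⟨Lt + 1 + j.val, by have := j.isLt; omega⟩

lemma tI_val (i : Fin Lt) : (tI (Lq := Lq) i).val = i.val + 1 := rfl

lemma pI_val (j : Fin (Lq + 1)) : (pI (Lt := Lt) j).val = Lt + 1 + j.val := rfl

lemma tI_ne (i : Fin Lt) : (tI (Lq := Lq) i).val ≠ 0 := by
  rw [tI_val]
  omega

lemma tI_le (i : Fin Lt) : (tI (Lq := Lq) i).val ≤ Lt := by
  rw [tI_val]
  have := i.isLt
  omega

lemma tI_ne' (i : Fin Lt) : (tI (Lq := Lq) i).val ≠ Lt + 1 := by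
  rw [tI_val]
  have := i.isLt
  omega

lemma pI_ne (j : Fin (Lq + 1)) : (pI (Lt := Lt) j).val ≠ 0 := by
  rw [pI_val]
  omega

lemma pI_not_le (j : Fin (Lq + 1)) : ¬ (pI (Lt := Lt) j).val ≤ Lt := by
  rw [pI_val]
  omega

lemma tI_sub (i : Fin Lt) : (tI (Lq := Lq) i).val - 1 = i.val := by
  rw [tI_val]
  omega

lemma pI_sub (j : Fin (Lq + 1)) : (pI (Lt := Lt) j).val - 1 - Lt = j.val := by
  rw [pI_val]
  omega

lemma pos_cases (l : Fin (Lt + Lq + 1 + 1)) :
    l = 0 ∨ (∃ i : Fin Lt, l = tI i) ∨ (∃ j : Fin (Lq + 1), l = pI j) := by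
  by_cases h0 : l.val = 0
  · left
    exact Fin.ext h0
  · right
    by_cases h1 : l.val ≤ Lt
    · left
      exact ⟨⟨l.val - 1, by omega⟩, Fin.ext (by simp [tI]; omega)⟩
    · right
      have := l.isLt
      exact ⟨⟨l.val - 1 - Lt, by omega⟩, Fin.ext (by simp [pI]; omega)⟩

/-- The shape of a string: head, time digits, position digits. -/
def IsStr (v : Fin (Lt + Lq + 1 + 1) → LamC Sg n) (h : Hd Sg) (x : Fin Lt → Fin n)
    (p : Fin (Lq + 1) → Fin n) : Prop :=
  v 0 = Sum.inr h ∧ (∀ i, v (tI i) = Sum.inl (x i)) ∧ ∀ j, v (pI j) = Sum.inl (p j)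

/-- The string with given head and digits. -/
def strOf (h : Hd Sg) (x : Fin Lt → Fin n) (p : Fin (Lq + 1) → Fin n) :
    Fin (Lt + Lq + 1 + 1) → LamC Sg n :=
  fun l => if h0 : l.val = 0 then Sum.inr h
    else if h1 : l.val ≤ Lt then Sum.inl (x ⟨l.val - 1, by omega⟩)
    else Sum.inl (p ⟨l.val - 1 - Lt, by have := l.isLt; omega⟩)

lemma strOf_zero (h : Hd Sg) (x : Fin Lt → Fin n) (p : Fin (Lq + 1) → Fin n)
    {l : Fin (Lt + Lq + 1 + 1)} (hl : l.val = 0) : strOf h x p l = Sum.inr h := by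
  unfold strOf
  rw [dif_pos hl]

lemma strOf_t (h : Hd Sg) (x : Fin Lt → Fin n) (p : Fin (Lq + 1) → Fin n)
    {l : Fin (Lt + Lq + 1 + 1)} (h0 : l.val ≠ 0) (h1 : l.val ≤ Lt) :
    strOf h x p l = Sum.inl (x ⟨l.val - 1, by omega⟩) := by
  unfold strOf
  rw [dif_neg h0, dif_pos h1]

lemma strOf_p (h : Hd Sg) (x : Fin Lt → Fin n) (p : Fin (Lq + 1) → Fin n)
    {l : Fin (Lt + Lq + 1 + 1)} (h1 : ¬ l.val ≤ Lt) :
    strOf h x p l = Sum.inl (p ⟨l.val - 1 - Lt, by have := l.isLt; omega⟩) := by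
  unfold strOf
  rw [dif_neg (by omega), dif_neg h1]

lemma isStr_strOf (h : Hd Sg) (x : Fin Lt → Fin n) (p : Fin (Lq + 1) → Fin n) :
    IsStr (strOf h x p) h x p := by
  refine ⟨strOf_zero _ _ _ rfl, fun i => ?_, fun j => ?_⟩
  · rw [strOf_t _ _ _ (tI_ne i) (tI_le i)]
    congr 2
  · rw [strOf_p _ _ _ (pI_not_le j)]
    congr 2
    apply Fin.ext
    exact pI_sub j

/-- The truth of a head with digits in a tableau `C`. -/
def HT (C : ℕ → (Fin (Lq + 1) → Fin n) → Sg) : Hd Sg → (Fin Lt → Fin n) →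
    (Fin (Lq + 1) → Fin n) → Prop
  | Hd.kap, _, _ => True
  | Hd.trap, _, _ => False
  | Hd.cell a, x, p => C (valD x) p = a
  | Hd.pair b c, x, p => C (valD x) p = b ∧ C (valD x) (inc p) = c
  | Hd.trip a b c, x, p => C (valD x) p = a ∧ C (valD x) (inc p) = b ∧ C (valD x) (inc (inc p)) = c

/-- The truth of a string in a tableau `C`. -/
def TrS (C : ℕ → (Fin (Lq + 1) → Fin n) → Sg) (v : Fin (Lt + Lq + 1 + 1) → LamC Sg n) : Prop :=
  v 0 = Sum.inr Hd.kap ∨ ∃ h x p, IsStr v h x p ∧ HT C h x p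

lemma TrS.of_str {C : ℕ → (Fin (Lq + 1) → Fin n) → Sg} {v : Fin (Lt + Lq + 1 + 1) → LamC Sg n}
    {h : Hd Sg} {x : Fin Lt → Fin n} {p : Fin (Lq + 1) → Fin n} (hs : IsStr v h x p)
    (ht : HT C h x p) : TrS C v := Or.inr ⟨h, x, p, hs, ht⟩

lemma TrS.to_str {C : ℕ → (Fin (Lq + 1) → Fin n) → Sg} {v : Fin (Lt + Lq + 1 + 1) → LamC Sg n}
    {h : Hd Sg} {x : Fin Lt → Fin n} {p : Fin (Lq + 1) → Fin n} (hs : IsStr v h x p)
    (hk : h ≠ Hd.kap) (ht : TrS C v) : HT C h x p := by
  rcases ht with e | ⟨h', x', p', ⟨e1, e2, e3⟩, ht⟩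
  · rw [hs.1] at e
    exact absurd (Sum.inr.inj e) hk
  · have a1 : h' = h := by
      rw [hs.1] at e1
      exact (Sum.inr.inj e1).symm
    have a2 : x' = x := by
      funext i
      have := e2 i
      rw [hs.2.1 i] at this
      exact (Sum.inl.inj this).symm
    have a3 : p' = p := by
      funext j
      have := e3 j
      rw [hs.2.2 j] at this
      exact (Sum.inl.inj this).symm
    rw [← a1, ← a2, ← a3]
    exact ht

/-- The strings of a triple with a common time where the second has the next position. -/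
lemma extract_A {a : Fin 3 → Fin (Lt + Lq + 1 + 1) → LamC Sg n} {j₀ : Fin (Lq + 2)}
    (h : ∀ l : Fin (Lt + Lq + 1 + 1), l.val ≠ 0 →
      DigA (Lt := Lt) j₀ l.val (a 0 l) (a 1 l) (a 2 l)) :
    ∃ (x : Fin Lt → Fin n) (p : Fin (Lq + 1) → Fin n),
      (∀ i, a 0 (tI i) = Sum.inl (x i) ∧ a 1 (tI i) = Sum.inl (x i) ∧ a 2 (tI i) = Sum.inl (x i)) ∧
      (∀ j, a 0 (pI j) = Sum.inl (p j) ∧ a 1 (pI j) = Sum.inl (inc p j) ∧
        a 2 (pI j) = Sum.inl (p j)) := by
  have hT : ∀ i : Fin Lt, ∃ d, a 0 (tI i) = Sum.inl d ∧ a 1 (tI i) = Sum.inl d ∧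
      a 2 (tI i) = Sum.inl d := by
    intro i
    have := h (tI i) (tI_ne i)
    unfold DigA at this
    rw [if_pos (tI_le i)] at this
    exact this
  have hP : ∀ j : Fin (Lq + 1), ∃ d d', a 0 (pI j) = Sum.inl d ∧ a 1 (pI j) = Sum.inl d' ∧
      a 2 (pI j) = Sum.inl d ∧ incAt j₀.val j.val d d' := by
    intro j
    have := h (pI j) (pI_ne j)
    unfold DigA at this
    rw [if_neg (pI_not_le j), pI_sub] at this
    exact this
  choose x hx using hT
  choose p p' h1 h2 h3 h4 using hP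
  have hp' : p' = inc p := eq_inc_of_incAt h4
  subst hp'
  exact ⟨x, p, hx, fun j => ⟨h1 j, h2 j, h3 j⟩⟩

variable (Δ xin bl acc)

/-- A triple of strings fits a tag at all positions. -/
def HasRun (a : Fin 3 → Fin (Lt + Lq + 1 + 1) → LamC Sg n) (t : Tag Sg Lt Lq) : Prop :=
  ∀ l : Fin (Lt + Lq + 1 + 1), BodyC Δ xin bl acc t l.val (a 0 l) (a 1 l) (a 2 l)

variable {Δ xin bl acc}

lemma hasRun_of_run {a : Fin 3 → Fin (Lt + Lq + 1 + 1) → LamC Sg n}
    {u : Fin (Lt + Lq + 1 + 2) → Tag Sg Lt Lq} (h : RunS (LocC Δ xin bl acc) a u) :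
    HasRun Δ xin bl acc a (u 0) := by
  have hc : ∀ i, u i = u 0 := by
    intro i
    induction i using Fin.induction with
    | zero => rfl
    | succ l ih =>
      rw [(h l).1]
      exact ih
  intro l
  have := (h l).2
  rw [hc] at this
  exact this

lemma run_of_hasRun {a : Fin 3 → Fin (Lt + Lq + 1 + 1) → LamC Sg n} {t : Tag Sg Lt Lq}
    (h : HasRun Δ xin bl acc a t) : RunS (LocC Δ xin bl acc) a (fun _ => t) :=
  fun l => ⟨rfl, h l⟩

/-- The initial tableau row. -/
def initC (xin : Fin n → Sg) (bl : Sg) (p : Fin (Lq + 1) → Fin n) : Sg :=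
  if ∀ j : Fin (Lq + 1), j ≠ 0 → (p j).val = 0 then xin (p 0) else bl

variable {C : ℕ → (Fin (Lq + 1) → Fin n) → Sg}

/-- Truth is closed under triples if the trap is not reached. -/
theorem sem_rule (hinit : ∀ p, C 0 p = initC xin bl p)
    (hrule : ∀ t, t + 1 < n ^ Lt → ∀ p, C (t + 1) (inc p) = Δ (C t p) (C t (inc p)) (C t (inc (inc p))))
    (hno : ¬ ∃ (x : Fin Lt → Fin n) (p : Fin (Lq + 1) → Fin n), acc (C (valD x) p))
    (a : Fin 3 → Fin (Lt + Lq + 1 + 1) → LamC Sg n) (t : Tag Sg Lt Lq)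
    (hr : HasRun Δ xin bl acc a t) (τ : Fin 3) (hprev : ∀ τ', τ' ≠ τ → TrS C (a τ')) :
    TrS C (a τ) := by
  cases t with
  | kkk =>
    obtain ⟨h0, h1, h2⟩ := hr 0 rfl
    fin_cases τ
    · exact Or.inl h0
    · exact Or.inl h1
    · exact Or.inl h2
  | e0 =>
    have he : a 1 = a 2 := funext fun l => (hr l).1
    have h0 := ((hr 0).2 rfl).1
    fin_cases τ
    · exact Or.inl h0
    · change TrS C (a 1)
      rw [he]
      exact hprev 2 (by decide)
    · change TrS C (a 2)
      rw [← he]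
      exact hprev 1 (by decide)
  | e1 =>
    have he : a 0 = a 2 := funext fun l => (hr l).1
    have h0 := ((hr 0).2 rfl).1
    fin_cases τ
    · change TrS C (a 0)
      rw [he]
      exact hprev 2 (by decide)
    · exact Or.inl h0
    · change TrS C (a 2)
      rw [← he]
      exact hprev 0 (by decide)
  | e2 =>
    have he : a 0 = a 1 := funext fun l => (hr l).1
    have h0 := ((hr 0).2 rfl).1
    fin_cases τ
    · change TrS C (a 0)
      rw [he]
      exact hprev 1 (by decide)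
    · change TrS C (a 1)
      rw [← he]
      exact hprev 0 (by decide)
    · exact Or.inl h0
  | and1 j₀ =>
    have hd := fun (l : Fin (Lt + Lq + 1 + 1)) (hl : l.val ≠ 0) => by
      have := hr l
      simp only [BodyC] at this
      rw [if_neg hl] at this
      exact this
    obtain ⟨x, p, ht, hp⟩ := extract_A hd
    have hh := hr 0
    simp only [BodyC, Fin.val_zero, if_true] at hh
    obtain ⟨a1, b1, e0, e1, e2⟩ := hh
    have s0 : IsStr (a 0) (Hd.cell a1) x p :=
      ⟨e0, fun i => (ht i).1, fun j => (hp j).1⟩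
    have s1 : IsStr (a 1) (Hd.cell b1) x (inc p) :=
      ⟨e1, fun i => (ht i).2.1, fun j => (hp j).2.1⟩
    have s2 : IsStr (a 2) (Hd.pair a1 b1) x p :=
      ⟨e2, fun i => (ht i).2.2, fun j => (hp j).2.2⟩
    fin_cases τ
    · exact TrS.of_str s0 (TrS.to_str s2 (by simp) (hprev 2 (by decide))).1
    · exact TrS.of_str s1 (TrS.to_str s2 (by simp) (hprev 2 (by decide))).2
    · exact TrS.of_str s2 ⟨TrS.to_str s0 (by simp) (hprev 0 (by decide)),
        TrS.to_str s1 (by simp) (hprev 1 (by decide))⟩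
  | and2 j₀ =>
    have hd := fun (l : Fin (Lt + Lq + 1 + 1)) (hl : l.val ≠ 0) => by
      have := hr l
      simp only [BodyC] at this
      rw [if_neg hl] at this
      exact this
    obtain ⟨x, p, ht, hp⟩ := extract_A hd
    have hh := hr 0
    simp only [BodyC, Fin.val_zero, if_true] at hh
    obtain ⟨a1, b1, c1, e0, e1, e2⟩ := hh
    have s0 : IsStr (a 0) (Hd.cell a1) x p :=
      ⟨e0, fun i => (ht i).1, fun j => (hp j).1⟩
    have s1 : IsStr (a 1) (Hd.pair b1 c1) x (inc p) :=
      ⟨e1, fun i => (ht i).2.1, fun j => (hp j).2.1⟩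
    have s2 : IsStr (a 2) (Hd.trip a1 b1 c1) x p :=
      ⟨e2, fun i => (ht i).2.2, fun j => (hp j).2.2⟩
    fin_cases τ
    · exact TrS.of_str s0 (TrS.to_str s2 (by simp) (hprev 2 (by decide))).1
    · exact TrS.of_str s1 (TrS.to_str s2 (by simp) (hprev 2 (by decide))).2
    · obtain ⟨h1, h2⟩ := TrS.to_str s1 (by simp) (hprev 1 (by decide))
      exact TrS.of_str s2 ⟨TrS.to_str s0 (by simp) (hprev 0 (by decide)), h1, h2⟩
  | one i₀ j₀ =>
    have he : a 0 = a 1 := by
      funext l
      by_cases h0 : l.val = 0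
      · have hl : l = 0 := Fin.ext h0
        subst hl
        have hh := hr 0
        simp only [BodyC, Fin.val_zero, if_true] at hh
        obtain ⟨a1, b1, c1, e0, e1, -⟩ := hh
        rw [e0, e1]
      · have hh := hr l
        simp only [BodyC] at hh
        rw [if_neg h0] at hh
        split_ifs at hh
        · obtain ⟨d, d', e0, e1, -⟩ := hh
          rw [e0, e1]
        · obtain ⟨d, d', e0, e1, -⟩ := hh
          rw [e0, e1]
    have hT : ∀ i : Fin Lt, ∃ d d', a 0 (tI i) = Sum.inl d ∧ a 2 (tI i) = Sum.inl d' ∧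
        incAt i₀.val i.val d d' := by
      intro i
      have hh := hr (tI i)
      simp only [BodyC] at hh
      rw [if_neg (tI_ne i), if_pos (tI_le i)] at hh
      obtain ⟨d, d', e0, -, e2, e3⟩ := hh
      rw [tI_sub] at e3
      exact ⟨d, d', e0, e2, e3⟩
    have hP : ∀ j : Fin (Lq + 1), ∃ d d', a 0 (pI j) = Sum.inl d ∧ a 2 (pI j) = Sum.inl d' ∧
        incAt j₀.val j.val d d' := by
      intro j
      have hh := hr (pI j)
      simp only [BodyC] at hh
      rw [if_neg (pI_ne j), if_neg (pI_not_le j)] at hh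
      obtain ⟨d, d', e0, -, e2, e3⟩ := hh
      rw [pI_sub] at e3
      exact ⟨d, d', e0, e2, e3⟩
    choose x x' h1 h2 h3 using hT
    choose p p' h4 h5 h6 using hP
    have hp' : p' = inc p := eq_inc_of_incAt h6
    subst hp'
    have hv : valD x' = valD x + 1 := val_of_incAt i₀.isLt h3
    have hh := hr 0
    simp only [BodyC, Fin.val_zero, if_true] at hh
    obtain ⟨a1, b1, c1, e0, -, e2⟩ := hh
    have s0 : IsStr (a 0) (Hd.trip a1 b1 c1) x p := ⟨e0, h1, h4⟩
    have s1 : IsStr (a 1) (Hd.trip a1 b1 c1) x p := by rw [← he]; exact s0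
    have s2 : IsStr (a 2) (Hd.cell (Δ a1 b1 c1)) x' (inc p) := ⟨e2, h2, h5⟩
    fin_cases τ
    · change TrS C (a 0)
      rw [he]
      exact hprev 1 (by decide)
    · change TrS C (a 1)
      rw [← he]
      exact hprev 0 (by decide)
    · obtain ⟨t1, t2, t3⟩ := TrS.to_str s0 (by simp) (hprev 0 (by decide))
      refine TrS.of_str s2 ?_
      change C (valD x') (inc p) = _
      rw [hv, hrule _ (by rw [← hv]; exact valD_lt x'), t1, t2, t3]
  | iin a₁ =>
    have hh := hr 0
    simp only [BodyC, Fin.val_zero, if_true] at hh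
    obtain ⟨e0, e1, e2⟩ := hh
    fin_cases τ
    · exact Or.inl e0
    · exact Or.inl e1
    · have hT : ∀ i : Fin Lt, ∃ d, a 2 (tI i) = Sum.inl d ∧ d.val = 0 := by
        intro i
        have hh := hr (tI i)
        simp only [BodyC] at hh
        rw [if_neg (tI_ne i), if_neg (tI_ne' i)] at hh
        exact hh
      have hP : ∀ j : Fin (Lq + 1), ∃ d, a 2 (pI j) = Sum.inl d ∧ (j = 0 → xin d = a₁) ∧
          (j ≠ 0 → d.val = 0) := by
        intro j
        have hh := hr (pI j)
        simp only [BodyC] at hh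
        rw [if_neg (pI_ne j)] at hh
        by_cases hj : j = 0
        · subst hj
          rw [if_pos (by rw [pI_val]; rfl)] at hh
          obtain ⟨d, h1, h2⟩ := hh
          exact ⟨d, h1, fun _ => h2, fun h => absurd rfl h⟩
        · have : ¬ (pI (Lt := Lt) j).val = Lt + 1 := by
            rw [pI_val]
            intro h
            apply hj
            apply Fin.ext
            rw [Fin.val_zero]
            omega
          rw [if_neg this] at hh
          obtain ⟨d, h1, h2⟩ := hh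
          exact ⟨d, h1, fun h => absurd h hj, fun _ => h2⟩
      choose x h1 h2 using hT
      choose p h3 h4 h5 using hP
      have s2 : IsStr (a 2) (Hd.cell a₁) x p := ⟨e2, h1, h3⟩
      refine TrS.of_str s2 ?_
      change C (valD x) p = a₁
      rw [valD_of_zero h2, hinit]
      unfold initC
      rw [if_pos h5]
      exact h4 0 rfl
  | iout j₀ =>
    have hh := hr 0
    simp only [BodyC, Fin.val_zero, if_true] at hh
    obtain ⟨e0, e1, e2, e3⟩ := hh
    fin_cases τ
    · exact Or.inl e0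
    · exact Or.inl e1
    · have hT : ∀ i : Fin Lt, ∃ d, a 2 (tI i) = Sum.inl d ∧ d.val = 0 := by
        intro i
        have hh := hr (tI i)
        simp only [BodyC] at hh
        rw [if_neg (tI_ne i)] at hh
        obtain ⟨d, h1, h2, -⟩ := hh
        exact ⟨d, h1, h2 (tI_le i)⟩
      have hP : ∀ j : Fin (Lq + 1), ∃ d, a 2 (pI j) = Sum.inl d ∧ (j = j₀ → d.val ≠ 0) := by
        intro j
        have hh := hr (pI j)
        simp only [BodyC] at hh
        rw [if_neg (pI_ne j)] at hh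
        obtain ⟨d, h1, -, h2⟩ := hh
        refine ⟨d, h1, fun hj => h2 ?_⟩
        rw [hj]
        rfl
      choose x h1 h2 using hT
      choose p h3 h4 using hP
      have s2 : IsStr (a 2) (Hd.cell bl) x p := ⟨e2, h1, h3⟩
      refine TrS.of_str s2 ?_
      change C (valD x) p = bl
      rw [valD_of_zero h2, hinit]
      unfold initC
      rw [if_neg]
      intro hall
      refine h4 j₀ rfl (hall j₀ ?_)
      intro h
      rw [h] at e3
      exact e3 rfl
  | fin =>
    have he : a 1 = a 2 := funext fun l => (hr l).1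
    obtain ⟨e0, a1, e1, e2⟩ := (hr 0).2 rfl
    have bad : ¬ TrS C (a 1) := by
      rintro (h | ⟨h, x, p, hs, ht⟩)
      · rw [e1] at h
        simp at h
      · have : h = Hd.cell a1 := by
          have := hs.1
          rw [e1] at this
          exact (Sum.inr.inj this).symm
        subst this
        apply hno
        refine ⟨x, p, ?_⟩
        have e : C (valD x) p = a1 := ht
        rw [e]
        exact e2
    have bad0 : ¬ TrS C (a 0) := by
      rintro (h | ⟨h, x, p, hs, ht⟩)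
      · rw [e0] at h
        simp at h
      · have : h = Hd.trap := by
          have := hs.1
          rw [e0] at this
          exact (Sum.inr.inj this).symm
        subst this
        exact ht
    fin_cases τ
    · exact absurd (hprev 1 (by decide)) bad
    · exact absurd (hprev 0 (by decide)) bad0
    · exact absurd (hprev 0 (by decide)) bad0

end

end Vale.Agent.Lib.P310V
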