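namespace Vale.Agent.Lib.P310V

set_option synthInstance.maxHeartbeats 0
set_option synthInstance.maxSize 100000
set_option maxRecDepth 100000
theorem choose_q : ∀ w0 w1 w2 v0 v1 v2 k0 k1 k2 t c0 c1 c2 q0 q1 q2 : Bool,
    (w0 = true → v0 = true) → (w1 = true → v1 = true) → (w2 = true → v2 = true) →
    (xor q0 (xor q1 q2) = true) →
    (w1 = true → w2 = true → k0 = true → q0 = true) →
    (w1 = true → w2 = true → t = true → q0 = false) →
    (w0 = true → w2 = true → k1 = true → q1 = false) →
    (w0 = true → w1 = true → k2 = true → q2 = false) →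
    (v0 = true → v1 = true → v2 = true → k1 = true → k2 = true → k0 = true) →
    (v0 = true → v1 = true → v2 = true → k0 = true → k1 = true → k2 = true) →
    (v0 = true → v1 = true → v2 = true → k0 = true → k2 = true → k1 = true) →
    (v0 = true → v1 = true → v2 = true → t = true → k1 = false ∧ k2 = false) →
    (v1 = true → v2 = true → t = true → k0 = false) →
    (c0 = true → v1 = true → v2 = true → t = true) →
    (c1 = true → v0 = true → v2 = true → k1 = true) →
    (c2 = true → v0 = true → v1 = true → k2 = true) →
    (c0 = true → c1 = false ∧ c2 = false) → (c1 = true → c2 = false) →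
    ∃ r0 r1 r2 : Bool, xor r0 (xor r1 r2) = true ∧
      (w1 = true → w2 = true → r0 = q0) ∧ (w0 = true → w2 = true → r1 = q1) ∧
      (w0 = true → w1 = true → r2 = q2) ∧
      (v1 = true → v2 = true → k0 = true → r0 = true) ∧
      (v1 = true → v2 = true → t = true → r0 = false) ∧
      (v0 = true → v2 = true → k1 = true → r1 = false) ∧
      (v0 = true → v1 = true → k2 = true → r2 = false) ∧
      (c0 = true → r0 = false) ∧ (c1 = true → r1 = false) ∧ (c2 = true → r2 = false) := by
  decide +kernel

end Vale.Agent.Lib.P310V
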