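import Vale.Agent.Lib.P310V.Block

set_option linter.unusedSectionVars false

/-!
Counter programs as pieces of Turing machines.  The tape has a track for each register below `m`
(register `i` with value `v` is the block of ones on the cells `0, …, v - 1`), an input track, a mark
of cell 0 and a track for the tape of another machine, which holds the output.
-/

namespace Vale.Agent.Lib.P310V

open Function

/-- The tape alphabet. -/
abbrev TS (m : ℕ) (ΓA : Type) : Type := (Fin m → Bool) × Option Bool × Bool × ΓA

section

variable {m : ℕ} {ΓA : Type}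

/-- The bit of track `i`. -/
def TS.ct (s : TS m ΓA) (i : ℕ) : Bool := if h : i < m then s.1 ⟨i, h⟩ else false

/-- Writing the bit of track `i`. -/
def TS.setCt (s : TS m ΓA) (i : ℕ) (b : Bool) : TS m ΓA :=
  (fun j => if j.val = i then b else s.1 j, s.2)

/-- The input symbol. -/
def TS.inp (s : TS m ΓA) : Option Bool := s.2.1

/-- The mark of cell 0. -/
def TS.org (s : TS m ΓA) : Bool := s.2.2.1

/-- Writing on the track of the other machine. -/
def TS.setA (s : TS m ΓA) (a : ΓA) : TS m ΓA := (s.1, s.2.1, s.2.2.1, a)

variable (ιA : Bool → ΓA) (blA : ΓA) (x : ℕ → Option Bool)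

/-- The symbol of the output at a cell. -/
def outAt (out : List Bool) (p : ℤ) : ΓA :=
  if h : 0 ≤ p ∧ p < out.length then ιA (out.get ⟨p.toNat, by omega⟩) else blA

/-- The tape for a memory. -/
def tapeOf (σ : Mem) (p : ℤ) : TS m ΓA :=
  (fun j => decide (0 ≤ p ∧ p < σ.r j.val), (if 0 ≤ p then x p.toNat else none), decide (p = 0),
    outAt ιA blA σ.out p)

variable {ιA blA x}

lemma tapeOf_ct {σ : Mem} {i : ℕ} (hi : i < m) (p : ℤ) :
    (tapeOf (m := m) ιA blA x σ p).ct i = decide (0 ≤ p ∧ p < σ.r i) := by
  unfold TS.ct tapeOf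
  simp [hi]

lemma tapeOf_org {σ : Mem} (p : ℤ) :
    (tapeOf (m := m) ιA blA x σ p).org = decide (p = 0) := rfl

lemma tapeOf_inp {σ : Mem} {p : ℤ} (hp : 0 ≤ p) :
    (tapeOf (m := m) ιA blA x σ p).inp = x p.toNat := by
  unfold TS.inp tapeOf
  simp [hp]

/-- Changing one bit of the tape at one cell changes a register. -/
lemma tapeOf_update {σ : Mem} {i : ℕ} {p₀ : ℤ} {b : Bool} {v : ℕ}
    (h1 : ∀ p : ℤ, p ≠ p₀ → ((0 ≤ p ∧ p < (v : ℤ)) ↔ (0 ≤ p ∧ p < σ.r i)))
    (h2 : (0 ≤ p₀ ∧ p₀ < (v : ℤ)) ↔ b = true) :
    update (tapeOf (m := m) ιA blA x σ) p₀ ((tapeOf (m := m) ιA blA x σ p₀).setCt i b) =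
      tapeOf (m := m) ιA blA x (σ.set i v) := by
  funext p
  by_cases hp : p = p₀
  · subst hp
    rw [update_self]
    unfold TS.setCt tapeOf Mem.set
    simp only [Prod.mk.injEq, and_true]
    funext j
    by_cases hj : j.val = i
    · simp only [hj, update_self, if_true]
      cases b <;> simp_all
    · simp [hj, update_of_ne hj]
  · rw [update_of_ne hp]
    unfold tapeOf Mem.set
    simp only [Prod.mk.injEq, and_true]
    funext j
    by_cases hj : j.val = i
    · simp only [hj, update_self]
      exact (decide_eq_decide.mpr (h1 p hp)).symm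
    · simp [update_of_ne hj]

/-- Writing the output. -/
lemma tapeOf_emit {σ : Mem} {b : Bool} :
    update (tapeOf (m := m) ιA blA x σ) (σ.out.length : ℤ)
        ((tapeOf (m := m) ιA blA x σ (σ.out.length : ℤ)).setA (ιA b)) =
      tapeOf (m := m) ιA blA x ⟨σ.r, σ.out ++ [b]⟩ := by
  funext p
  by_cases hp : p = (σ.out.length : ℤ)
  · subst hp
    rw [update_self]
    unfold TS.setA tapeOf
    simp only [Prod.mk.injEq, true_and]
    unfold outAt
    have : 0 ≤ (σ.out.length : ℤ) ∧ (σ.out.length : ℤ) < ((σ.out ++ [b]).length : ℤ) := by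
      simp
    rw [dif_pos this]
    congr 1
    simp
  · rw [update_of_ne hp]
    unfold tapeOf
    simp only [Prod.mk.injEq, true_and, and_true]
    unfold outAt
    by_cases h1 : 0 ≤ p ∧ p < σ.out.length
    · have h2 : 0 ≤ p ∧ p < ((σ.out ++ [b]).length : ℤ) := by
        simp
        omega
      rw [dif_pos h1, dif_pos h2]
      congr 1
      simp only [List.get_eq_getElem]
      rw [List.getElem_append_left]
    · have h2 : ¬ (0 ≤ p ∧ p < ((σ.out ++ [b]).length : ℤ)) := by
        simp
        omega
      rw [dif_neg h1, dif_neg h2]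

variable {Γ : Type}

/-- Walking to the right along a track of ones. -/
lemma scan_right {B : Block Γ} {qS : B.Q} {tape tape' : ℤ → Γ} {pos' : ℤ} {t : ℕ} {good : Γ → Prop}
    (hδ : ∀ s, good s → B.δ qS s = (Sum.inl qS, s, Dir.right)) :
    ∀ (k : ℕ) (p : ℤ), (∀ j : ℕ, j < k → good (tape (p + j))) →
      Steps B qS tape (p + k) t tape' pos' → Steps B qS tape p (k + t) tape' pos' := by
  intro k
  induction k with
  | zero =>
    intro p _ h
    simpa using h
  | succ k ih =>
    intro p hg h
    have h0 : good (tape p) := by
      have := hg 0 (by omega)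
      simpa using this
    have h1 := hδ _ h0
    have h2 : Steps B qS tape (p + 1) (k + t) tape' pos' := by
      refine ih (p + 1) (fun j hj => ?_) ?_
      · have := hg (j + 1) (by omega)
        have e : p + 1 + (j : ℤ) = p + ((j + 1 : ℕ) : ℤ) := by
          push_cast
          ring
        rw [e]
        exact this
      · have e : p + 1 + (k : ℤ) = p + ((k + 1 : ℕ) : ℤ) := by
          push_cast
          ring
        rw [e]
        exact h
    have h3 := Steps.next (a := tape p) (m := Dir.right) (t := k + t) h1
      (by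
        rw [update_eq_self]
        exact h2)
    convert h3 using 1
    omega

/-- Walking to the left back to cell 0. -/
lemma scan_left {B : Block Γ} {qB : B.Q} {tape tape' : ℤ → Γ} {pos' : ℤ} {t : ℕ} {good : Γ → Prop}
    (hδ : ∀ s, good s → B.δ qB s = (Sum.inl qB, s, Dir.left)) :
    ∀ (k : ℕ) (p : ℤ), (∀ j : ℕ, j < k → good (tape (p - j))) →
      Steps B qB tape (p - k) t tape' pos' → Steps B qB tape p (k + t) tape' pos' := by
  intro k
  induction k with
  | zero =>
    intro p _ h
    simpa using h
  | succ k ih =>
    intro p hg h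
    have h0 : good (tape p) := by
      have := hg 0 (by omega)
      simpa using this
    have h1 := hδ _ h0
    have h2 : Steps B qB tape (p - 1) (k + t) tape' pos' := by
      refine ih (p - 1) (fun j hj => ?_) ?_
      · have := hg (j + 1) (by omega)
        have e : p - 1 - (j : ℤ) = p - ((j + 1 : ℕ) : ℤ) := by
          push_cast
          ring
        rw [e]
        exact this
      · have e : p - 1 - (k : ℤ) = p - ((k + 1 : ℕ) : ℤ) := by
          push_cast
          ring
        rw [e]
        exact h
    have h3 := Steps.next (a := tape p) (m := Dir.left) (t := k + t) h1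
      (by
        rw [update_eq_self]
        have : p + Dir.left.shift = p - 1 := by
          simp [Dir.shift]
          ring
        rw [this]
        exact h2)
    convert h3 using 1
    omega

end

end Vale.Agent.Lib.P310V
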