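import Vale.Agent.Lib.P310V.Compile

set_option linter.unusedSectionVars false

namespace Vale.Agent.Lib.P310V

open Function

section Lift

variable {Γ : Type}

/-- Renaming the states of a transition, with the exit kept. -/
def liftE {Q Q' : Type} (f : Q → Q') : (Q ⊕ Unit) × Γ × Dir → (Q' ⊕ Unit) × Γ × Dir
  | (Sum.inl q, a, m) => (Sum.inl (f q), a, m)
  | (Sum.inr u, a, m) => (Sum.inr u, a, m)

/-- Renaming the states of a transition, with the exit sent to a state. -/
def liftC {Q Q' : Type} (f : Q → Q') (q₀ : Q') : (Q ⊕ Unit) × Γ × Dir → (Q' ⊕ Unit) × Γ × Dir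
  | (Sum.inl q, a, m) => (Sum.inl (f q), a, m)
  | (Sum.inr _, a, m) => (Sum.inl q₀, a, m)

lemma embed_exit {B B' : Block Γ} (f : B.Q → B'.Q) (h : ∀ q s, B'.δ (f q) s = liftE f (B.δ q s))
    {q : B.Q} {tape tape' : ℤ → Γ} {pos pos' : ℤ} {t : ℕ}
    (hs : Steps B q tape pos t tape' pos') : Steps B' (f q) tape pos t tape' pos' := by
  induction hs with
  | exit he =>
    refine Steps.exit ?_
    rw [h, he]
    rfl
  | next he _ ih =>
    refine Steps.next ?_ ih
    rw [h, he]
    rfl

lemma embed_cont {B B' : Block Γ} (f : B.Q → B'.Q) (q₀ : B'.Q)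
    (h : ∀ q s, B'.δ (f q) s = liftC f q₀ (B.δ q s))
    {q : B.Q} {tape tape₁ tape₂ : ℤ → Γ} {pos pos₁ pos₂ : ℤ} {t t' : ℕ}
    (hs : Steps B q tape pos t tape₁ pos₁) (hc : Steps B' q₀ tape₁ pos₁ t' tape₂ pos₂) :
    Steps B' (f q) tape pos (t + t') tape₂ pos₂ := by
  induction hs with
  | @exit q₁ _ _ a m he =>
    have := Steps.next (B := B') (q := f q₁) (q' := q₀) (a := a) (m := m)
      (by rw [h, he]; rfl) hc
    rwa [Nat.add_comm] at this
  | @next q₁ q₂ _ _ _ _ a m _ he _ ih =>
    have := Steps.next (B := B') (q := f q₁) (q' := f q₂) (a := a) (m := m)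
      (by rw [h, he]; rfl) (ih hc)
    convert this using 1
    omega

end Lift

section Blocks

variable {m : ℕ} {ΓA : Type}

/-- Increment. -/
def incB (i : ℕ) : Block (TS m ΓA) where
  Q := Bool
  fin := inferInstance
  entry := false
  δ q s := match q with
    | false => if s.ct i then (Sum.inl false, s, Dir.right)
        else if i = 0 ∨ s.ct 0 then (Sum.inl true, s.setCt i true, Dir.stay)
        else (Sum.inl true, s, Dir.stay)
    | true => if s.org then (Sum.inr (), s, Dir.stay) else (Sum.inl true, s, Dir.left)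

/-- Decrement. -/
def decB (i : ℕ) : Block (TS m ΓA) where
  Q := Fin 3
  fin := inferInstance
  entry := 0
  δ q s :=
    if q = 0 then
      (if s.ct i then (Sum.inl 0, s, Dir.right)
        else if s.org then (Sum.inr (), s, Dir.stay) else (Sum.inl 1, s, Dir.left))
    else if q = 1 then (Sum.inl 2, s.setCt i false, Dir.stay)
    else (if s.org then (Sum.inr (), s, Dir.stay) else (Sum.inl 2, s, Dir.left))

/-- Output. -/
def emitB (i : ℕ) (a : ΓA) : Block (TS m ΓA) where
  Q := Bool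
  fin := inferInstance
  entry := false
  δ q s := match q with
    | false => if s.ct i then (Sum.inl false, s, Dir.right)
        else (Sum.inl true, s.setA a, Dir.stay)
    | true => if s.org then (Sum.inr (), s, Dir.stay) else (Sum.inl true, s, Dir.left)

/-- Test of a register. -/
def ifzB (i : ℕ) (B C : Block (TS m ΓA)) : Block (TS m ΓA) where
  Q := Unit ⊕ B.Q ⊕ C.Q
  fin := by
    have := B.fin
    have := C.fin
    infer_instance
  entry := Sum.inl ()
  δ q s := match q with
    | Sum.inl _ => if s.ct i then (Sum.inl (Sum.inr (Sum.inr C.entry)), s, Dir.stay)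
        else (Sum.inl (Sum.inr (Sum.inl B.entry)), s, Dir.stay)
    | Sum.inr (Sum.inl q) => liftE (fun q => Sum.inr (Sum.inl q)) (B.δ q s)
    | Sum.inr (Sum.inr q) => liftE (fun q => Sum.inr (Sum.inr q)) (C.δ q s)

/-- Loop while a register is not zero. -/
def loopB (i : ℕ) (B : Block (TS m ΓA)) : Block (TS m ΓA) where
  Q := Unit ⊕ B.Q
  fin := by
    have := B.fin
    infer_instance
  entry := Sum.inl ()
  δ q s := match q with
    | Sum.inl _ => if s.ct i then (Sum.inl (Sum.inr B.entry), s, Dir.stay)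
        else (Sum.inr (), s, Dir.stay)
    | Sum.inr q => liftC (fun q => Sum.inr q) (Sum.inl ()) (B.δ q s)

/-- The three values of an input cell. -/
def inpV : Option Bool → Fin 3
  | some false => 0
  | some true => 1
  | none => 2

/-- Branch on the input cell given by a register. -/
def readB (i : ℕ) (B₀ B₁ B₂ : Block (TS m ΓA)) : Block (TS m ΓA) where
  Q := Unit ⊕ Fin 3 ⊕ B₀.Q ⊕ B₁.Q ⊕ B₂.Q
  fin := by
    have := B₀.fin
    have := B₁.fin
    have := B₂.fin
    infer_instance
  entry := Sum.inl ()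
  δ q s := match q with
    | Sum.inl _ => if s.ct i then (Sum.inl (Sum.inl ()), s, Dir.right)
        else (Sum.inl (Sum.inr (Sum.inl (inpV s.inp))), s, Dir.stay)
    | Sum.inr (Sum.inl v) =>
        if s.org then
          (if v = 0 then (Sum.inl (Sum.inr (Sum.inr (Sum.inl B₀.entry))), s, Dir.stay)
           else if v = 1 then (Sum.inl (Sum.inr (Sum.inr (Sum.inr (Sum.inl B₁.entry)))), s, Dir.stay)
           else (Sum.inl (Sum.inr (Sum.inr (Sum.inr (Sum.inr B₂.entry)))), s, Dir.stay))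
        else (Sum.inl (Sum.inr (Sum.inl v)), s, Dir.left)
    | Sum.inr (Sum.inr (Sum.inl q)) =>
        liftE (fun q => Sum.inr (Sum.inr (Sum.inl q))) (B₀.δ q s)
    | Sum.inr (Sum.inr (Sum.inr (Sum.inl q))) =>
        liftE (fun q => Sum.inr (Sum.inr (Sum.inr (Sum.inl q)))) (B₁.δ q s)
    | Sum.inr (Sum.inr (Sum.inr (Sum.inr q))) =>
        liftE (fun q => Sum.inr (Sum.inr (Sum.inr (Sum.inr q)))) (B₂.δ q s)

variable (m)

/-- The piece of a Turing machine of a program. -/
def Stmt.block (ιA : Bool → ΓA) : Stmt → Block (TS m ΓA)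
  | Stmt.inc i => incB i
  | Stmt.dec i => decB i
  | Stmt.seq s t => Block.seq (Stmt.block ιA s) (Stmt.block ιA t)
  | Stmt.ifz i s t => ifzB i (Stmt.block ιA s) (Stmt.block ιA t)
  | Stmt.loop i s => loopB i (Stmt.block ιA s)
  | Stmt.read i s0 s1 s2 => readB i (Stmt.block ιA s0) (Stmt.block ιA s1) (Stmt.block ιA s2)
  | Stmt.emit i b => emitB i (ιA b)

variable {m}

section Sim

variable {ιA : Bool → ΓA} {blA : ΓA} {x : ℕ → Option Bool} {V : ℕ}

/-- Walking right along the ones of register `i`. -/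
lemma scan_of {B : Block (TS m ΓA)} {qS : B.Q} {i : ℕ} (hi : i < m) {σ : Mem}
    (hδ : ∀ s : TS m ΓA, s.ct i = true → B.δ qS s = (Sum.inl qS, s, Dir.right))
    {tape' : ℤ → TS m ΓA} {pos' : ℤ} {t : ℕ}
    (h : Steps B qS (tapeOf ιA blA x σ) (σ.r i) t tape' pos') :
    Steps B qS (tapeOf ιA blA x σ) 0 (σ.r i + t) tape' pos' := by
  refine scan_right (good := fun s => s.ct i = true) hδ (σ.r i) 0 (fun j hj => ?_) ?_
  · show (tapeOf ιA blA x σ (0 + (j : ℤ))).ct i = true
    rw [tapeOf_ct hi]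
    simp only [zero_add, decide_eq_true_eq]
    omega
  · simpa using h

/-- Walking left back to cell 0 and then continuing. -/
lemma back_of {B : Block (TS m ΓA)} {qB : B.Q}
    (hδ : ∀ s : TS m ΓA, s.org = false → B.δ qB s = (Sum.inl qB, s, Dir.left)) {σ : Mem} (k : ℕ)
    {tape' : ℤ → TS m ΓA} {pos' : ℤ} {t : ℕ}
    (h : Steps B qB (tapeOf ιA blA x σ) 0 t tape' pos') :
    Steps B qB (tapeOf ιA blA x σ) (k : ℤ) (k + t) tape' pos' := by
  refine scan_left (good := fun s => s.org = false) hδ k (k : ℤ) (fun j hj => ?_) ?_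
  · show (tapeOf ιA blA x σ ((k : ℤ) - (j : ℤ))).org = false
    rw [tapeOf_org]
    simp only [decide_eq_false_iff_not]
    omega
  · simpa using h

/-- Exit at cell 0. -/
lemma exit_of {B : Block (TS m ΓA)} {qB : B.Q}
    (hδ : ∀ s : TS m ΓA, s.org = true → B.δ qB s = (Sum.inr (), s, Dir.stay)) {σ : Mem} :
    Steps B qB (tapeOf ιA blA x σ) 0 1 (tapeOf ιA blA x σ) 0 := by
  have := Steps.exit (B := B) (q := qB) (tape := tapeOf ιA blA x σ) (pos := 0)
    (a := tapeOf ιA blA x σ 0) (m := Dir.stay) (hδ _ (by simp [tapeOf_org]))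
  rw [update_eq_self] at this
  simpa [Dir.shift] using this

/-- A step with the tape unchanged and no move. -/
lemma stay_of {B : Block (TS m ΓA)} {q q' : B.Q} {tape tape' : ℤ → TS m ΓA} {pos pos' : ℤ} {t : ℕ}
    (hδ : B.δ q (tape pos) = (Sum.inl q', tape pos, Dir.stay))
    (h : Steps B q' tape pos t tape' pos') : Steps B q tape pos (t + 1) tape' pos' := by
  refine Steps.next hδ ?_
  rw [update_eq_self]
  simpa [Dir.shift] using h

lemma ct_zero {i : ℕ} (hi : i < m) {σ : Mem} :
    (tapeOf (m := m) ιA blA x σ 0).ct i = decide (σ.r i ≠ 0) := by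
  rw [tapeOf_ct hi]
  simp only [le_refl, true_and, decide_eq_decide]
  omega

lemma ct_end {i : ℕ} (hi : i < m) {σ : Mem} :
    (tapeOf (m := m) ιA blA x σ (σ.r i)).ct i = false := by
  rw [tapeOf_ct hi]
  simp

lemma org_end_ne {k : ℕ} (hk : k ≠ 0) {σ : Mem} :
    (tapeOf (m := m) ιA blA x σ (k : ℤ)).org = false := by
  rw [tapeOf_org]
  simp
  omega

lemma org_zero {σ : Mem} : (tapeOf (m := m) ιA blA x σ 0).org = true := by
  rw [tapeOf_org]
  simp

/-- Setting a register that already holds the value does not change the memory. -/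
lemma Mem.set_same {σ : Mem} {i v : ℕ} (h : σ.r i = v) : σ.set i v = σ := by
  subst h
  unfold Mem.set
  rw [update_eq_self]

/-- Increment. -/
lemma sim_inc {i : ℕ} (hi : i < m) {σ : Mem} :
    ∃ t, t ≤ 2 * σ.r i + 3 ∧ Steps (incB (m := m) (ΓA := ΓA) i) false (tapeOf ιA blA x σ) 0 t
      (tapeOf ιA blA x (σ.set i (σ.incV i))) 0 := by
  by_cases hw : i = 0 ∨ (σ.r i < σ.r 0)
  · refine ⟨σ.r i + (σ.r i + 1 + 1), by omega, ?_⟩
    have hv : σ.incV i = σ.r i + 1 := by
      unfold Mem.incV capS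
      rcases hw with h | h
      · subst h
        simp
      · by_cases h0 : i = 0
        · subst h0
          simp
        · simp [h0, h]
    rw [hv]
    refine scan_of hi (fun s hs => by simp [incB, hs]) ?_
    have h1 := ct_end (ιA := ιA) (blA := blA) (x := x) hi (σ := σ)
    have h2 : i = 0 ∨ (tapeOf (m := m) ιA blA x σ (σ.r i)).ct 0 = true := by
      rcases hw with h | h
      · exact Or.inl h
      · right
        have hm : 0 < m := by omega
        rw [tapeOf_ct hm]
        simp [h]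
    refine Steps.next (q' := true) (a := (tapeOf ιA blA x σ (σ.r i)).setCt i true) (m := Dir.stay)
      (by simp [incB, h1, h2]) ?_
    rw [tapeOf_update (v := σ.r i + 1)]
    · have e : ((σ.r i : ℕ) : ℤ) + Dir.stay.shift = (σ.r i : ℕ) := by simp [Dir.shift]
      rw [e]
      refine back_of (fun s hs => by simp [incB, hs]) _ ?_
      exact exit_of (fun s hs => by simp [incB, hs])
    · intro p hp
      push_cast
      omega
    · push_cast
      simp
  · push Not at hw
    obtain ⟨h0, h3⟩ := hw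
    refine ⟨σ.r i + (σ.r i + 1 + 1), by omega, ?_⟩
    have hv : σ.set i (σ.incV i) = σ := by
      apply Mem.set_same
      unfold Mem.incV capS
      simp [h0]
      omega
    rw [hv]
    refine scan_of hi (fun s hs => by simp [incB, hs]) ?_
    have h1 := ct_end (ιA := ιA) (blA := blA) (x := x) hi (σ := σ)
    have h2 : (tapeOf (m := m) ιA blA x σ (σ.r i)).ct 0 = false := by
      have hm : 0 < m := by omega
      rw [tapeOf_ct hm]
      simp
      omega
    refine stay_of (q' := true) (by simp [incB, h1, h2, h0]) ?_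
    refine back_of (fun s hs => by simp [incB, hs]) _ ?_
    exact exit_of (fun s hs => by simp [incB, hs])

/-- Decrement. -/
lemma sim_dec {i : ℕ} (hi : i < m) {σ : Mem} :
    ∃ t, t ≤ 2 * σ.r i + 3 ∧ Steps (decB (m := m) (ΓA := ΓA) i) (0 : Fin 3) (tapeOf ιA blA x σ) 0 t
      (tapeOf ιA blA x (σ.set i (σ.r i - 1))) 0 := by
  by_cases h0 : σ.r i = 0
  · refine ⟨1, by omega, ?_⟩
    have e : σ.set i (σ.r i - 1) = σ := Mem.set_same (by omega)
    rw [e]
    have h1 := ct_zero (ιA := ιA) (blA := blA) (x := x) hi (σ := σ)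
    rw [h0] at h1
    have h2 := org_zero (m := m) (ιA := ιA) (blA := blA) (x := x) (σ := σ)
    have h3 : (tapeOf (m := m) ιA blA x σ 0).ct i = false := by simpa using h1
    have := Steps.exit (B := decB (m := m) (ΓA := ΓA) i) (q := (0 : Fin 3))
      (tape := tapeOf ιA blA x σ) (pos := 0)
      (a := tapeOf ιA blA x σ 0) (m := Dir.stay) (by simp [decB, h2, h3])
    rw [update_eq_self] at this
    simpa [Dir.shift] using this
  · refine ⟨σ.r i + (1 + (1 + (σ.r i - 1 + 1))), by omega, ?_⟩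
    refine scan_of (B := decB (m := m) (ΓA := ΓA) i) (qS := (0 : Fin 3)) hi
      (fun s hs => by simp [decB, hs]) ?_
    have h1 := ct_end (ιA := ιA) (blA := blA) (x := x) hi (σ := σ)
    have h2 := org_end_ne (m := m) (ιA := ιA) (blA := blA) (x := x) h0 (σ := σ)
    rw [Nat.add_comm 1]
    refine Steps.next (q' := (1 : Fin 3)) (a := tapeOf ιA blA x σ (σ.r i)) (m := Dir.left)
      (by simp [decB, h1, h2]) ?_
    rw [update_eq_self, Nat.add_comm 1]
    have e : ((σ.r i : ℕ) : ℤ) + Dir.left.shift = ((σ.r i - 1 : ℕ) : ℤ) := by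
      simp [Dir.shift]
      omega
    rw [e]
    refine Steps.next (q' := (2 : Fin 3))
      (a := (tapeOf ιA blA x σ ((σ.r i - 1 : ℕ) : ℤ)).setCt i false) (m := Dir.stay)
      (by simp [decB]) ?_
    rw [tapeOf_update (v := σ.r i - 1)]
    · have e2 : ((σ.r i - 1 : ℕ) : ℤ) + Dir.stay.shift = ((σ.r i - 1 : ℕ) : ℤ) := by
        simp [Dir.shift]
      rw [e2]
      refine back_of (fun s hs => by simp [decB, hs]) _ ?_
      exact exit_of (fun s hs => by simp [decB, hs])
    · intro p hp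
      omega
    · simp

/-- Output. -/
lemma sim_emit {i : ℕ} (hi : i < m) {σ : Mem} {b : Bool} (h : σ.r i = σ.out.length) :
    Steps (emitB (m := m) (ΓA := ΓA) i (ιA b)) false (tapeOf ιA blA x σ) 0
      (σ.r i + (σ.r i + 1 + 1)) (tapeOf ιA blA x ⟨σ.r, σ.out ++ [b]⟩) 0 := by
  refine scan_of hi (fun s hs => by simp [emitB, hs]) ?_
  have h1 := ct_end (ιA := ιA) (blA := blA) (x := x) hi (σ := σ)
  refine Steps.next (q' := true) (a := (tapeOf ιA blA x σ (σ.r i)).setA (ιA b)) (m := Dir.stay)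
    (by simp [emitB, h1]) ?_
  rw [h, tapeOf_emit]
  have e : ((σ.out.length : ℕ) : ℤ) + Dir.stay.shift = (σ.out.length : ℕ) := by simp [Dir.shift]
  rw [e]
  refine back_of (fun s hs => by simp [emitB, hs]) _ ?_
  exact exit_of (fun s hs => by simp [emitB, hs])

lemma mul_bound {τ₁ τ₂ T₁ T₂ W : ℕ} (h₁ : T₁ ≤ τ₁ * W) (h₂ : T₂ ≤ τ₂ * W) :
    T₁ + T₂ ≤ (τ₁ + τ₂) * W := by
  rw [Nat.add_mul]
  omega

/-- The simulation of a program by its Turing machine piece. -/
theorem sim_exec {s : Stmt} {σ σ' : Mem} {τ : ℕ} (h : Exec m V x s σ σ' τ) :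
    ∃ T, T ≤ τ * (2 * V + 8) ∧ Steps (Stmt.block m ιA s) (Stmt.block m ιA s).entry
      (tapeOf ιA blA x σ) 0 T (tapeOf ιA blA x σ') 0 := by
  induction h with
  | @inc i σ hi hv =>
    obtain ⟨t, ht, h⟩ := sim_inc (ΓA := ΓA) (ιA := ιA) (blA := blA) (x := x) hi (σ := σ)
    exact ⟨t, by omega, h⟩
  | @dec i σ hi hv =>
    obtain ⟨t, ht, h⟩ := sim_dec (ΓA := ΓA) (ιA := ιA) (blA := blA) (x := x) hi (σ := σ)
    exact ⟨t, by omega, h⟩
  | seq _ _ ih₁ ih₂ =>
    obtain ⟨T₁, h1, s1⟩ := ih₁
    obtain ⟨T₂, h2, s2⟩ := ih₂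
    exact ⟨T₁ + T₂, mul_bound h1 h2, Block.steps_seq s1 s2⟩
  | @ifzT i s t σ σ₁ τ hi h0 _ ih =>
    obtain ⟨T, hT, hs⟩ := ih
    refine ⟨T + 1, ?_, ?_⟩
    · rw [Nat.add_mul]
      omega
    · have hc := ct_zero (ιA := ιA) (blA := blA) (x := x) hi (σ := σ)
      rw [h0] at hc
      have hc' : (tapeOf (m := m) ιA blA x σ 0).ct i = false := by simpa using hc
      refine stay_of (q' := Sum.inr (Sum.inl (Stmt.block m ιA s).entry)) ?_ ?_
      · show (ifzB i (Stmt.block m ιA s) (Stmt.block m ιA t)).δ (Sum.inl ()) _ = _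
        simp [ifzB, hc']
        rfl
      · exact embed_exit (B' := ifzB i (Stmt.block m ιA s) (Stmt.block m ιA t))
          (fun q => Sum.inr (Sum.inl q)) (fun q s => rfl) hs
  | @ifzF i s t σ σ₁ τ hi h0 _ ih =>
    obtain ⟨T, hT, hs⟩ := ih
    refine ⟨T + 1, ?_, ?_⟩
    · rw [Nat.add_mul]
      omega
    · have hc := ct_zero (ιA := ιA) (blA := blA) (x := x) hi (σ := σ)
      have hc' : (tapeOf (m := m) ιA blA x σ 0).ct i = true := by simpa [h0] using hc
      refine stay_of (q' := Sum.inr (Sum.inr (Stmt.block m ιA t).entry)) ?_ ?_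
      · show (ifzB i (Stmt.block m ιA s) (Stmt.block m ιA t)).δ (Sum.inl ()) _ = _
        simp [ifzB, hc']
        rfl
      · exact embed_exit (B' := ifzB i (Stmt.block m ιA s) (Stmt.block m ιA t))
          (fun q => Sum.inr (Sum.inr q)) (fun q s => rfl) hs
  | @loopF i s σ hi h0 =>
    refine ⟨1, by omega, ?_⟩
    have hc := ct_zero (ιA := ιA) (blA := blA) (x := x) hi (σ := σ)
    rw [h0] at hc
    have hc' : (tapeOf (m := m) ιA blA x σ 0).ct i = false := by simpa using hc
    have := Steps.exit (B := loopB i (Stmt.block m ιA s)) (q := Sum.inl ())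
      (tape := tapeOf ιA blA x σ) (pos := 0)
      (a := tapeOf ιA blA x σ 0) (m := Dir.stay) (by simp [loopB, hc'])
    rw [update_eq_self] at this
    have e : (0 : ℤ) + Dir.stay.shift = 0 := by simp [Dir.shift]
    rw [e] at this
    exact this
  | @loopT i s σ σ₁ σ₂ τ₁ τ₂ hi h0 _ _ ih₁ ih₂ =>
    obtain ⟨T₁, h1, s1⟩ := ih₁
    obtain ⟨T₂, h2, s2⟩ := ih₂
    refine ⟨T₁ + T₂ + 1, ?_, ?_⟩
    · rw [Nat.add_mul, Nat.add_mul]
      omega
    · have hc := ct_zero (ιA := ιA) (blA := blA) (x := x) hi (σ := σ)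
      have hc' : (tapeOf (m := m) ιA blA x σ 0).ct i = true := by simpa [h0] using hc
      refine stay_of (q' := Sum.inr (Stmt.block m ιA s).entry) ?_ ?_
      · show (loopB i (Stmt.block m ιA s)).δ (Sum.inl ()) _ = _
        simp [loopB, hc']
        rfl
      · exact embed_cont (B' := loopB i (Stmt.block m ιA s)) (fun q => Sum.inr q) (Sum.inl ())
          (fun q s => rfl) s1 s2
  | @read0 i s0 s1 s2 σ σ₁ τ hi hv hx _ ih =>
    obtain ⟨T, hT, hs⟩ := ih
    refine ⟨σ.r i + (1 + (σ.r i + (T + 1))), ?_, ?_⟩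
    · rw [Nat.add_mul]
      omega
    · refine scan_of hi (fun s hs => by simp [readB, Stmt.block, hs]) ?_
      have h1 := ct_end (ιA := ιA) (blA := blA) (x := x) hi (σ := σ)
      have h2 : (tapeOf (m := m) ιA blA x σ (σ.r i)).inp = some false := by
        rw [tapeOf_inp (by omega)]
        simpa using hx
      rw [Nat.add_comm 1]
      refine stay_of (q' := Sum.inr (Sum.inl 0)) (by simp [readB, Stmt.block, h1, h2, inpV]) ?_
      refine back_of (fun s hs => by simp [readB, Stmt.block, hs]) _ ?_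
      refine stay_of (q' := Sum.inr (Sum.inr (Sum.inl (Stmt.block m ιA s0).entry))) ?_ ?_
      · simp [readB, Stmt.block, org_zero]
      · exact embed_exit (B' := readB i (Stmt.block m ιA s0) (Stmt.block m ιA s1) (Stmt.block m ιA s2))
          (fun q => Sum.inr (Sum.inr (Sum.inl q))) (fun q s => rfl) hs
  | @read1 i s0 s1 s2 σ σ₁ τ hi hv hx _ ih =>
    obtain ⟨T, hT, hs⟩ := ih
    refine ⟨σ.r i + (1 + (σ.r i + (T + 1))), ?_, ?_⟩
    · rw [Nat.add_mul]
      omega
    · refine scan_of hi (fun s hs => by simp [readB, Stmt.block, hs]) ?_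
      have h1 := ct_end (ιA := ιA) (blA := blA) (x := x) hi (σ := σ)
      have h2 : (tapeOf (m := m) ιA blA x σ (σ.r i)).inp = some true := by
        rw [tapeOf_inp (by omega)]
        simpa using hx
      rw [Nat.add_comm 1]
      refine stay_of (q' := Sum.inr (Sum.inl 1)) (by simp [readB, Stmt.block, h1, h2, inpV]) ?_
      refine back_of (fun s hs => by simp [readB, Stmt.block, hs]) _ ?_
      refine stay_of (q' := Sum.inr (Sum.inr (Sum.inr (Sum.inl (Stmt.block m ιA s1).entry)))) ?_ ?_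
      · simp [readB, Stmt.block, org_zero]
      · exact embed_exit (B' := readB i (Stmt.block m ιA s0) (Stmt.block m ιA s1) (Stmt.block m ιA s2))
          (fun q => Sum.inr (Sum.inr (Sum.inr (Sum.inl q)))) (fun q s => rfl) hs
  | @read2 i s0 s1 s2 σ σ₁ τ hi hv hx _ ih =>
    obtain ⟨T, hT, hs⟩ := ih
    refine ⟨σ.r i + (1 + (σ.r i + (T + 1))), ?_, ?_⟩
    · rw [Nat.add_mul]
      omega
    · refine scan_of hi (fun s hs => by simp [readB, Stmt.block, hs]) ?_
      have h1 := ct_end (ιA := ιA) (blA := blA) (x := x) hi (σ := σ)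
      have h2 : (tapeOf (m := m) ιA blA x σ (σ.r i)).inp = none := by
        rw [tapeOf_inp (by omega)]
        simpa using hx
      rw [Nat.add_comm 1]
      refine stay_of (q' := Sum.inr (Sum.inl 2)) (by simp [readB, Stmt.block, h1, h2, inpV]) ?_
      refine back_of (fun s hs => by simp [readB, Stmt.block, hs]) _ ?_
      refine stay_of (q' := Sum.inr (Sum.inr (Sum.inr (Sum.inr (Stmt.block m ιA s2).entry)))) ?_ ?_
      · simp [readB, Stmt.block, org_zero]
      · exact embed_exit (B' := readB i (Stmt.block m ιA s0) (Stmt.block m ιA s1) (Stmt.block m ιA s2))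
          (fun q => Sum.inr (Sum.inr (Sum.inr (Sum.inr q)))) (fun q s => rfl) hs
  | @emit i b σ hi h0 hv =>
    exact ⟨_, by omega, sim_emit hi h0⟩

end Sim

end Blocks

end Vale.Agent.Lib.P310V
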