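import Vale.Agent.Lib.P310V.Enc
import Vale.Agent.Lib.P310V.Compile2

set_option linter.unusedSectionVars false
set_option linter.unusedSimpArgs false

/-!
The diagonal machine: it runs a program on its input, which writes a word on the track of a machine
`A`, and then runs `A` on this word.  When `A` rejects it stops forever.
-/

namespace Vale.Agent.Lib.P310V

open Function

section Diag

variable {QA ΓA : Type} (A : DTM QA ΓA) (ιA : Bool → ΓA) (m : ℕ) (s : Stmt)

/-- The states of the diagonal machine. -/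
abbrev DQ (QA : Type) {ΓA : Type} (ιA : Bool → ΓA) (m : ℕ) (s : Stmt) : Type :=
  Unit ⊕ (Stmt.block m ιA s).Q ⊕ QA

/-- The blank of the diagonal machine. -/
def diagB : TS m ΓA := (fun _ => false, none, false, A.blank)

/-- The input symbols of the diagonal machine. -/
def diagI (b : Bool) : TS m ΓA := (fun _ => false, some b, false, A.blank)

/-- Setting the mark of cell 0. -/
def TS.mark {m : ℕ} {ΓA : Type} (c : TS m ΓA) : TS m ΓA := (c.1, c.2.1, true, c.2.2.2)

open Classical in
/-- The transitions of the diagonal machine. -/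
noncomputable def diagδ : DQ QA ιA m s → TS m ΓA → DQ QA ιA m s × TS m ΓA × Dir
  | Sum.inl _, c => (Sum.inr (Sum.inl (Stmt.block m ιA s).entry), TS.mark c, Dir.stay)
  | Sum.inr (Sum.inl q), c =>
      match (Stmt.block m ιA s).δ q c with
      | (Sum.inl q', a, mv) => (Sum.inr (Sum.inl q'), a, mv)
      | (Sum.inr _, a, mv) => (Sum.inr (Sum.inr A.start), a, mv)
  | Sum.inr (Sum.inr qa), c =>
      if qa = A.rej then (Sum.inr (Sum.inr qa), c, Dir.stay)
      else (Sum.inr (Sum.inr (A.δ qa c.2.2.2).1), c.setA (A.δ qa c.2.2.2).2.1, (A.δ qa c.2.2.2).2.2)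

/-- The diagonal machine. -/
noncomputable def diagM : DTM (DQ QA ιA m s) (TS m ΓA) where
  δ := diagδ A ιA m s
  start := Sum.inl ()
  acc := Sum.inr (Sum.inr A.acc)
  rej := Sum.inr (Sum.inr A.rej)
  blank := diagB A m
  acc_ne_rej := fun h => A.acc_ne_rej (by simpa using h)

/-- The runs of the program part. -/
lemma diag_steps {q : (Stmt.block m ιA s).Q} {tape tape' : ℤ → TS m ΓA} {pos pos' : ℤ} {t : ℕ}
    (h : Steps (Stmt.block m ιA s) q tape pos t tape' pos') :
    ((diagM A ιA m s).step)^[t] ⟨Sum.inr (Sum.inl q), tape, pos⟩ =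
        ⟨Sum.inr (Sum.inr A.start), tape', pos'⟩ ∧
      ∀ t', t' < t → ∃ q', (((diagM A ιA m s).step)^[t'] ⟨Sum.inr (Sum.inl q), tape, pos⟩).st =
        Sum.inr (Sum.inl q') := by
  induction h with
  | @exit q tape pos a mv he =>
    constructor
    · show (diagM A ιA m s).step ⟨Sum.inr (Sum.inl q), tape, pos⟩ = _
      unfold DTM.step
      simp only [diagM, diagδ, he]
    · intro t' ht'
      have : t' = 0 := by omega
      subst this
      exact ⟨q, rfl⟩
  | @next q q' tape tape' pos pos' a mv t he _ ih =>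
    have e : (diagM A ιA m s).step ⟨Sum.inr (Sum.inl q), tape, pos⟩ =
        ⟨Sum.inr (Sum.inl q'), update tape pos a, pos + mv.shift⟩ := by
      unfold DTM.step
      simp only [diagM, diagδ, he]
    constructor
    · rw [iterate_succ_apply, e]
      exact ih.1
    · intro t' ht'
      cases t' with
      | zero => exact ⟨q, rfl⟩
      | succ t' =>
        rw [iterate_succ_apply, e]
        exact ih.2 t' (by omega)

/-- The relation between the configurations of the diagonal machine and of `A`. -/
structure DRel (c : TConf (DQ QA ιA m s) (TS m ΓA)) (ca : TConf QA ΓA) : Prop where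
  st : c.st = Sum.inr (Sum.inr ca.st)
  pos : c.pos = ca.pos
  tape : ∀ p, (c.tape p).2.2.2 = ca.tape p

/-- A step of `A` is simulated. -/
lemma drel_step {c : TConf (DQ QA ιA m s) (TS m ΓA)} {ca : TConf QA ΓA} (h : DRel ιA m s c ca)
    (hr : ca.st ≠ A.rej) : DRel ιA m s ((diagM A ιA m s).step c) (A.step ca) := by
  obtain ⟨cs, ct, cp⟩ := c
  obtain ⟨as, at', ap⟩ := ca
  obtain ⟨h1, h2, h3⟩ := h
  simp only at h1 h2 h3 hr
  subst h1 h2
  unfold DTM.step
  have e : diagδ A ιA m s (Sum.inr (Sum.inr as)) (ct cp) =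
      (Sum.inr (Sum.inr (A.δ as (ct cp).2.2.2).1), (ct cp).setA (A.δ as (ct cp).2.2.2).2.1,
        (A.δ as (ct cp).2.2.2).2.2) := by
    simp only [diagδ, hr, if_false]
  have e2 : (ct cp).2.2.2 = at' cp := h3 cp
  refine ⟨?_, ?_, ?_⟩
  · simp only [diagM, e, e2]
  · simp only [diagM, e, e2]
  · intro p
    simp only [diagM, e, e2]
    by_cases hp : p = cp
    · subst hp
      simp only [update_self]
      rfl
    · simp only [update_of_ne hp]
      exact h3 p

/-- The simulation of `A`. -/
lemma drel_iter {c : TConf (DQ QA ιA m s) (TS m ΓA)} {ca : TConf QA ΓA} (h : DRel ιA m s c ca)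
    (t : ℕ) (hr : ∀ t', t' < t → ((A.step)^[t'] ca).st ≠ A.rej) :
    DRel ιA m s (((diagM A ιA m s).step)^[t] c) ((A.step)^[t] ca) := by
  induction t with
  | zero => exact h
  | succ t ih =>
    rw [iterate_succ_apply', iterate_succ_apply']
    exact drel_step A ιA m s (ih fun t' ht' => hr t' (by omega)) (hr t (by omega))

/-- After a rejection the state stays. -/
lemma diag_frozen {c : TConf (DQ QA ιA m s) (TS m ΓA)} (h : c.st = Sum.inr (Sum.inr A.rej)) (t : ℕ) :
    (((diagM A ιA m s).step)^[t] c).st = Sum.inr (Sum.inr A.rej) := by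
  induction t with
  | zero => exact h
  | succ t ih =>
    rw [iterate_succ_apply']
    show (diagδ A ιA m s _ _).1 = _
    rw [show (((diagM A ιA m s).step)^[t] c).st = _ from ih]
    simp only [diagδ, if_true]

variable {A ιA m s}
variable {x : ℕ → Option Bool} {n : ℕ}

/-- The initial tape of the diagonal machine. -/
lemma diag_init_step {X : Fin n → Bool} (hx1 : ∀ i : Fin n, x i.val = some (X i))
    (hx2 : ∀ p, n ≤ p → x p = none) :
    (diagM A ιA m s).step ((diagM A ιA m s).init fun i : Fin n => diagI A m (X i)) =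
      ⟨Sum.inr (Sum.inl (Stmt.block m ιA s).entry), tapeOf ιA A.blank x mem0, 0⟩ := by
  unfold DTM.step DTM.init
  simp only [diagM, diagδ]
  have hpos : (0 : ℤ) + Dir.stay.shift = 0 := by simp [Dir.shift]
  rw [hpos]
  congr 1
  funext p
  unfold tapeOf outAt
  by_cases hp0 : p = 0
  · subst hp0
    simp only [update_self]
    by_cases hn : 0 < n
    · have h := hx1 ⟨0, hn⟩
      simp only at h
      have e : (0 : ℤ) ≤ 0 ∧ (0 : ℤ) < n := ⟨le_rfl, by omega⟩
      simp only [e, and_self, dif_pos, TS.mark, diagI, mem0]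
      simp [h]
    · have h := hx2 0 (by omega)
      have e : ¬ ((0 : ℤ) ≤ 0 ∧ (0 : ℤ) < n) := by omega
      simp only [e, dif_neg, not_false_eq_true, TS.mark, diagB, mem0]
      simp [h]
  · rw [update_of_ne hp0]
    by_cases hp : 0 ≤ p ∧ p < n
    · rw [dif_pos hp]
      have h := hx1 ⟨p.toNat, by omega⟩
      simp only at h
      simp [diagI, mem0, hp.1, hp0, h, not_lt.mpr hp.1]
    · rw [dif_neg hp]
      by_cases hp1 : 0 ≤ p
      · have h := hx2 p.toNat (by omega)
        simp [diagB, mem0, hp1, hp0, h, not_lt.mpr hp1]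
      · simp [diagB, mem0, hp1, hp0]

/-- The configuration before the run of `A`. -/
lemma drel_init {σf : Mem} :
    DRel ιA m s ⟨Sum.inr (Sum.inr A.start), tapeOf ιA A.blank x σf, 0⟩
      (A.init fun i : Fin σf.out.length => ιA (σf.out.get i)) := by
  refine ⟨rfl, rfl, fun p => rfl⟩

variable {X : Fin n → Bool} {σf : Mem} {T t : ℕ}

/-- The diagonal machine accepts when `A` accepts. -/
theorem diag_accept (hx1 : ∀ i : Fin n, x i.val = some (X i)) (hx2 : ∀ p, n ≤ p → x p = none)
    (hS : Steps (Stmt.block m ιA s) (Stmt.block m ιA s).entry (tapeOf ιA A.blank x mem0) 0 T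
      (tapeOf ιA A.blank x σf) 0)
    (hA : A.HaltsAt ιA σf.out t true) :
    ((diagM A ιA m s).run (fun i : Fin n => diagI A m (X i)) (t + T + 1)).st =
      (diagM A ιA m s).acc := by
  have h1 := (diag_steps A ιA m s hS).1
  have e : (diagM A ιA m s).run (fun i : Fin n => diagI A m (X i)) (t + T + 1) =
      ((diagM A ιA m s).step)^[t] ⟨Sum.inr (Sum.inr A.start), tapeOf ιA A.blank x σf, 0⟩ := by
    unfold DTM.run
    rw [iterate_add_apply, iterate_add_apply]
    show _ = _
    congr 1
    rw [← h1, ← diag_init_step hx1 hx2]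
    rfl
  rw [e]
  have h2 := drel_iter A ιA m s (drel_init (A := A) (ιA := ιA) (m := m) (s := s) (x := x) (σf := σf)) t
    (fun t' ht' => (hA.2 t' ht').2)
  rw [h2.st]
  have h3 := hA.1
  simp only [if_true] at h3
  show _ = Sum.inr (Sum.inr A.acc)
  rw [← h3]
  rfl

/-- The diagonal machine never accepts when `A` rejects. -/
theorem diag_reject (hx1 : ∀ i : Fin n, x i.val = some (X i)) (hx2 : ∀ p, n ≤ p → x p = none)
    (hS : Steps (Stmt.block m ιA s) (Stmt.block m ιA s).entry (tapeOf ιA A.blank x mem0) 0 T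
      (tapeOf ιA A.blank x σf) 0)
    (hA : A.HaltsAt ιA σf.out t false) (t' : ℕ) :
    ((diagM A ιA m s).run (fun i : Fin n => diagI A m (X i)) t').st ≠ (diagM A ιA m s).acc := by
  have h1 := diag_steps A ιA m s hS
  have hacc : (diagM A ιA m s).acc = Sum.inr (Sum.inr A.acc) := rfl
  rw [hacc]
  have e0 : (diagM A ιA m s).run (fun i : Fin n => diagI A m (X i)) 1 =
      ⟨Sum.inr (Sum.inl (Stmt.block m ιA s).entry), tapeOf ιA A.blank x mem0, 0⟩ :=
    diag_init_step hx1 hx2
  have hrun : ∀ a, (diagM A ιA m s).run (fun i : Fin n => diagI A m (X i)) (a + 1) =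
      ((diagM A ιA m s).step)^[a]
        ⟨Sum.inr (Sum.inl (Stmt.block m ιA s).entry), tapeOf ιA A.blank x mem0, 0⟩ := by
    intro a
    unfold DTM.run
    rw [iterate_add_apply]
    congr 1
  cases t' with
  | zero =>
    intro h
    cases h
  | succ a =>
    rw [hrun]
    by_cases ha : a < T
    · obtain ⟨q', hq'⟩ := h1.2 a ha
      rw [hq']
      intro h
      cases h
    · obtain ⟨j, rfl⟩ : ∃ j, a = j + T := ⟨a - T, by omega⟩
      rw [iterate_add_apply, h1.1]
      have hdrel : ∀ j', j' ≤ t → DRel ιA m s (((diagM A ιA m s).step)^[j']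
          ⟨Sum.inr (Sum.inr A.start), tapeOf ιA A.blank x σf, 0⟩)
          ((A.step)^[j'] (A.init fun i : Fin σf.out.length => ιA (σf.out.get i))) := by
        intro j' hj'
        exact drel_iter A ιA m s (drel_init (A := A) (ιA := ιA) (m := m) (s := s) (x := x) (σf := σf)) j'
          (fun t'' ht'' => (hA.2 t'' (by omega)).2)
      have hrej := hA.1
      simp only [Bool.false_eq_true, if_false] at hrej
      by_cases hj : j ≤ t
      · have h2 := hdrel j hj
        rw [h2.st]
        intro h
        have h3 : ((A.step)^[j] (A.init fun i : Fin σf.out.length => ιA (σf.out.get i))).st = A.acc := by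
          simpa using h
        rcases Nat.lt_or_ge j t with h4 | h4
        · exact (hA.2 j h4).1 h3
        · have h5 : j = t := by omega
          subst h5
          exact A.acc_ne_rej (h3.symm.trans hrej)
      · obtain ⟨i, rfl⟩ : ∃ i, j = i + t := ⟨j - t, by omega⟩
        rw [iterate_add_apply]
        have h2 := hdrel t le_rfl
        have h3 := diag_frozen A ιA m s (c := ((diagM A ιA m s).step)^[t]
          ⟨Sum.inr (Sum.inr A.start), tapeOf ιA A.blank x σf, 0⟩)
          (by
            rw [h2.st]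
            exact congrArg (fun q => Sum.inr (Sum.inr q)) hrej) i
        rw [h3]
        intro h
        exact A.acc_ne_rej (by simpa using h.symm)

end Diag

end Vale.Agent.Lib.P310V
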