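import Vale.Agent.Lib.P310V.WLBasic

set_option linter.unusedSectionVars false

namespace Vale.Agent.Lib.P310V

open Finset

lemma zmod2_add_add_self (a b : ZMod 2) : a + b + b = a := by
  revert a b
  decide

lemma zmod2_add_self (a : ZMod 2) : a + a = 0 := by
  revert a
  decide

section

variable {BV Pr : Type} [Fintype BV] [DecidableEq BV] [Fintype Pr] [DecidableEq Pr]
variable (B : SimpleGraph BV) [DecidableRel B.Adj] (Fr : Pr → Finset (Sym2 BV)) [PendData B Fr]

/-- Translate a node by an edge function. -/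
def trN (f : Sym2 BV → ZMod 2) (u : Node B Fr) : Node B Fr :=
  ⟨u.1, fun e => u.2 e + f e.1⟩

/-- Translate an ambient vertex by an edge function. -/
def trA (f : Sym2 BV → ZMod 2) (a : Node B Fr × Fin (pendMax B Fr + 1)) :
    Node B Fr × Fin (pendMax B Fr + 1) :=
  (trN B Fr f a.1, a.2)

/-- The boundary of an edge function. -/
def bd (f : Sym2 BV → ZMod 2) (v : BV) : ZMod 2 :=
  ∑ u ∈ B.neighborFinset v, f s(v, u)

@[simp] lemma trN_fst (f : Sym2 BV → ZMod 2) (u : Node B Fr) : (trN B Fr f u).1 = u.1 := rfl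

@[simp] lemma trA_fst_fst (f : Sym2 BV → ZMod 2) (a : Node B Fr × Fin (pendMax B Fr + 1)) :
    (trA B Fr f a).1.1 = a.1.1 := rfl

@[simp] lemma trA_snd (f : Sym2 BV → ZMod 2) (a : Node B Fr × Fin (pendMax B Fr + 1)) :
    (trA B Fr f a).2 = a.2 := rfl

lemma trN_trN (f : Sym2 BV → ZMod 2) (u : Node B Fr) : trN B Fr f (trN B Fr f u) = u := by
  obtain ⟨c, σ⟩ := u
  unfold trN
  simp only [Sigma.mk.injEq, heq_eq_eq, true_and]
  funext e
  exact zmod2_add_add_self _ _

lemma trA_trA (f : Sym2 BV → ZMod 2) (a : Node B Fr × Fin (pendMax B Fr + 1)) :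
    trA B Fr f (trA B Fr f a) = a := by
  unfold trA
  rw [trN_trN]

lemma nodeAdj_trN (f : Sym2 BV → ZMod 2) (u u' : Node B Fr) :
    nodeAdj B Fr (trN B Fr f u) (trN B Fr f u') ↔ nodeAdj B Fr u u' := by
  unfold nodeAdj
  simp only [trN_fst]
  constructor
  · rintro ⟨h1, h2, h3⟩
    refine ⟨h1, h2, fun e he he' => ?_⟩
    have := h3 e he he'
    simp only [trN] at this
    exact add_right_cancel this
  · rintro ⟨h1, h2, h3⟩
    refine ⟨h1, h2, fun e he he' => ?_⟩
    simp only [trN]
    rw [h3 e he he']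

lemma trN_injective (f : Sym2 BV → ZMod 2) : Function.Injective (trN B Fr f) := by
  intro u u' h
  have := congrArg (trN B Fr f) h
  rwa [trN_trN, trN_trN] at this

lemma trA_injective (f : Sym2 BV → ZMod 2) : Function.Injective (trA B Fr f) := by
  intro u u' h
  have := congrArg (trA B Fr f) h
  rwa [trA_trA, trA_trA] at this

lemma amb_adj_trA (f : Sym2 BV → ZMod 2) (a b : Node B Fr × Fin (pendMax B Fr + 1)) :
    (ambGraph B Fr).Adj (trA B Fr f a) (trA B Fr f b) ↔ (ambGraph B Fr).Adj a b := by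
  change ((trA B Fr f a).2.val = 0 ∧ (trA B Fr f b).2.val = 0 ∧
      nodeAdj B Fr (trA B Fr f a).1 (trA B Fr f b).1) ∨
      ((trA B Fr f a).1 = (trA B Fr f b).1 ∧
        (((trA B Fr f a).2.val = 0 ∧ (trA B Fr f b).2.val ≠ 0) ∨
          ((trA B Fr f a).2.val ≠ 0 ∧ (trA B Fr f b).2.val = 0))) ↔
    (a.2.val = 0 ∧ b.2.val = 0 ∧ nodeAdj B Fr a.1 b.1) ∨
      (a.1 = b.1 ∧ ((a.2.val = 0 ∧ b.2.val ≠ 0) ∨ (a.2.val ≠ 0 ∧ b.2.val = 0)))
  simp only [trA_snd]
  have h1 : nodeAdj B Fr (trA B Fr f a).1 (trA B Fr f b).1 ↔ nodeAdj B Fr a.1 b.1 :=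
    nodeAdj_trN B Fr f _ _
  have h2 : (trA B Fr f a).1 = (trA B Fr f b).1 ↔ a.1 = b.1 :=
    (trN_injective B Fr f).eq_iff
  rw [h1, h2]

/-- A sum over the edges of the class of a base vertex is a sum over its neighbors. -/
lemma sum_edges_inl (v : BV) (F : Sym2 BV → ZMod 2) :
    ∑ e : ↥(edgesOf B Fr (Sum.inl v)), F e.1 = ∑ u ∈ B.neighborFinset v, F s(v, u) := by
  rw [Finset.sum_coe_sort (edgesOf B Fr (Sum.inl v)) F]
  change ∑ e ∈ (B.neighborFinset v).image (fun u => s(v, u)), F e = _
  rw [Finset.sum_image]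
  intro u _ u' _ h
  exact Sym2.congr_right.mp h

lemma parity_trN (t t' : BV → ZMod 2) (f : Sym2 BV → ZMod 2) (u : Node B Fr)
    (h : ∀ v, u.1 = Sum.inl v → t' v = t v + bd B f v) (hu : parityOK B Fr t u) :
    parityOK B Fr t' (trN B Fr f u) := by
  obtain ⟨c, σ⟩ := u
  cases c with
  | inr p => trivial
  | inl v =>
    have hv := h v rfl
    change ∑ e, (σ e + f e.1) = t' v
    rw [Finset.sum_add_distrib, sum_edges_inl B Fr v f, hv]
    have hu' : ∑ e, σ e = t v := hu
    rw [hu']
    rfl

variable {B Fr}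

/-- The classes of the entries of a tuple. -/
def clsT {d : ℕ} {t : BV → ZMod 2} (x : Fin d → VT B Fr t) : Finset (BV ⊕ Pr) :=
  univ.image fun j => (x j).1.1.1

lemma clsT_card_le {d : ℕ} {t : BV → ZMod 2} (x : Fin d → VT B Fr t) : (clsT x).card ≤ d := by
  unfold clsT
  refine Finset.card_image_le.trans ?_
  simp

lemma mem_clsT {d : ℕ} {t : BV → ZMod 2} (x : Fin d → VT B Fr t) (j : Fin d) :
    (x j).1.1.1 ∈ clsT x := by
  unfold clsT
  exact mem_image_of_mem _ (mem_univ j)

lemma clsT_update_subset {d : ℕ} {t : BV → ZMod 2} (x : Fin d → VT B Fr t) (i : Fin d)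
    (a : VT B Fr t) : clsT (Function.update x i a) ⊆ insert a.1.1.1 (clsT x) := by
  intro c hc
  unfold clsT at hc
  obtain ⟨j, -, rfl⟩ := mem_image.mp hc
  by_cases hj : j = i
  · subst hj
    simp
  · rw [Function.update_of_ne hj]
    exact mem_insert_of_mem (mem_clsT x j)

variable (Safe : Finset (BV ⊕ Pr) → BV → Prop)

/-- The Duplicator invariant: `y` is the translate of `x` by `f`, the boundary of `f` accounts for
the difference of the parity functions except at the robber `w`, and the robber is safe against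
the classes of `x`. -/
def DInv {d : ℕ} (t t' : BV → ZMod 2) (x : Fin d → VT B Fr t) (y : Fin d → VT B Fr t')
    (f : Sym2 BV → ZMod 2) (w : BV) : Prop :=
  (∀ j, (y j).1 = trA B Fr f (x j).1) ∧
    (∀ v, t' v = t v + bd B f v + if v = w then 1 else 0) ∧ Safe (clsT x) w

lemma bd_add (f g : Sym2 BV → ZMod 2) (v : BV) :
    bd B (fun e => f e + g e) v = bd B f v + bd B g v := by
  unfold bd
  rw [Finset.sum_add_distrib]

/-- The translation argument: the Duplicator keeps colors equal. -/
theorem dup_main {d : ℕ} (t t' : BV → ZMod 2)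
    (hS1 : ∀ X w, Safe X w → Sum.inl w ∉ X)
    (hS2 : ∀ X X' w, X' ⊆ X → Safe X w → Safe X' w)
    (hS3 : ∀ X w, Safe X w → X.card ≤ d → ∀ c, ∃ (w' : BV) (g : Sym2 BV → ZMod 2),
      Safe (insert c X) w' ∧
      (∀ v, bd B g v = (if v = w then 1 else 0) + (if v = w' then 1 else 0)) ∧
      ∀ c' ∈ X, ∀ e ∈ edgesOf B Fr c', g e = 0) :
    ∀ (r : ℕ) (x : Fin d → VT B Fr t) (y : Fin d → VT B Fr t') (f : Sym2 BV → ZMod 2) (w : BV),
      DInv Safe t t' x y f w → wlColor (vtGraph B Fr t) r x = wlColor (vtGraph B Fr t') r y := by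
  intro r
  induction r with
  | zero =>
    rintro x y f w ⟨h1, -, -⟩
    funext i j
    change (x i = x j, (ambGraph B Fr).Adj (x i).1 (x j).1) =
      (y i = y j, (ambGraph B Fr).Adj (y i).1 (y j).1)
    rw [h1 i, h1 j, amb_adj_trA, Prod.mk.injEq]
    refine ⟨propext ?_, rfl⟩
    constructor
    · intro h
      apply Subtype.ext
      rw [h1 i, h1 j, h]
    · intro h
      apply Subtype.ext
      have := congrArg Subtype.val h
      rw [h1 i, h1 j] at this
      exact trA_injective B Fr f this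
  | succ r ih =>
    rintro x y f w hI
    refine wlColor_succ_eq_iff.mpr ⟨ih x y f w hI, ?_⟩
    obtain ⟨h1, h2, h3⟩ := hI
    have hS3' := hS3 _ _ h3 (clsT_card_le x)
    choose wc gc hsafe hbd hvan using hS3'
    -- translations for each class
    have hpar : ∀ c v, c = Sum.inl v → t' v = t v + bd B (fun e => f e + gc c e) v := by
      intro c v hc
      rw [bd_add, h2 v, hbd c v]
      have hne : v ≠ wc c := by
        intro hv
        have := hS1 _ _ (hsafe c)
        apply this
        rw [← hv, ← hc]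
        exact mem_insert_self _ _
      rw [if_neg hne, add_zero, add_assoc]
    have hpar' : ∀ c v, c = Sum.inl v → t v = t' v + bd B (fun e => f e + gc c e) v := by
      intro c v hc
      rw [hpar c v hc, zmod2_add_add_self]
    have okF : ∀ a : VT B Fr t,
        vtOK B Fr t' (trA B Fr (fun e => f e + gc a.1.1.1 e) a.1) := by
      intro a
      refine ⟨parity_trN B Fr t t' _ _ (fun v hv => hpar _ v hv) a.2.1, a.2.2⟩
    have okB : ∀ b : VT B Fr t',
        vtOK B Fr t (trA B Fr (fun e => f e + gc b.1.1.1 e) b.1) := by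
      intro b
      refine ⟨parity_trN B Fr t' t _ _ (fun v hv => hpar' _ v hv) b.2.1, b.2.2⟩
    let π : VT B Fr t ≃ VT B Fr t' :=
      { toFun := fun a => ⟨trA B Fr (fun e => f e + gc a.1.1.1 e) a.1, okF a⟩
        invFun := fun b => ⟨trA B Fr (fun e => f e + gc b.1.1.1 e) b.1, okB b⟩
        left_inv := by
          intro a
          apply Subtype.ext
          exact trA_trA B Fr _ a.1
        right_inv := by
          intro b
          apply Subtype.ext
          exact trA_trA B Fr _ b.1 }
    refine ⟨π, fun a i => ?_⟩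
    refine ih (Function.update x i a) (Function.update y i (π a))
      (fun e => f e + gc a.1.1.1 e) (wc a.1.1.1) ⟨?_, ?_, ?_⟩
    · intro j
      by_cases hj : j = i
      · subst hj
        simp only [Function.update_self]
        rfl
      · simp only [Function.update_of_ne hj]
        rw [h1 j]
        have hv := hvan a.1.1.1 _ (mem_clsT x j)
        unfold trA trN
        congr 2
        funext e
        change _ + f e.1 = _ + (f e.1 + gc a.1.1.1 e.1)
        rw [hv e.1 e.2, add_zero]
    · intro v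
      rw [bd_add, h2 v, hbd a.1.1.1 v]
      generalize (if v = w then (1 : ZMod 2) else 0) = A
      generalize (if v = wc a.1.1.1 then (1 : ZMod 2) else 0) = C
      generalize t v = T
      generalize bd B f v = F
      revert A C T F
      decide
    · exact hS2 _ _ _ (clsT_update_subset x i a) (hsafe _)

end

end Vale.Agent.Lib.P310V
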