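import Vale.Agent.Lib.P310V.Lang

set_option linter.unusedSectionVars false
set_option linter.unusedSimpArgs false

/-!
A library of functions in the expression language with their values.
-/

namespace Vale.Agent.Lib.P310V

namespace E

/-- Calls with fewer arguments. -/
abbrev c1 (g a : E) : E := call g a zero zero zero zero zero
abbrev c2 (g a b : E) : E := call g a b zero zero zero zero
abbrev c3 (g a b c : E) : E := call g a b c zero zero zero
abbrev c4 (g a b c d : E) : E := call g a b c d zero zero
abbrev c5 (g a b c d e : E) : E := call g a b c d e zero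

/-- The number one. -/
def one : E := succ zero

/-- Small numbers. -/
def lit : ℕ → E
  | 0 => zero
  | k + 1 => succ (lit k)

/-- Negation and test for zero. -/
def isZ (a : E) : E := ite a zero one

/-- Conjunction. -/
def and (a b : E) : E := ite a (ite b one zero) zero

/-- Disjunction. -/
def or (a b : E) : E := ite a one (ite b one zero)

/-- Implication. -/
def imp (a b : E) : E := ite a (ite b one zero) one

/-- Addition, capped. -/
def add (a b : E) : E := c2 (fold (var 1) (var 0) (succ (var 0))) a b

/-- Truncated subtraction. -/
def sub (a b : E) : E := c2 (fold (var 1) (var 0) (pred (var 0))) a b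

/-- Multiplication, capped. -/
def mul (a b : E) : E := c2 (fold (var 1) zero (add (var 0) (var 2))) a b

/-- Comparison. -/
def le (a b : E) : E := isZ (sub a b)

/-- Strict comparison. -/
def lt (a b : E) : E := isZ (le b a)

/-- Equality. -/
def eq (a b : E) : E := and (le a b) (le b a)

/-- Disequality. -/
def ne (a b : E) : E := isZ (eq a b)

/-- Remainder. -/
def mod (a b : E) : E :=
  c2 (fold (var 0) zero (ite (eq (succ (var 0)) (var 3)) zero (succ (var 0)))) a b

/-- Quotient. -/
def div (a b : E) : E :=
  c2 (fold (var 0) zero (ite (eq (mod (succ (var 1)) (var 3)) zero) (succ (var 0)) (var 0))) a b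

/-- Iterated division. -/
def shr (a k d : E) : E := c3 (fold (var 1) (var 0) (div (var 0) (var 4))) a k d

/-- Existential quantifier over a number below `n`: the first slot of the frame of `p` is the bound
variable. -/
def ex (n p a b c d : E) : E :=
  c5 (fold (var 0) zero (or (var 0) (call p (var 1) (var 3) (var 4) (var 5) (var 6) zero))) n a b c d

/-- Universal quantifier over a number below `n`. -/
def all (n p a b c d : E) : E :=
  c5 (fold (var 0) one (and (var 0) (call p (var 1) (var 3) (var 4) (var 5) (var 6) zero))) n a b c d

/-- The number of numbers below `n` with a property. -/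
def count (n p a b c d : E) : E :=
  c5 (fold (var 0) zero (ite (call p (var 1) (var 3) (var 4) (var 5) (var 6) zero)
    (succ (var 0)) (var 0))) n a b c d

end E

open E

/-- An expression is true. -/
def Tr (C : Cx) (e : E) (env : ℕ → ℕ) : Prop := eval C e env ≠ 0

instance (C : Cx) (e : E) (env : ℕ → ℕ) : Decidable (Tr C e env) :=
  inferInstanceAs (Decidable (eval C e env ≠ 0))

/-- A parameter value. -/
def Cx.p (C : Cx) (i : ℕ) : ℕ := min (C.Pi i) C.W

section Frames

variable {a0 a1 a2 a3 a4 a5 : ℕ}

@[simp] lemma frame_0 : frame a0 a1 a2 a3 a4 a5 0 = a0 := rfl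
@[simp] lemma frame_1 : frame a0 a1 a2 a3 a4 a5 1 = a1 := rfl
@[simp] lemma frame_2 : frame a0 a1 a2 a3 a4 a5 2 = a2 := rfl
@[simp] lemma frame_3 : frame a0 a1 a2 a3 a4 a5 3 = a3 := rfl
@[simp] lemma frame_4 : frame a0 a1 a2 a3 a4 a5 4 = a4 := rfl
@[simp] lemma frame_5 : frame a0 a1 a2 a3 a4 a5 5 = a5 := rfl

@[simp] lemma push2_0 {a i : ℕ} {env : ℕ → ℕ} : push2 a i env 0 = a := rfl
@[simp] lemma push2_1 {a i : ℕ} {env : ℕ → ℕ} : push2 a i env 1 = i := rfl
@[simp] lemma push2_2 {a i : ℕ} {env : ℕ → ℕ} : push2 a i env 2 = env 0 := rfl
@[simp] lemma push2_3 {a i : ℕ} {env : ℕ → ℕ} : push2 a i env 3 = env 1 := rfl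
@[simp] lemma push2_4 {a i : ℕ} {env : ℕ → ℕ} : push2 a i env 4 = env 2 := rfl
@[simp] lemma push2_5 {a i : ℕ} {env : ℕ → ℕ} : push2 a i env 5 = env 3 := rfl
@[simp] lemma push2_6 {a i : ℕ} {env : ℕ → ℕ} : push2 a i env 6 = env 4 := rfl
@[simp] lemma push2_7 {a i : ℕ} {env : ℕ → ℕ} : push2 a i env 7 = env 5 := rfl

end Frames

/-- Iteration with a closed form. -/
lemma iter_of {f : ℕ → ℕ → ℕ} {z : ℕ} {F : ℕ → ℕ} {k : ℕ} (h0 : z = F 0)
    (hs : ∀ i, i < k → f i (F i) = F (i + 1)) : iter f z k = F k := by
  induction k with
  | zero => exact h0
  | succ k ih =>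
    show f k (iter f z k) = F (k + 1)
    rw [ih fun i hi => hs i (by omega)]
    exact hs k (by omega)

lemma iter_succ (f : ℕ → ℕ → ℕ) (z i : ℕ) : iter f z (i + 1) = f i (iter f z i) := rfl

section Eval

variable (C : Cx) (env : ℕ → ℕ)

@[simp] lemma eval_var (i : ℕ) : eval C (var i) env = min (env i) C.W := rfl
@[simp] lemma eval_par (i : ℕ) : eval C (par i) env = C.p i := rfl
@[simp] lemma eval_zero : eval C zero env = 0 := rfl
@[simp] lemma eval_succ (a : E) : eval C (succ a) env = capS C.W (eval C a env) := rfl
@[simp] lemma eval_pred (a : E) : eval C (pred a) env = eval C a env - 1 := rfl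
@[simp] lemma eval_ite (c a b : E) : eval C (ite c a b) env =
    if eval C c env ≠ 0 then eval C a env else eval C b env := rfl
@[simp] lemma eval_call (g a0 a1 a2 a3 a4 a5 : E) : eval C (call g a0 a1 a2 a3 a4 a5) env =
    eval C g (frame (eval C a0 env) (eval C a1 env) (eval C a2 env) (eval C a3 env)
        (eval C a4 env) (eval C a5 env)) := rfl
lemma eval_fold (n z s : E) : eval C (fold n z s) env =
    iter (fun i acc => eval C s (push2 acc i env)) (eval C z env) (eval C n env) := rfl

@[simp] lemma min_eval (e : E) (env : ℕ → ℕ) : min (eval C e env) C.W = eval C e env :=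
  min_eq_left (eval_le C e env)

@[simp] lemma eval_le_W (e : E) (env : ℕ → ℕ) : eval C e env ≤ C.W := eval_le C e env

lemma Cx.p_le (i : ℕ) : C.p i ≤ C.W := min_le_right _ _

@[simp] lemma min_p (i : ℕ) : min (C.p i) C.W = C.p i := min_eq_left (C.p_le i)

lemma capS_of_lt {W a : ℕ} (h : a < W) : capS W a = a + 1 := by
  unfold capS
  rw [if_pos h]

@[simp] lemma eval_one : eval C one env = 1 := by
  have := C.hW
  simp only [one, eval_succ, eval_zero]
  exact capS_of_lt (by omega)

lemma eval_lit {k : ℕ} (h : k ≤ C.W) : eval C (lit k) env = k := by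
  induction k with
  | zero => rfl
  | succ k ih =>
    simp only [lit, eval_succ]
    rw [ih (by omega)]
    exact capS_of_lt (by omega)

@[simp] lemma tr_isZ (a : E) : eval C (isZ a) env = if eval C a env = 0 then 1 else 0 := by
  simp only [isZ, eval_ite, eval_one, eval_zero, ne_eq]
  by_cases h : eval C a env = 0 <;> simp [h]

@[simp] lemma eval_and (a b : E) : eval C (E.and a b) env =
    if eval C a env ≠ 0 ∧ eval C b env ≠ 0 then 1 else 0 := by
  simp only [E.and, eval_ite, eval_one, eval_zero, ne_eq]
  by_cases h : eval C a env = 0 <;> by_cases h' : eval C b env = 0 <;> simp [h, h']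

@[simp] lemma eval_or (a b : E) : eval C (E.or a b) env =
    if eval C a env ≠ 0 ∨ eval C b env ≠ 0 then 1 else 0 := by
  simp only [E.or, eval_ite, eval_one, eval_zero, ne_eq]
  by_cases h : eval C a env = 0 <;> by_cases h' : eval C b env = 0 <;> simp [h, h']

@[simp] lemma eval_imp (a b : E) : eval C (E.imp a b) env =
    if eval C a env ≠ 0 → eval C b env ≠ 0 then 1 else 0 := by
  simp only [E.imp, eval_ite, eval_one, eval_zero, ne_eq]
  by_cases h : eval C a env = 0 <;> by_cases h' : eval C b env = 0 <;> simp [h, h']

@[simp] lemma eval_add (a b : E) : eval C (add a b) env =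
    min (eval C a env + eval C b env) C.W := by
  simp only [add, c2, eval_call, eval_zero]
  rw [eval_fold]
  simp only [eval_var, frame_0, frame_1, min_eval, eval_succ, push2_0]
  refine iter_of (F := fun i => min (eval C a env + i) C.W) ?_ ?_
  · simp
  · intro i _
    have := eval_le C a env
    simp only [min_le_iff, le_refl, or_true, min_eq_left]
    unfold capS
    split_ifs <;> omega

@[simp] lemma eval_sub (a b : E) : eval C (sub a b) env = eval C a env - eval C b env := by
  simp only [sub, c2, eval_call, eval_zero]
  rw [eval_fold]
  simp only [eval_var, frame_0, frame_1, min_eval, eval_pred, push2_0]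
  refine iter_of (F := fun i => eval C a env - i) ?_ ?_
  · simp
  · intro i _
    have := eval_le C a env
    have e : min (eval C a env - i) C.W = eval C a env - i := min_eq_left (by omega)
    simp only [e]
    omega

@[simp] lemma eval_mul (a b : E) : eval C (mul a b) env =
    min (eval C a env * eval C b env) C.W := by
  simp only [mul, c2, eval_call, eval_zero]
  rw [eval_fold]
  simp only [eval_var, frame_0, frame_1, min_eval, eval_add, push2_0, push2_2]
  refine iter_of (F := fun i => min (eval C a env * i) C.W) ?_ ?_
  · simp
  · intro i _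
    have := eval_le C a env
    simp only [min_le_iff, le_refl, or_true, min_eq_left]
    rw [Nat.mul_succ]
    omega

@[simp] lemma eval_le' (a b : E) : eval C (E.le a b) env =
    if eval C a env ≤ eval C b env then 1 else 0 := by
  simp only [E.le, tr_isZ, eval_sub]
  by_cases h : eval C a env ≤ eval C b env
  · simp [h, Nat.sub_eq_zero_of_le h]
  · have : eval C a env - eval C b env ≠ 0 := by omega
    simp [h, this]

@[simp] lemma eval_lt (a b : E) : eval C (E.lt a b) env =
    if eval C a env < eval C b env then 1 else 0 := by
  simp only [E.lt, tr_isZ, eval_le']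
  by_cases h : eval C a env < eval C b env
  · have : ¬ eval C b env ≤ eval C a env := by omega
    simp [h, this]
  · have : eval C b env ≤ eval C a env := by omega
    simp [h, this]

@[simp] lemma eval_eq (a b : E) : eval C (E.eq a b) env =
    if eval C a env = eval C b env then 1 else 0 := by
  simp only [E.eq, eval_and, eval_le']
  by_cases h : eval C a env = eval C b env
  · simp [h]
  · have : ¬ (eval C a env ≤ eval C b env ∧ eval C b env ≤ eval C a env) := by omega
    rw [if_neg h]
    by_cases h1 : eval C a env ≤ eval C b env <;> by_cases h2 : eval C b env ≤ eval C a env <;>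
      simp_all

@[simp] lemma eval_ne (a b : E) : eval C (E.ne a b) env =
    if eval C a env ≠ eval C b env then 1 else 0 := by
  simp only [E.ne, tr_isZ, eval_eq]
  by_cases h : eval C a env = eval C b env <;> simp [h]

lemma mod_step (i b : ℕ) : (i + 1) % b = if (i % b) + 1 = b then 0 else (i % b) + 1 := by
  rcases Nat.eq_zero_or_pos b with h | h
  · subst h
    simp
  · have h1 := Nat.mod_lt i h
    have e : i + 1 = (i % b + 1) + b * (i / b) := by
      have := Nat.mod_add_div i b
      omega
    rw [e, Nat.add_mul_mod_self_left]
    split_ifs with h2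
    · rw [h2, Nat.mod_self]
    · exact Nat.mod_eq_of_lt (by omega)

@[simp] lemma eval_mod (a b : E) : eval C (E.mod a b) env = eval C a env % eval C b env := by
  simp only [E.mod, c2, eval_call, eval_zero]
  rw [eval_fold]
  simp only [eval_var, frame_0, frame_1, min_eval]
  refine iter_of (F := fun i => i % eval C b env) ?_ ?_
  · simp
  · intro i hi
    have h1 := eval_le C a env
    have h2 := eval_le C b env
    have h3 : i % eval C b env ≤ i := Nat.mod_le _ _
    have e1 : min (i % eval C b env) C.W = i % eval C b env := min_eq_left (by omega)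
    simp only [eval_ite, eval_eq, eval_succ, eval_var, push2_0, push2_3, frame_1, eval_zero, e1,
      min_eval, ne_eq, ite_eq_right_iff, one_ne_zero, imp_false, Decidable.not_not]
    rw [capS_of_lt (by omega), mod_step]

lemma frame_min {u v : ℕ} : min u v ≤ u := min_le_left _ _

@[simp] lemma eval_div (a b : E) : eval C (E.div a b) env = eval C a env / eval C b env := by
  simp only [E.div, c2, eval_call, eval_zero]
  rw [eval_fold]
  simp only [eval_var, frame_0, frame_1, min_eval]
  refine iter_of (F := fun i => i / eval C b env) ?_ ?_
  · simp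
  · intro i hi
    have h1 := eval_le C a env
    have h2 := eval_le C b env
    have h3 : i / eval C b env ≤ i := Nat.div_le_self _ _
    have e1 : min (i / eval C b env) C.W = i / eval C b env := min_eq_left (by omega)
    have e2 : min i C.W = i := min_eq_left (by omega)
    simp only [eval_ite, eval_eq, eval_succ, eval_var, push2_0, push2_1, push2_3, frame_1, eval_zero,
      e1, e2, min_eval, eval_mod, ne_eq, ite_eq_right_iff, one_ne_zero, imp_false,
      Decidable.not_not]
    rw [capS_of_lt (by omega), capS_of_lt (by omega), Nat.succ_div]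
    by_cases h : eval C b env ∣ i + 1
    · have : (i + 1) % eval C b env = 0 := Nat.mod_eq_zero_of_dvd h
      simp [h, this]
    · have : (i + 1) % eval C b env ≠ 0 := fun e => h (Nat.dvd_of_mod_eq_zero e)
      simp [h, this]

@[simp] lemma eval_shr (a k d : E) : eval C (shr a k d) env =
    eval C a env / eval C d env ^ eval C k env := by
  simp only [shr, c3, eval_call, eval_zero]
  rw [eval_fold]
  simp only [eval_var, frame_0, frame_1, min_eval]
  refine iter_of (F := fun i => eval C a env / eval C d env ^ i) ?_ ?_
  · simp
  · intro i _
    have h1 := eval_le C a env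
    have h3 : eval C a env / eval C d env ^ i ≤ eval C a env := Nat.div_le_self _ _
    have e1 : min (eval C a env / eval C d env ^ i) C.W = eval C a env / eval C d env ^ i :=
      min_eq_left (by omega)
    simp only [eval_div, eval_var, push2_0, push2_4, frame_2, min_eval, e1]
    rw [Nat.div_div_eq_div_mul, pow_succ]

end Eval

section TrLemmas

variable (C : Cx) (env : ℕ → ℕ)

@[simp] lemma tr_and (a b : E) : Tr C (E.and a b) env ↔ Tr C a env ∧ Tr C b env := by
  unfold Tr
  rw [eval_and]
  split_ifs with h <;> simp [h]

@[simp] lemma tr_or (a b : E) : Tr C (E.or a b) env ↔ Tr C a env ∨ Tr C b env := by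
  unfold Tr
  rw [eval_or]
  split_ifs with h <;> simp [h]

@[simp] lemma tr_imp (a b : E) : Tr C (E.imp a b) env ↔ (Tr C a env → Tr C b env) := by
  unfold Tr
  rw [eval_imp]
  split_ifs with h
  · exact ⟨fun _ => h, fun _ => one_ne_zero⟩
  · exact ⟨fun h' => absurd rfl h', fun h' => absurd h' h⟩

@[simp] lemma tr_not (a : E) : Tr C (isZ a) env ↔ ¬ Tr C a env := by
  unfold Tr
  rw [tr_isZ]
  split_ifs with h <;> simp [h]

@[simp] lemma tr_le (a b : E) : Tr C (E.le a b) env ↔ eval C a env ≤ eval C b env := by
  unfold Tr
  rw [eval_le']
  split_ifs with h <;> simp [h]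

@[simp] lemma tr_lt (a b : E) : Tr C (E.lt a b) env ↔ eval C a env < eval C b env := by
  unfold Tr
  rw [eval_lt]
  split_ifs with h <;> simp [h]

@[simp] lemma tr_eq (a b : E) : Tr C (E.eq a b) env ↔ eval C a env = eval C b env := by
  unfold Tr
  rw [eval_eq]
  split_ifs with h <;> simp [h]

@[simp] lemma tr_ne (a b : E) : Tr C (E.ne a b) env ↔ eval C a env ≠ eval C b env := by
  unfold Tr
  rw [eval_ne]
  split_ifs with h <;> simp [h]

@[simp] lemma tr_ite (c a b : E) : Tr C (ite c a b) env ↔
    (Tr C c env ∧ Tr C a env) ∨ (¬ Tr C c env ∧ Tr C b env) := by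
  unfold Tr
  rw [eval_ite]
  by_cases h : eval C c env ≠ 0
  · rw [if_pos h]
    simp [h]
  · rw [if_neg h]
    simp [h]

@[simp] lemma tr_one : Tr C one env := by
  unfold Tr
  simp

@[simp] lemma not_tr_zero : ¬ Tr C zero env := by
  unfold Tr
  simp

end TrLemmas

section Quant

variable (C : Cx) (env : ℕ → ℕ)

/-- The body of a quantifier on its frame. -/
lemma eval_body (p : E) (acc i : ℕ) (hi : i ≤ C.W) (fr : ℕ → ℕ)
    (h3 : fr 1 ≤ C.W) (h4 : fr 2 ≤ C.W) (h5 : fr 3 ≤ C.W) (h6 : fr 4 ≤ C.W) :
    eval C (call p (var 1) (var 3) (var 4) (var 5) (var 6) zero) (push2 acc i fr) =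
      eval C p (frame i (fr 1) (fr 2) (fr 3) (fr 4) 0) := by
  simp only [eval_call, eval_var, push2_1, push2_3, push2_4, push2_5, push2_6, eval_zero,
    min_eq_left hi, min_eq_left h3, min_eq_left h4, min_eq_left h5, min_eq_left h6]

theorem tr_ex (n p a b c d : E) : Tr C (ex n p a b c d) env ↔
    ∃ i, i < eval C n env ∧ Tr C p (frame i (eval C a env) (eval C b env) (eval C c env)
      (eval C d env) 0) := by
  unfold Tr
  simp only [ex, c5, eval_call, eval_zero]
  rw [eval_fold]
  simp only [eval_var, frame_0, min_eval]
  have hn := eval_le C n env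
  have key : ∀ k, k ≤ eval C n env → (iter (fun i acc => eval C (E.or (var 0)
      (call p (var 1) (var 3) (var 4) (var 5) (var 6) zero))
      (push2 acc i (frame (eval C n env) (eval C a env) (eval C b env) (eval C c env)
        (eval C d env) 0))) 0 k ≠ 0 ↔
      ∃ i, i < k ∧ eval C p (frame i (eval C a env) (eval C b env) (eval C c env)
      (eval C d env) 0) ≠ 0) := by
    intro k
    induction k with
    | zero =>
      intro _
      simp [iter]
    | succ k ih =>
      intro hk
      have ih' := ih (by omega)
      rw [iter_succ]
      have e1 := eval_body C p (iter (fun i acc => eval C (E.or (var 0)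
        (call p (var 1) (var 3) (var 4) (var 5) (var 6) zero))
        (push2 acc i (frame (eval C n env) (eval C a env) (eval C b env) (eval C c env)
          (eval C d env) 0))) 0 k) k (by omega)
        (frame (eval C n env) (eval C a env) (eval C b env) (eval C c env) (eval C d env) 0)
        (eval_le _ _ _) (eval_le _ _ _) (eval_le _ _ _) (eval_le _ _ _)
      simp only [frame_1, frame_2, frame_3, frame_4] at e1
      have e2 : iter (fun i acc => eval C (E.or (var 0)
        (call p (var 1) (var 3) (var 4) (var 5) (var 6) zero))
        (push2 acc i (frame (eval C n env) (eval C a env) (eval C b env) (eval C c env)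
          (eval C d env) 0))) 0 k ≤ C.W := by
        cases k with
        | zero => exact Nat.zero_le _
        | succ k => exact eval_le _ _ _
      have e3 := tr_or C (push2 (iter (fun i acc => eval C (E.or (var 0)
        (call p (var 1) (var 3) (var 4) (var 5) (var 6) zero))
        (push2 acc i (frame (eval C n env) (eval C a env) (eval C b env) (eval C c env)
          (eval C d env) 0))) 0 k) k (frame (eval C n env) (eval C a env) (eval C b env)
            (eval C c env) (eval C d env) 0)) (var 0)
        (call p (var 1) (var 3) (var 4) (var 5) (var 6) zero)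
      unfold Tr at e3
      rw [e3, e1]
      simp only [eval_var, push2_0]
      rw [min_eq_left e2]
      constructor
      · rintro (h0 | h0)
        · obtain ⟨i, h1, h2⟩ := ih'.mp h0
          exact ⟨i, by omega, h2⟩
        · exact ⟨k, by omega, h0⟩
      · rintro ⟨i, h1, h2⟩
        by_cases hik : i = k
        · subst hik
          exact Or.inr h2
        · exact Or.inl (ih'.mpr ⟨i, by omega, h2⟩)
  exact key _ le_rfl

theorem tr_all (n p a b c d : E) : Tr C (all n p a b c d) env ↔
    ∀ i, i < eval C n env → Tr C p (frame i (eval C a env) (eval C b env) (eval C c env)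
      (eval C d env) 0) := by
  unfold Tr
  simp only [all, c5, eval_call, eval_zero]
  rw [eval_fold]
  simp only [eval_var, frame_0, min_eval, eval_one]
  have hn := eval_le C n env
  have key : ∀ k, k ≤ eval C n env → (iter (fun i acc => eval C (E.and (var 0)
      (call p (var 1) (var 3) (var 4) (var 5) (var 6) zero))
      (push2 acc i (frame (eval C n env) (eval C a env) (eval C b env) (eval C c env)
        (eval C d env) 0))) 1 k ≠ 0 ↔
      ∀ i, i < k → eval C p (frame i (eval C a env) (eval C b env) (eval C c env)
      (eval C d env) 0) ≠ 0) := by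
    intro k
    induction k with
    | zero =>
      intro _
      simp [iter]
    | succ k ih =>
      intro hk
      have ih' := ih (by omega)
      rw [iter_succ]
      have e1 := eval_body C p (iter (fun i acc => eval C (E.and (var 0)
        (call p (var 1) (var 3) (var 4) (var 5) (var 6) zero))
        (push2 acc i (frame (eval C n env) (eval C a env) (eval C b env) (eval C c env)
          (eval C d env) 0))) 1 k) k (by omega)
        (frame (eval C n env) (eval C a env) (eval C b env) (eval C c env) (eval C d env) 0)
        (eval_le _ _ _) (eval_le _ _ _) (eval_le _ _ _) (eval_le _ _ _)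
      simp only [frame_1, frame_2, frame_3, frame_4] at e1
      have e2 : iter (fun i acc => eval C (E.and (var 0)
        (call p (var 1) (var 3) (var 4) (var 5) (var 6) zero))
        (push2 acc i (frame (eval C n env) (eval C a env) (eval C b env) (eval C c env)
          (eval C d env) 0))) 1 k ≤ C.W := by
        have := C.hW
        cases k with
        | zero => show 1 ≤ C.W; omega
        | succ k => exact eval_le _ _ _
      have e3 := tr_and C (push2 (iter (fun i acc => eval C (E.and (var 0)
        (call p (var 1) (var 3) (var 4) (var 5) (var 6) zero))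
        (push2 acc i (frame (eval C n env) (eval C a env) (eval C b env) (eval C c env)
          (eval C d env) 0))) 1 k) k (frame (eval C n env) (eval C a env) (eval C b env)
            (eval C c env) (eval C d env) 0)) (var 0)
        (call p (var 1) (var 3) (var 4) (var 5) (var 6) zero)
      unfold Tr at e3
      rw [e3, e1]
      simp only [eval_var, push2_0]
      rw [min_eq_left e2]
      constructor
      · intro h3 i hi
        by_cases hik : i = k
        · subst hik
          exact h3.2
        · exact ih'.mp h3.1 i (by omega)
      · intro h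
        exact ⟨ih'.mpr fun i hi => h i (by omega), h k (by omega)⟩
  exact key _ le_rfl

open Classical in
theorem eval_count (n p a b c d : E) : eval C (count n p a b c d) env =
    Nat.count (fun i => Tr C p (frame i (eval C a env) (eval C b env) (eval C c env)
      (eval C d env) 0)) (eval C n env) := by
  simp only [count, c5, eval_call, eval_zero]
  rw [eval_fold]
  simp only [eval_var, frame_0, min_eval]
  have hn := eval_le C n env
  refine iter_of (F := fun i => Nat.count (fun i => Tr C p (frame i (eval C a env) (eval C b env)
    (eval C c env) (eval C d env) 0)) i) ?_ ?_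
  · simp
  · intro i hi
    have hc : Nat.count (fun i => Tr C p (frame i (eval C a env) (eval C b env)
        (eval C c env) (eval C d env) 0)) i ≤ i := Nat.count_le _
    have e1 := eval_body C p (Nat.count (fun i => Tr C p (frame i (eval C a env) (eval C b env)
        (eval C c env) (eval C d env) 0)) i) i (by omega)
        (frame (eval C n env) (eval C a env) (eval C b env) (eval C c env) (eval C d env) 0)
        (eval_le _ _ _) (eval_le _ _ _) (eval_le _ _ _) (eval_le _ _ _)
    simp only [frame_1, frame_2, frame_3, frame_4] at e1
    rw [eval_ite, e1]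
    simp only [eval_succ, eval_var, push2_0]
    rw [min_eq_left (by omega), Nat.count_succ, capS_of_lt (by omega)]
    unfold Tr
    by_cases h : eval C p (frame i (eval C a env) (eval C b env) (eval C c env) (eval C d env) 0) = 0
    · simp [h]
    · simp [h]

end Quant



end Vale.Agent.Lib.P310V
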