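import Vale.Agent.Lib.P310V.CA3
import Vale.Agent.Lib.P310V.TM

set_option linter.unusedSectionVars false

/-!
The tableau of a deterministic Turing machine as a cellular automaton.
-/

namespace Vale.Agent.Lib.P310V

open Finset

/-- The numbers of the moves. -/
def Dir.code : Dir → ℕ
  | Dir.left => 0
  | Dir.right => 1
  | Dir.stay => 2

namespace DTM

variable {Q Γ : Type} (M : DTM Q Γ)

/-- The machine reaches the accepting state in fewer than `T` steps. -/
def AcceptsWithin {n : ℕ} (x : Fin n → Γ) (T : ℕ) : Prop :=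
  ∃ t, t < T ∧ (M.run x t).st = M.acc

/-- The alphabet of the tableau: a tape symbol and possibly the state of the head. -/
abbrev TSg (Q Γ : Type) : Type := Γ × Option Q

/-- The state arriving from a neighbor with a given move. -/
def fromD (k : ℕ) (a : TSg Q Γ) : Option Q :=
  a.2.bind fun q => if (M.δ q a.1).2.2.code = k then some (M.δ q a.1).1 else none

/-- The next letter of a cell, from the letters of the cell and its two neighbors. -/
def caRule (a b c : TSg Q Γ) : TSg Q Γ :=
  (match b.2 with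
    | some q => (M.δ q b.1).2.1
    | none => b.1,
   (M.fromD 1 a).orElse fun _ => (M.fromD 2 b).orElse fun _ => M.fromD 0 c)

/-- The input row of the tableau, given on the first `n` cells. -/
def xinC {n : ℕ} (x : Fin n → Γ) : Fin n → TSg Q Γ :=
  fun d => (x d, if d.val = 0 then some M.start else none)

/-- The blank cell. -/
def blC : TSg Q Γ := (M.blank, none)

/-- A cell carrying the head in the accepting state. -/
def accC (s : TSg Q Γ) : Prop := s.2 = some M.acc

lemma run_zero {n : ℕ} (x : Fin n → Γ) : M.run x 0 = M.init x := rfl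

lemma run_succ {n : ℕ} (x : Fin n → Γ) (t : ℕ) : M.run x (t + 1) = M.step (M.run x t) := by
  unfold run
  rw [Function.iterate_succ_apply']

/-- The head moves by at most one in each step. -/
lemma pos_step (c : TConf Q Γ) :
    (M.step c).pos = c.pos + (M.δ c.st (c.tape c.pos)).2.2.shift := rfl

lemma shift_abs (d : Dir) : -1 ≤ d.shift ∧ d.shift ≤ 1 := by
  cases d <;> simp [Dir.shift]

lemma abs_pos_le {n : ℕ} (x : Fin n → Γ) (t : ℕ) : |(M.run x t).pos| ≤ t := by
  induction t with
  | zero => simp [run_zero, init]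
  | succ t ih =>
    rw [run_succ, pos_step]
    have := shift_abs (M.δ (M.run x t).st ((M.run x t).tape (M.run x t).pos)).2.2
    rw [abs_le] at ih ⊢
    push_cast
    constructor <;> linarith [ih.1, ih.2, this.1, this.2]

/-- The letter at cell `r` at time `t`. -/
def cellAt {n : ℕ} (x : Fin n → Γ) (t : ℕ) (r : ℤ) : TSg Q Γ :=
  ((M.run x t).tape r, if (M.run x t).pos = r then some (M.run x t).st else none)

lemma cellAt_fst {n : ℕ} (x : Fin n → Γ) (t : ℕ) (r : ℤ) :
    (M.cellAt x t r).1 = (M.run x t).tape r := rfl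

lemma cellAt_head {n : ℕ} (x : Fin n → Γ) (t : ℕ) (r : ℤ) :
    (M.run x t).pos = r → (M.cellAt x t r).2 = some (M.run x t).st := by
  intro h
  unfold cellAt
  simp [h]

lemma cellAt_nohead {n : ℕ} (x : Fin n → Γ) (t : ℕ) (r : ℤ) :
    (M.run x t).pos ≠ r → (M.cellAt x t r).2 = none := by
  intro h
  unfold cellAt
  simp [h]

/-- The tape symbol of a cell after a step. -/
lemma cellAt_succ_fst {n : ℕ} (x : Fin n → Γ) (t : ℕ) (r : ℤ) (a c : TSg Q Γ) :
    (M.cellAt x (t + 1) r).1 = (M.caRule a (M.cellAt x t r) c).1 := by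
  rw [cellAt_fst, run_succ]
  unfold caRule step
  by_cases h : (M.run x t).pos = r
  · rw [cellAt_head M x t r h]
    simp only [h, Function.update_self, ← cellAt_fst]
  · rw [cellAt_nohead M x t r h]
    simp only [Function.update_of_ne (Ne.symm h)]
    rfl

/-- What a cell sends to a neighbor. -/
lemma fromD_cellAt {n : ℕ} (x : Fin n → Γ) (t : ℕ) (k : ℕ) (r : ℤ) :
    M.fromD k (M.cellAt x t r) =
      if (M.run x t).pos = r ∧
          (M.δ (M.run x t).st ((M.run x t).tape (M.run x t).pos)).2.2.code = k then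
        some (M.δ (M.run x t).st ((M.run x t).tape (M.run x t).pos)).1 else none := by
  by_cases hp : (M.run x t).pos = r
  · unfold fromD
    rw [cellAt_head M x t r hp, cellAt_fst, ← hp]
    simp
  · unfold fromD
    rw [cellAt_nohead M x t r hp]
    simp [hp]

/-- The rule of the tableau at a cell whose neighbors are the right cells or far from the head. -/
lemma cellAt_succ {n : ℕ} (x : Fin n → Γ) (t : ℕ) (r ra rc : ℤ)
    (ha : ra = r - 1 ∨ ((M.run x t).pos ≠ ra ∧ (M.run x t).pos + 1 ≠ r))
    (hc : rc = r + 1 ∨ ((M.run x t).pos ≠ rc ∧ (M.run x t).pos - 1 ≠ r)) :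
    M.cellAt x (t + 1) r = M.caRule (M.cellAt x t ra) (M.cellAt x t r) (M.cellAt x t rc) := by
  refine Prod.ext (M.cellAt_succ_fst x t r _ _) ?_
  change (M.cellAt x (t + 1) r).2 =
    (M.fromD 1 (M.cellAt x t ra)).orElse fun _ => (M.fromD 2 (M.cellAt x t r)).orElse fun _ =>
      M.fromD 0 (M.cellAt x t rc)
  rw [fromD_cellAt, fromD_cellAt, fromD_cellAt]
  unfold cellAt
  simp only
  rw [run_succ, pos_step]
  cases hd : (M.δ (M.run x t).st ((M.run x t).tape (M.run x t).pos)).2.2 with
  | left =>
    simp only [Dir.shift, Dir.code]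
    by_cases h3 : (M.run x t).pos - 1 = r
    · have h4 : (M.run x t).pos = rc := by
        rcases hc with h | ⟨_, h⟩
        · omega
        · omega
      have h5 : (M.run x t).pos + -1 = r := by omega
      simp [h4, step]
      omega
    · have h5 : (M.run x t).pos + -1 ≠ r := by omega
      simp [h5]
      intro h4
      rcases hc with h | ⟨h, -⟩
      · omega
      · exact absurd h4 h
  | right =>
    simp only [Dir.shift, Dir.code]
    by_cases h3 : (M.run x t).pos + 1 = r
    · have h4 : (M.run x t).pos = ra := by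
        rcases ha with h | ⟨_, h⟩
        · omega
        · omega
      simp [h4, step, h3]
      omega
    · simp [h3]
      intro h4
      rcases ha with h | ⟨h, -⟩
      · omega
      · exact absurd h4 h
  | stay =>
    simp only [Dir.shift, Dir.code]
    by_cases h3 : (M.run x t).pos = r
    · simp [h3, step]
    · simp [h3]

/-- The initial letter of a cell. -/
lemma cellAt_zero {n : ℕ} (x : Fin n → Γ) (r : ℤ) :
    M.cellAt x 0 r = ((if h : 0 ≤ r ∧ r < n then x ⟨r.toNat, by omega⟩ else M.blank),
      if r = 0 then some M.start else none) := by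
  unfold cellAt
  rw [run_zero]
  simp [init, eq_comm]

end DTM

/-- The representative of a cell number in the window `[-T, m - T)`. -/
def repW (m T v : ℕ) : ℤ := if v + T < m then (v : ℤ) else (v : ℤ) - m

lemma repW_ge {m T v : ℕ} : -(T : ℤ) ≤ repW m T v := by
  unfold repW
  split_ifs <;> omega

lemma repW_lt {m T v : ℕ} (hv : v < m) (hT : T < m) (hT0 : 0 < T) : repW m T v + T < m := by
  unfold repW
  split_ifs <;> omega

lemma repW_next {m T v v' : ℕ} (hv : v < m) (h : v + 1 = v' ∨ (v + 1 = m ∧ v' = 0)) (hT : T < m)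
    (hT0 : 0 < T) :
    repW m T v' = repW m T v + 1 ∨ (repW m T v = m - T - 1 ∧ repW m T v' = -(T : ℤ)) := by
  unfold repW
  rcases h with h | ⟨h1, h2⟩
  · subst h
    by_cases h1 : v + T < m <;> by_cases h2 : v + 1 + T < m
    · left
      rw [if_pos h1, if_pos h2]
      push_cast
      ring
    · right
      rw [if_pos h1, if_neg h2]
      push_cast
      omega
    · omega
    · left
      rw [if_neg h1, if_neg h2]
      push_cast
      ring
  · subst h2
    left
    have a1 : ¬ v + T < m := by omega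
    have a2 : 0 + T < m := by omega
    rw [if_neg a1, if_pos a2]
    push_cast
    omega

lemma exists_repW {m T : ℕ} {r : ℤ} (hT : T ≤ m) (h1 : -(T : ℤ) ≤ r) (h2 : r + T < m) :
    ∃ v, v < m ∧ repW m T v = r := by
  by_cases h : 0 ≤ r
  · refine ⟨r.toNat, by omega, ?_⟩
    unfold repW
    have a1 : r.toNat + T < m := by omega
    rw [if_pos a1]
    omega
  · refine ⟨(r + m).toNat, by omega, ?_⟩
    unfold repW
    have a1 : ¬ (r + m).toNat + T < m := by omega
    rw [if_neg a1]
    omega

lemma step_digits {n k : ℕ} (x : Fin k → Fin n) :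
    valD x + 1 = valD (inc x) ∨ (valD x + 1 = n ^ k ∧ valD (inc x) = 0) := by
  have h := inc_val x
  cases hc : carry x k with
  | false =>
    left
    rw [hc] at h
    simpa using h
  | true =>
    right
    rw [hc] at h
    simp only [Bool.toNat_true, mul_one] at h
    have := valD_lt x
    have := valD_lt (inc x)
    omega



variable {Q Γ : Type} (M : DTM Q Γ) {n L : ℕ}

/-- The tableau of a machine. -/
def DTM.tab (x : Fin n → Γ) (L : ℕ) (t : ℕ) (p : Fin (L + 1) → Fin n) : DTM.TSg Q Γ :=
  M.cellAt x t (repW (n ^ (L + 1)) (n ^ L) (valD p))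

lemma pow_window (hn : 3 ≤ n) : 3 * n ^ L ≤ n ^ (L + 1) := by
  calc 3 * n ^ L ≤ n * n ^ L := Nat.mul_le_mul_right _ hn
    _ = n ^ (L + 1) := by ring

lemma cellAt_window (x : Fin n → Γ) (t m T v v' v'' : ℕ) (hv : v < m) (hv' : v' < m)
    (h1 : v + 1 = v' ∨ (v + 1 = m ∧ v' = 0)) (h2 : v' + 1 = v'' ∨ (v' + 1 = m ∧ v'' = 0))
    (hw : 3 * T ≤ m) (ht : t + 1 < T) :
    M.cellAt x (t + 1) (repW m T v') =
      M.caRule (M.cellAt x t (repW m T v)) (M.cellAt x t (repW m T v')) (M.cellAt x t (repW m T v'')) := by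
  have hT0 : 0 < T := by omega
  have hTm : T < m := by omega
  have hpos := M.abs_pos_le x t
  rw [abs_le] at hpos
  have h3 := repW_next hv h1 hTm hT0
  have h4 := repW_next hv' h2 hTm hT0
  apply M.cellAt_succ
  · rcases h3 with h | ⟨h3, h5⟩
    · left
      omega
    · right
      constructor <;> omega
  · rcases h4 with h | ⟨h3, h5⟩
    · left
      exact h
    · right
      constructor <;> omega

lemma tab_rule (hn : 3 ≤ n) (x : Fin n → Γ) (t : ℕ) (ht : t + 1 < n ^ L) (p : Fin (L + 1) → Fin n) :
    M.tab x L (t + 1) (inc p) =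
      M.caRule (M.tab x L t p) (M.tab x L t (inc p)) (M.tab x L t (inc (inc p))) :=
  cellAt_window M x t _ _ _ _ _ (valD_lt p) (valD_lt (inc p)) (step_digits p) (step_digits (inc p))
    (pow_window hn) ht

lemma digit_zero_val {n k : ℕ} {p : Fin (k + 1) → Fin n} (h : ∀ j : Fin (k + 1), j ≠ 0 → (p j).val = 0) :
    valD p = (p 0).val := by
  unfold valD
  rw [Fin.sum_univ_succ]
  simp only [Fin.val_zero, pow_zero, mul_one]
  rw [Finset.sum_eq_zero, add_zero]
  intro i _
  rw [h _ (Fin.succ_ne_zero i), zero_mul]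

lemma digit_big {n k : ℕ} {p : Fin (k + 1) → Fin n} {j : Fin (k + 1)} (hj : j ≠ 0)
    (h : (p j).val ≠ 0) : n ≤ valD p := by
  unfold valD
  obtain ⟨i, rfl⟩ := Fin.exists_succ_eq.mpr hj
  have h1 : (p i.succ).val * n ^ (i.succ).val ≤ ∑ i, (p i).val * n ^ i.val :=
    Finset.single_le_sum (f := fun i : Fin (k + 1) => (p i).val * n ^ i.val) (fun _ _ => Nat.zero_le _)
      (mem_univ _)
  refine le_trans ?_ h1
  have hn : 0 < n := (p 0).pos
  calc n = 1 * n ^ 1 := by ring
    _ ≤ (p i.succ).val * n ^ (i.succ).val := Nat.mul_le_mul (by omega)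
      (Nat.pow_le_pow_right hn (by simp))

lemma tab_init (hn : 3 ≤ n) (hL : 1 ≤ L) (x : Fin n → Γ) (p : Fin (L + 1) → Fin n) :
    M.tab x L 0 p = initC (M.xinC x) M.blC p := by
  have hw := pow_window (L := L) hn
  have hT0 : 0 < n ^ L := by positivity
  have hnT : n ≤ n ^ L := by
    calc n = n ^ 1 := (pow_one n).symm
      _ ≤ n ^ L := Nat.pow_le_pow_right (by omega) hL
  have hv := valD_lt p
  unfold DTM.tab initC
  rw [M.cellAt_zero]
  by_cases h : ∀ j : Fin (L + 1), j ≠ 0 → (p j).val = 0
  · rw [if_pos h]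
    have hval := digit_zero_val h
    have hlt := (p 0).isLt
    have hr : repW (n ^ (L + 1)) (n ^ L) (valD p) = ((p 0).val : ℤ) := by
      unfold repW
      have a1 : valD p + n ^ L < n ^ (L + 1) := by omega
      rw [if_pos a1, hval]
    rw [hr]
    unfold DTM.xinC
    have e1 : (((p 0).val : ℤ) = 0) ↔ (p 0).val = 0 := by omega
    simp only [e1]
    rw [dif_pos (by omega)]
    congr 2
  · rw [if_neg h]
    push Not at h
    obtain ⟨j, hj, hj2⟩ := h
    have hbig := digit_big hj hj2
    have hr : repW (n ^ (L + 1)) (n ^ L) (valD p) < 0 ∨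
        (n : ℤ) ≤ repW (n ^ (L + 1)) (n ^ L) (valD p) := by
      unfold repW
      split_ifs <;> omega
    unfold DTM.blC
    have e1 : ¬ (repW (n ^ (L + 1)) (n ^ L) (valD p) = 0) := by
      have : (0 : ℤ) < n := by omega
      omega
    rw [if_neg e1, dif_neg (by omega)]

/-- Acceptance in the tableau. -/
lemma tab_acc (hn : 3 ≤ n) (x : Fin n → Γ) :
    (∃ (y : Fin L → Fin n) (p : Fin (L + 1) → Fin n), M.accC (M.tab x L (valD y) p)) ↔
      M.AcceptsWithin x (n ^ L) := by
  have hw := pow_window (L := L) hn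
  have hT0 : 0 < n ^ L := by positivity
  constructor
  · rintro ⟨y, p, h⟩
    refine ⟨valD y, valD_lt y, ?_⟩
    unfold DTM.accC DTM.tab DTM.cellAt at h
    simp only at h
    split_ifs at h
    exact Option.some.inj h
  · rintro ⟨t, ht, h⟩
    obtain ⟨y, rfl⟩ := exists_valD (k := L) ht
    have hpos := M.abs_pos_le x (valD y)
    rw [abs_le] at hpos
    obtain ⟨v, hv, hr⟩ := exists_repW (m := n ^ (L + 1)) (T := n ^ L)
      (r := (M.run x (valD y)).pos) (by omega) (by omega) (by omega)
    obtain ⟨p, rfl⟩ := exists_valD hv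
    refine ⟨y, p, ?_⟩
    unfold DTM.accC DTM.tab
    rw [M.cellAt_head x _ _ hr.symm, h]


section

variable {Q Γ : Type} [Fintype Q] [DecidableEq Q] [Fintype Γ] [DecidableEq Γ]

/-- The two graphs of a machine on an input are WL-equivalent exactly when the machine does not
accept within `n ^ L` steps. -/
theorem tm_ca_iff (M : DTM Q Γ) {n L pad bL bS g : ℕ} (hn : 3 ≤ n) (hL : 1 ≤ L) (x : Fin n → Γ)
    [Nums (SCo (L + L + 1) pad) (SCl (L + L + 1) bL bS)]
    (enc : LamC (DTM.TSg Q Γ) n → Fin bL → Bool) (encS : Tag (DTM.TSg Q Γ) L L → Fin bS → Bool)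
    [PendData (rb (I := SCo (L + L + 1) pad) (g := g)
      (grS (N := L + L + 1) (bL := bL) (bS := bS)))
      (frL grS coS (covS (pad := pad) enc encS (LocC M.caRule (M.xinC x) M.blC M.accC) isOKC))]
    (henc : Function.Injective enc) (hencS : Function.Injective encS)
    (hg : Fintype.card (SCo (L + L + 1) pad) + 4 ≤ g) :
    WLEquiv (Fintype.card (SCo (L + L + 1) pad) + 2)
      (vtGraph (rb (I := SCo (L + L + 1) pad) (g := g)
          (grS (N := L + L + 1) (bL := bL) (bS := bS)))
        (frL grS coS (covS (pad := pad) enc encS (LocC M.caRule (M.xinC x) M.blC M.accC) isOKC))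
        (fun _ => 0))
      (vtGraph (rb (I := SCo (L + L + 1) pad) (g := g)
          (grS (N := L + L + 1) (bL := bL) (bS := bS)))
        (frL grS coS (covS (pad := pad) enc encS (LocC M.caRule (M.xinC x) M.blC M.accC) isOKC))
        twistR) ↔ ¬ M.AcceptsWithin x (n ^ L) := by
  have h := ca_iff (Δ := M.caRule) (xin := M.xinC x) (bl := M.blC) (acc := M.accC)
    (C := M.tab x L) (pad := pad) (g := g)
    enc encS henc hencS hg
    (fun p => tab_init M hn hL x p) (fun t ht p => tab_rule M hn x t ht p) (Sum.inr Hd.kap)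
  rw [tab_acc M hn x] at h
  exact h

end

end Vale.Agent.Lib.P310V
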