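import Vale.Agent.Lib.P310V.WLBasic

set_option linter.unusedSectionVars false

/-!
WL equivalence is invariant under isomorphism.
-/

namespace Vale.Agent.Lib.P310V

open Finset

section

variable {k : ℕ} {V V' : Type} [Fintype V] [Fintype V'] [DecidableEq V] [DecidableEq V']

lemma wlColor_iso {G : SimpleGraph V} {G' : SimpleGraph V'} (e : V ≃ V')
    (h : ∀ a b, G.Adj a b ↔ G'.Adj (e a) (e b)) :
    ∀ (r : ℕ) (x : Fin k → V), wlColor G r x = wlColor G' r (fun i => e (x i)) := by
  intro r
  induction r with
  | zero =>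
    intro x
    funext i j
    simp only [wlColor]
    rw [Prod.mk.injEq]
    exact ⟨propext (e.injective.eq_iff).symm, propext (h _ _)⟩
  | succ r ih =>
    intro x
    simp only [wlColor]
    rw [ih x]
    congr 1
    apply map_eq_of_equiv _ _ e
    intro y
    funext i
    rw [ih (Function.update x i y)]
    congr 1
    funext j
    by_cases hj : j = i
    · subst hj
      simp
    · simp [Function.update_of_ne hj]

/-- Isomorphic graphs have the same WL equivalences. -/
theorem wlEquiv_iso {W W' : Type} [Fintype W] [Fintype W'] [DecidableEq W] [DecidableEq W']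
    {G : SimpleGraph V} {G' : SimpleGraph V'} {H : SimpleGraph W} {H' : SimpleGraph W'}
    (e : V ≃ V') (he : ∀ a b, G.Adj a b ↔ G'.Adj (e a) (e b))
    (f : W ≃ W') (hf : ∀ a b, H.Adj a b ↔ H'.Adj (f a) (f b)) :
    WLEquiv k G H ↔ WLEquiv k G' H' := by
  have h1 : ∀ r, (univ : Finset (Fin k → V)).val.map (wlColor G r) =
      (univ : Finset (Fin k → V')).val.map (wlColor G' r) := fun r =>
    map_eq_of_equiv _ _ (Equiv.arrowCongr (Equiv.refl _) e) fun x => wlColor_iso e he r x
  have h2 : ∀ r, (univ : Finset (Fin k → W)).val.map (wlColor H r) =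
      (univ : Finset (Fin k → W')).val.map (wlColor H' r) := fun r =>
    map_eq_of_equiv _ _ (Equiv.arrowCongr (Equiv.refl _) f) fun x => wlColor_iso f hf r x
  unfold WLEquiv
  simp only [h1, h2]

end

end Vale.Agent.Lib.P310V
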