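import Vale.Agent.Lib.P310V.ProgR
import Vale.Agent.Lib.P310V.TMCA
import Vale.Agent.Lib.P310V.WLIso

set_option linter.unusedSectionVars false
set_option linter.unusedSimpArgs false

/-!
The output of the reduction is the encoding of two graphs.
-/

namespace Vale.Agent.Lib.P310V

open Classical in
lemma rowB_eq (Ok : ℕ → Prop) (Adj : ℕ → ℕ → Prop) (u k : ℕ) :
    rowB Ok Adj u k = ((List.range k).filter (fun v => decide (Ok v))).map (fun v => decide (Adj u v)) := by
  induction k with
  | zero => simp [rowB]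
  | succ k ih =>
    rw [rowB, ih, List.range_succ, List.filter_append, List.map_append]
    congr 1
    by_cases h : Ok k <;> simp [h]

open Classical in
lemma matB_eq (Ok : ℕ → Prop) (Adj : ℕ → ℕ → Prop) (B k : ℕ) :
    matB Ok Adj B k = ((List.range k).filter (fun v => decide (Ok v))).flatMap (fun u => rowB Ok Adj u B) := by
  induction k with
  | zero => simp [matB]
  | succ k ih =>
    rw [matB, ih, List.range_succ, List.filter_append, List.flatMap_append]
    congr 1
    by_cases h : Ok k <;> simp [h]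

open Classical in
/-- The matrix written by the loops is the adjacency matrix of a numbering of the graph. -/
theorem enc_spec {V : Type} [Fintype V] (G : SimpleGraph V) (vc : V → ℕ)
    (hinj : Function.Injective vc) {B : ℕ} (hlt : ∀ a, vc a < B) {Ok : ℕ → Prop} {Adj : ℕ → ℕ → Prop}
    (hok : ∀ u, Ok u ↔ ∃ a, vc a = u) (hadj : ∀ a b, G.Adj a b ↔ Adj (vc a) (vc b)) :
    ∃ e : Fin (Fintype.card V) ≃ V, adjBits (G.comap e) = matB Ok Adj B B := by
  set L := (List.range B).filter (fun v => decide (Ok v)) with hL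
  have hnd : L.Nodup := (List.nodup_range).filter _
  have hmem : ∀ i : Fin L.length, ∃ a, vc a = L.get i := by
    intro i
    have h1 : L.get i ∈ L := List.get_mem _ _
    have h2 := (List.mem_filter.mp h1).2
    exact (hok _).mp (by simpa using h2)
  choose f hf using hmem
  have hinj' : Function.Injective f := by
    intro i j h
    have h1 : L.get i = L.get j := by rw [← hf, ← hf, h]
    exact (List.Nodup.get_inj_iff hnd).mp h1
  have hsurj : Function.Surjective f := by
    intro a
    have h1 : vc a ∈ L := by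
      refine List.mem_filter.mpr ⟨List.mem_range.mpr (hlt a), ?_⟩
      simpa using (hok _).mpr ⟨a, rfl⟩
    obtain ⟨i, hi⟩ := List.get_of_mem h1
    exact ⟨i, hinj (by rw [hf, hi])⟩
  let e₀ : Fin L.length ≃ V := Equiv.ofBijective f ⟨hinj', hsurj⟩
  have hcard : L.length = Fintype.card V := by
    simpa using Fintype.card_congr e₀
  have key : ∀ N (hN : L.length = N) , ∃ e : Fin N ≃ V,
      adjBits (G.comap e) = matB Ok Adj B B := by
    intro N hN
    subst hN
    refine ⟨e₀, ?_⟩
    unfold adjBits
    rw [matB_eq]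
    have h2 : ∀ u, rowB Ok Adj u B = L.map (fun v => decide (Adj u v)) := fun u => by
      rw [rowB_eq]
    simp only [h2]
    have e3 : (List.finRange L.length).map L.get = L := List.map_get_finRange L
    have hconv : ∀ (i j : Fin L.length) (inst : Decidable ((G.comap e₀).Adj i j)),
        @decide _ inst = decide (Adj (L.get i) (L.get j)) := by
      intro i j inst
      have h3 : (G.comap e₀).Adj i j ↔ Adj (L.get i) (L.get j) := by
        show G.Adj (f i) (f j) ↔ _
        rw [hadj, hf, hf]
      simp only [h3]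
    simp only [hconv]
    have e5 : ∀ u, L.map (fun v => decide (Adj u v)) =
        (List.finRange L.length).map (fun j => decide (Adj u (L.get j))) := by
      intro u
      calc L.map (fun v => decide (Adj u v))
          = ((List.finRange L.length).map L.get).map (fun v => decide (Adj u v)) := by rw [e3]
        _ = _ := by
          rw [List.map_map]
          rfl
    have e6 : ∀ g : ℕ → List Bool, L.flatMap g =
        (List.finRange L.length).flatMap (fun i => g (L.get i)) := by
      intro g
      calc L.flatMap g = ((List.finRange L.length).map L.get).flatMap g := by rw [e3]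
        _ = _ := by
          rw [List.flatMap_map]
    have e4 : L.flatMap (fun u => L.map (fun v => decide (Adj u v))) =
        (List.finRange L.length).flatMap fun i =>
          (List.finRange L.length).map fun j => decide (Adj (L.get i) (L.get j)) := by
      rw [e6]
      simp only [e5]
    exact e4.symm
  exact key _ hcard

section

variable {ν : Nu} {q g : ℕ} [hn : ν.Num0] (hν : ν.V q g) {M : DTM (Fin q) (Fin ν.γ)}
  {x : Fin ν.n → Fin ν.γ} (hM : ν.MFit M x)

include hν hM

/-- One of the two matrices. -/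
lemma Nu.V.enc_one (t : ℕ) (τ : RV (IT ν) (ClT ν) g → ZMod 2) (hτ : tParity ν g t = τ) (N : ℕ)
    (hN :
      letI := hν.pendOf (M := M) (x := x)
      Fintype.card (VT (baseG ν g) (frG ν q g M x) τ) = N) :
    letI := hν.pendOf (M := M) (x := x)
    N ≤ ν.CC * (ν.PP * 2 ^ mbN ν.b g) ∧
    ∃ e : Fin N ≃ VT (baseG ν g) (frG ν q g M x) τ,
      adjBits ((vtGraph (baseG ν g) (frG ν q g M x) τ).comap e) =
        matB (OkV ν t) (AdjV ν) (ν.CC * (ν.PP * 2 ^ mbN ν.b g)) (ν.CC * (ν.PP * 2 ^ mbN ν.b g)) := by
  letI := hν.pendOf (M := M) (x := x)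
  subst hτ
  subst hN
  have hy := hν.glHyp hM t
  have hPP : pendMax (baseG ν g) (frG ν q g M x) + 1 = ν.PP := hν.PP_eq.symm
  have hlt : ∀ a, hy.vc a < ν.CC * (ν.PP * 2 ^ mbN ν.b g) := by
    intro a
    have := hy.vc_lt a
    rwa [hPP] at this
  constructor
  · have h := Fintype.card_le_of_injective
      (fun a => (⟨hy.vc a, hlt a⟩ : Fin (ν.CC * (ν.PP * 2 ^ mbN ν.b g))))
      (fun a b h => hy.vc_inj (Fin.ext_iff.mp h))
    simpa using h
  · refine enc_spec _ hy.vc hy.vc_inj hlt ?_ ?_
    · intro u
      unfold OkV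
      have := hy.ok_iff u
      rw [hPP] at this
      exact this
    · intro a b
      unfold AdjV
      have := hy.adj_iff a b
      rw [hPP] at this
      exact this

/-- The output of the reduction encodes two graphs, and they are WL-equivalent exactly when the
machine does not accept within `n ^ L` steps. -/
theorem Nu.V.enc_wl (hg : Fintype.card (IT ν) + 4 ≤ g) :
    ∃ (N : ℕ) (G₀ G₁ : SimpleGraph (Fin N)), N ≤ ν.CC * (ν.PP * 2 ^ mbN ν.b g) ∧
      encPair G₀ G₁ =
        matB (OkV ν 0) (AdjV ν) (ν.CC * (ν.PP * 2 ^ mbN ν.b g)) (ν.CC * (ν.PP * 2 ^ mbN ν.b g)) ++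
        matB (OkV ν 1) (AdjV ν) (ν.CC * (ν.PP * 2 ^ mbN ν.b g)) (ν.CC * (ν.PP * 2 ^ mbN ν.b g)) ∧
      (WLEquiv (Fintype.card (IT ν) + 2) G₀ G₁ ↔ ¬ M.AcceptsWithin x (ν.n ^ ν.L)) := by
  classical
  letI := hν.pendOf (M := M) (x := x)
  have hY : 0 < ν.Y := by
    rw [hν.Y_eq]
    have := hν.D_pos
    positivity
  have hc : Fintype.card (VT (baseG ν g) (frG ν q g M x) (fun _ => 0)) =
      Fintype.card (VT (baseG ν g) (frG ν q g M x) twistR) :=
    card_VT_twistR (I := IT ν) (Cl := ClT ν) (g := g) grS (by
      show 0 < g * ν.X + 4 * ν.Y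
      omega) _
  obtain ⟨h1, e₀, b0⟩ := hν.enc_one hM 0 (fun _ => 0) (if_pos rfl) _ rfl
  obtain ⟨-, e₁, b1⟩ := hν.enc_one hM 1 twistR (if_neg one_ne_zero) _ hc.symm
  refine ⟨_, (vtGraph (baseG ν g) (frG ν q g M x) (fun _ => 0)).comap e₀,
    (vtGraph (baseG ν g) (frG ν q g M x) twistR).comap e₁, h1, ?_, ?_⟩
  · unfold encPair
    rw [b0, b1]
  · rw [wlEquiv_iso (G' := vtGraph (baseG ν g) (frG ν q g M x) (fun _ => 0))
      (H' := vtGraph (baseG ν g) (frG ν q g M x) twistR) e₀ (fun a b => Iff.rfl) e₁ (fun a b => Iff.rfl)]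
    exact tm_ca_iff M hν.n3 hν.L_pos x (encLam ν q) (encTag ν q) hν.encLam_inj hν.encTag_inj hg

end

end Vale.Agent.Lib.P310V
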