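import Vale.Agent.Lib.P310V.Fit

set_option linter.unusedSectionVars false
set_option linter.unusedSimpArgs false

/-!
The lower bound: no single-tape Turing machine decides `k`-WL equivalence in time `n ^ (k / ε)`.
-/

namespace Vale.Agent.Lib.P310V

/-- The cap is a power of `n`. -/
lemma cap_le (E' n : ℕ) (hn : 2 ≤ n) : (n + 1) * (n + 2) ^ E' + 1 ≤ n ^ (2 * (E' + 1)) := by
  have h1 : 1 ≤ (n + 2) ^ E' := Nat.one_le_pow _ _ (by omega)
  have h2 : n + 2 ≤ n ^ 2 := by nlinarith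
  calc (n + 1) * (n + 2) ^ E' + 1 ≤ (n + 1) * (n + 2) ^ E' + (n + 2) ^ E' := by omega
    _ = (n + 2) ^ (E' + 1) := by ring
    _ ≤ (n ^ 2) ^ (E' + 1) := Nat.pow_le_pow_left h2 _
    _ = n ^ (2 * (E' + 1)) := by rw [pow_mul]

/-- The time of the whole machine. -/
lemma time_arith {n K e C z L T t τ N W A : ℕ} (hn : 1 + 8 * K + C < n) (hW : W + 1 ≤ n ^ A)
    (hτ : τ ≤ K * (W + 1) ^ e) (hT : T ≤ τ * (2 * W + 8)) (hN : N ≤ n ^ 426)
    (ht : t ≤ C * (N + 1) ^ z) (hL1 : A * (e + 1) + 1 ≤ L) (hL2 : 427 * z + 1 ≤ L) (hn2 : 2 ≤ n) :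
    t + T + 1 < n ^ L := by
  have hn1 : 1 ≤ n := by omega
  obtain ⟨Y, rfl⟩ : ∃ Y, L = Y + 1 := ⟨L - 1, by omega⟩
  have hy : 1 ≤ n ^ Y := Nat.one_le_pow _ _ hn1
  have h1 : (W + 1) ^ (e + 1) ≤ n ^ Y := by
    calc (W + 1) ^ (e + 1) ≤ (n ^ A) ^ (e + 1) := Nat.pow_le_pow_left hW _
      _ = n ^ (A * (e + 1)) := by rw [pow_mul]
      _ ≤ n ^ Y := Nat.pow_le_pow_right hn1 (by omega)
  have h2 : T ≤ 8 * K * n ^ Y := by
    calc T ≤ τ * (2 * W + 8) := hT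
      _ ≤ (K * (W + 1) ^ e) * (8 * (W + 1)) := Nat.mul_le_mul hτ (by omega)
      _ = 8 * K * (W + 1) ^ (e + 1) := by ring
      _ ≤ 8 * K * n ^ Y := Nat.mul_le_mul_left _ h1
  have h3 : N + 1 ≤ n ^ 427 := by
    have : n ^ 427 = n ^ 426 * n := pow_succ n 426
    have h4 : 1 ≤ n ^ 426 := Nat.one_le_pow _ _ hn1
    rw [this]
    nlinarith
  have h5 : t ≤ C * n ^ Y := by
    calc t ≤ C * (N + 1) ^ z := ht
      _ ≤ C * n ^ Y := by
        refine Nat.mul_le_mul_left _ ?_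
        calc (N + 1) ^ z ≤ (n ^ 427) ^ z := Nat.pow_le_pow_left h3 _
          _ = n ^ (427 * z) := by rw [pow_mul]
          _ ≤ n ^ Y := Nat.pow_le_pow_right hn1 (by omega)
  have h6 : (1 + 8 * K + C) * n ^ Y < n * n ^ Y := Nat.mul_lt_mul_of_pos_right hn (by omega)
  have h7 : (1 + 8 * K + C) * n ^ Y = n ^ Y + 8 * K * n ^ Y + C * n ^ Y := by ring
  rw [pow_succ, Nat.mul_comm]
  omega

lemma exists_big (a1 a2 a3 a4 a5 a6 a7 a8 : ℕ) :
    ∃ n, a1 ≤ n ∧ a2 ≤ n ∧ a3 ≤ n ∧ a4 ≤ n ∧ a5 ≤ n ∧ a6 ≤ n ∧ a7 ≤ n ∧ a8 < n :=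
  ⟨a1 + a2 + a3 + a4 + a5 + a6 + a7 + a8 + 1, by omega, by omega, by omega, by omega, by omega,
    by omega, by omega, by omega⟩

section Core

variable {Q Γ : Type} (A : DTM Q Γ) (ι : Bool → Γ) {L k q γ n : ℕ}
  (e₁ : DQ Q ι mR (progR L k) ≃ Fin q) (f₁ : TS mR Γ ≃ Fin γ)

/-- The core of the proof. -/
theorem core (hL : 1 ≤ L) (hLk : 32 * L + 34 ≤ k)
    (h0 : (e₁ (diagM A ι mR (progR L k)).start).val = 0)
    (h1 : (e₁ (diagM A ι mR (progR L k)).acc).val = 1)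
    (f0 : (f₁ (diagI A mR false)).val = 0) (f1 : (f₁ (diagI A mR true)).val = 1)
    (f2 : (f₁ (diagB A mR)).val = 2)
    (hB : Big n q γ L k) (hn : q + γ + 2 + q * γ * 3 * (q + γ + 3) ≤ n)
    {K e C z : ℕ} (hK : ∀ W, costR W ≤ K * (W + 1) ^ e) (hnC : 1 + 8 * K + C < n)
    (hL1 : 2 * (eW + 1) * (e + 1) + 1 ≤ L) (hL2 : 427 * z + 1 ≤ L)
    (H : DecidesWL A ι k (fun N => C * (N + 1) ^ z)) : False := by
  classical
  set M : DTM (Fin q) (Fin γ) := (diagM A ι mR (progR L k)).rename e₁ f₁ with hM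
  set X : Fin n → Bool := fun i => wordBit M i.val with hX
  set xD : Fin n → TS mR Γ := fun i => diagI A mR (X i) with hxD
  set xM : Fin n → Fin γ := fun i => f₁ (xD i) with hxM
  have hx1 : ∀ i : Fin n, wordX M n i.val = some (X i) := fun i => wordX_lt M i.isLt
  have hx2 : ∀ p, n ≤ p → wordX M n p = none := fun p hp => wordX_ge M hp
  have hdr : Hdr (wordX M n) q γ := word_hdr M (by omega)
  obtain ⟨σf, ⟨τ, hτ, hExec⟩, hout⟩ := ex_progR hB hdr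
    (fun p hp => by rw [wordX_lt M hp]; simp) (wordX_ge M le_rfl)
  obtain ⟨T, hT, hSteps⟩ := sim_exec (ιA := ι) (blA := A.blank) hExec
  have hν := hB.V (inpOf (wordX M n))
  haveI := hν.num0
  have hfit := mfit_word hB M hn h0 h1 f2 xM (fun i => by
    show (f₁ (diagI A mR (wordBit M i.val))).val = _
    cases wordBit M i.val
    · exact f0
    · exact f1)
  have hg : Fintype.card (IT (mkNu (inpOf (wordX M n)) n q γ L k (wOf n))) + 4 ≤ k + 2 := by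
    show Fintype.card (SCo (L + L + 1) (k - (32 * L + 34))) + 4 ≤ k + 2
    rw [card_SCo']
    omega
  have hcard : Fintype.card (IT (mkNu (inpOf (wordX M n)) n q γ L k (wOf n))) + 2 = k := by
    show Fintype.card (SCo (L + L + 1) (k - (32 * L + 34))) + 2 = k
    rw [card_SCo']
    omega
  obtain ⟨N, G₀, G₁, hN, henc, hwl⟩ := hν.enc_wl hfit hg
  rw [hcard] at hwl
  have hN' : N ≤ n ^ 426 := le_trans hN hB.box_le2
  have hout' : σf.out = encPair G₀ G₁ := hout.trans henc.symm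
  obtain ⟨t, b, ht, hh, hb⟩ := H N G₀ G₁
  rw [← hout'] at hh
  have hacc : M.AcceptsWithin xM (n ^ L) ↔
      (diagM A ι mR (progR L k)).AcceptsWithin xD (n ^ L) := rename_accepts _ e₁ f₁ xD _
  have hwl' : WLEquiv k G₀ G₁ ↔ ¬ M.AcceptsWithin xM (n ^ L) := hwl
  rw [hacc] at hwl'
  have hWcap : wOf n + 1 ≤ n ^ (2 * (eW + 1)) := cap_le eW n (by have := hB.n100; omega)
  cases b with
  | true =>
    have hw : WLEquiv k G₀ G₁ := hb.mp rfl
    have ha := diag_accept (X := X) hx1 hx2 hSteps hh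
    refine hwl'.mp hw ⟨t + T + 1, ?_, ha⟩
    refine time_arith (e := e) hnC hWcap ?_ hT hN' ht ?_ hL2 (by have := hB.n100; omega)
    · exact hτ.trans (hK _)
    · exact hL1
  | false =>
    have hw : ¬ WLEquiv k G₀ G₁ := fun h => by simpa using hb.mpr h
    have hnot : (diagM A ι mR (progR L k)).AcceptsWithin xD (n ^ L) := by
      by_contra hc
      exact hw (hwl'.mpr hc)
    obtain ⟨t', -, ht'⟩ := hnot
    exact diag_reject (X := X) hx1 hx2 hSteps hh t' ht'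

end Core

/-- There are `ε > 0` and `k₀` such that for every `k ≥ k₀` no single-tape deterministic Turing machine
decides `k`-WL equivalence within `C * (N + 1) ^ (k / ε)` steps on graphs with `N` vertices, for any
constant `C`. -/
theorem wl_lower_bound :
    ∃ ε k₀ : ℕ, 0 < ε ∧ ∀ k, k₀ ≤ k → ∀ (Q Γ : Type) [Fintype Q] [Fintype Γ] (A : DTM Q Γ)
      (ι : Bool → Γ) (C : ℕ), ¬ DecidesWL A ι k (fun N => C * (N + 1) ^ (k / ε)) := by
  obtain ⟨K, e, hK⟩ := costR_poly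
  refine ⟨32000, 32 * (2 * (eW + 1) * (e + 1) + 2) + 34 + 32000, by norm_num, ?_⟩
  intro k hk Q Γ _ _ A ι C H
  classical
  generalize hAA : 2 * (eW + 1) * (e + 1) = AA at hk
  obtain ⟨L, hLdef⟩ : ∃ L, L = (k - 34) / 32 := ⟨_, rfl⟩
  have hLk : 32 * L + 34 ≤ k := by omega
  have hL1 : AA + 1 ≤ L := by omega
  have hz : 427 * (k / 32000) + 1 ≤ L := by omega
  have hL0 : 1 ≤ L := by omega
  haveI hfinQ : Finite (Stmt.block mR ι (progR L k)).Q := (Stmt.block mR ι (progR L k)).fin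
  letI : Fintype (Stmt.block mR ι (progR L k)).Q := Fintype.ofFinite _
  obtain ⟨hq3, e₁, e10, e11, -⟩ := exists_equiv3 (X := DQ Q ι mR (progR L k))
    (a := (diagM A ι mR (progR L k)).start) (b := (diagM A ι mR (progR L k)).acc)
    (c := (diagM A ι mR (progR L k)).rej)
    (by simp [diagM]) (by simp [diagM]) (diagM A ι mR (progR L k)).acc_ne_rej
  obtain ⟨hγ3, f₁, f10, f11, f12⟩ := exists_equiv3 (X := TS mR Γ)
    (a := diagI A mR false) (b := diagI A mR true) (c := diagB A mR)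
    (by simp [diagI]) (by simp [diagI, diagB]) (by simp [diagI, diagB])
  generalize Fintype.card (DQ Q ι mR (progR L k)) = q at hq3 e₁ e10 e11
  generalize Fintype.card (TS mR Γ) = γ at hγ3 f₁ f10 f11 f12
  obtain ⟨n, n1, n2, n3, n4, n5, n6, n7, n8⟩ : ∃ n, 5 * (γ * (q + 1)) ^ 3 + 5 ≤ n ∧
      10 * (L * (L + 2) + γ * (q + 1) + L + 2) + 10 ≤ n ∧ L + L + 12 ≤ n ∧ k + 2 ≤ n ∧
      2 ^ (6 * (k + 2) * (k + 2) + 2 * (k + 2) + 25) ≤ n ∧ 100 ≤ n ∧
      q + γ + 2 + q * γ * 3 * (q + γ + 3) ≤ n ∧ 1 + 8 * K + C < n := by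
    exact exists_big _ _ _ _ _ _ _ _
  exact core A ι e₁ f₁ hL0 hLk e10 e11 f10 f11 f12 ⟨hγ3, hq3, hL0, n1, n2, n3, n4, n5, n6⟩ n7 hK n8
    (by rw [hAA]; exact hL1) hz H

end Vale.Agent.Lib.P310V
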