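import Vale.Agent.Lib.P310V.TM
import Mathlib.Analysis.SpecialFunctions.Pow.Real

/-!
Deciding WL equivalence with a real time bound.
-/

namespace Vale.Agent.Lib.P310V

/-- The machine `A` decides `k`-WL equivalence of pairs of graphs with `N` vertices each within `f N`
steps, for a real-valued time bound `f`. -/
def DecidesWithin {Q Γ : Type} (A : DTM Q Γ) (ι : Bool → Γ) (k : ℕ) (f : ℕ → ℝ) : Prop :=
  ∀ (N : ℕ) (G H : SimpleGraph (Fin N)), ∃ (t : ℕ) (b : Bool), (t : ℝ) ≤ f N ∧ A.HaltsAt ι (encPair G H) t b ∧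
    (b = true ↔ WLEquiv k G H)

end Vale.Agent.Lib.P310V
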