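import Vale.Agent.Lib.P310V.ReadAll
import Vale.Agent.Lib.P310V.TMR

set_option linter.unusedSectionVars false

/-!
The lower bound for all dimensions with a real exponent.
-/

namespace Vale.Agent.Lib.P310V

/-- There is `c > 0` such that for every `k ≥ 2`, no single-tape deterministic Turing machine decides
`k`-WL equivalence within `C * (N + 1) ^ (c * k)` steps on graphs with `N` vertices, for any
constant `C`. -/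
theorem wl_lower_real :
    ∃ c : ℝ, 0 < c ∧ ∀ k : ℕ, 2 ≤ k → ∀ (Q Γ : Type) [Fintype Q] [Fintype Γ] (A : DTM Q Γ)
      (ι : Bool → Γ) (C : ℝ), ¬ DecidesWithin A ι k (fun N => C * ((N : ℝ) + 1) ^ (c * (k : ℝ))) := by
  obtain ⟨ε, k₀, hε, H₀⟩ := wl_lower_bound
  have hD : (0 : ℝ) < 2 * (ε : ℝ) + (k₀ : ℝ) + 1 := by positivity
  refine ⟨1 / (2 * (ε : ℝ) + (k₀ : ℝ) + 1), by positivity, ?_⟩
  intro k hk Q Γ _ _ A ι C hdec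
  have hbound : ∀ e : ℕ, (k : ℝ) ≤ (e : ℝ) * (2 * (ε : ℝ) + (k₀ : ℝ) + 1) →
      DecidesWL A ι k (fun N => ⌈C⌉₊ * (N + 1) ^ e) := by
    intro e he N G H
    obtain ⟨t, b, h1, h2, h3⟩ := hdec N G H
    refine ⟨t, b, ?_, h2, h3⟩
    have hc : 1 / (2 * (ε : ℝ) + (k₀ : ℝ) + 1) * (k : ℝ) ≤ (e : ℝ) := by
      rw [one_div, inv_mul_le_iff₀ hD]
      linarith
    have hN1 : (1 : ℝ) ≤ (N : ℝ) + 1 := by
      have : (0 : ℝ) ≤ (N : ℝ) := Nat.cast_nonneg N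
      linarith
    have hX : ((N : ℝ) + 1) ^ (1 / (2 * (ε : ℝ) + (k₀ : ℝ) + 1) * (k : ℝ)) ≤ ((N : ℝ) + 1) ^ e := by
      calc ((N : ℝ) + 1) ^ (1 / (2 * (ε : ℝ) + (k₀ : ℝ) + 1) * (k : ℝ))
          ≤ ((N : ℝ) + 1) ^ (e : ℝ) := Real.rpow_le_rpow_of_exponent_le hN1 hc
        _ = ((N : ℝ) + 1) ^ e := Real.rpow_natCast _ _
    have hX0 : (0 : ℝ) ≤ ((N : ℝ) + 1) ^ (1 / (2 * (ε : ℝ) + (k₀ : ℝ) + 1) * (k : ℝ)) := by positivity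
    have h4 : (t : ℝ) ≤ (⌈C⌉₊ : ℝ) * ((N : ℝ) + 1) ^ e := by
      calc (t : ℝ) ≤ C * ((N : ℝ) + 1) ^ (1 / (2 * (ε : ℝ) + (k₀ : ℝ) + 1) * (k : ℝ)) := h1
        _ ≤ (⌈C⌉₊ : ℝ) * ((N : ℝ) + 1) ^ (1 / (2 * (ε : ℝ) + (k₀ : ℝ) + 1) * (k : ℝ)) :=
          mul_le_mul_of_nonneg_right (Nat.le_ceil C) hX0
        _ ≤ (⌈C⌉₊ : ℝ) * ((N : ℝ) + 1) ^ e :=
          mul_le_mul_of_nonneg_left hX (Nat.cast_nonneg _)
    have h5 : ((t : ℕ) : ℝ) ≤ ((⌈C⌉₊ * (N + 1) ^ e : ℕ) : ℝ) := by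
      push_cast
      exact h4
    exact_mod_cast h5
  by_cases hbig : k₀ ≤ k ∧ 2 * ε ≤ k
  · refine H₀ k hbig.1 Q Γ A ι ⌈C⌉₊ (hbound (k / ε) ?_)
    have hq : 1 ≤ k / ε := Nat.div_pos (by omega) hε
    have h1 := Nat.div_add_mod k ε
    have h2 := Nat.mod_lt k hε
    have h3 : ε ≤ ε * (k / ε) := Nat.le_mul_of_pos_right _ (by omega)
    have h4 : k ≤ k / ε * (2 * ε) := by
      have : k / ε * (2 * ε) = 2 * (ε * (k / ε)) := by ring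
      omega
    have h5 : (k : ℝ) ≤ ((k / ε : ℕ) : ℝ) * (2 * (ε : ℝ)) := by exact_mod_cast h4
    have h6 : (0 : ℝ) ≤ ((k / ε : ℕ) : ℝ) * ((k₀ : ℝ) + 1) := by positivity
    nlinarith
  · have h1 : k ≤ 1 * (2 * ε + k₀ + 1) := by omega
    have h2 : (k : ℝ) ≤ ((1 : ℕ) : ℝ) * (2 * (ε : ℝ) + (k₀ : ℝ) + 1) := by exact_mod_cast h1
    have h3 := hbound 1 h2
    refine no_linear hk A ι ⌈C⌉₊ ?_
    simpa using h3

end Vale.Agent.Lib.P310V
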