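import Vale.Agent.Lib.P310V.Word

set_option linter.unusedSectionVars false
set_option linter.unusedSimpArgs false

/-!
The numeric table of the parameters of the word of a machine is the table of the machine.
-/

namespace Vale.Agent.Lib.P310V

section Fit

variable {n q γ L d : ℕ} (hB : Big n q γ L d) (M : DTM (Fin q) (Fin γ))
  (hn : q + γ + 2 + q * γ * 3 * (q + γ + 3) ≤ n)

include hB hn

/-- The values of the parameters at table positions. -/
lemma tpos_eq {a b f i : ℕ} (ha : a < q) (hb : b < γ) (hf : f < 3) (hi : i < q + γ + 3) :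
    (mkNu (inpOf (wordX M n)) n q γ L d (wOf n)).tpos a b f i =
      q + γ + 2 + (((a * γ + b) * 3 + f) * (q + γ + 3) + i) ∧
    q + γ + 2 + (((a * γ + b) * 3 + f) * (q + γ + 3) + i) < n := by
  have hW1 : n + 1 ≤ wOf n := Nat.le_mul_of_pos_right _ (by positivity)
  have h1 : a * γ + b + 1 ≤ q * γ := by
    calc a * γ + b + 1 ≤ a * γ + γ := by omega
      _ = (a + 1) * γ := by ring
      _ ≤ q * γ := Nat.mul_le_mul_right _ (by omega)
  set P := (a * γ + b) * 3 + f with hP
  have h2 : P + 1 ≤ q * γ * 3 := by omega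
  have h3 : (P + 1) * (q + γ + 3) ≤ q * γ * 3 * (q + γ + 3) := Nat.mul_le_mul_right _ h2
  have h4 : (P + 1) * (q + γ + 3) = P * (q + γ + 3) + (q + γ + 3) := by ring
  have h5 : P ≤ P * (q + γ + 3) := Nat.le_mul_of_pos_right _ (by omega)
  have h6 : a * γ + b ≤ P := by omega
  have h7 : (a * γ + b) * 3 ≤ P := by omega
  have hlt : q + γ + 2 + (P * (q + γ + 3) + i) < n := by omega
  refine ⟨?_, hlt⟩
  show min (min (q + γ + 2 + min (min (min (min (min (a * γ) (wOf n) + b) (wOf n) * 3) (wOf n) + f) (wOf n) *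
    (q + γ + 3)) (wOf n)) (wOf n) + i) (wOf n) = _
  rw [min_eq_left (by omega : a * γ ≤ wOf n), min_eq_left (by omega : a * γ + b ≤ wOf n),
    min_eq_left (by omega : (a * γ + b) * 3 ≤ wOf n), min_eq_left (by omega : (a * γ + b) * 3 + f ≤ wOf n),
    ← hP, min_eq_left (by omega : P * (q + γ + 3) ≤ wOf n),
    min_eq_left (by omega : q + γ + 2 + P * (q + γ + 3) ≤ wOf n),
    min_eq_left (by omega : q + γ + 2 + P * (q + γ + 3) + i ≤ wOf n)]
  omega

/-- The field of the table. -/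
lemma tbl_eq {a b f : ℕ} (ha : a < q) (hb : b < γ) (hf : f < 3) :
    (mkNu (inpOf (wordX M n)) n q γ L d (wOf n)).tbl a b f = tblV M a b f := by
  classical
  have hv : tblV M a b f < q + γ + 3 := by
    unfold tblV
    rw [dif_pos ⟨ha, hb⟩]
    split_ifs
    · have := (M.δ ⟨a, ha⟩ ⟨b, hb⟩).1.isLt
      omega
    · have := (M.δ ⟨a, ha⟩ ⟨b, hb⟩).2.1.isLt
      omega
    · have := dir_code_lt (M.δ ⟨a, ha⟩ ⟨b, hb⟩).2.2
      omega
  have key : ∀ i, i < q + γ + 3 →
      ((mkNu (inpOf (wordX M n)) n q γ L d (wOf n)).inp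
        ((mkNu (inpOf (wordX M n)) n q γ L d (wOf n)).tpos a b f i) = 1 ↔ i < tblV M a b f) := by
    intro i hi
    obtain ⟨h1, h2⟩ := tpos_eq hB M hn ha hb hf hi
    rw [h1]
    show inpOf (wordX M n) _ = 1 ↔ _
    unfold inpOf
    rw [wordX_lt M h2, wordBit_tab M hb hf hi]
    by_cases h : i < tblV M a b f
    · simp [h]
    · simp [h]
  unfold Nu.tbl
  show Nat.count _ (q + γ + 3) = _
  rw [Nat.count_eq_card_filter_range]
  have e : (Finset.range (q + γ + 3)).filter (fun i =>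
      (mkNu (inpOf (wordX M n)) n q γ L d (wOf n)).inp
        ((mkNu (inpOf (wordX M n)) n q γ L d (wOf n)).tpos a b f i) = 1) =
      (Finset.range (q + γ + 3)).filter (fun i => i < tblV M a b f) :=
    Finset.filter_congr fun i hi => key i (Finset.mem_range.mp hi)
  rw [e, ← Nat.count_eq_card_filter_range, count_lt_eq, min_eq_right hv.le]

lemma tbl_f0 (st : Fin q) (y : Fin γ) :
    (mkNu (inpOf (wordX M n)) n q γ L d (wOf n)).tbl st.val y.val 0 = (M.δ st y).1.val := by
  rw [tbl_eq hB M hn st.isLt y.isLt (by omega)]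
  simp [tblV]

lemma tbl_f1 (st : Fin q) (y : Fin γ) :
    (mkNu (inpOf (wordX M n)) n q γ L d (wOf n)).tbl st.val y.val 1 = (M.δ st y).2.1.val := by
  rw [tbl_eq hB M hn st.isLt y.isLt (by omega)]
  simp [tblV]

lemma tbl_f2 (st : Fin q) (y : Fin γ) :
    (mkNu (inpOf (wordX M n)) n q γ L d (wOf n)).tbl st.val y.val 2 = (M.δ st y).2.2.code := by
  rw [tbl_eq hB M hn st.isLt y.isLt (by omega)]
  simp [tblV]

omit hB hn in
lemma inp_f (x : Fin n → Fin γ) (hx : ∀ i : Fin n, (x i).val = (wordBit M i.val).toNat) (i : Fin n) :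
    (x i).val = inpOf (wordX M n) i.val := by
  rw [hx i]
  unfold inpOf
  rw [wordX_lt M i.isLt]
  cases wordBit M i.val <;> rfl

/-- The parameters of the word of a machine fit the machine. -/
theorem mfit_word (h0 : M.start.val = 0) (h1 : M.acc.val = 1) (h2 : M.blank.val = 2)
    (x : Fin n → Fin γ) (hx : ∀ i : Fin n, (x i).val = (wordBit M i.val).toNat) :
    (mkNu (inpOf (wordX M n)) n q γ L d (wOf n)).MFit M x where
  start0 := h0
  acc1 := h1
  blank2 := h2
  inp_eq := inp_f M x hx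
  tbl0 := tbl_f0 hB M hn
  tbl1 := tbl_f1 hB M hn
  tbl2 := tbl_f2 hB M hn

end Fit

end Vale.Agent.Lib.P310V
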