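import Vale.Agent.Lib.P310V.XorDefs

set_option linter.unusedSectionVars false

/-!
Numbering the vertices of the XOR structure by natural numbers.
-/

namespace Vale.Agent.Lib.P310V

open Finset

section Num

variable (isC isB : ℕ → Prop) (par : ℕ → ℕ) (InE : ℕ → ℕ → Prop) (CC PP PW EE : ℕ)

/-- The class part of a vertex number. -/
def uM (u : ℕ) : ℕ := u % CC

/-- The index part of a vertex number. -/
def uI (u : ℕ) : ℕ := u / CC % PP

/-- The bits of a vertex number. -/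
def uS (u : ℕ) : ℕ := u / CC / PP

open Classical in
/-- The position of an edge number among the edges of a class. -/
noncomputable def posN (m y : ℕ) : ℕ := Nat.count (InE m) y

/-- A bit of a number as a proposition. -/
def bitP (s j : ℕ) : Prop := s.testBit j = true

instance (s j : ℕ) : Decidable (bitP s j) := inferInstanceAs (Decidable (s.testBit j = true))

/-- The number of bits below `k`. -/
def popN (s k : ℕ) : ℕ := Nat.count (bitP s) k

/-- The numbers of vertices. -/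
def okN (u : ℕ) : Prop :=
  isC (uM CC u) ∧ uS CC PP u / 2 ^ posN InE (uM CC u) EE = 0 ∧
    (uI CC PP u = 0 ∨ (uI CC PP u - 1) / PW ≤ uM CC u) ∧
    (isB (uM CC u) → popN (uS CC PP u) (posN InE (uM CC u) EE) % 2 = par (uM CC u))

/-- Adjacency on vertex numbers. -/
def adjN (u v : ℕ) : Prop :=
  (uI CC PP u = 0 ∧ uI CC PP v = 0 ∧ uM CC u ≠ uM CC v ∧
      (∃ y, y < EE ∧ InE (uM CC u) y ∧ InE (uM CC v) y) ∧
      ∀ y, y < EE → InE (uM CC u) y → InE (uM CC v) y →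
        (bitP (uS CC PP u) (posN InE (uM CC u) y) ↔ bitP (uS CC PP v) (posN InE (uM CC v) y))) ∨
    (uM CC u = uM CC v ∧ uS CC PP u = uS CC PP v ∧
      ((uI CC PP u = 0 ∧ uI CC PP v ≠ 0) ∨ (uI CC PP u ≠ 0 ∧ uI CC PP v = 0)))

lemma uM_code {m i s : ℕ} (hm : m < CC) : uM CC (m + CC * (i + PP * s)) = m := by
  unfold uM
  rw [Nat.add_mul_mod_self_left, Nat.mod_eq_of_lt hm]

lemma div_code {m i s : ℕ} (hm : m < CC) : (m + CC * (i + PP * s)) / CC = i + PP * s := by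
  have h0 : 0 < CC := by omega
  rw [Nat.add_mul_div_left _ _ h0, Nat.div_eq_of_lt hm, zero_add]

lemma uI_code {m i s : ℕ} (hm : m < CC) (hi : i < PP) : uI CC PP (m + CC * (i + PP * s)) = i := by
  unfold uI
  rw [div_code CC PP hm, Nat.add_mul_mod_self_left, Nat.mod_eq_of_lt hi]

lemma uS_code {m i s : ℕ} (hm : m < CC) (hi : i < PP) : uS CC PP (m + CC * (i + PP * s)) = s := by
  unfold uS
  have h0 : 0 < PP := by omega
  rw [div_code CC PP hm, Nat.add_mul_div_left _ _ h0, Nat.div_eq_of_lt hi, zero_add]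

lemma code_fields {u : ℕ} (h0 : 0 < CC) :
    u = uM CC u + CC * (uI CC PP u + PP * uS CC PP u) := by
  unfold uM uI uS
  rw [Nat.mod_add_div (u / CC) PP, Nat.mod_add_div]

lemma code_lt {m i s B : ℕ} (hm : m < CC) (hi : i < PP) (hs : s < B) :
    m + CC * (i + PP * s) < CC * (PP * B) := by
  have h1 : i + PP * s < PP * B := by
    have : PP * (s + 1) ≤ PP * B := Nat.mul_le_mul_left _ hs
    rw [Nat.mul_succ] at this
    omega
  have : CC * (i + PP * s + 1) ≤ CC * (PP * B) := Nat.mul_le_mul_left _ h1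
  rw [Nat.mul_succ] at this
  omega

end Num

section Abstract

variable {BV Pr : Type} [Fintype BV] [DecidableEq BV] [Fintype Pr] [DecidableEq Pr]
variable {B : SimpleGraph BV} [DecidableRel B.Adj] {Fr : Pr → Finset (Sym2 BV)} [PendData B Fr]

/-- The hypotheses on the numeric data. -/
structure GLHyp (B : SimpleGraph BV) [DecidableRel B.Adj] (Fr : Pr → Finset (Sym2 BV)) [PendData B Fr]
    (isC isB : ℕ → Prop) (par : ℕ → ℕ) (InE : ℕ → ℕ → Prop) (CC EE MB : ℕ)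
    (eid : Sym2 BV → ℕ) (t : BV → ZMod 2) : Prop where
  cc_lt : ∀ c, PendData.cl (B := B) (Fr := Fr) c < CC
  isC_iff : ∀ m, isC m ↔ ∃ c, PendData.cl (B := B) (Fr := Fr) c = m
  isB_iff : ∀ c, isB (PendData.cl (B := B) (Fr := Fr) c) ↔ ∃ v, c = Sum.inl v
  par_eq : ∀ v, ((par (PendData.cl (B := B) (Fr := Fr) (Sum.inl v)) : ℕ) : ZMod 2) = t v
  par_lt : ∀ v, par (PendData.cl (B := B) (Fr := Fr) (Sum.inl v)) < 2
  eid_inj : Function.Injective eid
  eid_lt : ∀ e, eid e < EE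
  inE_iff : ∀ c y, InE (PendData.cl (B := B) (Fr := Fr) c) y ↔ ∃ e ∈ edgesOf B Fr c, eid e = y
  card_le : ∀ c, (edgesOf B Fr c).card ≤ MB

variable {isC isB : ℕ → Prop} {par : ℕ → ℕ} {InE : ℕ → ℕ → Prop} {CC EE MB : ℕ}
  {eid : Sym2 BV → ℕ} {t : BV → ZMod 2}

/-- The value of a bit in `ZMod 2`. -/
def bitZ (s j : ℕ) : ZMod 2 := if s.testBit j then 1 else 0

lemma bitZ_eq_one {s j : ℕ} : bitZ s j = 1 ↔ bitP s j := by
  unfold bitZ bitP
  by_cases h : s.testBit j = true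
  · simp [h]
  · simp [h]

lemma zmod2_ext {a b : ZMod 2} (h : a = 1 ↔ b = 1) : a = b := by
  revert a b
  decide

namespace GLHyp

variable (hy : GLHyp B Fr isC isB par InE CC EE MB eid t)

include hy

lemma cnt_eq (c : BV ⊕ Pr) :
    posN InE (PendData.cl (B := B) (Fr := Fr) c) EE = (edgesOf B Fr c).card := by
  classical
  unfold posN
  rw [Nat.count_eq_card_filter_range]
  have : (range EE).filter (InE (PendData.cl (B := B) (Fr := Fr) c)) =
      (edgesOf B Fr c).image eid := by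
    ext y
    simp only [mem_filter, mem_range, mem_image]
    rw [hy.inE_iff]
    constructor
    · rintro ⟨-, e, he, rfl⟩
      exact ⟨e, he, rfl⟩
    · rintro ⟨e, he, rfl⟩
      exact ⟨hy.eid_lt e, e, he, rfl⟩
  have e2 : (range EE).filter (fun x => InE (PendData.cl (B := B) (Fr := Fr) c) x) =
      (edgesOf B Fr c).image eid := this
  convert congrArg Finset.card e2 using 1
  rw [card_image_of_injective _ hy.eid_inj]

lemma pos_lt (c : BV ⊕ Pr) {e : Sym2 BV} (he : e ∈ edgesOf B Fr c) :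
    posN InE (PendData.cl (B := B) (Fr := Fr) c) (eid e) < (edgesOf B Fr c).card := by
  classical
  rw [← hy.cnt_eq]
  unfold posN
  exact Nat.count_strict_mono ((hy.inE_iff c _).mpr ⟨e, he, rfl⟩) (hy.eid_lt e)

lemma pos_inj (c : BV ⊕ Pr) {e e' : Sym2 BV} (he : e ∈ edgesOf B Fr c) (he' : e' ∈ edgesOf B Fr c)
    (h : posN InE (PendData.cl (B := B) (Fr := Fr) c) (eid e) =
      posN InE (PendData.cl (B := B) (Fr := Fr) c) (eid e')) : e = e' := by
  classical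
  apply hy.eid_inj
  unfold posN at h
  rcases Nat.lt_trichotomy (eid e) (eid e') with h1 | h1 | h1
  · have := Nat.count_strict_mono (p := InE (PendData.cl (B := B) (Fr := Fr) c))
      ((hy.inE_iff c _).mpr ⟨e, he, rfl⟩) h1
    omega
  · exact h1
  · have := Nat.count_strict_mono (p := InE (PendData.cl (B := B) (Fr := Fr) c))
      ((hy.inE_iff c _).mpr ⟨e', he', rfl⟩) h1
    omega

/-- The position of an edge of a class. -/
noncomputable def posF (c : BV ⊕ Pr) : ↥(edgesOf B Fr c) ≃ Fin (edgesOf B Fr c).card :=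
  Equiv.ofBijective
    (fun e => ⟨posN InE (PendData.cl (B := B) (Fr := Fr) c) (eid e.1), hy.pos_lt c e.2⟩)
    ((Fintype.bijective_iff_injective_and_card _).mpr
      ⟨fun e e' h => Subtype.ext (hy.pos_inj c e.2 e'.2 (Fin.ext_iff.mp h)), by simp⟩)

lemma posF_val (c : BV ⊕ Pr) (e : ↥(edgesOf B Fr c)) :
    (hy.posF c e).val = posN InE (PendData.cl (B := B) (Fr := Fr) c) (eid e.1) := rfl

/-- Numbers below a power of two and assignments of bits. -/
noncomputable def bitsF (c : BV ⊕ Pr) : Fin (2 ^ (edgesOf B Fr c).card) ≃ (↥(edgesOf B Fr c) → ZMod 2) :=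
  Equiv.ofBijective (fun s e => bitZ s.val (hy.posF c e).val)
    ((Fintype.bijective_iff_injective_and_card _).mpr ⟨by
      intro s s' h
      apply Fin.ext
      apply Nat.eq_of_testBit_eq
      intro j
      by_cases hj : j < (edgesOf B Fr c).card
      · have h1 := congrFun h ((hy.posF c).symm ⟨j, hj⟩)
        simp only [Equiv.apply_symm_apply] at h1
        have h2 : bitZ s.val j = 1 ↔ bitZ s'.val j = 1 := by rw [h1]
        rw [bitZ_eq_one, bitZ_eq_one] at h2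
        unfold bitP at h2
        cases a1 : s.val.testBit j <;> cases a2 : s'.val.testBit j <;> simp_all
      · have h1 : s.val < 2 ^ j := lt_of_lt_of_le s.isLt (Nat.pow_le_pow_right (by omega) (by omega))
        have h2 : s'.val < 2 ^ j := lt_of_lt_of_le s'.isLt (Nat.pow_le_pow_right (by omega) (by omega))
        rw [Nat.testBit_lt_two_pow h1, Nat.testBit_lt_two_pow h2], by
      rw [Fintype.card_fin, Fintype.card_fun, ZMod.card, Fintype.card_coe]⟩)

/-- The number of a bit assignment. -/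
noncomputable def sOf (c : BV ⊕ Pr) (σ : ↥(edgesOf B Fr c) → ZMod 2) : ℕ := ((hy.bitsF c).symm σ).val

lemma sOf_lt (c : BV ⊕ Pr) (σ : ↥(edgesOf B Fr c) → ZMod 2) :
    hy.sOf c σ < 2 ^ (edgesOf B Fr c).card := Fin.isLt _

lemma bitZ_sOf (c : BV ⊕ Pr) (σ : ↥(edgesOf B Fr c) → ZMod 2) (e : ↥(edgesOf B Fr c)) :
    bitZ (hy.sOf c σ) (posN InE (PendData.cl (B := B) (Fr := Fr) c) (eid e.1)) = σ e := by
  have := congrFun ((hy.bitsF c).apply_symm_apply σ) e
  exact this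

lemma sOf_inj (c : BV ⊕ Pr) {σ σ' : ↥(edgesOf B Fr c) → ZMod 2} (h : hy.sOf c σ = hy.sOf c σ') :
    σ = σ' := by
  have := Fin.ext h
  exact (hy.bitsF c).symm.injective this

lemma exists_sOf (c : BV ⊕ Pr) {s : ℕ} (hs : s < 2 ^ (edgesOf B Fr c).card) :
    ∃ σ, hy.sOf c σ = s :=
  ⟨hy.bitsF c ⟨s, hs⟩, by simp [sOf]⟩

/-- The bit sum is the number of bits modulo 2. -/
lemma sum_bits (c : BV ⊕ Pr) (σ : ↥(edgesOf B Fr c) → ZMod 2) :
    ∑ e, σ e = ((popN (hy.sOf c σ) (edgesOf B Fr c).card : ℕ) : ZMod 2) := by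
  have h1 : ∑ e, σ e = ∑ e, bitZ (hy.sOf c σ) (hy.posF c e).val :=
    Finset.sum_congr rfl fun e _ => (hy.bitZ_sOf c σ e).symm
  rw [h1, Equiv.sum_comp (hy.posF c) (fun j => bitZ (hy.sOf c σ) j.val),
    Fin.sum_univ_eq_sum_range (fun j => bitZ (hy.sOf c σ) j)]
  generalize (edgesOf B Fr c).card = k
  induction k with
  | zero => simp [popN]
  | succ k ih =>
    rw [Finset.sum_range_succ, ih]
    unfold popN
    rw [Nat.count_succ]
    unfold bitZ bitP
    by_cases h : (hy.sOf c σ).testBit k = true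
    · simp [h]
    · simp [h]

/-- The number of a vertex. -/
noncomputable def vc (a : VT B Fr t) : ℕ :=
  PendData.cl (B := B) (Fr := Fr) a.1.1.1 +
    CC * (a.1.2.val + (pendMax B Fr + 1) * hy.sOf a.1.1.1 a.1.1.2)

lemma vc_uM (a : VT B Fr t) : uM CC (hy.vc a) = PendData.cl (B := B) (Fr := Fr) a.1.1.1 :=
  uM_code CC _ (hy.cc_lt _)

lemma vc_uI (a : VT B Fr t) : uI CC (pendMax B Fr + 1) (hy.vc a) = a.1.2.val :=
  uI_code CC _ (hy.cc_lt _) a.1.2.isLt

lemma vc_uS (a : VT B Fr t) : uS CC (pendMax B Fr + 1) (hy.vc a) = hy.sOf a.1.1.1 a.1.1.2 :=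
  uS_code CC _ (hy.cc_lt _) a.1.2.isLt

lemma vc_lt (a : VT B Fr t) : hy.vc a < CC * ((pendMax B Fr + 1) * 2 ^ MB) := by
  refine code_lt CC _ (hy.cc_lt _) a.1.2.isLt ?_
  exact lt_of_lt_of_le (hy.sOf_lt _ _) (Nat.pow_le_pow_right (by omega) (hy.card_le _))

lemma cl_inj {c c' : BV ⊕ Pr} (h : PendData.cl (B := B) (Fr := Fr) c = PendData.cl (B := B) (Fr := Fr) c') :
    c = c' := PendData.cl_inj h

lemma vc_inj : Function.Injective (hy.vc (t := t)) := by
  intro a b h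
  have h1 := congrArg (uM CC) h
  have h2 := congrArg (uI CC (pendMax B Fr + 1)) h
  have h3 := congrArg (uS CC (pendMax B Fr + 1)) h
  rw [hy.vc_uM, hy.vc_uM] at h1
  rw [hy.vc_uI, hy.vc_uI] at h2
  rw [hy.vc_uS, hy.vc_uS] at h3
  obtain ⟨⟨⟨c, σ⟩, i⟩, ha⟩ := a
  obtain ⟨⟨⟨c', σ'⟩, i'⟩, hb⟩ := b
  simp only at h1 h2 h3
  have e := hy.cl_inj h1
  subst e
  have e2 := hy.sOf_inj c h3
  subst e2
  have e3 := Fin.ext h2
  subst e3
  rfl

lemma pend_iff {c : BV ⊕ Pr} {i : ℕ} (hW : 0 < PendData.W (B := B) (Fr := Fr)) :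
    i ≤ pend B Fr c ↔ i = 0 ∨ (i - 1) / PendData.W (B := B) (Fr := Fr) ≤ PendData.cl (B := B) (Fr := Fr) c := by
  unfold pend
  rcases Nat.eq_zero_or_pos i with h | h
  · subst h
    simp
  · have e : (i - 1) / PendData.W (B := B) (Fr := Fr) ≤ PendData.cl (B := B) (Fr := Fr) c ↔
        (i - 1) / PendData.W (B := B) (Fr := Fr) < PendData.cl (B := B) (Fr := Fr) c + 1 := by omega
    rw [e, Nat.div_lt_iff_lt_mul hW]
    omega

lemma W_pos : 0 < PendData.W (B := B) (Fr := Fr) := by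
  have := PendData.hW (B := B) (Fr := Fr)
  omega

/-- The numbers of vertices are exactly the numbers satisfying the test. -/
theorem ok_iff (u : ℕ) :
    okN isC isB par InE CC (pendMax B Fr + 1) (PendData.W (B := B) (Fr := Fr)) EE u ↔
      ∃ a : VT B Fr t, hy.vc a = u := by
  constructor
  · rintro ⟨hC, hS, hI, hP⟩
    obtain ⟨c, hc⟩ := (hy.isC_iff _).mp hC
    have h0 : 0 < CC := lt_of_le_of_lt (Nat.zero_le _) (hy.cc_lt c)
    rw [← hc] at hS hI hP
    rw [hy.cnt_eq] at hS hP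
    have hs : uS CC (pendMax B Fr + 1) u < 2 ^ (edgesOf B Fr c).card := by
      rcases Nat.div_eq_zero_iff.mp hS with h | h
      · exact absurd h (by positivity)
      · exact h
    have hi : uI CC (pendMax B Fr + 1) u < pendMax B Fr + 1 := Nat.mod_lt _ (by omega)
    obtain ⟨σ, hσ⟩ := hy.exists_sOf c hs
    have hpar : parityOK B Fr t ⟨c, σ⟩ := by
      rcases c with v | p
      · show ∑ e, σ e = t v
        rw [hy.sum_bits, hσ, ← hy.par_eq v]
        have h1 := hP ((hy.isB_iff _).mpr ⟨v, rfl⟩)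
        rw [ZMod.natCast_eq_natCast_iff', h1, Nat.mod_eq_of_lt (hy.par_lt v)]
      · trivial
    refine ⟨⟨(⟨c, σ⟩, ⟨uI CC (pendMax B Fr + 1) u, hi⟩), hpar, ?_⟩, ?_⟩
    · exact (pend_iff hy (c := c) hy.W_pos).mpr hI
    · conv_rhs => rw [code_fields CC (pendMax B Fr + 1) h0 (u := u)]
      unfold vc
      simp only
      rw [hσ, hc]
  · rintro ⟨⟨⟨⟨c, σ⟩, ⟨i, hi⟩⟩, hp, hq⟩, rfl⟩
    have e1 := hy.vc_uM (t := t) ⟨(⟨c, σ⟩, ⟨i, hi⟩), hp, hq⟩
    have e2 := hy.vc_uI (t := t) ⟨(⟨c, σ⟩, ⟨i, hi⟩), hp, hq⟩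
    have e3 := hy.vc_uS (t := t) ⟨(⟨c, σ⟩, ⟨i, hi⟩), hp, hq⟩
    simp only at e1 e2 e3
    unfold okN
    rw [e1, e2, e3, hy.cnt_eq]
    refine ⟨(hy.isC_iff _).mpr ⟨c, rfl⟩, Nat.div_eq_of_lt (hy.sOf_lt _ _),
      (pend_iff hy (c := c) hy.W_pos).mp hq, fun hB => ?_⟩
    obtain ⟨v, rfl⟩ := (hy.isB_iff _).mp hB
    have h1 : ∑ e, σ e = t v := hp
    rw [hy.sum_bits, ← hy.par_eq v, ZMod.natCast_eq_natCast_iff',
      Nat.mod_eq_of_lt (hy.par_lt v)] at h1
    exact h1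

/-- Adjacency of nodes on numbers. -/
lemma nodeAdj_iff {c c' : BV ⊕ Pr} {σ : ↥(edgesOf B Fr c) → ZMod 2}
    {σ' : ↥(edgesOf B Fr c') → ZMod 2} :
    nodeAdj B Fr ⟨c, σ⟩ ⟨c', σ'⟩ ↔
      PendData.cl (B := B) (Fr := Fr) c ≠ PendData.cl (B := B) (Fr := Fr) c' ∧
      (∃ y, y < EE ∧ InE (PendData.cl (B := B) (Fr := Fr) c) y ∧
        InE (PendData.cl (B := B) (Fr := Fr) c') y) ∧
      ∀ y, y < EE → InE (PendData.cl (B := B) (Fr := Fr) c) y →
        InE (PendData.cl (B := B) (Fr := Fr) c') y →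
        (bitP (hy.sOf c σ) (posN InE (PendData.cl (B := B) (Fr := Fr) c) y) ↔
          bitP (hy.sOf c' σ') (posN InE (PendData.cl (B := B) (Fr := Fr) c') y)) := by
  unfold nodeAdj
  simp only
  constructor
  · rintro ⟨h1, ⟨e, he, he'⟩, h3⟩
    refine ⟨fun h => h1 (hy.cl_inj h), ⟨eid e, hy.eid_lt e, (hy.inE_iff _ _).mpr ⟨e, he, rfl⟩,
      (hy.inE_iff _ _).mpr ⟨e, he', rfl⟩⟩, ?_⟩
    intro y _ hy1 hy2
    obtain ⟨e1, he1, rfl⟩ := (hy.inE_iff _ _).mp hy1
    obtain ⟨e2, he2, e3⟩ := (hy.inE_iff _ _).mp hy2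
    have e4 := hy.eid_inj e3
    subst e4
    have a1 := hy.bitZ_sOf c σ ⟨e2, he1⟩
    have a2 := hy.bitZ_sOf c' σ' ⟨e2, he2⟩
    simp only at a1 a2
    rw [← bitZ_eq_one, ← bitZ_eq_one, a1, a2, h3 e2 he1 he2]
  · rintro ⟨h1, ⟨y, _, hy1, hy2⟩, h3⟩
    refine ⟨fun h => h1 (by rw [h]), ?_, ?_⟩
    · obtain ⟨e1, he1, rfl⟩ := (hy.inE_iff _ _).mp hy1
      obtain ⟨e2, he2, e3⟩ := (hy.inE_iff _ _).mp hy2
      have e4 := hy.eid_inj e3
      subst e4
      exact ⟨e2, he1, he2⟩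
    · intro e he he'
      have h4 := h3 (eid e) (hy.eid_lt e) ((hy.inE_iff _ _).mpr ⟨e, he, rfl⟩)
        ((hy.inE_iff _ _).mpr ⟨e, he', rfl⟩)
      rw [← bitZ_eq_one, ← bitZ_eq_one] at h4
      have a1 := hy.bitZ_sOf c σ ⟨e, he⟩
      have a2 := hy.bitZ_sOf c' σ' ⟨e, he'⟩
      simp only at a1 a2
      rw [a1, a2] at h4
      exact zmod2_ext h4

/-- Adjacency of vertices on numbers. -/
theorem adj_iff (a b : VT B Fr t) :
    (vtGraph B Fr t).Adj a b ↔
      adjN InE CC (pendMax B Fr + 1) EE (hy.vc a) (hy.vc b) := by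
  unfold adjN
  rw [hy.vc_uM, hy.vc_uM, hy.vc_uI, hy.vc_uI, hy.vc_uS, hy.vc_uS]
  obtain ⟨⟨⟨c, σ⟩, ⟨i, hi⟩⟩, hp, hq⟩ := a
  obtain ⟨⟨⟨c', σ'⟩, ⟨i', hi'⟩⟩, hp', hq'⟩ := b
  show (ambGraph B Fr).Adj _ _ ↔ _
  unfold ambGraph
  simp only
  rw [hy.nodeAdj_iff (c := c) (c' := c')]
  constructor
  · rintro (⟨h1, h2, h3, h4, h5⟩ | ⟨h1, h2⟩)
    · exact Or.inl ⟨h1, h2, h3, h4, h5⟩
    · have e1 : c = c' := congrArg Sigma.fst h1
      subst e1
      have e2 : σ = σ' := eq_of_heq (Sigma.mk.inj h1).2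
      subst e2
      exact Or.inr ⟨rfl, rfl, h2⟩
  · rintro (⟨h1, h2, h3, h4, h5⟩ | ⟨h1, h2, h3⟩)
    · exact Or.inl ⟨h1, h2, h3, h4, h5⟩
    · have e1 := hy.cl_inj h1
      subst e1
      have e2 := hy.sOf_inj c h2
      subst e2
      exact Or.inr ⟨rfl, h3⟩

end GLHyp

end Abstract

end Vale.Agent.Lib.P310V
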