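import Vale.Agent.Lib.P310V.Lang

set_option linter.unusedSectionVars false
set_option linter.unusedTactic false
set_option linter.unreachableTactic false

/-!
Correctness of the compilation of expressions to counter programs.
-/

namespace Vale.Agent.Lib.P310V

/-- The state in which the program of an expression runs. -/
structure Good (C : Cx) (π ρ : ℕ → ℕ) (f : ℕ) (σ : Mem) : Prop where
  cap : σ.r 0 = C.W
  le : ∀ j, σ.r j ≤ C.W
  top : ∀ j, f ≤ j → σ.r j = 0
  pi : ∀ i, π i < f ∧ π i ≠ 0 ∧ σ.r (π i) = C.Pi i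
  rho : ∀ j, ρ j < f ∧ ρ j ≠ 0

section Good

variable {C : Cx} {π ρ : ℕ → ℕ} {f : ℕ} {σ : Mem}

lemma Good.f_ne (h : Good C π ρ f σ) : f ≠ 0 := by
  have := (h.rho 0).1
  omega

lemma Good.next (h : Good C π ρ f σ) {v : ℕ} (hv : v ≤ C.W) : Good C π ρ (f + 1) (σ.set f v) where
  cap := by
    rw [Mem.set_r, if_neg (Ne.symm h.f_ne)]
    exact h.cap
  le := fun j => by
    rw [Mem.set_r]
    split_ifs
    · exact hv
    · exact h.le j
  top := fun j hj => by
    rw [Mem.set_r, if_neg (by omega)]
    exact h.top j (by omega)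
  pi := fun i => by
    obtain ⟨h1, h2, h3⟩ := h.pi i
    refine ⟨by omega, h2, ?_⟩
    rw [Mem.set_r, if_neg (by omega)]
    exact h3
  rho := fun j => by
    obtain ⟨h1, h2⟩ := h.rho j
    exact ⟨by omega, h2⟩

lemma Good.env (h : Good C π ρ f σ) (v : ℕ) :
    (fun j => (σ.set f v).r (ρ j)) = fun j => σ.r (ρ j) := by
  funext j
  have := (h.rho j).1
  rw [Mem.set_r, if_neg (by omega)]

end Good

/-- The registers are below the cap in register 0. -/
def Cp (W : ℕ) (τ : Mem) : Prop := τ.r 0 = W ∧ ∀ j, τ.r j ≤ W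

lemma Cp.set {W : ℕ} {τ : Mem} (h : Cp W τ) {i v : ℕ} (hi : i ≠ 0) (hv : v ≤ W) : Cp W (τ.set i v) := by
  refine ⟨?_, fun j => ?_⟩
  · rw [Mem.set_r, if_neg (Ne.symm hi)]
    exact h.1
  · rw [Mem.set_r]
    split_ifs
    · exact hv
    · exact h.2 j

section

variable {m V W : ℕ} {x : ℕ → Option Bool} {τ : Mem}

lemma ex_clear_cp (h : Cp W τ) (hWV : W ≤ V) {r : ℕ} (hr : r < m) :
    Ex m V x (clearS r) τ (τ.set r 0) (2 * W + 1) := by
  have := h.2 r
  exact (ex_clear hr (by omega)).mono (by omega)

lemma ex_read0 {i : ℕ} {s0 s1 s2 : Stmt} {σ σ₁ : Mem} {c : ℕ} (hi : i < m) (hv : σ.r i ≤ V)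
    (hx : x (σ.r i) = some false) (h : Ex m V x s0 σ σ₁ c) :
    Ex m V x (Stmt.read i s0 s1 s2) σ σ₁ (c + 1) := by
  obtain ⟨t, h1, e⟩ := h
  exact ⟨t + 1, by omega, Exec.read0 hi hv hx e⟩

lemma ex_read1 {i : ℕ} {s0 s1 s2 : Stmt} {σ σ₁ : Mem} {c : ℕ} (hi : i < m) (hv : σ.r i ≤ V)
    (hx : x (σ.r i) = some true) (h : Ex m V x s1 σ σ₁ c) :
    Ex m V x (Stmt.read i s0 s1 s2) σ σ₁ (c + 1) := by
  obtain ⟨t, h1, e⟩ := h
  exact ⟨t + 1, by omega, Exec.read1 hi hv hx e⟩

lemma ex_read2 {i : ℕ} {s0 s1 s2 : Stmt} {σ σ₁ : Mem} {c : ℕ} (hi : i < m) (hv : σ.r i ≤ V)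
    (hx : x (σ.r i) = none) (h : Ex m V x s2 σ σ₁ c) :
    Ex m V x (Stmt.read i s0 s1 s2) σ σ₁ (c + 1) := by
  obtain ⟨t, h1, e⟩ := h
  exact ⟨t + 1, by omega, Exec.read2 hi hv hx e⟩

end

lemma iter_le {W : ℕ} {f : ℕ → ℕ → ℕ} {z : ℕ} (hz : z ≤ W) (hf : ∀ i a, f i a ≤ W) (k : ℕ) :
    iter f z k ≤ W := by
  cases k with
  | zero => exact hz
  | succ k => exact hf _ _

/-- The program of an expression computes its value. -/
theorem gen_spec (C : Cx) {m V : ℕ} (hV : C.W ≤ V) (π : ℕ → ℕ) (e : E) :
    ∀ (ρ : ℕ → ℕ) (f : ℕ) (σ : Mem), Good C π ρ f σ → f + wd e ≤ m →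
      Ex m V C.x (gen π e ρ f) σ (σ.set f (eval C e (fun j => σ.r (ρ j)))) (cost C.W e) := by
  induction e with
  | var i =>
    intro ρ f σ hg hm
    have hw : wd (E.var i) = 2 := rfl
    rw [hw] at hm
    obtain ⟨h1, h2⟩ := hg.rho i
    have e1 : eval C (E.var i) (fun j => σ.r (ρ j)) = σ.r (ρ i) := min_eq_left (hg.le _)
    rw [e1]
    exact ex_copy (by omega) (by omega) (by omega) (by omega) (by omega) (by omega) h2 hg.f_ne
      (by have := hg.f_ne; omega) hg.cap hV (hg.le _) (hg.top _ le_rfl) (hg.top _ (by omega))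
  | par i =>
    intro ρ f σ hg hm
    have hw : wd (E.par i) = 2 := rfl
    rw [hw] at hm
    obtain ⟨h1, h2, h3⟩ := hg.pi i
    have e1 : eval C (E.par i) (fun j => σ.r (ρ j)) = σ.r (π i) := by
      show min (C.Pi i) C.W = _
      rw [← h3]
      exact min_eq_left (hg.le _)
    rw [e1]
    exact ex_copy (by omega) (by omega) (by omega) (by omega) (by omega) (by omega) h2 hg.f_ne
      (by have := hg.f_ne; omega) hg.cap hV (hg.le _) (hg.top _ le_rfl) (hg.top _ (by omega))
  | zero =>
    intro ρ f σ hg hm
    have hw : wd E.zero = 1 := rfl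
    rw [hw] at hm
    have h0 := hg.top f le_rfl
    have := ex_dec (m := m) (V := V) (x := C.x) (σ := σ) (i := f) (by omega) (by omega)
    rw [h0] at this
    exact this
  | succ a ih =>
    intro ρ f σ hg hm
    have hw : wd (E.succ a) = wd a := rfl
    rw [hw] at hm
    have h1 := ih ρ f σ hg hm
    have hp := wd_pos a
    have hv := eval_le C a (fun j => σ.r (ρ j))
    have h2 := ex_inc (m := m) (V := V) (x := C.x)
      (σ := σ.set f (eval C a fun j => σ.r (ρ j))) (i := f) (by omega)
      (by
        rw [Mem.set_r, if_pos rfl]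
        omega) hg.f_ne
    have e1 : (σ.set f (eval C a fun j => σ.r (ρ j))).r 0 = C.W := by
      rw [Mem.set_r, if_neg (Ne.symm hg.f_ne)]
      exact hg.cap
    have e2 : (σ.set f (eval C a fun j => σ.r (ρ j))).r f = eval C a fun j => σ.r (ρ j) := by
      rw [Mem.set_r, if_pos rfl]
    rw [e1, e2, Mem.set_set] at h2
    exact h1.seq h2
  | pred a ih =>
    intro ρ f σ hg hm
    have hw : wd (E.pred a) = wd a := rfl
    rw [hw] at hm
    have h1 := ih ρ f σ hg hm
    have hp := wd_pos a
    have hv := eval_le C a (fun j => σ.r (ρ j))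
    have e2 : (σ.set f (eval C a fun j => σ.r (ρ j))).r f = eval C a fun j => σ.r (ρ j) := by
      rw [Mem.set_r, if_pos rfl]
    have h2 := ex_dec (m := m) (V := V) (x := C.x)
      (σ := σ.set f (eval C a fun j => σ.r (ρ j))) (i := f) (by omega) (by rw [e2]; omega)
    rw [e2, Mem.set_set] at h2
    exact h1.seq h2
  | ite c a b ihc iha ihb =>
    intro ρ f σ hg hm
    have hw : wd (E.ite c a b) = max (wd c) (max (wd a) (wd b)) := rfl
    rw [hw] at hm
    have h1 := ihc ρ f σ hg (by omega)
    have hp := wd_pos c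
    have hv := eval_le C c (fun j => σ.r (ρ j))
    have e0 := hg.top f le_rfl
    by_cases hc : eval C c (fun j => σ.r (ρ j)) = 0
    · have e1 : σ.set f (eval C c fun j => σ.r (ρ j)) = σ := by
        rw [hc]
        exact Mem.set_eq_self e0
      rw [e1] at h1
      have h2 := ihb ρ f σ hg (by omega)
      have h3 := Ex.ifzT (m := m) (V := V) (x := C.x) (t := Stmt.seq (clearS f) (gen π a ρ f))
        (i := f) (by omega) e0 h2
      have e2 : eval C (E.ite c a b) (fun j => σ.r (ρ j)) = eval C b (fun j => σ.r (ρ j)) := by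
        simp only [eval, hc, ne_eq, not_true_eq_false, if_false]
      rw [e2]
      refine (h1.seq h3).mono ?_
      simp only [cost]
      omega
    · have hc1 : Cp C.W (σ.set f (eval C c fun j => σ.r (ρ j))) :=
        Cp.set ⟨hg.cap, hg.le⟩ hg.f_ne hv
      have e3 : (σ.set f (eval C c fun j => σ.r (ρ j))).r f = eval C c fun j => σ.r (ρ j) := by
        rw [Mem.set_r, if_pos rfl]
      have h2 := ex_clear_cp (m := m) (x := C.x) hc1 hV (r := f) (by omega)
      rw [Mem.set_set, Mem.set_eq_self e0] at h2
      have h3 := iha ρ f σ hg (by omega)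
      have h4 := Ex.ifzF (m := m) (V := V) (x := C.x) (s := gen π b ρ f)
        (σ := σ.set f (eval C c fun j => σ.r (ρ j))) (i := f) (by omega)
        (by rw [e3]; exact hc) (h2.seq h3)
      have e2 : eval C (E.ite c a b) (fun j => σ.r (ρ j)) = eval C a (fun j => σ.r (ρ j)) := by
        simp only [eval, hc, ne_eq, not_false_eq_true, if_true]
      rw [e2]
      refine (h1.seq h4).mono ?_
      simp only [cost]
      omega
  | inp a ih =>
    intro ρ f σ hg hm
    have hw : wd (E.inp a) = wd a := rfl
    rw [hw] at hm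
    have h1 := ih ρ f σ hg hm
    have hp := wd_pos a
    have hv := eval_le C a (fun j => σ.r (ρ j))
    have e0 := hg.top f le_rfl
    have hW2 := C.hW
    have hc1 : Cp C.W (σ.set f (eval C a fun j => σ.r (ρ j))) :=
      Cp.set ⟨hg.cap, hg.le⟩ hg.f_ne hv
    have e3 : (σ.set f (eval C a fun j => σ.r (ρ j))).r f = eval C a fun j => σ.r (ρ j) := by
      rw [Mem.set_r, if_pos rfl]
    have hc2 := ex_clear_cp (m := m) (x := C.x) hc1 hV (r := f) (by omega)
    rw [Mem.set_set, Mem.set_eq_self e0] at hc2
    have hcap := hg.cap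
    have hinc1 := ex_inc_lt (m := m) (V := V) (x := C.x) (σ := σ) (i := f) (by omega) (by omega)
      hg.f_ne (by omega)
    rw [e0] at hinc1
    have e5 : (σ.set f (0 + 1)).r f = 1 := by
      rw [Mem.set_r, if_pos rfl]
    have e6 : (σ.set f (0 + 1)).r 0 = C.W := by
      rw [Mem.set_r, if_neg (Ne.symm hg.f_ne)]
      exact hcap
    have hinc2 := ex_inc_lt (m := m) (V := V) (x := C.x) (σ := σ.set f (0 + 1)) (i := f) (by omega)
      (by rw [e5]; omega) hg.f_ne (by rw [e5, e6]; omega)
    rw [e5, Mem.set_set] at hinc2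
    cases hx : C.x (eval C a fun j => σ.r (ρ j)) with
    | none =>
      have e2 : eval C (E.inp a) (fun j => σ.r (ρ j)) = 2 := by
        simp only [eval, hx]
      rw [e2]
      have h3 := ex_read2 (s0 := clearS f) (s1 := Stmt.seq (clearS f) (Stmt.inc f))
        (σ := σ.set f (eval C a fun j => σ.r (ρ j))) (i := f) (by omega) (by rw [e3]; omega)
        (by rw [e3]; exact hx) (hc2.seq (hinc1.seq hinc2))
      refine (h1.seq h3).mono ?_
      simp only [cost]
      omega
    | some b =>
      cases b with
      | false =>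
        have e2 : eval C (E.inp a) (fun j => σ.r (ρ j)) = 0 := by
          simp only [eval, hx]
        rw [e2]
        have h3 := ex_read0 (s1 := Stmt.seq (clearS f) (Stmt.inc f))
          (s2 := Stmt.seq (clearS f) (Stmt.seq (Stmt.inc f) (Stmt.inc f)))
          (σ := σ.set f (eval C a fun j => σ.r (ρ j))) (i := f) (by omega) (by rw [e3]; omega)
          (by rw [e3]; exact hx) hc2
        have e4 : σ.set f 0 = σ := Mem.set_eq_self e0
        rw [e4]
        refine (h1.seq h3).mono ?_
        simp only [cost]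
        omega
      | true =>
        have e2 : eval C (E.inp a) (fun j => σ.r (ρ j)) = 1 := by
          simp only [eval, hx]
        rw [e2]
        have h3 := ex_read1 (s0 := clearS f)
          (s2 := Stmt.seq (clearS f) (Stmt.seq (Stmt.inc f) (Stmt.inc f)))
          (σ := σ.set f (eval C a fun j => σ.r (ρ j))) (i := f) (by omega) (by rw [e3]; omega)
          (by rw [e3]; exact hx) (hc2.seq hinc1)
        refine (h1.seq h3).mono ?_
        simp only [cost]
        omega
  | fold n z s ihn ihz ihs =>
    intro ρ f σ hg hm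
    have hw : wd (E.fold n z s) = max (wd z) (max (2 + wd n) (3 + wd s)) := rfl
    rw [hw] at hm
    have hpn := wd_pos n
    have hps := wd_pos s
    have hf0 := hg.f_ne
    have hcap := hg.cap
    have top0 := hg.top f le_rfl
    have top1 := hg.top (f + 1) (by omega)
    have top2 := hg.top (f + 2) (by omega)
    have top3 := hg.top (f + 3) (by omega)
    set env : ℕ → ℕ := fun j => σ.r (ρ j) with henv
    set Z := eval C z env with hZ
    set N := eval C n env with hN
    have hNW : N ≤ C.W := eval_le _ _ _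
    have hZW : Z ≤ C.W := eval_le _ _ _
    let acc : ℕ → ℕ := iter (fun i a => eval C s (push2 a i env)) Z
    have haccW : ∀ k, acc k ≤ C.W := fun k => iter_le hZW (fun _ _ => eval_le _ _ _) k
    have h1 : Ex m V C.x (gen π z ρ f) σ (σ.set f Z) (cost C.W z) := ihz ρ f σ hg (by omega)
    have g1 : Good C π ρ (f + 2) (σ.set f Z) := by
      have g := hg.next hZW
      refine ⟨g.cap, g.le, fun j hj => g.top j (by omega), fun i => ?_, fun j => ?_⟩
      · obtain ⟨a1, a2, a3⟩ := g.pi i
        exact ⟨by omega, a2, a3⟩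
      · obtain ⟨a1, a2⟩ := g.rho j
        exact ⟨by omega, a2⟩
    have h2 : Ex m V C.x (gen π n ρ (f + 2)) (σ.set f Z) ((σ.set f Z).set (f + 2) N) (cost C.W n) := by
      have := ihn ρ (f + 2) (σ.set f Z) g1 (by omega)
      rw [hg.env Z] at this
      exact this
    let P : ℕ → Mem := fun k => ((σ.set f (acc (N - k))).set (f + 1) (N - k)).set (f + 2) k
    have hPr : ∀ k j, (P k).r j = if j = f + 2 then k else if j = f + 1 then N - k else
        if j = f then acc (N - k) else σ.r j := by
      intro k j
      simp only [P, Mem.set_r]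
    have hPN : P N = (σ.set f Z).set (f + 2) N := by
      refine mem_eq rfl fun j => ?_
      rw [hPr]
      simp only [Mem.set_r, Nat.sub_self]
      split_ifs <;> first | rfl | omega | (subst_vars; omega)
    have hbody : ∀ k, k < N → Ex m V C.x
        (Stmt.seq (Stmt.dec (f + 2)) (Stmt.seq (gen π s (push2 f (f + 1) ρ) (f + 3))
          (Stmt.seq (clearS f) (Stmt.seq (moveS (f + 3) f) (Stmt.inc (f + 1))))))
        (P (k + 1)) (P k) (1 + cost C.W s + (2 * C.W + 1) + (3 * C.W + 1) + 1) := by
      intro k hk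
      set j := N - (k + 1) with hj
      have hj1 : N - k = j + 1 := by omega
      have e0 : (P (k + 1)).r (f + 2) = k + 1 := by rw [hPr, if_pos rfl]
      have s1 := ex_dec (m := m) (V := V) (x := C.x) (σ := P (k + 1)) (i := f + 2) (by omega)
        (by rw [e0]; omega)
      rw [e0] at s1
      set Q₀ := (P (k + 1)).set (f + 2) (k + 1 - 1) with hQ₀
      have hQ₀r : ∀ t, Q₀.r t = if t = f + 2 then k else if t = f + 1 then j else
          if t = f then acc j else σ.r t := by
        intro t
        rw [hQ₀, Mem.set_r, hPr]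
        split_ifs <;> first | omega | rfl
      have g2 : Good C π (push2 f (f + 1) ρ) (f + 3) Q₀ := by
        refine ⟨?_, fun t => ?_, fun t ht => ?_, fun i => ?_, fun t => ?_⟩
        · rw [hQ₀r, if_neg (by omega), if_neg (by omega), if_neg (by omega)]
          exact hcap
        · rw [hQ₀r]
          split_ifs
          · omega
          · omega
          · exact haccW j
          · exact hg.le t
        · rw [hQ₀r, if_neg (by omega), if_neg (by omega), if_neg (by omega)]
          exact hg.top t (by omega)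
        · obtain ⟨a1, a2, a3⟩ := hg.pi i
          refine ⟨by omega, a2, ?_⟩
          rw [hQ₀r, if_neg (by omega), if_neg (by omega), if_neg (by omega)]
          exact a3
        · match t with
          | 0 => exact ⟨by simp [push2], by simpa [push2] using hf0⟩
          | 1 => exact ⟨by simp [push2], by simp [push2]⟩
          | t + 2 =>
            obtain ⟨a1, a2⟩ := hg.rho t
            exact ⟨by simp only [push2]; omega, by simpa only [push2] using a2⟩
      have henv' : (fun t => Q₀.r (push2 f (f + 1) ρ t)) = push2 (acc j) j env := by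
        funext t
        match t with
        | 0 =>
          simp only [push2]
          rw [hQ₀r, if_neg (by omega), if_neg (by omega), if_pos rfl]
        | 1 =>
          simp only [push2]
          rw [hQ₀r, if_neg (by omega), if_pos rfl]
        | t + 2 =>
          simp only [push2]
          have := (hg.rho t).1
          rw [hQ₀r, if_neg (by omega), if_neg (by omega), if_neg (by omega)]
      have s2 := ihs (push2 f (f + 1) ρ) (f + 3) Q₀ g2 (by omega)
      rw [henv'] at s2
      have eA : eval C s (push2 (acc j) j env) = acc (j + 1) := rfl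
      rw [eA] at s2
      set A := acc (j + 1) with hA
      have hAW : A ≤ C.W := haccW _
      have cp1 : Cp C.W (Q₀.set (f + 3) A) := Cp.set ⟨g2.cap, g2.le⟩ (by omega) hAW
      have s3 := ex_clear_cp (m := m) (x := C.x) cp1 hV (r := f) (by omega)
      have cp2 : Cp C.W ((Q₀.set (f + 3) A).set f 0) := cp1.set hf0 (by omega)
      have s4 := ex_move (m := m) (V := V) (x := C.x) (σ := (Q₀.set (f + 3) A).set f 0)
        (r := f + 3) (t := f) (W := C.W) (by omega) (by omega) (by omega) (by omega) hf0 cp2.1 hV
        (by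
          simp [Mem.set_r, hf0]
          omega)
      set Q₃ := (((Q₀.set (f + 3) A).set f 0).set (f + 3) 0).set f
        (((Q₀.set (f + 3) A).set f 0).r (f + 3) + ((Q₀.set (f + 3) A).set f 0).r f) with hQ₃
      have hQ₃r : ∀ t, Q₃.r t = if t = f then A else if t = f + 3 then 0 else Q₀.r t := by
        intro t
        rw [hQ₃]
        simp only [Mem.set_r]
        split_ifs <;> first | omega | rfl
      have s5 := ex_inc_lt (m := m) (V := V) (x := C.x) (σ := Q₃) (i := f + 1) (by omega)
        (by
          rw [hQ₃r, if_neg (by omega), if_neg (by omega), hQ₀r, if_neg (by omega), if_pos rfl]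
          omega) (by omega)
        (by
          rw [hQ₃r, hQ₃r, if_neg (by omega), if_neg (by omega), hQ₀r, if_neg (by omega), if_pos rfl,
            if_neg (Ne.symm hf0), if_neg (by omega), hQ₀r, if_neg (by omega), if_neg (by omega),
            if_neg (Ne.symm hf0), hcap]
          omega)
      have e9 : Q₃.set (f + 1) (Q₃.r (f + 1) + 1) = P k := by
        refine mem_eq rfl fun t => ?_
        rw [Mem.set_r, hPr, hQ₃r, hQ₃r, hQ₀r, hQ₀r, hj1]
        split_ifs <;> first | omega | rfl | (subst_vars; omega)
      rw [e9] at s5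
      exact ((s1.seq (s2.seq (s3.seq (s4.seq s5))))).mono (by omega)
    have hloop := Ex.loop (P := P) (i := f + 2) (v := N) (by omega)
      (fun k _ => by rw [hPr, if_pos rfl]) hbody
    rw [hPN] at hloop
    have cp3 : Cp C.W (P 0) := by
      refine ⟨?_, fun t => ?_⟩
      · rw [hPr, if_neg (by omega), if_neg (by omega), if_neg (by omega)]
        exact hcap
      · rw [hPr]
        split_ifs
        · omega
        · omega
        · exact haccW _
        · exact hg.le t
    have h5 := ex_clear_cp (m := m) (x := C.x) cp3 hV (r := f + 1) (by omega)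
    have e10 : (P 0).set (f + 1) 0 = σ.set f (eval C (E.fold n z s) env) := by
      have e11 : eval C (E.fold n z s) env = acc N := rfl
      rw [e11]
      refine mem_eq rfl fun t => ?_
      rw [Mem.set_r, hPr, Mem.set_r]
      split_ifs <;> first | omega | rfl | (subst_vars; omega)
    rw [e10] at h5
    refine (h1.seq (h2.seq (hloop.seq h5))).mono ?_
    simp only [cost]
    have : N * (1 + cost C.W s + (2 * C.W + 1) + (3 * C.W + 1) + 1 + 1) ≤
        C.W * (1 + cost C.W s + (2 * C.W + 1) + (3 * C.W + 1) + 1 + 1) :=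
      Nat.mul_le_mul_right _ hNW
    omega
  | call g a0 a1 a2 a3 a4 a5 ihg ih0 ih1 ih2 ih3 ih4 ih5 =>
    intro ρ f σ hg hm
    have hw : wd (E.call g a0 a1 a2 a3 a4 a5) = max (wd a0) (max (1 + wd a1) (max (2 + wd a2)
        (max (3 + wd a3) (max (4 + wd a4) (max (5 + wd a5) (6 + wd g)))))) := rfl
    rw [hw] at hm
    have hpg := wd_pos g
    have hf0 := hg.f_ne
    set env : ℕ → ℕ := fun j => σ.r (ρ j) with henv
    set v0 := eval C a0 env with hv0
    set v1 := eval C a1 env with hv1
    set v2 := eval C a2 env with hv2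
    set v3 := eval C a3 env with hv3
    set v4 := eval C a4 env with hv4
    set v5 := eval C a5 env with hv5
    have h0 : Ex m V C.x (gen π a0 ρ f) σ (σ.set f v0) (cost C.W a0) := ih0 ρ f σ hg (by omega)
    have g0 := hg.next (eval_le C a0 env)
    have e0 := hg.env v0
    have h1 : Ex m V C.x (gen π a1 ρ (f + 1)) (σ.set f v0) ((σ.set f v0).set (f + 1) v1)
        (cost C.W a1) := by
      have := ih1 ρ (f + 1) (σ.set f v0) g0 (by omega)
      rwa [e0] at this
    have g1 := g0.next (eval_le C a1 env)
    have e1 := g0.env v1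
    rw [e0] at e1
    have h2 : Ex m V C.x (gen π a2 ρ (f + 2)) ((σ.set f v0).set (f + 1) v1)
        (((σ.set f v0).set (f + 1) v1).set (f + 2) v2) (cost C.W a2) := by
      have := ih2 ρ (f + 2) _ g1 (by omega)
      rwa [e1] at this
    have g2 := g1.next (eval_le C a2 env)
    have e2 := g1.env v2
    rw [e1] at e2
    have h3 : Ex m V C.x (gen π a3 ρ (f + 3)) (((σ.set f v0).set (f + 1) v1).set (f + 2) v2)
        ((((σ.set f v0).set (f + 1) v1).set (f + 2) v2).set (f + 3) v3) (cost C.W a3) := by
      have := ih3 ρ (f + 3) _ g2 (by omega)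
      rwa [e2] at this
    have g3 := g2.next (eval_le C a3 env)
    have e3 := g2.env v3
    rw [e2] at e3
    have h4 : Ex m V C.x (gen π a4 ρ (f + 4)) (((((σ.set f v0).set (f + 1) v1).set (f + 2) v2).set
        (f + 3) v3)) ((((((σ.set f v0).set (f + 1) v1).set (f + 2) v2).set (f + 3) v3)).set (f + 4) v4)
        (cost C.W a4) := by
      have := ih4 ρ (f + 4) _ g3 (by omega)
      rwa [e3] at this
    have g4 := g3.next (eval_le C a4 env)
    have e4 := g3.env v4
    rw [e3] at e4
    have h5 : Ex m V C.x (gen π a5 ρ (f + 5)) ((((((σ.set f v0).set (f + 1) v1).set (f + 2) v2).set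
        (f + 3) v3)).set (f + 4) v4) (((((((σ.set f v0).set (f + 1) v1).set (f + 2) v2).set (f + 3)
          v3)).set (f + 4) v4).set (f + 5) v5) (cost C.W a5) := by
      have := ih5 ρ (f + 5) _ g4 (by omega)
      rwa [e4] at this
    have g5 := g4.next (eval_le C a5 env)
    set σ₅ := (((((σ.set f v0).set (f + 1) v1).set (f + 2) v2).set (f + 3) v3).set (f + 4) v4).set
      (f + 5) v5 with hσ₅
    have g6 : Good C π (fun j => f + min j 5) (f + 6) σ₅ := by
      refine ⟨g5.cap, g5.le, g5.top, g5.pi, fun j => ?_⟩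
      have : min j 5 ≤ 5 := min_le_right _ _
      exact ⟨by omega, by omega⟩
    have hσ₅r : ∀ t, σ₅.r t = if t = f + 5 then v5 else if t = f + 4 then v4 else if t = f + 3 then v3
        else if t = f + 2 then v2 else if t = f + 1 then v1 else if t = f then v0 else σ.r t := by
      intro t
      simp only [hσ₅, Mem.set_r]
    have e6 : (fun j => σ₅.r (f + min j 5)) = frame v0 v1 v2 v3 v4 v5 := by
      funext j
      match j with
      | 0 =>
        simp only [frame, hσ₅r]
        simp
      | 1 =>
        simp only [frame, hσ₅r]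
        simp
      | 2 =>
        simp only [frame, hσ₅r]
        simp
      | 3 =>
        simp only [frame, hσ₅r]
        simp
      | 4 =>
        simp only [frame, hσ₅r]
        simp
      | j + 5 =>
        have : min (j + 5) 5 = 5 := by omega
        simp only [frame, hσ₅r, this]
        simp
    have h6 := ihg (fun j => f + min j 5) (f + 6) σ₅ g6 (by omega)
    rw [e6] at h6
    set R := eval C g (frame v0 v1 v2 v3 v4 v5) with hR
    have hRW : R ≤ C.W := eval_le _ _ _
    have cp0 : Cp C.W (σ₅.set (f + 6) R) := Cp.set ⟨g5.cap, g5.le⟩ (by omega) hRW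
    have c0 := ex_clear_cp (m := m) (x := C.x) cp0 hV (r := f) (by omega)
    have cp1 := cp0.set (i := f) hf0 (v := 0) (by omega)
    have c1 := ex_clear_cp (m := m) (x := C.x) cp1 hV (r := f + 1) (by omega)
    have cp2 := cp1.set (i := f + 1) (by omega) (v := 0) (by omega)
    have c2 := ex_clear_cp (m := m) (x := C.x) cp2 hV (r := f + 2) (by omega)
    have cp3 := cp2.set (i := f + 2) (by omega) (v := 0) (by omega)
    have c3 := ex_clear_cp (m := m) (x := C.x) cp3 hV (r := f + 3) (by omega)
    have cp4 := cp3.set (i := f + 3) (by omega) (v := 0) (by omega)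
    have c4 := ex_clear_cp (m := m) (x := C.x) cp4 hV (r := f + 4) (by omega)
    have cp5 := cp4.set (i := f + 4) (by omega) (v := 0) (by omega)
    have c5 := ex_clear_cp (m := m) (x := C.x) cp5 hV (r := f + 5) (by omega)
    have cp6 := cp5.set (i := f + 5) (by omega) (v := 0) (by omega)
    set σ₆ := (((((((σ₅.set (f + 6) R).set f 0).set (f + 1) 0).set (f + 2) 0).set (f + 3) 0).set
      (f + 4) 0).set (f + 5) 0) with hσ₆
    have hσ₆r : ∀ t, σ₆.r t = if t = f + 5 then 0 else if t = f + 4 then 0 else if t = f + 3 then 0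
        else if t = f + 2 then 0 else if t = f + 1 then 0 else if t = f then 0 else
        if t = f + 6 then R else σ₅.r t := by
      intro t
      simp only [hσ₆, Mem.set_r]
    have c6 := ex_move (m := m) (V := V) (x := C.x) (σ := σ₆) (r := f + 6) (t := f) (W := C.W)
      (by omega) (by omega) (by omega) (by omega) hf0 cp6.1 hV
      (by
        rw [hσ₆r, hσ₆r]
        simp
        omega)
    have e7 : (σ₆.set (f + 6) 0).set f (σ₆.r (f + 6) + σ₆.r f) = σ.set f R := by
      refine mem_eq rfl fun t => ?_
      simp only [Mem.set_r, hσ₆r, hσ₅r]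
      have t1 := hg.top
      by_cases a1 : t = f
      · subst a1
        simp
      · rw [if_neg a1]
        by_cases a2 : t = f + 6
        · subst a2
          simp [a1]
          exact (t1 _ (by omega)).symm
        · rw [if_neg a2, if_neg a1]
          split_ifs <;> first | omega | rfl | (subst_vars; exact (t1 _ (by omega)).symm)
    rw [e7] at c6
    have e8 : eval C (E.call g a0 a1 a2 a3 a4 a5) env = R := rfl
    rw [e8]
    refine (h0.seq (h1.seq (h2.seq (h3.seq (h4.seq (h5.seq (h6.seq (c0.seq (c1.seq (c2.seq (c3.seq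
      (c4.seq (c5.seq c6))))))))))))).mono ?_
    simp only [cost]
    omega

/-- The nesting depth of recursion. -/
def dep : E → ℕ
  | E.var _ => 1
  | E.par _ => 1
  | E.zero => 1
  | E.succ a => dep a
  | E.pred a => dep a
  | E.ite c a b => max (dep c) (max (dep a) (dep b))
  | E.inp a => dep a
  | E.fold n z s => max (dep z) (max (dep n) (dep s + 1))
  | E.call g a0 a1 a2 a3 a4 a5 =>
      max (dep g) (max (dep a0) (max (dep a1) (max (dep a2) (max (dep a3) (max (dep a4) (dep a5))))))

/-- The constant of the number of operations. -/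
def costK : E → ℕ
  | E.var _ => 9
  | E.par _ => 9
  | E.zero => 1
  | E.succ a => costK a + 1
  | E.pred a => costK a + 1
  | E.ite c a b => costK c + costK a + costK b + 4
  | E.inp a => costK a + 6
  | E.fold n z s => costK z + costK n + costK s + 12
  | E.call g a0 a1 a2 a3 a4 a5 =>
      costK g + costK a0 + costK a1 + costK a2 + costK a3 + costK a4 + costK a5 + 30

lemma dep_pos (e : E) : 1 ≤ dep e := by
  induction e with
  | var _ => simp [dep]
  | par _ => simp [dep]
  | zero => simp [dep]
  | succ a ih => exact ih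
  | pred a ih => exact ih
  | ite c a b ih _ _ =>
    simp only [dep]
    omega
  | inp a ih => exact ih
  | fold n z s ih _ _ =>
    simp only [dep]
    omega
  | call g a0 a1 a2 a3 a4 a5 ih =>
    simp only [dep]
    omega

/-- The number of operations is polynomial, with the nesting depth as exponent. -/
theorem cost_le (W : ℕ) (e : E) : cost W e ≤ costK e * (W + 1) ^ dep e := by
  have hX : 1 ≤ W + 1 := by omega
  have mono : ∀ {a d : ℕ}, a ≤ d → (W + 1) ^ a ≤ (W + 1) ^ d := fun h => Nat.pow_le_pow_right hX h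
  have one_le : ∀ d : ℕ, 1 ≤ (W + 1) ^ d := fun d => Nat.one_le_pow _ _ (by omega)
  have w_le : ∀ {d : ℕ}, 1 ≤ d → W + 1 ≤ (W + 1) ^ d := fun {d} h => by
    calc W + 1 = (W + 1) ^ 1 := (pow_one _).symm
      _ ≤ _ := mono h
  induction e with
  | var _ =>
    simp only [cost, costK, dep, pow_one]
    nlinarith
  | par _ =>
    simp only [cost, costK, dep, pow_one]
    nlinarith
  | zero =>
    simp only [cost, costK, dep, pow_one]
    omega
  | succ a ih =>
    simp only [cost, costK, dep]
    have := one_le (dep a)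
    rw [Nat.add_mul]
    omega
  | pred a ih =>
    simp only [cost, costK, dep]
    have := one_le (dep a)
    rw [Nat.add_mul]
    omega
  | ite c a b ihc iha ihb =>
    simp only [cost, costK, dep]
    set d := max (dep c) (max (dep a) (dep b)) with hd
    have h1 : costK c * (W + 1) ^ dep c ≤ costK c * (W + 1) ^ d :=
      Nat.mul_le_mul_left _ (mono (by omega))
    have h2 : costK a * (W + 1) ^ dep a ≤ costK a * (W + 1) ^ d :=
      Nat.mul_le_mul_left _ (mono (by omega))
    have h3 : costK b * (W + 1) ^ dep b ≤ costK b * (W + 1) ^ d :=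
      Nat.mul_le_mul_left _ (mono (by omega))
    have h4 : W + 1 ≤ (W + 1) ^ d := w_le (by have := dep_pos c; omega)
    have e : (costK c + costK a + costK b + 4) * (W + 1) ^ d = costK c * (W + 1) ^ d +
        costK a * (W + 1) ^ d + costK b * (W + 1) ^ d + 4 * (W + 1) ^ d := by ring
    rw [e]
    omega
  | inp a ih =>
    simp only [cost, costK, dep]
    have h4 : W + 1 ≤ (W + 1) ^ dep a := w_le (dep_pos a)
    have e : (costK a + 6) * (W + 1) ^ dep a = costK a * (W + 1) ^ dep a + 6 * (W + 1) ^ dep a := by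
      ring
    rw [e]
    omega
  | fold n z s ihn ihz ihs =>
    simp only [cost, costK, dep]
    set d := max (dep z) (max (dep n) (dep s + 1)) with hd
    have h1 : costK z * (W + 1) ^ dep z ≤ costK z * (W + 1) ^ d :=
      Nat.mul_le_mul_left _ (mono (by omega))
    have h2 : costK n * (W + 1) ^ dep n ≤ costK n * (W + 1) ^ d :=
      Nat.mul_le_mul_left _ (mono (by omega))
    have hs1 := dep_pos s
    have h3 : (W + 1) ^ (dep s + 1) ≤ (W + 1) ^ d := mono (by omega)
    have h4 : (W + 1) * (W + 1) ≤ (W + 1) ^ (dep s + 1) := by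
      rw [pow_succ]
      exact Nat.mul_le_mul_right _ (w_le hs1)
    have h5 : W * cost W s ≤ costK s * (W + 1) ^ (dep s + 1) := by
      calc W * cost W s ≤ (W + 1) * (costK s * (W + 1) ^ dep s) :=
            Nat.mul_le_mul (by omega) ihs
        _ = costK s * (W + 1) ^ (dep s + 1) := by ring
    have h6 : costK s * (W + 1) ^ (dep s + 1) ≤ costK s * (W + 1) ^ d := Nat.mul_le_mul_left _ h3
    have h7 : (W + 1) * (W + 1) ≤ (W + 1) ^ d := h4.trans h3
    have h8 : W + 1 ≤ (W + 1) ^ d := w_le (by omega)
    have e1 : W * (1 + cost W s + (2 * W + 1) + (3 * W + 1) + 1 + 1) =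
        W * cost W s + 5 * (W * W) + 5 * W := by ring
    have e2 : (costK z + costK n + costK s + 12) * (W + 1) ^ d = costK z * (W + 1) ^ d +
        costK n * (W + 1) ^ d + costK s * (W + 1) ^ d + 12 * (W + 1) ^ d := by ring
    have e3 : (W + 1) * (W + 1) = W * W + 2 * W + 1 := by ring
    rw [e1, e2]
    omega
  | call g a0 a1 a2 a3 a4 a5 ihg ih0 ih1 ih2 ih3 ih4 ih5 =>
    simp only [cost, costK, dep]
    set d := max (dep g) (max (dep a0) (max (dep a1) (max (dep a2) (max (dep a3) (max (dep a4)
      (dep a5)))))) with hd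
    have hm : ∀ {a : E}, dep a ≤ d → cost W a ≤ costK a * (W + 1) ^ dep a →
        cost W a ≤ costK a * (W + 1) ^ d := fun h1 h2 =>
      h2.trans (Nat.mul_le_mul_left _ (mono h1))
    have b0 := hm (a := a0) (by omega) ih0
    have b1 := hm (a := a1) (by omega) ih1
    have b2 := hm (a := a2) (by omega) ih2
    have b3 := hm (a := a3) (by omega) ih3
    have b4 := hm (a := a4) (by omega) ih4
    have b5 := hm (a := a5) (by omega) ih5
    have b6 := hm (a := g) (by omega) ihg
    have h8 : W + 1 ≤ (W + 1) ^ d := w_le (by have := dep_pos g; omega)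
    have e2 : (costK g + costK a0 + costK a1 + costK a2 + costK a3 + costK a4 + costK a5 + 30) *
        (W + 1) ^ d = costK g * (W + 1) ^ d + costK a0 * (W + 1) ^ d + costK a1 * (W + 1) ^ d +
        costK a2 * (W + 1) ^ d + costK a3 * (W + 1) ^ d + costK a4 * (W + 1) ^ d +
        costK a5 * (W + 1) ^ d + 30 * (W + 1) ^ d := by ring
    rw [e2]
    omega

end Vale.Agent.Lib.P310V
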