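import Vale.Agent.Lib.P310V.Prog

set_option linter.unusedSectionVars false

/-!
An expression language with bounded recursion and function calls, compiled to counter programs.
All values are capped by the value `W` of register 0.
-/

namespace Vale.Agent.Lib.P310V

/-- Expressions. -/
inductive E : Type
  | var (i : ℕ)
  | par (i : ℕ)
  | zero
  | succ (a : E)
  | pred (a : E)
  | ite (c a b : E)
  | inp (a : E)
  | fold (n z s : E)
  | call (g a0 a1 a2 a3 a4 a5 : E)

/-- The global context: the cap, the global parameters and the input. -/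
structure Cx : Type where
  W : ℕ
  hW : 100 ≤ W
  Pi : ℕ → ℕ
  x : ℕ → Option Bool

/-- The frame of the body of a recursion. -/
def push2 (a i : ℕ) (env : ℕ → ℕ) : ℕ → ℕ
  | 0 => a
  | 1 => i
  | j + 2 => env j

/-- The frame of a function call. -/
def frame (a0 a1 a2 a3 a4 a5 : ℕ) : ℕ → ℕ
  | 0 => a0
  | 1 => a1
  | 2 => a2
  | 3 => a3
  | 4 => a4
  | _ => a5

/-- Iteration with a counter. -/
def iter (f : ℕ → ℕ → ℕ) (z : ℕ) : ℕ → ℕ
  | 0 => z
  | i + 1 => f i (iter f z i)

/-- The value of an expression. -/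
def eval (C : Cx) : E → (ℕ → ℕ) → ℕ
  | E.var i, env => min (env i) C.W
  | E.par i, _ => min (C.Pi i) C.W
  | E.zero, _ => 0
  | E.succ a, env => capS C.W (eval C a env)
  | E.pred a, env => eval C a env - 1
  | E.ite c a b, env => if eval C c env ≠ 0 then eval C a env else eval C b env
  | E.inp a, env =>
      match C.x (eval C a env) with
      | some false => 0
      | some true => 1
      | none => 2
  | E.fold n z s, env =>
      iter (fun i acc => eval C s (push2 acc i env)) (eval C z env) (eval C n env)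
  | E.call g a0 a1 a2 a3 a4 a5, env =>
      eval C g (frame (eval C a0 env) (eval C a1 env) (eval C a2 env) (eval C a3 env)
        (eval C a4 env) (eval C a5 env))

lemma capS_le {W a : ℕ} (h : a ≤ W) : capS W a ≤ W := by
  unfold capS
  split_ifs <;> omega

/-- All values are below the cap. -/
theorem eval_le (C : Cx) (e : E) (env : ℕ → ℕ) : eval C e env ≤ C.W := by
  induction e generalizing env with
  | var i => exact min_le_right _ _
  | par i => exact min_le_right _ _
  | zero => exact Nat.zero_le _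
  | succ a ih => exact capS_le (ih env)
  | pred a ih =>
    have := ih env
    simp only [eval]
    omega
  | ite c a b _ ih2 ih3 =>
    simp only [eval]
    split_ifs
    · exact ih2 env
    · exact ih3 env
  | inp a _ =>
    have := C.hW
    simp only [eval]
    split <;> omega
  | fold n z s _ ih2 ih3 =>
    simp only [eval]
    generalize eval C n env = k
    induction k with
    | zero => exact ih2 env
    | succ k _ => exact ih3 _
  | call g a0 a1 a2 a3 a4 a5 ih => exact ih _

/-- Clearing a register. -/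
def clearS (r : ℕ) : Stmt := Stmt.loop r (Stmt.dec r)

/-- Moving a register to another one. -/
def moveS (r t : ℕ) : Stmt := Stmt.loop r (Stmt.seq (Stmt.dec r) (Stmt.inc t))

/-- Copying a register with a temporary register. -/
def copyS (r t tmp : ℕ) : Stmt :=
  Stmt.seq (Stmt.loop r (Stmt.seq (Stmt.dec r) (Stmt.seq (Stmt.inc t) (Stmt.inc tmp)))) (moveS tmp r)

/-- The program of an expression: the value goes to register `f`; `π` gives the registers of the
parameters and `ρ` the registers of the variables. -/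
def gen (π : ℕ → ℕ) : E → (ℕ → ℕ) → ℕ → Stmt
  | E.var i, ρ, f => copyS (ρ i) f (f + 1)
  | E.par i, _, f => copyS (π i) f (f + 1)
  | E.zero, _, f => Stmt.dec f
  | E.succ a, ρ, f => Stmt.seq (gen π a ρ f) (Stmt.inc f)
  | E.pred a, ρ, f => Stmt.seq (gen π a ρ f) (Stmt.dec f)
  | E.ite c a b, ρ, f =>
      Stmt.seq (gen π c ρ f) (Stmt.ifz f (gen π b ρ f) (Stmt.seq (clearS f) (gen π a ρ f)))
  | E.inp a, ρ, f =>
      Stmt.seq (gen π a ρ f) (Stmt.read f (clearS f) (Stmt.seq (clearS f) (Stmt.inc f))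
        (Stmt.seq (clearS f) (Stmt.seq (Stmt.inc f) (Stmt.inc f))))
  | E.fold n z s, ρ, f =>
      Stmt.seq (gen π z ρ f) (Stmt.seq (gen π n ρ (f + 2)) (Stmt.seq
        (Stmt.loop (f + 2) (Stmt.seq (Stmt.dec (f + 2)) (Stmt.seq (gen π s (push2 f (f + 1) ρ) (f + 3))
          (Stmt.seq (clearS f) (Stmt.seq (moveS (f + 3) f) (Stmt.inc (f + 1)))))))
        (clearS (f + 1))))
  | E.call g a0 a1 a2 a3 a4 a5, ρ, f =>
      Stmt.seq (gen π a0 ρ f) (Stmt.seq (gen π a1 ρ (f + 1)) (Stmt.seq (gen π a2 ρ (f + 2))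
        (Stmt.seq (gen π a3 ρ (f + 3)) (Stmt.seq (gen π a4 ρ (f + 4)) (Stmt.seq (gen π a5 ρ (f + 5))
          (Stmt.seq (gen π g (fun j => f + min j 5) (f + 6))
            (Stmt.seq (clearS f) (Stmt.seq (clearS (f + 1)) (Stmt.seq (clearS (f + 2))
              (Stmt.seq (clearS (f + 3)) (Stmt.seq (clearS (f + 4)) (Stmt.seq (clearS (f + 5))
                (moveS (f + 6) f)))))))))))))

/-- The number of registers needed above the free register. -/
def wd : E → ℕ
  | E.var _ => 2
  | E.par _ => 2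
  | E.zero => 1
  | E.succ a => wd a
  | E.pred a => wd a
  | E.ite c a b => max (wd c) (max (wd a) (wd b))
  | E.inp a => wd a
  | E.fold n z s => max (wd z) (max (2 + wd n) (3 + wd s))
  | E.call g a0 a1 a2 a3 a4 a5 =>
      max (wd a0) (max (1 + wd a1) (max (2 + wd a2) (max (3 + wd a3) (max (4 + wd a4)
        (max (5 + wd a5) (6 + wd g))))))

lemma wd_pos (e : E) : 1 ≤ wd e := by
  induction e with
  | var _ => simp [wd]
  | par _ => simp [wd]
  | zero => simp [wd]
  | succ a ih => exact ih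
  | pred a ih => exact ih
  | ite c a b ih _ _ =>
    simp only [wd]
    omega
  | inp a ih => exact ih
  | fold n z s ih _ _ =>
    simp only [wd]
    omega
  | call g a0 a1 a2 a3 a4 a5 _ ih =>
    simp only [wd]
    omega

/-- An upper bound for the number of operations. -/
def cost (W : ℕ) : E → ℕ
  | E.var _ => 7 * W + 2
  | E.par _ => 7 * W + 2
  | E.zero => 1
  | E.succ a => cost W a + 1
  | E.pred a => cost W a + 1
  | E.ite c a b => cost W c + 1 + (2 * W + 1) + cost W a + cost W b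
  | E.inp a => cost W a + 1 + (2 * W + 1) + 2
  | E.fold n z s =>
      cost W z + cost W n + (W * ((1 + cost W s + (2 * W + 1) + (3 * W + 1) + 1) + 1) + 1) + (2 * W + 1)
  | E.call g a0 a1 a2 a3 a4 a5 =>
      cost W a0 + cost W a1 + cost W a2 + cost W a3 + cost W a4 + cost W a5 + cost W g +
        6 * (2 * W + 1) + (3 * W + 1)

/-- The program runs with at most `c` operations. -/
def Ex (m V : ℕ) (x : ℕ → Option Bool) (s : Stmt) (σ σ' : Mem) (c : ℕ) : Prop :=
  ∃ τ, τ ≤ c ∧ Exec m V x s σ σ' τ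

section Ex

variable {m V : ℕ} {x : ℕ → Option Bool} {s t : Stmt} {σ σ' σ₁ σ₂ : Mem} {c c₁ c₂ : ℕ}

lemma Ex.mono (h : Ex m V x s σ σ' c₁) (hc : c₁ ≤ c₂) : Ex m V x s σ σ' c₂ := by
  obtain ⟨τ, h1, h2⟩ := h
  exact ⟨τ, h1.trans hc, h2⟩

lemma Ex.seq (h₁ : Ex m V x s σ σ₁ c₁) (h₂ : Ex m V x t σ₁ σ₂ c₂) :
    Ex m V x (Stmt.seq s t) σ σ₂ (c₁ + c₂) := by
  obtain ⟨τ₁, h1, e1⟩ := h₁
  obtain ⟨τ₂, h2, e2⟩ := h₂
  exact ⟨τ₁ + τ₂, by omega, Exec.seq e1 e2⟩

lemma Ex.ifzT {i : ℕ} (hi : i < m) (h0 : σ.r i = 0) (h : Ex m V x s σ σ₁ c) :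
    Ex m V x (Stmt.ifz i s t) σ σ₁ (c + 1) := by
  obtain ⟨τ, h1, e⟩ := h
  exact ⟨τ + 1, by omega, Exec.ifzT hi h0 e⟩

lemma Ex.ifzF {i : ℕ} (hi : i < m) (h0 : σ.r i ≠ 0) (h : Ex m V x t σ σ₁ c) :
    Ex m V x (Stmt.ifz i s t) σ σ₁ (c + 1) := by
  obtain ⟨τ, h1, e⟩ := h
  exact ⟨τ + 1, by omega, Exec.ifzF hi h0 e⟩

/-- A loop that counts down. -/
theorem Ex.loop {P : ℕ → Mem} {i v c : ℕ} (hi : i < m) (hr : ∀ k, k ≤ v → (P k).r i = k)
    (hb : ∀ k, k < v → Ex m V x s (P (k + 1)) (P k) c) :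
    Ex m V x (Stmt.loop i s) (P v) (P 0) (v * (c + 1) + 1) := by
  induction v with
  | zero =>
    exact ⟨1, by omega, Exec.loopF hi (hr 0 le_rfl)⟩
  | succ v ih =>
    obtain ⟨τ₁, h1, e1⟩ := ih (fun k hk => hr k (by omega)) (fun k hk => hb k (by omega))
    obtain ⟨τ₂, h2, e2⟩ := hb v (by omega)
    refine ⟨τ₂ + τ₁ + 1, ?_, Exec.loopT hi ?_ e2 e1⟩
    · have : (v + 1) * (c + 1) + 1 = v * (c + 1) + 1 + (c + 1) := by ring
      omega
    · rw [hr (v + 1) le_rfl]
      omega

end Ex

lemma mem_eq {σ τ : Mem} (h1 : σ.out = τ.out) (h2 : ∀ j, σ.r j = τ.r j) : σ = τ := by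
  cases σ
  cases τ
  simp only at h1 h2
  rw [h1, funext h2]

lemma Mem.set_r (σ : Mem) (i v j : ℕ) : (σ.set i v).r j = if j = i then v else σ.r j := by
  unfold Mem.set
  simp only [Function.update_apply]

lemma Mem.set_out (σ : Mem) (i v : ℕ) : (σ.set i v).out = σ.out := rfl

lemma Mem.set_set (σ : Mem) (i v w : ℕ) : (σ.set i v).set i w = σ.set i w :=
  mem_eq rfl fun j => by
    simp only [Mem.set_r]
    split_ifs <;> rfl

lemma Mem.set_eq_self {σ : Mem} {i v : ℕ} (h : σ.r i = v) : σ.set i v = σ :=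
  mem_eq rfl fun j => by
    simp only [Mem.set_r]
    split_ifs with e
    · rw [e, h]
    · rfl

section Basic

variable {m V : ℕ} {x : ℕ → Option Bool} {σ : Mem}

lemma ex_dec {i : ℕ} (hi : i < m) (hv : σ.r i ≤ V) :
    Ex m V x (Stmt.dec i) σ (σ.set i (σ.r i - 1)) 1 :=
  ⟨1, le_rfl, Exec.dec hi hv⟩

lemma ex_inc {i : ℕ} (hi : i < m) (hv : σ.r i ≤ V) (h0 : i ≠ 0) :
    Ex m V x (Stmt.inc i) σ (σ.set i (capS (σ.r 0) (σ.r i))) 1 := by
  refine ⟨1, le_rfl, ?_⟩
  have e : σ.incV i = capS (σ.r 0) (σ.r i) := by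
    unfold Mem.incV
    rw [if_neg h0]
  rw [← e]
  exact Exec.inc hi hv

lemma ex_inc_lt {i : ℕ} (hi : i < m) (hv : σ.r i ≤ V) (h0 : i ≠ 0) (hc : σ.r i < σ.r 0) :
    Ex m V x (Stmt.inc i) σ (σ.set i (σ.r i + 1)) 1 := by
  have := ex_inc (x := x) hi hv h0
  unfold capS at this
  rwa [if_pos hc] at this

/-- Clearing a register. -/
lemma ex_clear {r : ℕ} (hr : r < m) (hv : σ.r r ≤ V) :
    Ex m V x (clearS r) σ (σ.set r 0) (2 * σ.r r + 1) := by
  have h := Ex.loop (m := m) (V := V) (x := x) (s := Stmt.dec r)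
    (P := fun k => σ.set r k) (i := r) (v := σ.r r) (c := 1) hr
    (fun k _ => by simp [Mem.set_r])
    (fun k hk => by
      have := ex_dec (m := m) (V := V) (x := x) (σ := σ.set r (k + 1)) (i := r) hr
        (by simp only [Mem.set_r, if_true]; omega)
      simpa [Mem.set_set, Mem.set_r] using this)
  have e : σ.set r (σ.r r) = σ := Mem.set_eq_self rfl
  rw [e] at h
  refine h.mono ?_
  omega

/-- Moving a register. -/
lemma ex_move {r t W : ℕ} (hr : r < m) (ht : t < m) (hrt : r ≠ t) (hr0 : r ≠ 0) (ht0 : t ≠ 0)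
    (hW : σ.r 0 = W) (hWV : W ≤ V) (hs : σ.r r + σ.r t ≤ W) :
    Ex m V x (moveS r t) σ ((σ.set r 0).set t (σ.r r + σ.r t)) (3 * W + 1) := by
  set v := σ.r r with hv
  set w := σ.r t with hw
  let Q : ℕ → Mem := fun k => (σ.set r k).set t (v - k + w)
  have hQr : ∀ k j, (Q k).r j = if j = t then v - k + w else if j = r then k else σ.r j := by
    intro k j
    simp only [Q, Mem.set_r]
  have h := Ex.loop (m := m) (V := V) (x := x) (s := Stmt.seq (Stmt.dec r) (Stmt.inc t))
    (P := Q) (i := r) (v := v) (c := 2) hr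
    (fun k _ => by rw [hQr, if_neg hrt, if_pos rfl])
    (fun k hk => by
      have e1 : (Q (k + 1)).r r = k + 1 := by rw [hQr, if_neg hrt, if_pos rfl]
      have a1 := ex_dec (m := m) (V := V) (x := x) (σ := Q (k + 1)) (i := r) hr
        (by rw [e1]; omega)
      rw [e1] at a1
      have a2 := ex_inc_lt (m := m) (V := V) (x := x) (σ := (Q (k + 1)).set r (k + 1 - 1)) (i := t) ht
        (by
          simp only [Mem.set_r, if_neg (Ne.symm hrt), hQr, if_true]
          omega)
        ht0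
        (by
          simp only [Mem.set_r, if_neg (Ne.symm hrt), if_neg (Ne.symm hr0), hQr, if_true,
            if_neg (Ne.symm ht0), hW]
          omega)
      have a3 := a1.seq a2
      have e2 : ((Q (k + 1)).set r (k + 1 - 1)).set t (((Q (k + 1)).set r (k + 1 - 1)).r t + 1) =
          Q k := by
        refine mem_eq rfl fun j => ?_
        simp only [Mem.set_r, hQr]
        split_ifs <;> first | omega | rfl
      rw [e2] at a3
      exact a3)
  have e0 : Q v = σ := by
    refine mem_eq rfl fun j => ?_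
    rw [hQr]
    split_ifs with a1 a2
    · rw [a1]
      omega
    · rw [a2]
    · rfl
  have e3 : Q 0 = (σ.set r 0).set t (v + w) := by
    refine mem_eq rfl fun j => ?_
    rw [hQr]
    simp only [Mem.set_r]
    split_ifs <;> first | omega | rfl
  rw [e0, e3] at h
  refine h.mono ?_
  have : v ≤ W := by omega
  calc v * (2 + 1) + 1 = 3 * v + 1 := by ring
    _ ≤ 3 * W + 1 := by omega

/-- Copying a register. -/
lemma ex_copy {r t tmp W : ℕ} (hr : r < m) (ht : t < m) (htmp : tmp < m) (hrt : r ≠ t)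
    (hrm : r ≠ tmp) (htm : t ≠ tmp) (hr0 : r ≠ 0) (ht0 : t ≠ 0) (hm0 : tmp ≠ 0)
    (hW : σ.r 0 = W) (hWV : W ≤ V) (hs : σ.r r ≤ W) (h1 : σ.r t = 0) (h2 : σ.r tmp = 0) :
    Ex m V x (copyS r t tmp) σ (σ.set t (σ.r r)) (7 * W + 2) := by
  set v := σ.r r with hv
  let Q : ℕ → Mem := fun k => ((σ.set r k).set t (v - k)).set tmp (v - k)
  have hQr : ∀ k j, (Q k).r j = if j = tmp then v - k else if j = t then v - k else if j = r then k
      else σ.r j := by
    intro k j
    simp only [Q, Mem.set_r]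
  have h3 := Ex.loop (m := m) (V := V) (x := x)
    (s := Stmt.seq (Stmt.dec r) (Stmt.seq (Stmt.inc t) (Stmt.inc tmp)))
    (P := Q) (i := r) (v := v) (c := 3) hr
    (fun k _ => by
      rw [hQr, if_neg hrm, if_neg hrt, if_pos rfl])
    (fun k hk => by
      have e1 : (Q (k + 1)).r r = k + 1 := by rw [hQr, if_neg hrm, if_neg hrt, if_pos rfl]
      have a1 := ex_dec (m := m) (V := V) (x := x) (σ := Q (k + 1)) (i := r) hr
        (by rw [e1]; omega)
      rw [e1] at a1
      have a2 := ex_inc_lt (m := m) (V := V) (x := x) (σ := (Q (k + 1)).set r (k + 1 - 1)) (i := t) ht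
        (by
          simp only [Mem.set_r, if_neg (Ne.symm hrt), hQr, if_neg htm, if_true]
          omega)
        ht0
        (by
          simp only [Mem.set_r, if_neg (Ne.symm hrt), if_neg (Ne.symm hr0), hQr, if_neg htm, if_true,
            if_neg (Ne.symm ht0), if_neg (Ne.symm hm0), hW]
          omega)
      have a3 := ex_inc_lt (m := m) (V := V) (x := x)
        (σ := ((Q (k + 1)).set r (k + 1 - 1)).set t (((Q (k + 1)).set r (k + 1 - 1)).r t + 1))
        (i := tmp) htmp
        (by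
          simp only [Mem.set_r, if_neg (Ne.symm htm), if_neg (Ne.symm hrm), hQr, if_true]
          omega)
        hm0
        (by
          simp only [Mem.set_r, if_neg (Ne.symm htm), if_neg (Ne.symm hrm), if_neg (Ne.symm hr0),
            if_neg (Ne.symm ht0), if_neg (Ne.symm hm0), hQr, if_true, hW]
          omega)
      have a4 := a1.seq (a2.seq a3)
      have e2 : (((Q (k + 1)).set r (k + 1 - 1)).set t (((Q (k + 1)).set r (k + 1 - 1)).r t + 1)).set
          tmp ((((Q (k + 1)).set r (k + 1 - 1)).set t (((Q (k + 1)).set r (k + 1 - 1)).r t + 1)).r tmp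
            + 1) = Q k := by
        refine mem_eq rfl fun j => ?_
        simp only [Mem.set_r, hQr]
        split_ifs <;> first | omega | rfl
      rw [e2] at a4
      exact a4)
  have e0 : Q v = σ := by
    refine mem_eq rfl fun j => ?_
    rw [hQr]
    split_ifs with a1 a2 a3
    · rw [a1, h2]
      omega
    · rw [a2, h1]
      omega
    · rw [a3]
    · rfl
  rw [e0] at h3
  have h4 := ex_move (m := m) (V := V) (x := x) (σ := Q 0) (r := tmp) (t := r) (W := W) htmp hr
    (Ne.symm hrm) hm0 hr0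
    (by rw [hQr, if_neg (Ne.symm hm0), if_neg (Ne.symm ht0), if_neg (Ne.symm hr0), hW]) hWV
    (by
      rw [hQr, if_pos rfl, hQr, if_neg hrm, if_neg hrt, if_pos rfl]
      omega)
  have h5 := h3.seq h4
  have e3 : ((Q 0).set tmp 0).set r ((Q 0).r tmp + (Q 0).r r) = σ.set t v := by
    refine mem_eq rfl fun j => ?_
    simp only [Mem.set_r, hQr]
    split_ifs <;> first | omega | rfl | (subst_vars; omega)
  rw [e3] at h5
  refine h5.mono ?_
  have : v ≤ W := hs
  calc v * (3 + 1) + 1 + (3 * W + 1) = 4 * v + 3 * W + 2 := by ring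
    _ ≤ 7 * W + 2 := by omega

end Basic

end Vale.Agent.Lib.P310V
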