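import Vale.Agent.Lib.P310V.Gen

set_option linter.unusedSectionVars false

/-!
The first part of the program: the input length and the cap in register 0.
-/

namespace Vale.Agent.Lib.P310V

open Stmt

/-- One step of multiplying the cap: registers 33 (copy of the cap), 34, 35 (factor minus one),
36 (temporary). -/
def innerM : Stmt := loop 35 (seq (dec 35) (seq (inc 36) (seq (inc 0) (inc 33))))

/-- Multiplying the cap. -/
def mulStep : Stmt :=
  seq (moveS 33 34) (loop 34 (seq (dec 34) (seq (inc 33) (seq innerM (moveS 36 35)))))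

/-- Repeated multiplication of the cap. -/
def grow : ℕ → Stmt
  | 0 => dec 34
  | k + 1 => seq mulStep (grow k)

/-- Repeated increment. -/
def incs (r : ℕ) : ℕ → Stmt
  | 0 => dec 38
  | k + 1 => seq (inc r) (incs r k)

/-- The step of the scan of the input. -/
def scanSt : Stmt := seq (inc 0) (inc 33)

/-- The scan of the input. -/
def scanS : Stmt := loop 37 (read 33 scanSt scanSt (dec 37))

/-- The first part of the program. -/
def preS (E' L d : ℕ) : Stmt :=
  seq (inc 0) (seq (inc 37) (seq scanS (seq (inc 33) (seq (copyS 33 35 37) (seq (copyS 33 30 37)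
    (seq (dec 30) (seq (grow E') (seq (incs 31 L) (incs 32 d)))))))))

section Basic

variable {m V : ℕ} {x : ℕ → Option Bool}

/-- Decrement to a given value. -/
lemma ex_dec_to {τ : Mem} {i a : ℕ} (hi : i < m) (hr : τ.r i = a + 1) (hv : a + 1 ≤ V) :
    Ex m V x (dec i) τ (τ.set i a) 1 := by
  have := ex_dec (m := m) (V := V) (x := x) (σ := τ) (i := i) hi (by omega)
  rwa [hr, Nat.add_sub_cancel] at this

/-- Decrement of a zero register. -/
lemma ex_dec_zero {τ : Mem} {i : ℕ} (hi : i < m) (hr : τ.r i = 0) :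
    Ex m V x (dec i) τ τ 1 := by
  have := ex_dec (m := m) (V := V) (x := x) (σ := τ) (i := i) hi (by omega)
  rwa [hr, Nat.zero_sub, Mem.set_eq_self hr] at this

/-- Increment to a given value. -/
lemma ex_inc_to {τ : Mem} {i a : ℕ} (hi : i < m) (h0 : i ≠ 0) (hr : τ.r i = a) (hc : a < τ.r 0)
    (hv : a ≤ V) : Ex m V x (inc i) τ (τ.set i (a + 1)) 1 := by
  have := ex_inc_lt (m := m) (V := V) (x := x) (σ := τ) (i := i) hi (by omega) h0 (by omega)
  rwa [hr] at this

/-- Increment of register 0. -/
lemma ex_inc0_to {τ : Mem} {a : ℕ} (hm : 0 < m) (hr : τ.r 0 = a) (hv : a ≤ V) :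
    Ex m V x (inc 0) τ (τ.set 0 (a + 1)) 1 := by
  refine ⟨1, le_rfl, ?_⟩
  have e : τ.incV 0 = a + 1 := by
    unfold Mem.incV
    simp [hr]
  rw [← e]
  exact Exec.inc hm (by omega)

end Basic

section Mul

variable {m V : ℕ} {x : ℕ → Option Bool} (hm : 40 ≤ m)

include hm

/-- The inner loop of multiplying. -/
lemma ex_innerM {σ : Mem} {R A c : ℕ} (h0 : σ.r 0 = R) (h33 : σ.r 33 = A) (h35 : σ.r 35 = c)
    (h36 : σ.r 36 = 0) (hAR : A ≤ R) (hR : 1 ≤ R) (hV : R + c ≤ V) :
    Ex m V x innerM σ (((σ.set 35 0).set 36 c).set 0 (R + c) |>.set 33 (A + c)) (c * 5 + 1) := by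
  let P : ℕ → Mem := fun k =>
    (((σ.set 35 k).set 36 (c - k)).set 0 (R + (c - k))).set 33 (A + (c - k))
  have hP : ∀ k j, (P k).r j = if j = 33 then A + (c - k) else if j = 0 then R + (c - k)
      else if j = 36 then c - k else if j = 35 then k else σ.r j := by
    intro k j
    simp only [P, Mem.set_r]
  have h := Ex.loop (m := m) (V := V) (x := x)
    (s := seq (dec 35) (seq (inc 36) (seq (inc 0) (inc 33)))) (P := P) (i := 35) (v := c) (c := 4)
    (by omega)
    (fun k _ => by rw [hP]; simp)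
    (fun k hk => by
      have a1 := ex_dec_to (m := m) (V := V) (x := x) (τ := P (k + 1)) (i := 35) (a := k) (by omega)
        (by rw [hP]; simp) (by omega)
      have a2 := ex_inc_to (m := m) (V := V) (x := x) (τ := (P (k + 1)).set 35 k) (i := 36)
        (a := c - (k + 1)) (by omega) (by omega)
        (by simp [Mem.set_r, hP]) (by simp [Mem.set_r, hP]; omega) (by omega)
      have a3 := ex_inc0_to (m := m) (V := V) (x := x) (τ := ((P (k + 1)).set 35 k).set 36 (c - (k + 1) + 1))
        (a := R + (c - (k + 1))) (by omega) (by simp [Mem.set_r, hP]) (by omega)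
      have a4 := ex_inc_to (m := m) (V := V) (x := x)
        (τ := (((P (k + 1)).set 35 k).set 36 (c - (k + 1) + 1)).set 0 (R + (c - (k + 1)) + 1))
        (i := 33) (a := A + (c - (k + 1))) (by omega) (by omega)
        (by simp [Mem.set_r, hP]) (by simp [Mem.set_r, hP]; omega) (by omega)
      have a5 := a1.seq (a2.seq (a3.seq a4))
      have e : ((((P (k + 1)).set 35 k).set 36 (c - (k + 1) + 1)).set 0 (R + (c - (k + 1)) + 1)).set
          33 (A + (c - (k + 1)) + 1) = P k := by
        refine mem_eq rfl fun j => ?_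
        simp only [Mem.set_r, hP]
        split_ifs <;> first | omega | rfl
      rw [e] at a5
      exact a5)
  have e0 : P c = σ := by
    refine mem_eq rfl fun j => ?_
    rw [hP]
    simp only [Nat.sub_self, Nat.add_zero]
    split_ifs with a1 a2 a3 a4
    · rw [a1, h33]
    · rw [a2, h0]
    · rw [a3, h36]
    · rw [a4, h35]
    · rfl
  have e1 : P 0 = ((((σ.set 35 0).set 36 c).set 0 (R + c)).set 33 (A + c)) := by
    refine mem_eq rfl fun j => ?_
    rw [hP]
    simp only [Mem.set_r, Nat.sub_zero]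
  rw [e0, e1] at h
  exact h

/-- One multiplication of the cap. -/
lemma ex_mulStep {σ : Mem} {v c : ℕ} (h0 : σ.r 0 = v) (h33 : σ.r 33 = v) (h34 : σ.r 34 = 0)
    (h35 : σ.r 35 = c) (h36 : σ.r 36 = 0) (hv : 1 ≤ v) (hc : c ≤ v) (hV : v * (c + 1) ≤ V) :
    Ex m V x mulStep σ ((σ.set 0 (v * (c + 1))).set 33 (v * (c + 1)))
      (3 * v + 1 + (v * ((1 + 1 + (c * 5 + 1) + (3 * V + 1)) + 1) + 1)) := by
  have hmul : v * (c + 1) = v + v * c := by ring
  have a1 := ex_move (m := m) (V := V) (x := x) (σ := σ) (r := 33) (t := 34) (W := v)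
    (by omega) (by omega) (by omega) (by omega) (by omega) h0 (by omega) (by omega)
  rw [h33, h34, Nat.add_zero] at a1
  let f : ℕ → ℕ := fun u => u * c
  have hle : ∀ u, u ≤ v → u * c ≤ v * c := fun u hu => Nat.mul_le_mul_right _ hu
  let P : ℕ → Mem := fun k =>
    ((σ.set 34 k).set 0 (v + (v - k) * c)).set 33 ((v - k) * c + (v - k))
  have hP : ∀ k j, (P k).r j = if j = 33 then (v - k) * c + (v - k)
      else if j = 0 then v + (v - k) * c else if j = 34 then k else σ.r j := by
    intro k j
    simp only [P, Mem.set_r]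
  have hsucc : ∀ k, k < v → (v - k) * c = (v - (k + 1)) * c + c := by
    intro k hk
    have : v - k = (v - (k + 1)) + 1 := by omega
    rw [this, Nat.succ_mul]
  have h := Ex.loop (m := m) (V := V) (x := x)
    (s := seq (dec 34) (seq (inc 33) (seq innerM (moveS 36 35)))) (P := P) (i := 34) (v := v)
    (c := 1 + 1 + (c * 5 + 1) + (3 * V + 1))
    (by omega)
    (fun k _ => by rw [hP]; simp)
    (fun k hk => by
      have e1 := hsucc k hk
      have hb := hle (v - (k + 1)) (by omega)
      have hb2 := hle (v - k) (by omega)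
      set u := v - (k + 1) with hu
      have hvk : v - k = u + 1 := by omega
      have a2 := ex_dec_to (m := m) (V := V) (x := x) (τ := P (k + 1)) (i := 34) (a := k) (by omega)
        (by rw [hP]; simp) (by nlinarith)
      have a3 := ex_inc_to (m := m) (V := V) (x := x) (τ := (P (k + 1)).set 34 k) (i := 33)
        (a := u * c + u) (by omega) (by omega)
        (by simp [Mem.set_r, hP, ← hu]) (by simp [Mem.set_r, hP, ← hu]; omega) (by omega)
      have a4 := ex_innerM (m := m) (V := V) (x := x) hm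
        (σ := ((P (k + 1)).set 34 k).set 33 (u * c + u + 1)) (R := v + u * c)
        (A := u * c + u + 1) (c := c)
        (by simp [Mem.set_r, hP, ← hu]) (by simp [Mem.set_r, hP, ← hu])
        (by simp [Mem.set_r, hP, h35]) (by simp [Mem.set_r, hP, h36]) (by omega) (by omega)
        (by omega)
      have a5 := ex_move (m := m) (V := V) (x := x)
        (σ := (((((((P (k + 1)).set 34 k).set 33 (u * c + u + 1)).set 35 0).set 36 c).set 0
          (v + u * c + c)).set 33 (u * c + u + 1 + c))) (r := 36) (t := 35) (W := v + u * c + c)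
        (by omega) (by omega) (by omega) (by omega) (by omega) (by simp [Mem.set_r])
        (by omega) (by simp [Mem.set_r])
      have a6 := a2.seq (a3.seq (a4.seq a5))
      have e2 : ((((((((((P (k + 1)).set 34 k).set 33 (u * c + u + 1)).set 35 0).set 36 c).set 0
          (v + u * c + c)).set 33 (u * c + u + 1 + c))).set 36 0).set 35
          (((((((((P (k + 1)).set 34 k).set 33 (u * c + u + 1)).set 35 0).set 36 c).set 0
            (v + u * c + c)).set 33 (u * c + u + 1 + c))).r 36 +
           (((((((P (k + 1)).set 34 k).set 33 (u * c + u + 1)).set 35 0).set 36 c).set 0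
            (v + u * c + c)).set 33 (u * c + u + 1 + c)).r 35)) = P k := by
        have e1' : (u + 1) * c = u * c + c := Nat.succ_mul u c
        refine mem_eq rfl fun j => ?_
        simp only [Mem.set_r, hP, ← hu, hvk, e1]
        simp only [Nat.reduceEqDiff, OfNat.ofNat_ne_zero, if_false, if_true]
        split_ifs with a1 a2 a3 a4 a5 a6 a7 <;> first | omega | rfl | (subst_vars; omega)
      rw [e2] at a6
      refine a6.mono ?_
      omega)
  have e0 : P v = (σ.set 33 0).set 34 v := by
    refine mem_eq rfl fun j => ?_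
    rw [hP]
    simp only [Mem.set_r, Nat.sub_self, Nat.zero_mul, Nat.add_zero]
    split_ifs with a1 a2 a3 <;> first | omega | rfl | (subst_vars; omega)
  have e3 : P 0 = (σ.set 0 (v * (c + 1))).set 33 (v * (c + 1)) := by
    refine mem_eq rfl fun j => ?_
    rw [hP]
    simp only [Mem.set_r, Nat.sub_zero]
    split_ifs with a1 a2 a3 <;> first | omega | rfl | (subst_vars; omega)
  rw [e0, e3] at h
  exact a1.seq h

/-- The bound for one multiplication. -/
def cstepF (V : ℕ) : ℕ := 3 * V + 1 + (V * ((1 + 1 + (V * 5 + 1) + (3 * V + 1)) + 1) + 1)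

/-- Repeated multiplication. -/
lemma ex_grow {c : ℕ} (k : ℕ) : ∀ {σ : Mem} {v : ℕ}, σ.r 0 = v → σ.r 33 = v → σ.r 34 = 0 →
    σ.r 35 = c → σ.r 36 = 0 → 1 ≤ v → c ≤ v → v * (c + 1) ^ k ≤ V →
    Ex m V x (grow k) σ ((σ.set 0 (v * (c + 1) ^ k)).set 33 (v * (c + 1) ^ k))
      (k * cstepF V + 1) := by
  induction k with
  | zero =>
    intro σ v h0 h33 h34 h35 h36 hv hc hV
    have e : (σ.set 0 (v * (c + 1) ^ 0)).set 33 (v * (c + 1) ^ 0) = σ := by
      refine mem_eq rfl fun j => ?_
      simp only [Mem.set_r, pow_zero, mul_one]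
      split_ifs with a1 a2
      · rw [a1, h33]
      · rw [a2, h0]
      · rfl
    rw [e]
    exact (ex_dec_zero (m := m) (V := V) (x := x) (τ := σ) (i := 34) (by omega) h34).mono (by omega)
  | succ k ih =>
    intro σ v h0 h33 h34 h35 h36 hv hc hV
    have hv1 : v * (c + 1) ≤ v * (c + 1) * (c + 1) ^ k := Nat.le_mul_of_pos_right _ (by positivity)
    have e1 : v * (c + 1) ^ (k + 1) = v * (c + 1) * (c + 1) ^ k := by ring
    rw [e1] at hV ⊢
    have hv2 : v ≤ v * (c + 1) := Nat.le_mul_of_pos_right _ (by omega)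
    have a1 := ex_mulStep (m := m) (V := V) (x := x) hm h0 h33 h34 h35 h36 hv hc (by omega)
    have a2 := ih (σ := (σ.set 0 (v * (c + 1))).set 33 (v * (c + 1))) (v := v * (c + 1))
      (by simp [Mem.set_r]) (by simp [Mem.set_r]) (by simp [Mem.set_r, h34])
      (by simp [Mem.set_r, h35]) (by simp [Mem.set_r, h36]) (by omega) (by omega) hV
    have e2 : (((σ.set 0 (v * (c + 1))).set 33 (v * (c + 1))).set 0 (v * (c + 1) * (c + 1) ^ k)).set 33
        (v * (c + 1) * (c + 1) ^ k) = (σ.set 0 (v * (c + 1) * (c + 1) ^ k)).set 33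
        (v * (c + 1) * (c + 1) ^ k) := by
      refine mem_eq rfl fun j => ?_
      simp only [Mem.set_r]
      split_ifs <;> first | omega | rfl
    rw [e2] at a2
    refine (a1.seq a2).mono ?_
    have hvV : v ≤ V := by omega
    have hcV : c ≤ V := by omega
    have h1 : v * ((1 + 1 + (c * 5 + 1) + (3 * V + 1)) + 1) ≤
        V * ((1 + 1 + (V * 5 + 1) + (3 * V + 1)) + 1) :=
      Nat.mul_le_mul hvV (by omega)
    have h2 : (k + 1) * cstepF V = k * cstepF V + cstepF V := by ring
    rw [h2]
    unfold cstepF at *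
    omega

/-- Repeated increment. -/
lemma ex_incs {r : ℕ} (hr : r < m) (hr0 : r ≠ 0) (hr38 : r ≠ 38) (k : ℕ) :
    ∀ {τ : Mem} {a : ℕ}, τ.r r = a → a + k ≤ τ.r 0 → τ.r 38 = 0 → τ.r 0 ≤ V →
      Ex m V x (incs r k) τ (τ.set r (a + k)) (k + 1) := by
  induction k with
  | zero =>
    intro τ a h1 h2 h3 h4
    have e : τ.set r (a + 0) = τ := Mem.set_eq_self h1
    rw [e]
    exact (ex_dec_zero (m := m) (V := V) (x := x) (τ := τ) (i := 38) (by omega) h3).mono (by omega)
  | succ k ih =>
    intro τ a h1 h2 h3 h4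
    have a1 := ex_inc_to (m := m) (V := V) (x := x) (τ := τ) (i := r) (a := a) hr hr0 h1 (by omega)
      (by omega)
    have h5 : (τ.set r (a + 1)).r 0 = τ.r 0 := by
      rw [Mem.set_r, if_neg (Ne.symm hr0)]
    have a2 := ih (τ := τ.set r (a + 1)) (a := a + 1) (by simp [Mem.set_r]) (by rw [h5]; omega)
      (by rw [Mem.set_r, if_neg (by omega)]; exact h3) (by rw [h5]; exact h4)
    have e : (τ.set r (a + 1)).set r (a + 1 + k) = τ.set r (a + (k + 1)) := by
      rw [Mem.set_set]
      congr 1
      omega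
    rw [e] at a2
    refine (a1.seq a2).mono ?_
    omega

/-- A loop with a test. -/
lemma Ex.loopT {s : Stmt} {σ σ₁ σ₂ : Mem} {i c₁ c₂ : ℕ} (hi : i < m) (h0 : σ.r i ≠ 0)
    (h : Ex m V x s σ σ₁ c₁) (h' : Ex m V x (Stmt.loop i s) σ₁ σ₂ c₂) :
    Ex m V x (Stmt.loop i s) σ σ₂ (c₁ + c₂ + 1) := by
  obtain ⟨τ₁, a1, e1⟩ := h
  obtain ⟨τ₂, a2, e2⟩ := h'
  exact ⟨τ₁ + τ₂ + 1, by omega, Exec.loopT hi h0 e1 e2⟩

lemma Ex.loopF {s : Stmt} {σ : Mem} {i : ℕ} (hi : i < m) (h0 : σ.r i = 0) :
    Ex m V x (Stmt.loop i s) σ σ 1 := ⟨1, le_rfl, Exec.loopF hi h0⟩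

/-- The memory during the scan. -/
def sM (p fl : ℕ) : Mem :=
  ⟨fun j => if j = 0 then p + 1 else if j = 33 then p else if j = 37 then fl else 0, []⟩

omit hm in
lemma sM_r (p fl j : ℕ) :
    (sM p fl).r j = if j = 0 then p + 1 else if j = 33 then p else if j = 37 then fl else 0 := rfl

/-- The scan of the input. -/
lemma ex_scan {n : ℕ} (hx1 : ∀ p, p < n → x p ≠ none) (hx2 : x n = none) (hV : n + 1 ≤ V) (k : ℕ) :
    ∀ p, p + k = n → Ex m V x scanS (sM p 1) (sM n 0) (6 * k + 6) := by
  induction k with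
  | zero =>
    intro p hp
    have e : p = n := by omega
    subst e
    have a1 := ex_dec_to (m := m) (V := V) (x := x) (τ := sM p 1) (i := 37) (a := 0) (by omega)
      (by simp [sM_r]) (by omega)
    have a2 := ex_read2 (m := m) (V := V) (x := x) (σ := sM p 1) (i := 33) (s0 := scanSt)
      (s1 := scanSt) (s2 := dec 37) (by omega) (by simp [sM_r]; omega) (by simpa [sM_r] using hx2) a1
    have e2 : (sM p 1).set 37 0 = sM p 0 := by
      refine mem_eq rfl fun j => ?_
      simp only [Mem.set_r, sM_r]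
      split_ifs <;> first | omega | rfl
    rw [e2] at a2
    have a3 := Ex.loopF (m := m) (V := V) (x := x) (s := read 33 scanSt scanSt (dec 37))
      hm (σ := sM p 0) (i := 37) (by omega) (by simp [sM_r])
    have a4 := Ex.loopT (m := m) (V := V) (x := x) hm (σ := sM p 1) (i := 37) (by omega)
      (by simp [sM_r]) a2 a3
    exact a4.mono (by omega)
  | succ k ih =>
    intro p hp
    have hpn : p < n := by omega
    have a1 := ex_inc0_to (m := m) (V := V) (x := x) (τ := sM p 1) (a := p + 1) (by omega)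
      (by simp [sM_r]) (by omega)
    have a2 := ex_inc_to (m := m) (V := V) (x := x) (τ := (sM p 1).set 0 (p + 1 + 1)) (i := 33)
      (a := p) (by omega) (by omega) (by simp [Mem.set_r, sM_r]) (by simp [Mem.set_r]) (by omega)
    have a3 : Ex m V x scanSt (sM p 1) (sM (p + 1) 1) 2 := by
      have a4 := a1.seq a2
      have e : ((sM p 1).set 0 (p + 1 + 1)).set 33 (p + 1) = sM (p + 1) 1 := by
        refine mem_eq rfl fun j => ?_
        simp only [Mem.set_r, sM_r]
        split_ifs <;> first | omega | rfl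
      rw [e] at a4
      exact a4
    have a5 : Ex m V x (read 33 scanSt scanSt (dec 37)) (sM p 1) (sM (p + 1) 1) 3 := by
      have e33 : (sM p 1).r 33 = p := by simp [sM_r]
      cases hb : x p with
      | none => exact absurd hb (hx1 p hpn)
      | some b =>
        cases b with
        | false =>
          exact ex_read0 (by omega) (by rw [e33]; omega) (by rw [e33]; exact hb) a3
        | true =>
          exact ex_read1 (by omega) (by rw [e33]; omega) (by rw [e33]; exact hb) a3
    have a6 := Ex.loopT (m := m) (V := V) (x := x) hm (σ := sM p 1) (i := 37) (by omega)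
      (by simp [sM_r]) a5 (ih (p + 1) (by omega))
    exact a6.mono (by omega)

/-- The memory after the first part. -/
def preM (n L d W : ℕ) : Mem :=
  ⟨fun j => if j = 0 then W else if j = 33 then W else if j = 35 then n + 1 else if j = 30 then n
    else if j = 31 then L else if j = 32 then d else 0, []⟩

omit hm in
lemma preM_r (n L d W j : ℕ) : (preM n L d W).r j =
    if j = 0 then W else if j = 33 then W else if j = 35 then n + 1 else if j = 30 then n
    else if j = 31 then L else if j = 32 then d else 0 := rfl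

/-- The initial memory. -/
def mem0 : Mem := ⟨fun _ => 0, []⟩

/-- The bound for the first part. -/
def preC (E' V : ℕ) : ℕ := 6 * V + 6 + 3 + 2 * (7 * V + 2) + 2 + (E' * cstepF V + 1) + 2 * V + 2

/-- The first part of the program. -/
theorem ex_pre {n E' L d W : ℕ} (hx1 : ∀ p, p < n → x p ≠ none) (hx2 : x n = none)
    (hW : W = (n + 1) * (n + 2) ^ E') (hV : W ≤ V) (hL : L ≤ W) (hd : d ≤ W) :
    Ex m V x (preS E' L d) mem0 (preM n L d W) (preC E' V) := by
  have hn1 : n + 1 ≤ W := by
    rw [hW]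
    exact Nat.le_mul_of_pos_right _ (by positivity)
  have a1 := ex_inc0_to (m := m) (V := V) (x := x) (τ := mem0) (a := 0) (by omega) rfl (by omega)
  have a2 := ex_inc_to (m := m) (V := V) (x := x) (τ := mem0.set 0 (0 + 1)) (i := 37) (a := 0)
    (by omega) (by omega) (by simp [Mem.set_r, mem0]) (by simp [Mem.set_r]) (by omega)
  have e1 : (mem0.set 0 (0 + 1)).set 37 (0 + 1) = sM 0 1 := by
    refine mem_eq rfl fun j => ?_
    simp only [Mem.set_r, sM_r, mem0]
    split_ifs <;> first | omega | rfl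
  rw [e1] at a2
  have a3 := ex_scan (m := m) (V := V) (x := x) hm hx1 hx2 (by omega) n 0 (by omega)
  have a4 := ex_inc_to (m := m) (V := V) (x := x) (τ := sM n 0) (i := 33) (a := n)
    (by omega) (by omega) (by simp [sM_r]) (by simp [sM_r]) (by omega)
  have a5 := ex_copy (m := m) (V := V) (x := x) (σ := (sM n 0).set 33 (n + 1)) (r := 33) (t := 35)
    (tmp := 37) (W := n + 1) (by omega) (by omega) (by omega) (by omega) (by omega) (by omega)
    (by omega) (by omega) (by omega) (by simp [Mem.set_r, sM_r]) (by omega)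
    (by simp [Mem.set_r]) (by simp [Mem.set_r, sM_r]) (by simp [Mem.set_r, sM_r])
  have e2 : ((sM n 0).set 33 (n + 1)).r 33 = n + 1 := by simp [Mem.set_r]
  rw [e2] at a5
  have a6 := ex_copy (m := m) (V := V) (x := x) (σ := ((sM n 0).set 33 (n + 1)).set 35 (n + 1))
    (r := 33) (t := 30)
    (tmp := 37) (W := n + 1) (by omega) (by omega) (by omega) (by omega) (by omega) (by omega)
    (by omega) (by omega) (by omega) (by simp [Mem.set_r, sM_r]) (by omega)
    (by simp [Mem.set_r]) (by simp [Mem.set_r, sM_r]) (by simp [Mem.set_r, sM_r])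
  have e3 : (((sM n 0).set 33 (n + 1)).set 35 (n + 1)).r 33 = n + 1 := by simp [Mem.set_r]
  rw [e3] at a6
  have a7 := ex_dec_to (m := m) (V := V) (x := x)
    (τ := (((sM n 0).set 33 (n + 1)).set 35 (n + 1)).set 30 (n + 1)) (i := 30) (a := n)
    (by omega) (by simp [Mem.set_r]) (by omega)
  set σ₁ := ((((sM n 0).set 33 (n + 1)).set 35 (n + 1)).set 30 (n + 1)).set 30 n with hσ₁
  have hσr : ∀ j, σ₁.r j = if j = 30 then n else if j = 35 then n + 1 else if j = 33 then n + 1
      else (sM n 0).r j := by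
    intro j
    simp only [hσ₁, Mem.set_r]
    split_ifs <;> first | omega | rfl
  have a8 := ex_grow (m := m) (V := V) (x := x) hm (c := n + 1) E' (σ := σ₁) (v := n + 1)
    (by rw [hσr]; simp [sM_r]) (by rw [hσr]; simp) (by rw [hσr]; simp [sM_r]) (by rw [hσr]; simp)
    (by rw [hσr]; simp [sM_r]) (by omega) le_rfl (by rw [← hW]; exact hV)
  rw [← hW] at a8
  have hr0 : ((σ₁.set 0 W).set 33 W).r 0 = W := by simp [Mem.set_r]
  have a9 := ex_incs (m := m) (V := V) (x := x) hm (r := 31) (by omega) (by omega) (by omega) L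
    (τ := (σ₁.set 0 W).set 33 W) (a := 0) (by simp [Mem.set_r, hσr, sM_r]) (by rw [hr0]; omega)
    (by simp [Mem.set_r, hσr, sM_r]) (by rw [hr0]; exact hV)
  have a10 := ex_incs (m := m) (V := V) (x := x) hm (r := 32) (by omega) (by omega) (by omega) d
    (τ := ((σ₁.set 0 W).set 33 W).set 31 (0 + L)) (a := 0) (by simp [Mem.set_r, hσr, sM_r])
    (by simp [Mem.set_r]; omega)
    (by simp [Mem.set_r, hσr, sM_r]) (by simp [Mem.set_r]; omega)
  have e4 : (((σ₁.set 0 W).set 33 W).set 31 (0 + L)).set 32 (0 + d) = preM n L d W := by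
    refine mem_eq rfl fun j => ?_
    simp only [Mem.set_r, hσr, sM_r, preM_r]
    split_ifs <;> first | omega | rfl
  rw [e4] at a10
  refine (a1.seq (a2.seq (a3.seq (a4.seq (a5.seq (a6.seq (a7.seq (a8.seq (a9.seq a10))))))))).mono ?_
  unfold preC
  have hnV : n + 1 ≤ V := by omega
  omega

end Mul

end Vale.Agent.Lib.P310V
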