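import Vale.Agent.Lib.P310V.Terms
import Vale.Agent.Lib.P310V.Pre

set_option linter.unusedSectionVars false
set_option linter.unusedSimpArgs false

/-!
Loading the parameters into registers.
-/

namespace Vale.Agent.Lib.P310V

open Stmt

/-- The program that loads a list of expressions into registers. -/
def loadS (π ρ : ℕ → ℕ) : List (ℕ × E) → Stmt
  | [] => dec 38
  | p :: l => seq (gen π p.2 ρ 40) (seq (moveS 40 p.1) (loadS π ρ l))

/-- The bound for loading. -/
def costL (W : ℕ) : List (ℕ × E) → ℕ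
  | [] => 1
  | p :: l => cost W p.2 + (3 * W + 1 + costL W l)

/-- Loading a list of expressions. -/
theorem ex_loadS {C : Cx} {m V : ℕ} (hV : C.W ≤ V) (hm : 40 ≤ m) {π ρ : ℕ → ℕ} (l : List (ℕ × E)) :
    ∀ σ, Good C π ρ 40 σ → σ.r 38 = 0 → (l.map Prod.fst).Nodup →
      (∀ p ∈ l, p.1 < 40 ∧ p.1 ≠ 0 ∧ p.1 ≠ 38 ∧ (∀ k, π k ≠ p.1) ∧ (∀ k, ρ k ≠ p.1) ∧ σ.r p.1 = 0 ∧
        40 + wd p.2 ≤ m) →
      ∃ σ', Ex m V C.x (loadS π ρ l) σ σ' (costL C.W l) ∧ σ'.out = σ.out ∧
        (∀ j, j ∉ l.map Prod.fst → σ'.r j = σ.r j) ∧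
        ∀ p ∈ l, σ'.r p.1 = eval C p.2 (fun j => σ.r (ρ j)) := by
  induction l with
  | nil =>
    intro σ hG h38 _ _
    exact ⟨σ, (ex_dec_zero (by omega) h38), rfl, fun _ _ => rfl, fun p hp => by simp at hp⟩
  | cons p l ih =>
    intro σ hG h38 hnd hl
    obtain ⟨a1, a2, a3, a4, a5, a6, a7⟩ := hl p (by simp)
    have hnd' := List.nodup_cons.mp (by simpa using hnd : (p.1 :: l.map Prod.fst).Nodup)
    set v := eval C p.2 (fun j => σ.r (ρ j)) with hv
    have hvW : v ≤ C.W := eval_le _ _ _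
    have hwd := wd_pos p.2
    have h40 : σ.r 40 = 0 := hG.top 40 le_rfl
    have e1 := gen_spec C hV π p.2 ρ 40 σ hG a7
    have e2 := ex_move (m := m) (V := V) (x := C.x) (σ := σ.set 40 v) (r := 40) (t := p.1) (W := C.W)
      (by omega) (by omega) (by omega) (by omega) a2
      (by rw [Mem.set_r, if_neg (by omega)]; exact hG.cap) hV
      (by rw [Mem.set_r, Mem.set_r, if_pos rfl, if_neg (by omega), a6]; omega)
    have e3 : ((σ.set 40 v).set 40 0).set p.1 ((σ.set 40 v).r 40 + (σ.set 40 v).r p.1) =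
        σ.set p.1 v := by
      refine mem_eq rfl fun j => ?_
      simp only [Mem.set_r, a6]
      split_ifs <;> first | omega | rfl | (subst_vars; omega)
    rw [e3] at e2
    have hG1 : Good C π ρ 40 (σ.set p.1 v) := by
      refine ⟨?_, ?_, ?_, ?_, hG.rho⟩
      · rw [Mem.set_r, if_neg (Ne.symm a2)]
        exact hG.cap
      · intro j
        rw [Mem.set_r]
        split_ifs
        · exact hvW
        · exact hG.le j
      · intro j hj
        rw [Mem.set_r, if_neg (by omega)]
        exact hG.top j hj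
      · intro i
        obtain ⟨b1, b2, b3⟩ := hG.pi i
        refine ⟨b1, b2, ?_⟩
        rw [Mem.set_r, if_neg (a4 i)]
        exact b3
    obtain ⟨σ', s1, s2, s3, s4⟩ := ih (σ.set p.1 v) hG1
      (by rw [Mem.set_r, if_neg (Ne.symm a3)]; exact h38) hnd'.2
      (fun q hq => by
        obtain ⟨c1, c2, c3, c4, c5, c6, c7⟩ := hl q (by simp [hq])
        have hne : q.1 ≠ p.1 := fun h => hnd'.1 (by
          rw [← h]
          exact List.mem_map_of_mem hq)
        refine ⟨c1, c2, c3, c4, c5, ?_, c7⟩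
        rw [Mem.set_r, if_neg hne]
        exact c6)
    have henv : (fun j => (σ.set p.1 v).r (ρ j)) = fun j => σ.r (ρ j) := by
      funext j
      rw [Mem.set_r, if_neg (a5 j)]
    rw [henv] at s4
    refine ⟨σ', (e1.seq (e2.seq s1)), s2, ?_, ?_⟩
    · intro j hj
      simp only [List.map_cons, List.mem_cons, not_or] at hj
      rw [s3 j hj.2, Mem.set_r, if_neg hj.1]
    · intro q hq
      rcases List.mem_cons.mp hq with rfl | hq
      · rw [s3 q.1 hnd'.1, Mem.set_r, if_pos rfl]
      · exact s4 q hq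

/-- The list of the parameters. -/
def loadL : List (ℕ × E) :=
  [(1, t0N), (2, tGa), (3, tS), (4, tW), (5, tH), (6, t0L), (7, tL1), (8, tL2), (9, tNN), (10, tN1),
    (11, tPad), (12, tB), (13, tD), (14, tX), (15, tY), (16, tGX), (17, tColB), (18, tBB), (19, tEE),
    (20, tCC), (21, tPW), (22, tPP), (23, tBox)]

/-- The registers of the base parameters. -/
def π₀ (j : ℕ) : ℕ := if j = 1 then 31 else if j = 2 then 32 else 30

/-- The registers of the variables while loading. -/
def ρ₀ (_ : ℕ) : ℕ := 30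

/-- The number of registers for the expressions of the list. -/
def wdL : List (ℕ × E) → ℕ
  | [] => 0
  | p :: l => wd p.2 + wdL l

lemma wd_le_wdL {l : List (ℕ × E)} {p : ℕ × E} (h : p ∈ l) : wd p.2 ≤ wdL l := by
  induction l with
  | nil => simp at h
  | cons q l ih =>
    rcases List.mem_cons.mp h with rfl | h
    · simp only [wdL]
      omega
    · have := ih h
      simp only [wdL]
      omega

/-- The context of loading. -/
def cx0 (x : ℕ → Option Bool) (W n L d : ℕ) (hW : 100 ≤ W) : Cx :=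
  ⟨W, hW, fun j => if j = 1 then L else if j = 2 then d else n, x⟩

/-- The parameters of the program in a register function. -/
structure LoadedR (r : ℕ → ℕ) (n q γ L d W : ℕ) : Prop where
  r1 : r 1 = n
  r2 : r 2 = γ
  r3 : r 3 = γ * (q + 1)
  r4 : r 4 = q + γ + 3
  r5 : r 5 = q + γ + 2
  r6 : r 6 = L
  r7 : r 7 = L + 1
  r8 : r 8 = L + 2
  r9 : r 9 = L + L + 1
  r10 : r 10 = L + L + 1 + 1
  r11 : r 11 = d - (32 * L + 34)
  r12 : r 12 = bN n
  r13 : r 13 = 2 ^ bN n
  r14 : r 14 = 6 * (2 ^ bN n) ^ 4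
  r15 : r 15 = (2 ^ bN n) ^ 7
  r16 : r 16 = (d + 2) * (6 * (2 ^ bN n) ^ 4)
  r17 : r 17 = (d + 2) * (6 * (2 ^ bN n) ^ 4) + 4 * (2 ^ bN n) ^ 7
  r18 : r 18 = dBB (bN n) (d + 2)
  r19 : r 19 = dBB (bN n) (d + 2) * dBB (bN n) (d + 2)
  r20 : r 20 = dCC (bN n) (d + 2)
  r21 : r 21 = dPW (bN n) (d + 2)
  r22 : r 22 = dPP (bN n) (d + 2)
  r23 : r 23 = dBox (bN n) (d + 2)

/-- After loading the registers hold the parameters. -/
theorem ex_load {m V n q γ L d : ℕ} {x : ℕ → Option Bool} (hm : 40 + wdL loadL ≤ m)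
    (hB : Big n q γ L d) (hx : Hdr x q γ) (hV : wOf n ≤ V) (hW : 100 ≤ wOf n) :
    ∃ σ', Ex m V x (loadS π₀ ρ₀ loadL) (preM n L d (wOf n)) σ' (costL (wOf n) loadL) ∧ σ'.out = [] ∧
      (∀ j, 24 ≤ j → σ'.r j = (preM n L d (wOf n)).r j) ∧ σ'.r 0 = wOf n ∧
      (∀ j, σ'.r j ≤ wOf n) ∧ LoadedR σ'.r n q γ L d (wOf n) := by
  set C := cx0 x (wOf n) n L d hW with hC
  have H : Ctx0 C n q γ L d := ⟨hB, rfl, rfl, rfl, rfl, hx⟩
  have hn := H.n_lt
  have hWW : C.W = wOf n := rfl
  have hgood : Good C π₀ ρ₀ 40 (preM n L d (wOf n)) := by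
    have hL := hB.NB
    have hd := hB.dB
    refine ⟨by simp [preM_r, hWW], ?_, ?_, ?_, ?_⟩
    · intro j
      simp only [preM_r, hWW]
      split_ifs <;> omega
    · intro j hj
      simp only [preM_r]
      rw [if_neg (by omega), if_neg (by omega), if_neg (by omega), if_neg (by omega),
        if_neg (by omega), if_neg (by omega)]
    · intro i
      unfold π₀
      split_ifs with a1 a2
      · refine ⟨by omega, by omega, ?_⟩
        simp [preM_r, C, cx0, a1]
      · refine ⟨by omega, by omega, ?_⟩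
        simp [preM_r, C, cx0, a1, a2]
      · refine ⟨by omega, by omega, ?_⟩
        simp [preM_r, C, cx0, a1, a2]
    · intro j
      exact ⟨by simp [ρ₀], by simp [ρ₀]⟩
  have hp : ∀ p ∈ loadL, p.1 < 24 ∧ p.1 ≠ 0 := by
    intro p hp
    simp only [loadL, List.mem_cons, List.not_mem_nil, or_false] at hp
    rcases hp with rfl | rfl | rfl | rfl | rfl | rfl | rfl | rfl | rfl | rfl | rfl | rfl | rfl | rfl |
      rfl | rfl | rfl | rfl | rfl | rfl | rfl | rfl | rfl <;> simp
  obtain ⟨σ', s1, s2, s3, s4⟩ := ex_loadS (C := C) (m := m) (V := V) hV (by omega) (π := π₀) (ρ := ρ₀)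
    loadL (preM n L d (wOf n)) hgood (by simp [preM_r]) (by simp [loadL])
    (fun p hp' => by
      obtain ⟨b1, b2⟩ := hp p hp'
      refine ⟨by omega, b2, by omega, ?_, ?_, ?_, ?_⟩
      · intro k
        unfold π₀
        split_ifs <;> omega
      · intro k
        simp only [ρ₀]
        omega
      · simp only [preM_r]
        rw [if_neg b2, if_neg (by omega), if_neg (by omega), if_neg (by omega), if_neg (by omega),
          if_neg (by omega)]
      · have := wd_le_wdL hp'
        omega)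
  have hout : ∀ j, 24 ≤ j → σ'.r j = (preM n L d (wOf n)).r j := by
    intro j hj
    apply s3
    intro hmem
    obtain ⟨p, hp', rfl⟩ := List.mem_map.mp hmem
    have := (hp p hp').1
    omega
  have val : ∀ {i : ℕ} {e : E}, (i, e) ∈ loadL → σ'.r i = eval C e (fun _ => n) := by
    intro i e he
    have := s4 (i, e) he
    simp only at this
    rw [this]
    congr 1
  have mem : ∀ {i : ℕ} {e : E}, (i, e) ∈ loadL → (i, e) ∈ loadL := fun h => h
  refine ⟨σ', s1, by simpa [preM] using s2, hout, ?_, ?_, ?_⟩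
  · rw [s3 0 ?_]
    · simp [preM_r]
    · intro hmem
      obtain ⟨p, hp', h⟩ := List.mem_map.mp hmem
      exact (hp p hp').2 h
  · intro j
    by_cases hj : j ∈ loadL.map Prod.fst
    · obtain ⟨p, hp', rfl⟩ := List.mem_map.mp hj
      rw [s4 p hp']
      exact eval_le _ _ _
    · rw [s3 j hj]
      have hL := hB.NB
      have hd := hB.dB
      simp only [preM_r]
      split_ifs <;> omega
  · have e : ∀ {i : ℕ} {e : E} {v : ℕ}, (i, e) ∈ loadL → eval C e (fun _ => n) = v → σ'.r i = v :=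
      fun h1 h2 => (val h1).trans h2
    exact ⟨e (by simp [loadL]) (ev_N H _), e (by simp [loadL]) (ev_Ga H _), e (by simp [loadL]) (ev_S H _),
      e (by simp [loadL]) (ev_W H _), e (by simp [loadL]) (ev_H H _), e (by simp [loadL]) (ev_L H _),
      e (by simp [loadL]) (ev_L1 H _), e (by simp [loadL]) (ev_L2 H _), e (by simp [loadL]) (ev_NN H _),
      e (by simp [loadL]) (ev_N1 H _), e (by simp [loadL]) (ev_Pad H _), e (by simp [loadL]) (ev_B H _),
      e (by simp [loadL]) (ev_D H _), e (by simp [loadL]) (ev_X H _), e (by simp [loadL]) (ev_Y H _),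
      e (by simp [loadL]) (ev_GX H _), e (by simp [loadL]) (ev_ColB H _), e (by simp [loadL]) (ev_BB H _),
      e (by simp [loadL]) (ev_EE H _), e (by simp [loadL]) (ev_CC H _), e (by simp [loadL]) (ev_PW H _),
      e (by simp [loadL]) (ev_PP H _), e (by simp [loadL]) (ev_Box H _)⟩

end Vale.Agent.Lib.P310V
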