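import Vale.Agent.Lib.P310V.MT
import Vale.Agent.Lib.P310V.TMCA

set_option linter.unusedSectionVars false
set_option linter.unusedSimpArgs false

/-!
A single-tape machine simulates a machine with several tapes: one track for each tape, a mark for each
head and a mark for the visited zone.  One step of the simulated machine takes two sweeps over the zone.
-/

namespace Vale.Agent.Lib.P310V

open Function

noncomputable instance : Fintype Dir := by
  classical
  exact Fintype.ofList [Dir.left, Dir.right, Dir.stay] (by intro d; cases d <;> simp)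

/-- Tests for the moves. -/
def Dir.isL : Dir → Bool
  | Dir.left => true
  | _ => false

def Dir.isR : Dir → Bool
  | Dir.right => true
  | _ => false

def Dir.isS : Dir → Bool
  | Dir.stay => true
  | _ => false

section Sim

variable {t : ℕ} {Q Γ : Type}

/-- The cells of the simulating machine: tracks, head marks, marks of heads to be moved to the right,
zone mark. -/
abbrev SCell (t : ℕ) (Γ : Type) : Type :=
  (Fin (t + 1) → Γ) × (Fin (t + 1) → Bool) × (Fin (t + 1) → Bool) × Bool

/-- The states of the simulating machine: the start, the sweep to the right (state of the simulated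
machine, symbols seen, heads to be marked on the next cell), the sweep to the left (new state, what
to write and where to move, heads to be marked on the next cell), the end. -/
abbrev SSt (t : ℕ) (Q Γ : Type) : Type :=
  Unit ⊕ (Q × (Fin (t + 1) → Option Γ) × (Fin (t + 1) → Bool)) ⊕
    (Q × (Fin (t + 1) → Γ × Dir) × (Fin (t + 1) → Bool)) ⊕ Bool

def stR (q : Q) (rd : Fin (t + 1) → Option Γ) (pr : Fin (t + 1) → Bool) : SSt t Q Γ :=
  Sum.inr (Sum.inl (q, rd, pr))

def stL (q : Q) (w : Fin (t + 1) → Γ × Dir) (pl : Fin (t + 1) → Bool) : SSt t Q Γ :=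
  Sum.inr (Sum.inr (Sum.inl (q, w, pl)))

def stH (b : Bool) : SSt t Q Γ := Sum.inr (Sum.inr (Sum.inr b))

/-- The new cell in the sweep to the left. -/
def lCell (w : Fin (t + 1) → Γ × Dir) (pl : Fin (t + 1) → Bool) (c : SCell t Γ) : SCell t Γ :=
  (fun i => if c.2.1 i then (w i).1 else c.1 i,
    fun i => (c.2.1 i && (w i).2.isS) || pl i,
    fun i => c.2.1 i && (w i).2.isR,
    true)

/-- A step in the sweep to the right. -/
noncomputable def rStep (A : MTM t Q Γ) (q : Q) (rd : Fin (t + 1) → Option Γ) (pr : Fin (t + 1) → Bool)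
    (c : SCell t Γ) : SSt t Q Γ × SCell t Γ × Dir := by
  classical
  exact
    if c.2.2.2 = true then
      (stR q (fun i => if (c.2.1 i || pr i) then some (c.1 i) else rd i) c.2.2.1,
        (c.1, fun i => c.2.1 i || pr i, fun _ => false, true), Dir.right)
    else if q = A.acc then (stH true, c, Dir.stay)
    else if q = A.rej then (stH false, c, Dir.stay)
    else
      ((stL (A.δ q fun i => (rd i).getD A.blank).1 (A.δ q fun i => (rd i).getD A.blank).2
          (fun _ => false)),
        (c.1, c.2.1, c.2.2.1, true), Dir.left)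

/-- A step in the sweep to the left. -/
def lStep (q : Q) (w : Fin (t + 1) → Γ × Dir) (pl : Fin (t + 1) → Bool) (c : SCell t Γ) :
    SSt t Q Γ × SCell t Γ × Dir :=
  if c.2.2.2 = true then
    (stL q w (fun i => c.2.1 i && (w i).2.isL), lCell w pl c, Dir.left)
  else
    (stR q (fun _ => none) (fun _ => false), lCell w pl c, Dir.stay)

/-- The transitions of the simulating machine. -/
noncomputable def simδ (A : MTM t Q Γ) : SSt t Q Γ → SCell t Γ → SSt t Q Γ × SCell t Γ × Dir
  | Sum.inl _, c =>
      (stR A.start (fun _ => none) (fun _ => false), (c.1, fun _ => true, c.2.2.1, true), Dir.stay)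
  | Sum.inr (Sum.inl (q, rd, pr)), c => rStep A q rd pr c
  | Sum.inr (Sum.inr (Sum.inl (q, w, pl))), c => lStep q w pl c
  | Sum.inr (Sum.inr (Sum.inr b)), c => (stH b, c, Dir.stay)

/-- The simulating machine. -/
noncomputable def simM (A : MTM t Q Γ) : DTM (SSt t Q Γ) (SCell t Γ) where
  δ := simδ A
  start := Sum.inl ()
  acc := stH true
  rej := stH false
  blank := (fun _ => A.blank, fun _ => false, fun _ => false, false)
  acc_ne_rej := by simp [stH]

/-- The coding of the input bits of the simulating machine. -/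
def simI (A : MTM t Q Γ) (ι : Bool → Γ) (b : Bool) : SCell t Γ :=
  (fun i => if i = 0 then ι b else A.blank, fun _ => false, fun _ => false, true)

/-- The tape at the end of a sweep to the right. -/
def S0 (c : MConf t Q Γ) (a b : ℤ) (x : ℤ) : SCell t Γ :=
  (fun i => c.tape i x, fun i => decide (x = c.pos i), fun _ => false, decide (a ≤ x ∧ x ≤ b))

/-- The tape at the end of a sweep to the left: the heads that moved to the right are marked on the
cell before their position. -/
def S1 (c : MConf t Q Γ) (rm : Fin (t + 1) → Bool) (a b : ℤ) (x : ℤ) : SCell t Γ :=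
  (fun i => c.tape i x, fun i => decide (x = c.pos i ∧ rm i = false),
    fun i => decide (x + 1 = c.pos i ∧ rm i = true), decide (a ≤ x ∧ x ≤ b))

/-- A run of `s` steps without the end states. -/
def Reach {S G : Type} (M : DTM S G) (c c' : TConf S G) (s : ℕ) : Prop :=
  (M.step)^[s] c = c' ∧ ∀ s' < s, ((M.step)^[s'] c).st ≠ M.acc ∧ ((M.step)^[s'] c).st ≠ M.rej

lemma Reach.refl {S G : Type} (M : DTM S G) (c : TConf S G) : Reach M c c 0 :=
  ⟨rfl, fun s' hs' => absurd hs' (by omega)⟩

lemma Reach.trans {S G : Type} {M : DTM S G} {c c' c'' : TConf S G} {s s' : ℕ} (h : Reach M c c' s)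
    (h' : Reach M c' c'' s') : Reach M c c'' (s + s') := by
  refine ⟨?_, fun u hu => ?_⟩
  · rw [add_comm, iterate_add_apply, h.1, h'.1]
  · by_cases hus : u < s
    · exact h.2 u hus
    · obtain ⟨v, rfl⟩ : ∃ v, u = v + s := ⟨u - s, by omega⟩
      rw [iterate_add_apply, h.1]
      exact h'.2 v (by omega)

lemma Reach.one {S G : Type} {M : DTM S G} {c c' : TConf S G} (h : M.step c = c')
    (h1 : c.st ≠ M.acc) (h2 : c.st ≠ M.rej) : Reach M c c' 1 := by
  refine ⟨h, fun u hu => ?_⟩
  have : u = 0 := by omega
  subst this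
  exact ⟨h1, h2⟩

lemma stR_ne_acc (A : MTM t Q Γ) (q : Q) (rd) (pr) : (stR q rd pr : SSt t Q Γ) ≠ (simM A).acc := by
  simp [stR, simM, stH]

lemma stR_ne_rej (A : MTM t Q Γ) (q : Q) (rd) (pr) : (stR q rd pr : SSt t Q Γ) ≠ (simM A).rej := by
  simp [stR, simM, stH]

lemma stL_ne_acc (A : MTM t Q Γ) (q : Q) (w) (pl) : (stL q w pl : SSt t Q Γ) ≠ (simM A).acc := by
  simp [stL, simM, stH]

lemma stL_ne_rej (A : MTM t Q Γ) (q : Q) (w) (pl) : (stL q w pl : SSt t Q Γ) ≠ (simM A).rej := by
  simp [stL, simM, stH]

variable (A : MTM t Q Γ)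

/-- The tape during the sweep to the right at position `p`. -/
def tapeR (c : MConf t Q Γ) (rm : Fin (t + 1) → Bool) (a b p : ℤ) (x : ℤ) : SCell t Γ :=
  if x < p then S0 c a b x else S1 c rm a b x

/-- The symbols seen during the sweep to the right. -/
def rdR (c : MConf t Q Γ) (p : ℤ) (i : Fin (t + 1)) : Option Γ :=
  if c.pos i < p then some (c.tape i (c.pos i)) else none

/-- The heads to be marked during the sweep to the right. -/
def prR (c : MConf t Q Γ) (rm : Fin (t + 1) → Bool) (p : ℤ) (i : Fin (t + 1)) : Bool :=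
  decide (rm i = true ∧ c.pos i = p)

/-- The configuration during the sweep to the right. -/
def cfR (c : MConf t Q Γ) (rm : Fin (t + 1) → Bool) (a b p : ℤ) : TConf (SSt t Q Γ) (SCell t Γ) :=
  ⟨stR c.st (rdR c p) (prR c rm p), tapeR c rm a b p, p⟩

/-- One step of the sweep to the right. -/
lemma cfR_step (c : MConf t Q Γ) (rm : Fin (t + 1) → Bool) {a b p : ℤ} (h1 : a ≤ p) (h2 : p ≤ b) :
    (simM A).step (cfR c rm a b p) = cfR c rm a b (p + 1) := by
  have hz : (tapeR c rm a b p p).2.2.2 = true := by
    simp [tapeR, S1, h1, h2]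
  have hfl : ∀ i, ((tapeR c rm a b p p).2.1 i || prR c rm p i) = decide (p = c.pos i) := by
    intro i
    simp only [tapeR, S1, prR, lt_self_iff_false, if_false]
    by_cases h : p = c.pos i
    · subst h
      cases rm i <;> simp
    · have h' : c.pos i ≠ p := fun e => h e.symm
      simp [h, h']
  unfold DTM.step cfR
  simp only [simM, stR, simδ, rStep, hz, if_true]
  have e1 : (fun i => if ((tapeR c rm a b p p).2.1 i || prR c rm p i) = true then
      some ((tapeR c rm a b p p).1 i) else rdR c p i) = rdR c (p + 1) := by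
    funext i
    rw [hfl i]
    simp only [tapeR, S1, rdR, lt_self_iff_false, if_false]
    by_cases h : p = c.pos i
    · subst h
      simp
    · by_cases h3 : c.pos i < p
      · have h4 : c.pos i < p + 1 := by omega
        simp [h, h3, h4]
      · have h4 : ¬ c.pos i < p + 1 := by omega
        simp [h, h3, h4]
  have e2 : (tapeR c rm a b p p).2.2.1 = prR c rm (p + 1) := by
    funext i
    simp only [tapeR, S1, prR, lt_self_iff_false, if_false]
    by_cases h : rm i = true
    · by_cases h3 : p + 1 = c.pos i
      · simp [h, h3]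
      · have h4 : c.pos i ≠ p + 1 := fun e => h3 e.symm
        simp [h, h3, h4]
    · simp [h]
  have e3 : update (tapeR c rm a b p) p ((tapeR c rm a b p p).1,
      (fun i => (tapeR c rm a b p p).2.1 i || prR c rm p i), (fun _ => false), true) =
      tapeR c rm a b (p + 1) := by
    funext x
    by_cases hx : x = p
    · subst hx
      simp only [update_self]
      have h5 : x < x + 1 := by omega
      simp only [tapeR, S0, h5, if_true, lt_self_iff_false, if_false, S1]
      have : (fun i => decide (x = c.pos i ∧ rm i = false) || prR c rm x i) =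
          fun i => decide (x = c.pos i) := by
        funext i
        have := hfl i
        simp only [tapeR, S1, lt_self_iff_false, if_false] at this
        exact this
      rw [this]
      simp [h1, h2]
    · rw [update_of_ne hx]
      unfold tapeR
      by_cases h3 : x < p
      · have h4 : x < p + 1 := by omega
        simp [h3, h4]
      · have h4 : ¬ x < p + 1 := by omega
        simp [h3, h4]
  simp only [e1, e2, e3, Dir.shift]

/-- The whole sweep to the right. -/
lemma cfR_sweep (c : MConf t Q Γ) (rm : Fin (t + 1) → Bool) {a b : ℤ} (d : ℕ) (h : a + d ≤ b + 1) :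
    Reach (simM A) (cfR c rm a b a) (cfR c rm a b (a + d)) d := by
  induction d with
  | zero =>
    simpa using Reach.refl (simM A) _
  | succ d ih =>
    push_cast at h
    have h1 := ih (by omega)
    have h2 : (cfR c rm a b (a + d)).st ≠ (simM A).acc := stR_ne_acc A _ _ _
    have h3 : (cfR c rm a b (a + d)).st ≠ (simM A).rej := stR_ne_rej A _ _ _
    have h4 := cfR_step A c rm (a := a) (b := b) (p := a + d) (by omega) (by omega)
    have h5 := h1.trans (Reach.one h4 h2 h3)
    have e : a + (d + 1 : ℕ) = a + d + 1 := by push_cast; ring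
    rw [e]
    exact h5

/-- The result of the transition function of the simulated machine. -/
def resOf (c : MConf t Q Γ) : Q × (Fin (t + 1) → Γ × Dir) := A.δ c.st fun i => c.tape i (c.pos i)

/-- The heads that move to the right. -/
def rmOf (w : Fin (t + 1) → Γ × Dir) (i : Fin (t + 1)) : Bool := (w i).2.isR

/-- The tape during the sweep to the left at position `p`. -/
def tapeL (c : MConf t Q Γ) (a b p : ℤ) (x : ℤ) : SCell t Γ :=
  if x ≤ p then S0 c a b x else S1 (A.step c) (rmOf (resOf A c).2) (a - 1) (b + 1) x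

/-- The heads to be marked during the sweep to the left. -/
def plL (c : MConf t Q Γ) (w : Fin (t + 1) → Γ × Dir) (p : ℤ) (i : Fin (t + 1)) : Bool :=
  decide ((w i).2.isL = true ∧ c.pos i = p + 1)

/-- The configuration during the sweep to the left. -/
def cfL (c : MConf t Q Γ) (a b p : ℤ) : TConf (SSt t Q Γ) (SCell t Γ) :=
  ⟨stL (resOf A c).1 (resOf A c).2 (plL c (resOf A c).2 p), tapeL A c a b p, p⟩

lemma step_pos (c : MConf t Q Γ) (i : Fin (t + 1)) :
    (A.step c).pos i = c.pos i + ((resOf A c).2 i).2.shift := rfl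

lemma step_tape (c : MConf t Q Γ) (i : Fin (t + 1)) :
    (A.step c).tape i = update (c.tape i) (c.pos i) ((resOf A c).2 i).1 := rfl

lemma step_st (c : MConf t Q Γ) : (A.step c).st = (resOf A c).1 := rfl

lemma shift_bd (d : Dir) : -1 ≤ d.shift ∧ d.shift ≤ 1 := by
  cases d <;> simp [Dir.shift]

/-- The cell written in the sweep to the left. -/
lemma lCell_eq (c : MConf t Q Γ) {a b p : ℤ} (h1 : a - 1 ≤ p) (h2 : p ≤ b + 1) :
    lCell (resOf A c).2 (plL c (resOf A c).2 p) (S0 c a b p) =
      S1 (A.step c) (rmOf (resOf A c).2) (a - 1) (b + 1) p := by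
  refine Prod.ext ?_ (Prod.ext ?_ (Prod.ext ?_ ?_))
  · funext i
    show (if decide (p = c.pos i) = true then ((resOf A c).2 i).1 else c.tape i p) = (A.step c).tape i p
    rw [step_tape]
    by_cases h : p = c.pos i
    · subst h
      simp
    · simp [h, update_of_ne h]
  · funext i
    show (decide (p = c.pos i) && ((resOf A c).2 i).2.isS ||
        decide (((resOf A c).2 i).2.isL = true ∧ c.pos i = p + 1)) =
      decide (p = (A.step c).pos i ∧ ((resOf A c).2 i).2.isR = false)
    rw [step_pos]
    generalize ((resOf A c).2 i).2 = d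
    generalize c.pos i = u
    cases d
    · have e : (p = u + Dir.left.shift) ↔ u = p + 1 := by
        simp only [Dir.shift]
        omega
      simp [Dir.isS, Dir.isL, Dir.isR, e]
    · simp [Dir.isS, Dir.isL, Dir.isR]
    · have e : (p = u + Dir.stay.shift) ↔ p = u := by
        simp only [Dir.shift]
        omega
      simp [Dir.isS, Dir.isL, Dir.isR, e]
  · funext i
    show (decide (p = c.pos i) && ((resOf A c).2 i).2.isR) =
      decide (p + 1 = (A.step c).pos i ∧ ((resOf A c).2 i).2.isR = true)
    rw [step_pos]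
    generalize ((resOf A c).2 i).2 = d
    generalize c.pos i = u
    cases d
    · simp [Dir.isR]
    · have e : (p + 1 = u + Dir.right.shift) ↔ p = u := by
        simp only [Dir.shift]
        omega
      simp [Dir.isR, e]
    · simp [Dir.isR]
  · show true = decide (a - 1 ≤ p ∧ p ≤ b + 1)
    simp [h1, h2]

/-- The hypotheses on a configuration at the start of a sweep. -/
structure HZ (c : MConf t Q Γ) (rm : Fin (t + 1) → Bool) (a b : ℤ) : Prop where
  z1 : ∀ i, a ≤ c.pos i
  z2 : ∀ i, c.pos i ≤ b
  z3 : ∀ i, rm i = true → a + 1 ≤ c.pos i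

lemma HZ.next {c : MConf t Q Γ} {rm : Fin (t + 1) → Bool} {a b : ℤ} (h : HZ c rm a b) :
    HZ (A.step c) (rmOf (resOf A c).2) (a - 1) (b + 1) := by
  refine ⟨fun i => ?_, fun i => ?_, fun i hi => ?_⟩
  · rw [step_pos]
    have := h.z1 i
    have := (shift_bd ((resOf A c).2 i).2).1
    omega
  · rw [step_pos]
    have := h.z2 i
    have := (shift_bd ((resOf A c).2 i).2).2
    omega
  · rw [step_pos]
    have h1 := h.z1 i
    unfold rmOf at hi
    generalize ((resOf A c).2 i).2 = d at hi ⊢
    cases d
    · simp [Dir.isR] at hi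
    · simp only [Dir.shift]
      omega
    · simp [Dir.isR] at hi

lemma rdR_top {c : MConf t Q Γ} {p : ℤ} (h : ∀ i, c.pos i < p) :
    (fun i => (rdR c p i).getD A.blank) = fun i => c.tape i (c.pos i) := by
  funext i
  simp [rdR, h i]

lemma S1_far {c : MConf t Q Γ} {rm : Fin (t + 1) → Bool} {a b x : ℤ} (hx : ∀ i, c.pos i < x) :
    S1 c rm a b x = (fun i => c.tape i x, fun _ => false, fun _ => false, decide (a ≤ x ∧ x ≤ b)) := by
  refine Prod.ext rfl (Prod.ext ?_ (Prod.ext ?_ rfl))
  · funext i
    show decide (x = c.pos i ∧ rm i = false) = false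
    rw [decide_eq_false_iff_not]
    rintro ⟨h, -⟩
    have := hx i
    omega
  · funext i
    show decide (x + 1 = c.pos i ∧ rm i = true) = false
    rw [decide_eq_false_iff_not]
    rintro ⟨h, -⟩
    have := hx i
    omega

lemma S1_next {c : MConf t Q Γ} {rm : Fin (t + 1) → Bool} {a b x : ℤ} (h : HZ c rm a b) (hx : b + 1 ≤ x) :
    S1 (A.step c) (rmOf (resOf A c).2) (a - 1) (b + 1) x =
      (fun i => c.tape i x, fun _ => false, fun _ => false, decide (a - 1 ≤ x ∧ x ≤ b + 1)) := by
  refine Prod.ext ?_ (Prod.ext ?_ (Prod.ext ?_ rfl))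
  · funext i
    show (A.step c).tape i x = c.tape i x
    have h5 : x ≠ c.pos i := by have := h.z2 i; omega
    rw [step_tape, update_of_ne h5]
  · funext i
    show decide (x = (A.step c).pos i ∧ rmOf (resOf A c).2 i = false) = false
    rw [decide_eq_false_iff_not]
    rintro ⟨h9, h10⟩
    rw [step_pos] at h9
    unfold rmOf at h10
    have h8 := h.z2 i
    generalize ((resOf A c).2 i).2 = d at h9 h10
    cases d
    · simp only [Dir.shift] at h9
      omega
    · simp [Dir.isR] at h10
    · simp only [Dir.shift] at h9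
      omega
  · funext i
    show decide (x + 1 = (A.step c).pos i ∧ rmOf (resOf A c).2 i = true) = false
    rw [decide_eq_false_iff_not]
    rintro ⟨h9, -⟩
    rw [step_pos] at h9
    have h8 := h.z2 i
    have h11 := (shift_bd ((resOf A c).2 i).2).2
    omega

/-- The turn at the right end of the zone. -/
lemma cfR_turn {c : MConf t Q Γ} {rm : Fin (t + 1) → Bool} {a b : ℤ} (h : HZ c rm a b) (hb : a ≤ b + 1)
    (h1 : c.st ≠ A.acc) (h2 : c.st ≠ A.rej) :
    (simM A).step (cfR c rm a b (b + 1)) = cfL A c a b b := by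
  have hlt : ∀ i, c.pos i < b + 1 := fun i => by have := h.z2 i; omega
  have hz : (tapeR c rm a b (b + 1) (b + 1)).2.2.2 = false := by
    simp [tapeR, S1]
  have hd : (fun i => (rdR c (b + 1) i).getD A.blank) = fun i => c.tape i (c.pos i) := rdR_top A hlt
  unfold DTM.step cfR cfL
  simp only [simM, stR, simδ, rStep, hz, h1, h2, if_false, Bool.false_eq_true, hd]
  have e1 : (fun _ : Fin (t + 1) => false) = plL c (resOf A c).2 b := by
    funext i
    have := hlt i
    have h5 : c.pos i ≠ b + 1 := by omega
    simp [plL, h5]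
  have e2 : update (tapeR c rm a b (b + 1)) (b + 1) ((tapeR c rm a b (b + 1) (b + 1)).1,
      (tapeR c rm a b (b + 1) (b + 1)).2.1, (tapeR c rm a b (b + 1) (b + 1)).2.2.1, true) =
      tapeL A c a b b := by
    funext x
    by_cases hx : x ≤ b
    · have hx1 : x ≠ b + 1 := by omega
      have hx2 : x < b + 1 := by omega
      rw [update_of_ne hx1]
      simp [tapeR, tapeL, hx, hx2]
    · have hU : tapeL A c a b b x = S1 (A.step c) (rmOf (resOf A c).2) (a - 1) (b + 1) x := by
        simp [tapeL, hx]
      rw [hU, S1_next A h (by omega)]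
      by_cases hx1 : x = b + 1
      · subst hx1
        have h6 : ¬ b + 1 < b + 1 := by omega
        have h7 : a - 1 ≤ b + 1 := by omega
        simp only [update_self, tapeR, h6, if_false]
        rw [S1_far hlt]
        simp [h7]
      · rw [update_of_ne hx1]
        have h6 : ¬ x < b + 1 := by omega
        have h8 : ¬ (a ≤ x ∧ x ≤ b) := fun h9 => hx h9.2
        have h9 : ¬ (a - 1 ≤ x ∧ x ≤ b + 1) := fun h10 => by omega
        simp only [tapeR, h6, if_false]
        rw [S1_far (fun i => by have := hlt i; omega), decide_eq_false h8, decide_eq_false h9]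
  simp only [e1, e2, Dir.shift, resOf]
  have e3 : b + 1 + -1 = b := by ring
  rw [e3]

/-- The end at the right end of the zone, in an accepting or a rejecting state. -/
lemma cfR_end {c : MConf t Q Γ} {rm : Fin (t + 1) → Bool} {a b : ℤ} {e : Bool}
    (h : c.st = if e then A.acc else A.rej) :
    ((simM A).step (cfR c rm a b (b + 1))).st = stH e := by
  have hz : (tapeR c rm a b (b + 1) (b + 1)).2.2.2 = false := by
    simp [tapeR, S1]
  have hne := A.acc_ne_rej
  unfold DTM.step cfR
  cases e
  · simp only [if_false, Bool.false_eq_true] at h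
    have h1 : A.rej ≠ A.acc := fun e => hne e.symm
    simp [simM, stR, simδ, rStep, hz, h, h1]
  · simp only [if_true] at h
    simp [simM, stR, simδ, rStep, hz, h]

/-- One step of the sweep to the left. -/
lemma cfL_step (c : MConf t Q Γ) {a b p : ℤ} (h1 : a ≤ p) (h2 : p ≤ b) :
    (simM A).step (cfL A c a b p) = cfL A c a b (p - 1) := by
  have hz : (tapeL A c a b p p).2.2.2 = true := by
    simp [tapeL, S0, h1, h2]
  have hc : tapeL A c a b p p = S0 c a b p := by simp [tapeL]
  unfold DTM.step cfL
  simp only [simM, stL, simδ, lStep, hz, if_true]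
  have e1 : (fun i => (tapeL A c a b p p).2.1 i && ((resOf A c).2 i).2.isL) =
      plL c (resOf A c).2 (p - 1) := by
    funext i
    rw [hc]
    show (decide (p = c.pos i) && ((resOf A c).2 i).2.isL) =
      decide (((resOf A c).2 i).2.isL = true ∧ c.pos i = p - 1 + 1)
    have e : p - 1 + 1 = p := by ring
    rw [e]
    by_cases h : p = c.pos i
    · subst h
      simp
    · have h' : c.pos i ≠ p := fun e => h e.symm
      simp [h, h']
  have e2 : update (tapeL A c a b p) p (lCell (resOf A c).2 (plL c (resOf A c).2 p) (tapeL A c a b p p)) =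
      tapeL A c a b (p - 1) := by
    rw [hc, lCell_eq A c (by omega) (by omega)]
    funext x
    by_cases hx : x = p
    · subst hx
      have h3 : ¬ x ≤ x - 1 := by omega
      simp [tapeL, h3]
    · rw [update_of_ne hx]
      unfold tapeL
      by_cases h3 : x ≤ p
      · have h4 : x ≤ p - 1 := by omega
        simp [h3, h4]
      · have h4 : ¬ x ≤ p - 1 := by omega
        simp [h3, h4]
  simp only [e1, e2, Dir.shift]
  have e3 : p + -1 = p - 1 := by ring
  rw [e3]

/-- The whole sweep to the left. -/
lemma cfL_sweep (c : MConf t Q Γ) {a b : ℤ} (d : ℕ) (h : a - 1 ≤ b - d) :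
    Reach (simM A) (cfL A c a b b) (cfL A c a b (b - d)) d := by
  induction d with
  | zero =>
    simpa using Reach.refl (simM A) _
  | succ d ih =>
    push_cast at h
    have h1 := ih (by omega)
    have h2 : (cfL A c a b (b - d)).st ≠ (simM A).acc := stL_ne_acc A _ _ _
    have h3 : (cfL A c a b (b - d)).st ≠ (simM A).rej := stL_ne_rej A _ _ _
    have h4 := cfL_step A c (a := a) (b := b) (p := b - d) (by omega) (by omega)
    have h5 := h1.trans (Reach.one h4 h2 h3)
    have e : b - (d + 1 : ℕ) = b - d - 1 := by push_cast; ring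
    rw [e]
    exact h5

/-- The turn at the left end of the zone. -/
lemma cfL_turn {c : MConf t Q Γ} {rm : Fin (t + 1) → Bool} {a b : ℤ} (h : HZ c rm a b) (hb : a ≤ b + 1) :
    (simM A).step (cfL A c a b (a - 1)) =
      cfR (A.step c) (rmOf (resOf A c).2) (a - 1) (b + 1) (a - 1) := by
  have hz : (tapeL A c a b (a - 1) (a - 1)).2.2.2 = false := by
    simp [tapeL, S0]
  have hc : tapeL A c a b (a - 1) (a - 1) = S0 c a b (a - 1) := by simp [tapeL]
  have hH := h.next A
  unfold DTM.step cfL cfR
  simp only [simM, stL, simδ, lStep, hz, if_false, Bool.false_eq_true, stR, step_st]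
  have e1 : (fun _ : Fin (t + 1) => (none : Option Γ)) = rdR (A.step c) (a - 1) := by
    funext i
    have := hH.z1 i
    have h5 : ¬ (A.step c).pos i < a - 1 := by omega
    simp [rdR, h5]
  have e2 : (fun _ : Fin (t + 1) => false) = prR (A.step c) (rmOf (resOf A c).2) (a - 1) := by
    funext i
    have h5 := hH.z3 i
    symm
    simp only [prR, decide_eq_false_iff_not, not_and]
    intro h6 h7
    have := h5 h6
    omega
  have e3 : update (tapeL A c a b (a - 1)) (a - 1)
      (lCell (resOf A c).2 (plL c (resOf A c).2 (a - 1)) (tapeL A c a b (a - 1) (a - 1))) =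
      tapeR (A.step c) (rmOf (resOf A c).2) (a - 1) (b + 1) (a - 1) := by
    rw [hc, lCell_eq A c le_rfl (by omega)]
    funext x
    by_cases hx : x = a - 1
    · subst hx
      simp [tapeR]
    · rw [update_of_ne hx]
      by_cases h3 : x < a - 1
      · have h4 : x ≤ a - 1 := by omega
        simp only [tapeL, tapeR, h3, h4, if_true]
        refine Prod.ext ?_ (Prod.ext ?_ (Prod.ext ?_ ?_))
        · funext i
          have h5 : x ≠ c.pos i := by have := h.z1 i; omega
          simp [S0, step_tape, update_of_ne h5]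
        · funext i
          have h5 : x ≠ c.pos i := by have := h.z1 i; omega
          have h6 : x ≠ (A.step c).pos i := by have := hH.z1 i; omega
          simp [S0, h5, h6]
        · rfl
        · show decide (a ≤ x ∧ x ≤ b) = decide (a - 1 ≤ x ∧ x ≤ b + 1)
          have h7 : ¬ (a ≤ x ∧ x ≤ b) := fun h8 => by omega
          have h8 : ¬ (a - 1 ≤ x ∧ x ≤ b + 1) := fun h8 => by omega
          rw [decide_eq_false h7, decide_eq_false h8]
      · have h4 : ¬ x ≤ a - 1 := by omega
        simp [tapeL, tapeR, h3, h4]
  simp only [e1, e2, e3, Dir.shift]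
  have e4 : a - 1 + 0 = a - 1 := by ring
  rw [e4]

/-- One step of the simulated machine. -/
lemma macro_step {c : MConf t Q Γ} {rm : Fin (t + 1) → Bool} {a b : ℤ} {W : ℕ} (h : HZ c rm a b)
    (hW : b + 1 = a + W) (h1 : c.st ≠ A.acc) (h2 : c.st ≠ A.rej) :
    Reach (simM A) (cfR c rm a b a)
      (cfR (A.step c) (rmOf (resOf A c).2) (a - 1) (b + 1) (a - 1)) (2 * W + 2) := by
  have s1 := cfR_sweep A c rm (a := a) (b := b) W (by omega)
  rw [← hW] at s1
  have s2 := Reach.one (cfR_turn A h (by omega) h1 h2) (stR_ne_acc A _ _ _) (stR_ne_rej A _ _ _)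
  have s3 := cfL_sweep A c (a := a) (b := b) W (by omega)
  have e : b - (W : ℤ) = a - 1 := by omega
  rw [e] at s3
  have s4 := Reach.one (cfL_turn A h (by omega)) (stL_ne_acc A _ _ _) (stL_ne_rej A _ _ _)
  have s5 := (((s1.trans s2).trans s3).trans s4)
  have e2 : W + 1 + W + 1 = 2 * W + 2 := by ring
  rw [e2] at s5
  exact s5

/-- The time of the first steps of the simulated machine. -/
def tauS (W : ℕ) : ℕ → ℕ
  | 0 => 0
  | j + 1 => tauS W j + (2 * (W + 2 * j) + 2)

/-- The time of the simulation of `s` steps. -/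
def simTime (n s : ℕ) : ℕ := 1 + tauS (max n 1) s + (max n 1 + 2 * s) + 1

/-- The first step of the simulating machine. -/
lemma sim_first (ι : Bool → Γ) {n : ℕ} (X : Fin n → Bool) :
    (simM A).step ((simM A).init fun i => simI A ι (X i)) =
      cfR (A.init fun i => ι (X i)) (fun _ => false) 0 ((max n 1 : ℕ) - 1) 0 := by
  have hm : (1 : ℤ) ≤ ((max n 1 : ℕ) : ℤ) := by
    have : 1 ≤ max n 1 := le_max_right _ _
    exact_mod_cast this
  have hm2 : ((max n 1 : ℕ) : ℤ) = max (n : ℤ) 1 := by push_cast; rfl
  have ht : ∀ x : ℤ, x ≠ 0 → ((simM A).init fun i => simI A ι (X i)).tape x =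
      tapeR (A.init fun i => ι (X i)) (fun _ => false) 0 ((max n 1 : ℕ) - 1) 0 x := by
    intro x hx
    show (if h : 0 ≤ x ∧ x < n then simI A ι (X ⟨x.toNat, by omega⟩) else _) = _
    by_cases hx0 : x < 0
    · have h1 : ¬ (0 ≤ x ∧ x < n) := fun h => by omega
      rw [dif_neg h1]
      simp only [tapeR, hx0, if_true, S0]
      refine Prod.ext ?_ (Prod.ext ?_ (Prod.ext ?_ ?_))
      · funext i
        simp [simM, MTM.init, h1]
      · funext i
        simp [simM, MTM.init, hx]
      · rfl
      · have : ¬ 0 ≤ x := by omega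
        simp [simM, this]
    · simp only [tapeR, hx0, if_false, S1]
      by_cases h1 : 0 ≤ x ∧ x < n
      · rw [dif_pos h1]
        refine Prod.ext ?_ (Prod.ext ?_ (Prod.ext ?_ ?_))
        · funext i
          simp [simI, MTM.init, h1]
        · funext i
          simp [simI, MTM.init, hx]
        · funext i
          simp [simI]
        · have h2 : x ≤ ((max n 1 : ℕ) : ℤ) - 1 := by
            rw [hm2]
            have := le_max_left (n : ℤ) 1
            omega
          rw [decide_eq_true (⟨h1.1, h2⟩ : (0 : ℤ) ≤ x ∧ x ≤ ((max n 1 : ℕ) : ℤ) - 1)]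
          rfl
      · rw [dif_neg h1]
        refine Prod.ext ?_ (Prod.ext ?_ (Prod.ext ?_ ?_))
        · funext i
          simp [simM, MTM.init, h1]
        · funext i
          simp [simM, MTM.init, hx]
        · funext i
          simp [simM]
        · have h2 : ¬ x ≤ ((max n 1 : ℕ) : ℤ) - 1 := by
            rw [hm2]
            have h3 : max (n : ℤ) 1 ≤ x := by
              apply max_le <;> omega
            omega
          rw [decide_eq_false (fun h => h2 h.2)]
          rfl
  have h0 : update ((simM A).init fun i => simI A ι (X i)).tape 0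
      ((((simM A).init fun i => simI A ι (X i)).tape 0).1, (fun _ => true),
        ((((simM A).init fun i => simI A ι (X i)).tape 0).2.2.1), true) =
      tapeR (A.init fun i => ι (X i)) (fun _ => false) 0 ((max n 1 : ℕ) - 1) 0 := by
    funext x
    by_cases hx : x = 0
    · subst hx
      simp only [update_self]
      simp only [tapeR, lt_self_iff_false, if_false, S1]
      show (_, _, _, _) = _
      have e1 : ((simM A).init fun i => simI A ι (X i)).tape 0 =
          if h : (0 : ℤ) ≤ 0 ∧ (0 : ℤ) < n then simI A ι (X ⟨(0 : ℤ).toNat, by omega⟩) else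
            (simM A).blank := rfl
      refine Prod.ext ?_ (Prod.ext ?_ (Prod.ext ?_ ?_))
      · funext i
        rw [e1]
        by_cases hn : (0 : ℤ) ≤ 0 ∧ (0 : ℤ) < n
        · have hn' : 0 < n := by have := hn.2; omega
          rw [dif_pos hn]
          simp [simI, MTM.init, hn']
        · have hn' : ¬ 0 < n := fun h => hn ⟨le_rfl, by omega⟩
          rw [dif_neg hn]
          simp [simM, MTM.init, hn']
      · funext i
        simp [MTM.init]
      · funext i
        rw [e1]
        by_cases hn : (0 : ℤ) ≤ 0 ∧ (0 : ℤ) < n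
        · rw [dif_pos hn]
          simp [simI]
        · rw [dif_neg hn]
          simp [simM]
      · have h3 : (0 : ℤ) ≤ ((max n 1 : ℕ) : ℤ) - 1 := by omega
        simp [h3]
    · rw [update_of_ne hx]
      exact ht x hx
  have e : (simM A).step ((simM A).init fun i => simI A ι (X i)) =
      ⟨stR A.start (fun _ => none) (fun _ => false), update ((simM A).init fun i => simI A ι (X i)).tape 0
        ((((simM A).init fun i => simI A ι (X i)).tape 0).1, (fun _ => true),
          ((((simM A).init fun i => simI A ι (X i)).tape 0).2.2.1), true), (0 : ℤ) + Dir.stay.shift⟩ := rfl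
  have e2 : (fun _ : Fin (t + 1) => (none : Option Γ)) = rdR (A.init fun i => ι (X i)) 0 := by
    funext i
    simp [rdR, MTM.init]
  have e3 : (fun _ : Fin (t + 1) => false) = prR (A.init fun i => ι (X i)) (fun _ => false) 0 := by
    funext i
    simp [prR]
  rw [e, h0]
  simp only [Dir.shift, add_zero]
  unfold cfR
  rw [← e2, ← e3]
  rfl

/-- The induction along the run of the simulated machine. -/
lemma sim_run (ι : Bool → Γ) {n : ℕ} (X : Fin n → Bool) (s : ℕ)
    (hs : ∀ s' < s, (A.run (fun i => ι (X i)) s').st ≠ A.acc ∧ (A.run (fun i => ι (X i)) s').st ≠ A.rej) :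
    ∃ rm, HZ (A.run (fun i => ι (X i)) s) rm (0 - s) ((max n 1 : ℕ) - 1 + s) ∧
      Reach (simM A) (cfR (A.init fun i => ι (X i)) (fun _ => false) 0 ((max n 1 : ℕ) - 1) 0)
        (cfR (A.run (fun i => ι (X i)) s) rm (0 - s) ((max n 1 : ℕ) - 1 + s) (0 - s))
        (tauS (max n 1) s) := by
  induction s with
  | zero =>
    refine ⟨fun _ => false, ⟨fun i => ?_, fun i => ?_, fun i hi => ?_⟩, ?_⟩
    · simp [MTM.run, MTM.init]
    · have : (1 : ℤ) ≤ ((max n 1 : ℕ) : ℤ) := by
        have : 1 ≤ max n 1 := le_max_right _ _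
        exact_mod_cast this
      simp only [MTM.run, MTM.init, iterate_zero, id_eq]
      push_cast at this ⊢
      omega
    · simp at hi
    · simp only [Nat.cast_zero, sub_zero, add_zero]
      exact Reach.refl (simM A) _
  | succ s ih =>
    obtain ⟨rm, h1, h2⟩ := ih fun s' hs' => hs s' (by omega)
    have h3 := hs s (by omega)
    have hW : ((max n 1 : ℕ) : ℤ) - 1 + s + 1 = 0 - s + ((max n 1 + 2 * s : ℕ) : ℤ) := by
      push_cast
      ring
    have h4 := macro_step A h1 hW h3.1 h3.2
    have e1 : A.run (fun i => ι (X i)) (s + 1) = A.step (A.run (fun i => ι (X i)) s) := by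
      unfold MTM.run
      rw [iterate_succ_apply']
    have e2 : (0 : ℤ) - (s + 1 : ℕ) = 0 - s - 1 := by
      push_cast
      ring
    have e3 : ((max n 1 : ℕ) : ℤ) - 1 + (s + 1 : ℕ) = ((max n 1 : ℕ) : ℤ) - 1 + s + 1 := by
      push_cast
      ring
    refine ⟨rmOf (resOf A (A.run (fun i => ι (X i)) s)).2, ?_, ?_⟩
    · rw [e1, e2, e3]
      exact h1.next A
    · rw [e1, e2, e3]
      have h5 := h2.trans h4
      have e4 : tauS (max n 1) (s + 1) = tauS (max n 1) s + (2 * (max n 1 + 2 * s) + 2) := rfl
      rw [e4]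
      exact h5

/-- The simulating machine halts with the same answer as the simulated machine. -/
theorem sim_halts (ι : Bool → Γ) (w : List Bool) (s : ℕ) (b : Bool) (h : A.HaltsAt ι w s b) :
    (simM A).HaltsAt (simI A ι) w (simTime w.length s) b := by
  obtain ⟨rm, h1, h2⟩ := sim_run A ι (fun i : Fin w.length => w.get i) s h.2
  have h0 := Reach.one (sim_first A ι fun i : Fin w.length => w.get i)
    (c := (simM A).init fun i : Fin w.length => simI A ι (w.get i))
    (by simp [DTM.init, simM, stH]) (by simp [DTM.init, simM, stH])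
  have hW : ((max w.length 1 : ℕ) : ℤ) - 1 + s + 1 = 0 - s + ((max w.length 1 + 2 * s : ℕ) : ℤ) := by
    push_cast
    ring
  have h3 := cfR_sweep A (A.run (fun i : Fin w.length => ι (w.get i)) s) rm
    (a := 0 - s) (b := ((max w.length 1 : ℕ) : ℤ) - 1 + s) (max w.length 1 + 2 * s) (by omega)
  rw [← hW] at h3
  have h4 := cfR_end A (c := A.run (fun i : Fin w.length => ι (w.get i)) s) (rm := rm) (a := 0 - s)
    (b := ((max w.length 1 : ℕ) : ℤ) - 1 + s) (e := b) h.1
  have h5 := Reach.one rfl
    (c := cfR (A.run (fun i : Fin w.length => ι (w.get i)) s) rm (0 - s)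
      (((max w.length 1 : ℕ) : ℤ) - 1 + s) (((max w.length 1 : ℕ) : ℤ) - 1 + s + 1))
    (stR_ne_acc A _ _ _) (stR_ne_rej A _ _ _)
  have h6 := ((h0.trans h2).trans h3).trans h5
  constructor
  · have e := h6.1
    unfold DTM.run simTime
    rw [e, h4]
    cases b <;> rfl
  · intro u hu
    exact h6.2 u hu

end Sim

end Vale.Agent.Lib.P310V
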