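import Vale.Agent.Lib.P310V.FinalR
import Vale.Agent.Lib.P310V.MTSim

set_option linter.unusedSectionVars false

/-!
The lower bound for machines with several tapes.
-/

namespace Vale.Agent.Lib.P310V

open Function

section Agree

variable {t : ℕ} {Q Γ : Type} (A : MTM t Q Γ)

lemma mrun_succ {n : ℕ} (x : Fin n → Γ) (s : ℕ) : A.run x (s + 1) = A.step (A.run x s) := by
  unfold MTM.run
  rw [iterate_succ_apply']

lemma mabs_pos_le {n : ℕ} (x : Fin n → Γ) (s : ℕ) (i : Fin (t + 1)) : |(A.run x s).pos i| ≤ s := by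
  induction s with
  | zero => simp [MTM.run, MTM.init]
  | succ s ih =>
    rw [mrun_succ]
    have h1 : (A.step (A.run x s)).pos i = (A.run x s).pos i + ((resOf A (A.run x s)).2 i).2.shift := rfl
    rw [h1]
    have := shift_bd ((resOf A (A.run x s)).2 i).2
    rw [abs_le] at ih ⊢
    push_cast
    constructor <;> linarith [ih.1, ih.2, this.1, this.2]

/-- Two runs are the same as long as the heads see the same cells. -/
lemma mrun_agree {n n' : ℕ} (x : Fin n → Γ) (x' : Fin n' → Γ) (T : ℕ)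
    (h : ∀ i, ∀ p : ℤ, |p| ≤ T → (A.init x).tape i p = (A.init x').tape i p) (s : ℕ) (hs : s ≤ T) :
    (A.run x s).st = (A.run x' s).st ∧ (A.run x s).pos = (A.run x' s).pos ∧
      ∀ i p, (A.init x).tape i p = (A.init x').tape i p → (A.run x s).tape i p = (A.run x' s).tape i p := by
  induction s with
  | zero =>
    exact ⟨rfl, rfl, fun _ _ hp => hp⟩
  | succ s ih =>
    obtain ⟨h1, h2, h3⟩ := ih (by omega)
    have h5 : (fun i => (A.run x s).tape i ((A.run x s).pos i)) =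
        fun i => (A.run x' s).tape i ((A.run x' s).pos i) := by
      funext i
      rw [h2]
      refine h3 i _ (h i _ ?_)
      rw [← h2]
      have h4 := mabs_pos_le A x s i
      have h6 : ((s : ℕ) : ℤ) ≤ T := by exact_mod_cast (by omega : s ≤ T)
      exact h4.trans h6
    have hr : A.δ (A.run x s).st (fun i => (A.run x s).tape i ((A.run x s).pos i)) =
        A.δ (A.run x' s).st (fun i => (A.run x' s).tape i ((A.run x' s).pos i)) := by
      rw [h1, h5]
    rw [mrun_succ, mrun_succ]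
    unfold MTM.step
    dsimp only
    rw [hr, h2]
    refine ⟨rfl, rfl, fun i p hp => ?_⟩
    by_cases hp' : p = (A.run x' s).pos i
    · subst hp'
      simp only [update_self]
    · simp only [update_of_ne hp']
      exact h3 i p hp

lemma minit_append (ι : Bool → Γ) (a b c : List Bool) (i : Fin (t + 1)) (p : ℤ)
    (hp : p < a.length) (hbc : b.length = c.length) :
    (A.init fun j : Fin (a ++ b).length => ι ((a ++ b).get j)).tape i p =
      (A.init fun j : Fin (a ++ c).length => ι ((a ++ c).get j)).tape i p := by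
  by_cases hi : i = 0
  · subst hi
    show (if (0 : Fin (t + 1)) = 0 then (if h : 0 ≤ p ∧ p < ((a ++ b).length : ℤ) then
        ι ((a ++ b).get ⟨p.toNat, by omega⟩) else A.blank) else A.blank) =
      (if (0 : Fin (t + 1)) = 0 then (if h : 0 ≤ p ∧ p < ((a ++ c).length : ℤ) then
        ι ((a ++ c).get ⟨p.toNat, by omega⟩) else A.blank) else A.blank)
    rw [if_pos rfl, if_pos rfl]
    by_cases h0 : 0 ≤ p
    · have h1 : 0 ≤ p ∧ p < ((a ++ b).length : ℤ) := by
        simp only [List.length_append]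
        push_cast
        omega
      have h2 : 0 ≤ p ∧ p < ((a ++ c).length : ℤ) := by
        simp only [List.length_append]
        push_cast
        omega
      rw [dif_pos h1, dif_pos h2]
      congr 1
      simp only [List.get_eq_getElem]
      rw [List.getElem_append_left (by omega), List.getElem_append_left (by omega)]
    · have h1 : ¬ (0 ≤ p ∧ p < ((a ++ b).length : ℤ)) := fun h => h0 h.1
      have h2 : ¬ (0 ≤ p ∧ p < ((a ++ c).length : ℤ)) := fun h => h0 h.1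
      rw [dif_neg h1, dif_neg h2]
  · show (if i = 0 then _ else A.blank) = (if i = 0 then _ else A.blank)
    rw [if_neg hi, if_neg hi]

end Agree

/-- No machine decides WL equivalence in linear time: it has to read the second graph. -/
theorem mno_linear {k : ℕ} (hk : 2 ≤ k) {t : ℕ} {Q Γ : Type} (A : MTM t Q Γ) (ι : Bool → Γ) (C : ℕ) :
    ¬ ∀ (N : ℕ) (G H : SimpleGraph (Fin N)), ∃ (s : ℕ) (b : Bool), s ≤ C * (N + 1) ∧
      A.HaltsAt ι (encPair G H) s b ∧ (b = true ↔ WLEquiv k G H) := by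
  intro H
  let N := C + 3
  have hN : 2 ≤ N := by
    show 2 ≤ C + 3
    omega
  have hT : C * (N + 1) < N * N := by
    show C * (C + 3 + 1) < (C + 3) * (C + 3)
    nlinarith
  obtain ⟨t₁, b₁, h1, h2, h3⟩ := H N ⊥ ⊥
  obtain ⟨t₂, b₂, h4, h5, h6⟩ := H N ⊥ ⊤
  have hb1 : b₁ = true := h3.mpr (fun r => rfl)
  have hb2 : b₂ = false := by
    cases b₂
    · rfl
    · exact absurd (h6.mp rfl) (not_wl_bot_top hk hN)
  subst hb1 hb2
  unfold encPair at h2 h5
  have hagree : ∀ i, ∀ p : ℤ, |p| ≤ ((C * (N + 1) : ℕ) : ℤ) →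
      (A.init fun j : Fin (adjBits (⊥ : SimpleGraph (Fin N)) ++ adjBits (⊥ : SimpleGraph (Fin N))).length =>
        ι ((adjBits (⊥ : SimpleGraph (Fin N)) ++ adjBits (⊥ : SimpleGraph (Fin N))).get j)).tape i p =
      (A.init fun j : Fin (adjBits (⊥ : SimpleGraph (Fin N)) ++ adjBits (⊤ : SimpleGraph (Fin N))).length =>
        ι ((adjBits (⊥ : SimpleGraph (Fin N)) ++ adjBits (⊤ : SimpleGraph (Fin N))).get j)).tape i p := by
    intro i p hp
    refine minit_append A ι _ _ _ i p ?_ (by rw [adjBits_length, adjBits_length])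
    rw [adjBits_length]
    have h7 := (abs_le.mp hp).2
    have h8 : ((C * (N + 1) : ℕ) : ℤ) < ((N * N : ℕ) : ℤ) := by exact_mod_cast hT
    omega
  have ha := mrun_agree A _ _ (C * (N + 1)) hagree
  rcases Nat.lt_trichotomy t₁ t₂ with hlt | heq | hgt
  · have e1 := (ha t₁ h1).1
    have e2 := h2.1
    simp only [if_true] at e2
    rw [e1] at e2
    exact (h5.2 t₁ hlt).1 e2
  · subst heq
    have e1 := (ha t₁ h1).1
    have e2 := h2.1
    have e3 := h5.1
    simp only [if_true] at e2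
    simp only [Bool.false_eq_true, if_false] at e3
    rw [e1, e3] at e2
    exact A.acc_ne_rej e2.symm
  · have e1 := (ha t₂ h4).1
    have e2 := h5.1
    simp only [Bool.false_eq_true, if_false] at e2
    rw [← e1] at e2
    exact (h2.2 t₂ hgt).2 e2

lemma tauS_le (W j : ℕ) : tauS W j ≤ 2 * j * (W + 2 * j + 1) := by
  induction j with
  | zero => simp [tauS]
  | succ j ih =>
    show tauS W j + (2 * (W + 2 * j) + 2) ≤ _
    nlinarith

lemma simTime_le (n s : ℕ) :
    simTime n s ≤ 2 + 2 * s * (max n 1 + 2 * s + 1) + max n 1 + 2 * s := by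
  have := tauS_le (max n 1) s
  unfold simTime
  omega

open Classical in
lemma encPair_length {N : ℕ} (G H : SimpleGraph (Fin N)) : (encPair G H).length = N * N + N * N := by
  unfold encPair
  rw [List.length_append, adjBits_length, adjBits_length]

/-- The time bound of the simulation. -/
lemma sim_time_real {N s : ℕ} {G H : SimpleGraph (Fin N)} {D e : ℝ} (hD : 1 ≤ D) (he : 0 ≤ e)
    (hs : (s : ℝ) ≤ D * ((N : ℝ) + 1) ^ e) :
    (simTime (encPair G H).length s : ℝ) ≤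
      (4 + 8 * D + 4 * D ^ 2) * (((N : ℝ) + 1) ^ e * ((N : ℝ) + 1) ^ e * ((N : ℝ) + 1) ^ 2) := by
  have hX : (1 : ℝ) ≤ (N : ℝ) + 1 := by
    have : (0 : ℝ) ≤ (N : ℝ) := Nat.cast_nonneg N
    linarith
  generalize hY : ((N : ℝ) + 1) ^ e = Y at hs ⊢
  have hY1 : 1 ≤ Y := by
    rw [← hY]
    exact Real.one_le_rpow hX he
  have hZ1 : (1 : ℝ) ≤ ((N : ℝ) + 1) ^ 2 := one_le_pow₀ hX
  generalize hZ : ((N : ℝ) + 1) ^ 2 = Z at hZ1 ⊢
  have hW : ((max (encPair G H).length 1 : ℕ) : ℝ) ≤ 2 * Z := by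
    rw [encPair_length]
    have h1 : ((max (N * N + N * N) 1 : ℕ) : ℝ) ≤ 2 * ((N : ℝ) + 1) ^ 2 := by
      have h2 : max (N * N + N * N) 1 ≤ 2 * (N + 1) ^ 2 := by
        apply max_le
        · nlinarith
        · have : 1 ≤ (N + 1) ^ 2 := Nat.one_le_pow _ _ (by omega)
          omega
      calc ((max (N * N + N * N) 1 : ℕ) : ℝ) ≤ ((2 * (N + 1) ^ 2 : ℕ) : ℝ) := by exact_mod_cast h2
        _ = 2 * ((N : ℝ) + 1) ^ 2 := by push_cast; ring
    rw [← hZ]
    exact h1
  have h3 := simTime_le (encPair G H).length s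
  have h4 : (simTime (encPair G H).length s : ℝ) ≤ 2 + 2 * s * ((max (encPair G H).length 1 : ℕ) + 2 * s + 1) +
      ((max (encPair G H).length 1 : ℕ) : ℝ) + 2 * s := by
    exact_mod_cast h3
  generalize ((max (encPair G H).length 1 : ℕ) : ℝ) = W at hW h4
  have hs0 : (0 : ℝ) ≤ s := Nat.cast_nonneg s
  have hW0 : 0 ≤ W ∨ W < 0 := le_or_gt 0 W
  generalize (s : ℝ) = S at hs hs0 h4
  generalize (simTime (encPair G H).length s : ℝ) = R at h4 ⊢
  have hDY : 1 ≤ D * Y := by nlinarith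
  have a1 : R ≤ 2 + 2 * S * (2 * Z + 2 * S + 1) + 2 * Z + 2 * S := by
    have : 2 * S * (W + 2 * S + 1) ≤ 2 * S * (2 * Z + 2 * S + 1) := by
      apply mul_le_mul_of_nonneg_left _ (by positivity)
      linarith
    linarith
  have a2 : 2 * S * (2 * Z + 2 * S + 1) ≤ 2 * (D * Y) * (2 * Z + 2 * (D * Y) + 1) := by
    have h5 : S ≤ D * Y := hs
    have h6 : 2 * Z + 2 * S + 1 ≤ 2 * Z + 2 * (D * Y) + 1 := by linarith
    have h7 : 0 ≤ 2 * Z + 2 * S + 1 := by nlinarith
    calc 2 * S * (2 * Z + 2 * S + 1) ≤ 2 * (D * Y) * (2 * Z + 2 * S + 1) :=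
          mul_le_mul_of_nonneg_right (by linarith) h7
      _ ≤ 2 * (D * Y) * (2 * Z + 2 * (D * Y) + 1) :=
          mul_le_mul_of_nonneg_left h6 (by nlinarith)
  have hY0 : 0 ≤ Y := by linarith
  have hZ0 : 0 ≤ Z := by linarith
  have hYY : 1 ≤ Y * Y := by nlinarith
  have hYZ' : 1 ≤ Y * Z := by nlinarith
  have hYZ : Y * Y * Z ≥ 1 := by nlinarith
  have b1 : Z ≤ Y * Y * Z := by nlinarith [mul_le_mul_of_nonneg_right hYY hZ0]
  have b2 : Y ≤ Y * Y * Z := by nlinarith [mul_le_mul_of_nonneg_left hYZ' hY0]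
  have b3 : Y * Z ≤ Y * Y * Z := by nlinarith [mul_le_mul_of_nonneg_right hY1 (mul_nonneg hY0 hZ0)]
  have b4 : Y * Y ≤ Y * Y * Z := by nlinarith [mul_le_mul_of_nonneg_left hZ1 (mul_nonneg hY0 hY0)]
  have c0 : 0 ≤ D := by linarith
  have c1 : D * Y ≤ D * (Y * Y * Z) := mul_le_mul_of_nonneg_left b2 c0
  have c2 : D * (Y * Z) ≤ D * (Y * Y * Z) := mul_le_mul_of_nonneg_left b3 c0
  have c3 : D ^ 2 * (Y * Y) ≤ D ^ 2 * (Y * Y * Z) := mul_le_mul_of_nonneg_left b4 (by positivity)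
  have e0 : 2 + 2 * (D * Y) * (2 * Z + 2 * (D * Y) + 1) + 2 * Z + 2 * (D * Y) =
      2 + 4 * (D * (Y * Z)) + 4 * (D ^ 2 * (Y * Y)) + 4 * (D * Y) + 2 * Z := by ring
  have e1 : (4 + 8 * D + 4 * D ^ 2) * (Y * Y * Z) =
      4 * (Y * Y * Z) + 8 * (D * (Y * Y * Z)) + 4 * (D ^ 2 * (Y * Y * Z)) := by ring
  rw [e1]
  linarith

/-- There is `c > 0` such that for every `k ≥ 2`, no deterministic Turing machine with any number of
tapes decides `k`-WL equivalence within `C * (N + 1) ^ (c * k)` steps on graphs with `N` vertices, for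
any constant `C`. -/
theorem wl_lower_multi :
    ∃ c : ℝ, 0 < c ∧ ∀ k : ℕ, 2 ≤ k → ∀ (t : ℕ) (Q Γ : Type) [Fintype Q] [Fintype Γ] (A : MTM t Q Γ)
      (ι : Bool → Γ) (C : ℝ), ¬ MDecidesWithin A ι k (fun N => C * ((N : ℝ) + 1) ^ (c * (k : ℝ))) := by
  obtain ⟨c₀, hc₀, H₀⟩ := wl_lower_real
  refine ⟨c₀ / 4, by positivity, ?_⟩
  intro k hk t Q Γ _ _ A ι C hdec
  set D : ℝ := max C 1 with hDdef
  have hD : 1 ≤ D := le_max_right _ _
  have hCD : C ≤ D := le_max_left _ _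
  have hk0 : (0 : ℝ) ≤ (k : ℝ) := Nat.cast_nonneg k
  set e : ℝ := c₀ / 4 * (k : ℝ) with he
  have he0 : 0 ≤ e := by positivity
  have hs : ∀ (N : ℕ) (s : ℕ), (s : ℝ) ≤ C * ((N : ℝ) + 1) ^ e → (s : ℝ) ≤ D * ((N : ℝ) + 1) ^ e := by
    intro N s h
    have hX : (0 : ℝ) ≤ (N : ℝ) + 1 := by positivity
    exact h.trans (mul_le_mul_of_nonneg_right hCD (Real.rpow_nonneg hX _))
  by_cases hcase : e ≤ 1
  · refine mno_linear hk A ι ⌈D⌉₊ ?_
    intro N G H
    obtain ⟨s, b, h1, h2, h3⟩ := hdec N G H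
    refine ⟨s, b, ?_, h2, h3⟩
    have hX : (1 : ℝ) ≤ (N : ℝ) + 1 := by
      have : (0 : ℝ) ≤ (N : ℝ) := Nat.cast_nonneg N
      linarith
    have h4 : ((N : ℝ) + 1) ^ e ≤ (N : ℝ) + 1 := by
      calc ((N : ℝ) + 1) ^ e ≤ ((N : ℝ) + 1) ^ (1 : ℝ) := Real.rpow_le_rpow_of_exponent_le hX hcase
        _ = (N : ℝ) + 1 := Real.rpow_one _
    have h5 : (s : ℝ) ≤ (⌈D⌉₊ : ℝ) * ((N : ℝ) + 1) := by
      calc (s : ℝ) ≤ D * ((N : ℝ) + 1) ^ e := hs N s h1
        _ ≤ D * ((N : ℝ) + 1) := mul_le_mul_of_nonneg_left h4 (by linarith)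
        _ ≤ (⌈D⌉₊ : ℝ) * ((N : ℝ) + 1) := mul_le_mul_of_nonneg_right (Nat.le_ceil D) (by linarith)
    have h6 : (s : ℝ) ≤ ((⌈D⌉₊ * (N + 1) : ℕ) : ℝ) := by
      push_cast
      exact h5
    exact_mod_cast h6
  · have he1 : 1 < e := not_le.mp hcase
    refine H₀ k hk (SSt t Q Γ) (SCell t Γ) (simM A) (simI A ι) (4 + 8 * D + 4 * D ^ 2) ?_
    intro N G H
    obtain ⟨s, b, h1, h2, h3⟩ := hdec N G H
    refine ⟨simTime (encPair G H).length s, b, ?_, sim_halts A ι _ s b h2, h3⟩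
    refine (sim_time_real hD he0 (hs N s h1)).trans ?_
    have hX : (1 : ℝ) ≤ (N : ℝ) + 1 := by
      have : (0 : ℝ) ≤ (N : ℝ) := Nat.cast_nonneg N
      linarith
    have hX0 : (0 : ℝ) < (N : ℝ) + 1 := by linarith
    apply mul_le_mul_of_nonneg_left _ (by positivity)
    have e1 : ((N : ℝ) + 1) ^ e * ((N : ℝ) + 1) ^ e * ((N : ℝ) + 1) ^ 2 =
        ((N : ℝ) + 1) ^ (e + e + 2) := by
      rw [Real.rpow_add hX0, Real.rpow_add hX0]
      norm_num
    rw [e1]
    apply Real.rpow_le_rpow_of_exponent_le hX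
    have e2 : c₀ * (k : ℝ) = 4 * e := by
      rw [he]
      ring
    rw [e2]
    linarith

end Vale.Agent.Lib.P310V
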