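import Vale.Agent.Lib.P310V.TM
import Mathlib.Analysis.SpecialFunctions.Pow.Real

/-!
Deterministic Turing machines with several tapes, and deciding WL equivalence with them.

`MTM t Q Γ` has `t + 1` two-way infinite tapes with one head each.  In one step it reads the symbols
under all heads, and it changes its state, writes on all tapes and moves all heads.  The input word is
written on tape `0` (the cells `0, …, |w| - 1`), all other cells of all tapes are blank, all heads start
on cell `0`.
-/

namespace Vale.Agent.Lib.P310V

/-- A deterministic Turing machine with `t + 1` tapes. -/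
structure MTM (t : ℕ) (Q Γ : Type) where
  δ : Q → (Fin (t + 1) → Γ) → Q × (Fin (t + 1) → Γ × Dir)
  start : Q
  acc : Q
  rej : Q
  blank : Γ
  acc_ne_rej : acc ≠ rej

/-- A configuration: state, contents of the tapes and positions of the heads. -/
structure MConf (t : ℕ) (Q Γ : Type) where
  st : Q
  tape : Fin (t + 1) → ℤ → Γ
  pos : Fin (t + 1) → ℤ

namespace MTM

variable {t : ℕ} {Q Γ : Type} (M : MTM t Q Γ)

/-- One step of the machine. -/
def step (c : MConf t Q Γ) : MConf t Q Γ :=
  let r := M.δ c.st (fun i => c.tape i (c.pos i))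
  ⟨r.1, fun i => Function.update (c.tape i) (c.pos i) (r.2 i).1, fun i => c.pos i + (r.2 i).2.shift⟩

/-- The initial configuration on the input `x`: state `start`, all heads on cell 0, `x` on the cells
`0, …, n - 1` of tape 0 and blanks elsewhere. -/
def init {n : ℕ} (x : Fin n → Γ) : MConf t Q Γ :=
  ⟨M.start, fun i p => if i = 0 then (if h : 0 ≤ p ∧ p < n then x ⟨p.toNat, by omega⟩ else M.blank)
    else M.blank, fun _ => 0⟩

/-- The configuration after `s` steps. -/
def run {n : ℕ} (x : Fin n → Γ) (s : ℕ) : MConf t Q Γ := (M.step)^[s] (M.init x)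

/-- The machine on the word `w` halts at step `s` with answer `b`: at step `s` it is in the accepting
state (`b = true`) or in the rejecting state (`b = false`), and before step `s` in neither. -/
def HaltsAt (ι : Bool → Γ) (w : List Bool) (s : ℕ) (b : Bool) : Prop :=
  (M.run (fun i : Fin w.length => ι (w.get i)) s).st = (if b then M.acc else M.rej) ∧
    ∀ s' < s, (M.run (fun i : Fin w.length => ι (w.get i)) s').st ≠ M.acc ∧
      (M.run (fun i : Fin w.length => ι (w.get i)) s').st ≠ M.rej

end MTM

/-- The machine `A` with `t + 1` tapes decides `k`-WL equivalence of pairs of graphs with `N` vertices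
each within `f N` steps, for a real-valued time bound `f`. -/
def MDecidesWithin {t : ℕ} {Q Γ : Type} (A : MTM t Q Γ) (ι : Bool → Γ) (k : ℕ) (f : ℕ → ℝ) : Prop :=
  ∀ (N : ℕ) (G H : SimpleGraph (Fin N)), ∃ (s : ℕ) (b : Bool), (s : ℝ) ≤ f N ∧
    A.HaltsAt ι (encPair G H) s b ∧ (b = true ↔ WLEquiv k G H)

end Vale.Agent.Lib.P310V
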