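import Vale.Agent.Lib.P310V.Load

set_option linter.unusedSectionVars false
set_option linter.unusedSimpArgs false

/-!
The main loops: for two values of the parity, all numbers of vertices are tried and the adjacency
matrix is written.
-/

namespace Vale.Agent.Lib.P310V

open Stmt E

def e1 : E := c2 okB (var 0) (var 1)
def e2 : E := c2 okB (var 0) (var 2)
def e3 : E := c2 adjB (var 1) (var 2)

/-- The registers of the parameters in the main part. -/
def π₁ (i : ℕ) : ℕ := if 1 ≤ i ∧ i ≤ 22 then i else 1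

/-- The registers of the variables in the main part. -/
def ρ₁ (j : ℕ) : ℕ := if j = 0 then 24 else if j = 1 then 25 else 26

/-- Evaluate a test and branch. -/
def gIf (e : E) (A B : Stmt) : Stmt := seq (gen π₁ e ρ₁ 40) (ifz 40 A (seq (clearS 40) B))

def innerB : Stmt :=
  seq (dec 29) (seq (gIf e2 (dec 38) (seq (gIf e3 (emit 27 false) (emit 27 true)) (Stmt.inc 27))) (Stmt.inc 26))

def outerB : Stmt :=
  seq (dec 28) (seq (gIf e1 (dec 38) (seq (copyS 23 29 40) (seq (loop 29 innerB) (clearS 26))))
    (Stmt.inc 25))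

def oneT : Stmt := seq (copyS 23 28 40) (seq (loop 28 outerB) (clearS 25))

def mainS : Stmt := seq oneT (seq (Stmt.inc 24) oneT)

/-- The memory in the main part. -/
def stM (σB : Mem) (t u v o r1 r2 : ℕ) (out : List Bool) : Mem :=
  ⟨fun j => if j = 24 then t else if j = 25 then u else if j = 26 then v else if j = 27 then o
    else if j = 28 then r1 else if j = 29 then r2 else σB.r j, out⟩

lemma stM_r (σB : Mem) (t u v o r1 r2 : ℕ) (out : List Bool) (j : ℕ) :
    (stM σB t u v o r1 r2 out).r j = if j = 24 then t else if j = 25 then u else if j = 26 then v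
      else if j = 27 then o else if j = 28 then r1 else if j = 29 then r2 else σB.r j := rfl

lemma stM_out (σB : Mem) (t u v o r1 r2 : ℕ) (out : List Bool) :
    (stM σB t u v o r1 r2 out).out = out := rfl

section Sets

variable (σB : Mem) (t u v o r1 r2 : ℕ) (out : List Bool) (a : ℕ)

lemma stM_set29 : (stM σB t u v o r1 r2 out).set 29 a = stM σB t u v o r1 a out :=
  mem_eq rfl fun j => by
    simp only [Mem.set_r, stM_r]
    split_ifs <;> first | omega | rfl

lemma stM_set28 : (stM σB t u v o r1 r2 out).set 28 a = stM σB t u v o a r2 out :=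
  mem_eq rfl fun j => by
    simp only [Mem.set_r, stM_r]
    split_ifs <;> first | omega | rfl

lemma stM_set27 : (stM σB t u v o r1 r2 out).set 27 a = stM σB t u v a r1 r2 out :=
  mem_eq rfl fun j => by
    simp only [Mem.set_r, stM_r]
    split_ifs <;> first | omega | rfl

lemma stM_set26 : (stM σB t u v o r1 r2 out).set 26 a = stM σB t u a o r1 r2 out :=
  mem_eq rfl fun j => by
    simp only [Mem.set_r, stM_r]
    split_ifs <;> first | omega | rfl

lemma stM_set25 : (stM σB t u v o r1 r2 out).set 25 a = stM σB t a v o r1 r2 out :=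
  mem_eq rfl fun j => by
    simp only [Mem.set_r, stM_r]
    split_ifs <;> first | omega | rfl

lemma stM_set24 : (stM σB t u v o r1 r2 out).set 24 a = stM σB a u v o r1 r2 out :=
  mem_eq rfl fun j => by
    simp only [Mem.set_r, stM_r]
    split_ifs <;> first | omega | rfl

end Sets

/-- The conditions on the base memory. -/
structure BaseOK (C : Cx) (σB : Mem) (B : ℕ) : Prop where
  cap : σB.r 0 = C.W
  le : ∀ j, σB.r j ≤ C.W
  top : ∀ j, 40 ≤ j → σB.r j = 0
  pi : ∀ i, σB.r (π₁ i) = C.Pi i
  box : σB.r 23 = B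
  r38 : σB.r 38 = 0

open Classical in
/-- A row of the matrix. -/
noncomputable def rowB (Ok : ℕ → Prop) (Adj : ℕ → ℕ → Prop) (u : ℕ) : ℕ → List Bool
  | 0 => []
  | k + 1 => rowB Ok Adj u k ++ (if Ok k then [decide (Adj u k)] else [])

open Classical in
/-- The rows of the matrix. -/
noncomputable def matB (Ok : ℕ → Prop) (Adj : ℕ → ℕ → Prop) (B : ℕ) : ℕ → List Bool
  | 0 => []
  | k + 1 => matB Ok Adj B k ++ (if Ok k then rowB Ok Adj k B else [])

lemma rowB_len (Ok : ℕ → Prop) (Adj : ℕ → ℕ → Prop) (u k : ℕ) : (rowB Ok Adj u k).length ≤ k := by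
  induction k with
  | zero => simp [rowB]
  | succ k ih =>
    simp only [rowB, List.length_append]
    split_ifs <;> simp <;> omega

lemma matB_len (Ok : ℕ → Prop) (Adj : ℕ → ℕ → Prop) (B k : ℕ) : (matB Ok Adj B k).length ≤ k * B := by
  induction k with
  | zero => simp [matB]
  | succ k ih =>
    simp only [matB, List.length_append, Nat.succ_mul]
    split_ifs
    · have := rowB_len Ok Adj k B
      omega
    · simp
      omega

section

variable {C : Cx} {m V : ℕ} {σB : Mem} {B : ℕ} (hV : C.W ≤ V)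
  (hm : 40 + (wd e1 + wd e2 + wd e3) ≤ m) (hb : BaseOK C σB B)

include hV hm hb

lemma stM_good {t u v o r1 r2 : ℕ} {out : List Bool} (h1 : t ≤ C.W) (h2 : u ≤ C.W) (h3 : v ≤ C.W)
    (h4 : o ≤ C.W) (h5 : r1 ≤ C.W) (h6 : r2 ≤ C.W) :
    Good C π₁ ρ₁ 40 (stM σB t u v o r1 r2 out) := by
  refine ⟨?_, ?_, ?_, ?_, ?_⟩
  · simp [stM_r, hb.cap]
  · intro j
    simp only [stM_r]
    split_ifs <;> first | omega | exact hb.le j
  · intro j hj
    simp only [stM_r]
    rw [if_neg (by omega), if_neg (by omega), if_neg (by omega), if_neg (by omega),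
      if_neg (by omega), if_neg (by omega)]
    exact hb.top j hj
  · intro i
    have e := hb.pi i
    have h7 : π₁ i ≠ 0 ∧ π₁ i ≤ 22 := by
      unfold π₁
      split_ifs <;> omega
    refine ⟨by omega, h7.1, ?_⟩
    simp only [stM_r]
    rw [if_neg (by omega), if_neg (by omega), if_neg (by omega), if_neg (by omega),
      if_neg (by omega), if_neg (by omega)]
    exact e
  · intro j
    unfold ρ₁
    split_ifs <;> omega

/-- Evaluate a test and branch. -/
lemma ex_gIf {τ τ₁ : Mem} {e : E} {A A' : Stmt} {c : ℕ} (hG : Good C π₁ ρ₁ 40 τ) (he : wd e ≤ wd e1 + wd e2 + wd e3)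
    (hA : eval C e (fun j => τ.r (ρ₁ j)) = 0 → Ex m V C.x A τ τ₁ c)
    (hB : eval C e (fun j => τ.r (ρ₁ j)) ≠ 0 → Ex m V C.x A' τ τ₁ c) :
    Ex m V C.x (gIf e A A') τ τ₁ (cost C.W e + (c + (2 * C.W + 1) + 1)) := by
  have hw := wd_pos e
  have a1 : Ex m V C.x (gen π₁ e ρ₁ 40) τ (τ.set 40 (eval C e (fun j => τ.r (ρ₁ j)))) (cost C.W e) :=
    gen_spec C hV π₁ e ρ₁ 40 τ hG (by omega)
  have h40 := hG.top 40 le_rfl
  have hle := eval_le C e (fun j => τ.r (ρ₁ j))
  generalize hv : eval C e (fun j => τ.r (ρ₁ j)) = w at a1 hA hB hle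
  by_cases hw0 : w = 0
  · subst hw0
    have e0 : τ.set 40 0 = τ := Mem.set_eq_self h40
    rw [e0] at a1
    have a2 := Ex.ifzT (m := m) (V := V) (x := C.x) (i := 40) (σ := τ) (s := A)
      (t := seq (clearS 40) A') (by omega) h40 (hA rfl)
    refine Ex.mono (a1.seq a2) ?_
    omega
  · have a3 := ex_clear (m := m) (V := V) (x := C.x) (σ := τ.set 40 w) (r := 40) (by omega)
      (by rw [Mem.set_r, if_pos rfl]; omega)
    have e1' : (τ.set 40 w).set 40 0 = τ := by
      rw [Mem.set_set]
      exact Mem.set_eq_self h40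
    rw [e1'] at a3
    have a4 := a3.seq (hB hw0)
    have a5 := Ex.ifzF (m := m) (V := V) (x := C.x) (i := 40) (σ := τ.set 40 w) (s := A)
      (t := seq (clearS 40) A') (by omega) (by rw [Mem.set_r, if_pos rfl]; exact hw0) a4
    refine Ex.mono (a1.seq a5) ?_
    rw [Mem.set_r, if_pos rfl]
    omega

end

/-- The test for a vertex number. -/
def OkP (C : Cx) (t u : ℕ) : Prop :=
  okN C.nu.isC C.nu.isB (Nu.parN t) C.nu.inE C.nu.CC C.nu.PP C.nu.PW C.nu.EE u

/-- The test for adjacency. -/
def AdjP (C : Cx) (u v : ℕ) : Prop := adjN C.nu.inE C.nu.CC C.nu.PP C.nu.EE u v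

/-- The bound for the inner body. -/
def cInner (W : ℕ) : ℕ :=
  1 + (cost W e2 + ((cost W e3 + (1 + (2 * W + 1) + 1) + 1) + (2 * W + 1) + 1) + 1)

/-- The bound for the outer body. -/
def cOuter (W : ℕ) : ℕ :=
  1 + (cost W e1 + ((7 * W + 2 + ((W * (cInner W + 1) + 1) + (2 * W + 1))) + (2 * W + 1) + 1) + 1)

/-- The bound for one value of the parity. -/
def cOne (W : ℕ) : ℕ := 7 * W + 2 + ((W * (cOuter W + 1) + 1) + (2 * W + 1))

section

variable {C : Cx} {m V : ℕ} {σB : Mem} {B : ℕ} (hV : C.W ≤ V)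
  (hm : 40 + (wd e1 + wd e2 + wd e3) ≤ m) (hb : BaseOK C σB B)

include hV hm hb

lemma env_stM (t u v o r1 r2 : ℕ) (out : List Bool) :
    (fun j => (stM σB t u v o r1 r2 out).r (ρ₁ j)) 0 = t ∧
    (fun j => (stM σB t u v o r1 r2 out).r (ρ₁ j)) 1 = u ∧
    (fun j => (stM σB t u v o r1 r2 out).r (ρ₁ j)) 2 = v := by
  simp [stM_r, ρ₁]

lemma tr_e1 {t u v o r1 r2 : ℕ} {out : List Bool} (ht : t ≤ C.W) (hu : u ≤ C.W) :
    eval C e1 (fun j => (stM σB t u v o r1 r2 out).r (ρ₁ j)) ≠ 0 ↔ OkP C t u := by
  have h := tr_ok_call C (fun j => (stM σB t u v o r1 r2 out).r (ρ₁ j)) (var 0) (var 1)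
  obtain ⟨a1, a2, -⟩ := env_stM hV hm hb t u v o r1 r2 out
  simp only [eval_var, a1, a2, min_eq_left ht, min_eq_left hu] at h
  exact h

lemma tr_e2 {t u v o r1 r2 : ℕ} {out : List Bool} (ht : t ≤ C.W) (hv : v ≤ C.W) :
    eval C e2 (fun j => (stM σB t u v o r1 r2 out).r (ρ₁ j)) ≠ 0 ↔ OkP C t v := by
  have h := tr_ok_call C (fun j => (stM σB t u v o r1 r2 out).r (ρ₁ j)) (var 0) (var 2)
  obtain ⟨a1, -, a2⟩ := env_stM hV hm hb t u v o r1 r2 out
  simp only [eval_var, a1, a2, min_eq_left ht, min_eq_left hv] at h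
  exact h

lemma tr_e3 {t u v o r1 r2 : ℕ} {out : List Bool} (hu : u ≤ C.W) (hv : v ≤ C.W) :
    eval C e3 (fun j => (stM σB t u v o r1 r2 out).r (ρ₁ j)) ≠ 0 ↔ AdjP C u v := by
  have h := tr_adj_call C (fun j => (stM σB t u v o r1 r2 out).r (ρ₁ j)) (var 1) (var 2)
  obtain ⟨-, a1, a2⟩ := env_stM hV hm hb t u v o r1 r2 out
  simp only [eval_var, a1, a2, min_eq_left hu, min_eq_left hv] at h
  exact h

open Classical in
/-- The body of the inner loop. -/
lemma ex_innerB {t u v o r1 k : ℕ} {out : List Bool} (ht : t ≤ C.W) (hu : u ≤ C.W) (hv : v + 1 ≤ C.W)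
    (ho : o + 1 ≤ C.W) (hr1 : r1 ≤ C.W) (hk : k + 1 ≤ C.W) (hol : o = out.length) :
    Ex m V C.x innerB (stM σB t u v o r1 (k + 1) out)
      (stM σB t u (v + 1) (o + (if OkP C t v then 1 else 0)) r1 k
        (out ++ (if OkP C t v then [decide (AdjP C u v)] else []))) (cInner C.W) := by
  have hW0 : σB.r 0 = C.W := hb.cap
  have hm40 : 40 < m := by
    have := wd_pos e1
    omega
  have a1 := ex_dec_to (m := m) (V := V) (x := C.x) (τ := stM σB t u v o r1 (k + 1) out) (i := 29)
    (a := k) (by omega) (by simp [stM_r]) (by omega)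
  rw [stM_set29] at a1
  set τ₁ := stM σB t u v o r1 k out with hτ₁
  have hG : Good C π₁ ρ₁ 40 τ₁ := stM_good hV hm hb ht hu (by omega) (by omega) hr1 (by omega)
  have e : Ex m V C.x (gIf e2 (dec 38) (seq (gIf e3 (emit 27 false) (emit 27 true)) (Stmt.inc 27))) τ₁
      (stM σB t u v (o + (if OkP C t v then 1 else 0)) r1 k
        (out ++ (if OkP C t v then [decide (AdjP C u v)] else [])))
      (cost C.W e2 + ((cost C.W e3 + (1 + (2 * C.W + 1) + 1) + 1) + (2 * C.W + 1) + 1)) := by
    refine ex_gIf hV hm hb hG (by omega) ?_ ?_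
    · intro h0
      have hn : ¬ OkP C t v := fun h => (tr_e2 hV hm hb ht (by omega)).mpr h h0
      simp only [hn, if_false, List.append_nil, Nat.add_zero]
      refine (ex_dec_zero (by omega) ?_).mono ?_
      · simp [hτ₁, stM_r, hb.r38]
      · omega
    · intro h0
      have hp : OkP C t v := (tr_e2 hV hm hb ht (by omega)).mp h0
      simp only [hp, if_true]
      have hemit : ∀ b : Bool, Ex m V C.x (emit 27 b) τ₁ (stM σB t u v o r1 k (out ++ [b])) 1 := by
        intro b
        refine ⟨1, le_rfl, ?_⟩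
        exact Exec.emit (by omega) (by simp [hτ₁, stM_r, stM_out, hol])
          (by simp [hτ₁, stM_r]; omega)
      have a2 : Ex m V C.x (gIf e3 (emit 27 false) (emit 27 true)) τ₁
          (stM σB t u v o r1 k (out ++ [decide (AdjP C u v)]))
          (cost C.W e3 + (1 + (2 * C.W + 1) + 1)) := by
        refine ex_gIf hV hm hb hG (by omega) ?_ ?_
        · intro h1
          have hn : ¬ AdjP C u v := fun h => (tr_e3 hV hm hb hu (by omega)).mpr h h1
          simp only [hn, decide_false]
          exact hemit false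
        · intro h1
          have hn : AdjP C u v := (tr_e3 hV hm hb hu (by omega)).mp h1
          simp only [hn, decide_true]
          exact hemit true
      have a3 := ex_inc_to (m := m) (V := V) (x := C.x)
        (τ := stM σB t u v o r1 k (out ++ [decide (AdjP C u v)])) (i := 27) (a := o) (by omega)
        (by omega) (by simp [stM_r]) (by simp [stM_r, hW0]; omega) (by omega)
      rw [stM_set27] at a3
      refine (a2.seq a3).mono ?_
      omega
  have a4 := ex_inc_to (m := m) (V := V) (x := C.x)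
    (τ := stM σB t u v (o + (if OkP C t v then 1 else 0)) r1 k
        (out ++ (if OkP C t v then [decide (AdjP C u v)] else []))) (i := 26) (a := v) (by omega)
    (by omega) (by simp [stM_r]) (by simp [stM_r, hW0]; omega) (by omega)
  rw [stM_set26] at a4
  refine (a1.seq (e.seq a4)).mono ?_
  unfold cInner
  omega


open Classical in
/-- The inner loop. -/
lemma ex_inner {t u o r1 : ℕ} {out : List Bool} (ht : t ≤ C.W) (hu : u ≤ C.W) (hB : B + 1 ≤ C.W)
    (hr1 : r1 ≤ C.W) (hlen : out.length + B + 1 ≤ C.W) (hol : o = out.length) :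
    Ex m V C.x (loop 29 innerB) (stM σB t u 0 o r1 B out)
      (stM σB t u B (o + (rowB (OkP C t) (AdjP C) u B).length) r1 0
        (out ++ rowB (OkP C t) (AdjP C) u B)) (B * (cInner C.W + 1) + 1) := by
  have hm29 : 29 < m := by
    have := wd_pos e1
    omega
  let P : ℕ → Mem := fun k => stM σB t u (B - k) (o + (rowB (OkP C t) (AdjP C) u (B - k)).length) r1 k
    (out ++ rowB (OkP C t) (AdjP C) u (B - k))
  have h := Ex.loop (m := m) (V := V) (x := C.x) (s := innerB) (P := P) (i := 29) (v := B)
    (c := cInner C.W) hm29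
    (fun k _ => by simp [P, stM_r])
    (fun k hk => by
      have h1 := rowB_len (OkP C t) (AdjP C) u (B - (k + 1))
      have e0 : B - k = (B - (k + 1)) + 1 := by omega
      have a := ex_innerB hV hm hb (t := t) (u := u) (v := B - (k + 1))
        (o := o + (rowB (OkP C t) (AdjP C) u (B - (k + 1))).length) (r1 := r1) (k := k)
        (out := out ++ rowB (OkP C t) (AdjP C) u (B - (k + 1))) ht hu (by omega) (by omega) hr1
        (by omega) (by simp [hol])
      have e1 : P (k + 1) = stM σB t u (B - (k + 1))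
          (o + (rowB (OkP C t) (AdjP C) u (B - (k + 1))).length) r1 (k + 1)
          (out ++ rowB (OkP C t) (AdjP C) u (B - (k + 1))) := rfl
      rw [e1]
      have e2 : P k = stM σB t u (B - (k + 1) + 1)
          (o + (rowB (OkP C t) (AdjP C) u (B - (k + 1))).length + (if OkP C t (B - (k + 1)) then 1 else 0)) r1 k
          (out ++ rowB (OkP C t) (AdjP C) u (B - (k + 1)) ++
            (if OkP C t (B - (k + 1)) then [decide (AdjP C u (B - (k + 1)))] else [])) := by
        simp only [P]
        rw [e0]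
        simp only [rowB, List.length_append, List.append_assoc]
        congr 1
        by_cases h : OkP C t (B - (k + 1)) <;> simp [h] <;> omega
      rw [e2]
      exact a)
  have e3 : P B = stM σB t u 0 o r1 B out := by
    simp [P, rowB]
  have e4 : P 0 = stM σB t u B (o + (rowB (OkP C t) (AdjP C) u B).length) r1 0
      (out ++ rowB (OkP C t) (AdjP C) u B) := by
    simp [P]
  rw [e3, e4] at h
  exact h

open Classical in
/-- The body of the outer loop. -/
lemma ex_outerB {t u o k : ℕ} {out : List Bool} (ht : t ≤ C.W) (hu : u + 1 ≤ C.W) (hB : B + 1 ≤ C.W)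
    (hk : k + 1 ≤ C.W) (hlen : out.length + B + 1 ≤ C.W) (hol : o = out.length) :
    Ex m V C.x outerB (stM σB t u 0 o (k + 1) 0 out)
      (stM σB t (u + 1) 0 (o + (if OkP C t u then (rowB (OkP C t) (AdjP C) u B).length else 0)) k 0
        (out ++ (if OkP C t u then rowB (OkP C t) (AdjP C) u B else []))) (cOuter C.W) := by
  have hW0 : σB.r 0 = C.W := hb.cap
  have hm40 : 40 < m := by
    have := wd_pos e1
    omega
  have hr23 : σB.r 23 = B := hb.box
  have a1 := ex_dec_to (m := m) (V := V) (x := C.x) (τ := stM σB t u 0 o (k + 1) 0 out) (i := 28)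
    (a := k) (by omega) (by simp [stM_r]) (by omega)
  rw [stM_set28] at a1
  set τ₁ := stM σB t u 0 o k 0 out with hτ₁
  have hG : Good C π₁ ρ₁ 40 τ₁ := stM_good hV hm hb ht (by omega) (by omega) (by omega) (by omega)
    (by omega)
  have e : Ex m V C.x (gIf e1 (dec 38) (seq (copyS 23 29 40) (seq (loop 29 innerB) (clearS 26)))) τ₁
      (stM σB t u 0 (o + (if OkP C t u then (rowB (OkP C t) (AdjP C) u B).length else 0)) k 0
        (out ++ (if OkP C t u then rowB (OkP C t) (AdjP C) u B else [])))
      (cost C.W e1 + ((7 * C.W + 2 + ((C.W * (cInner C.W + 1) + 1) + (2 * C.W + 1))) +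
        (2 * C.W + 1) + 1)) := by
    refine ex_gIf hV hm hb hG (by omega) ?_ ?_
    · intro h0
      have hn : ¬ OkP C t u := fun h => (tr_e1 hV hm hb ht (by omega)).mpr h h0
      simp only [hn, if_false, List.append_nil, Nat.add_zero]
      refine (ex_dec_zero (by omega) ?_).mono ?_
      · simp [hτ₁, stM_r, hb.r38]
      · omega
    · intro h0
      have hp : OkP C t u := (tr_e1 hV hm hb ht (by omega)).mp h0
      simp only [hp, if_true]
      have c1 := ex_copy (m := m) (V := V) (x := C.x) (σ := τ₁) (r := 23) (t := 29) (tmp := 40)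
        (W := C.W) (by omega) (by omega) (by omega) (by omega) (by omega) (by omega) (by omega)
        (by omega) (by omega) (by simp [hτ₁, stM_r, hW0]) hV
        (by simp [hτ₁, stM_r, hr23]; omega) (by simp [hτ₁, stM_r]) (by
          simp [hτ₁, stM_r]
          exact hb.top 40 le_rfl)
      have e1' : τ₁.r 23 = B := by simp [hτ₁, stM_r, hr23]
      rw [e1', hτ₁, stM_set29] at c1
      have c2 := ex_inner hV hm hb (t := t) (u := u) (o := o) (r1 := k) (out := out) ht (by omega) hB
        (by omega) hlen hol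
      have c3 := ex_clear (m := m) (V := V) (x := C.x)
        (σ := stM σB t u B (o + (rowB (OkP C t) (AdjP C) u B).length) k 0
        (out ++ rowB (OkP C t) (AdjP C) u B)) (r := 26) (by omega) (by simp [stM_r]; omega)
      rw [stM_set26] at c3
      have e2' : (stM σB t u B (o + (rowB (OkP C t) (AdjP C) u B).length) k 0
        (out ++ rowB (OkP C t) (AdjP C) u B)).r 26 = B := by simp [stM_r]
      rw [e2'] at c3
      refine Ex.mono (c1.seq (c2.seq c3)) ?_
      have : B * (cInner C.W + 1) ≤ C.W * (cInner C.W + 1) :=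
        Nat.mul_le_mul_right _ (by omega)
      omega
  have a4 := ex_inc_to (m := m) (V := V) (x := C.x)
    (τ := stM σB t u 0 (o + (if OkP C t u then (rowB (OkP C t) (AdjP C) u B).length else 0)) k 0
        (out ++ (if OkP C t u then rowB (OkP C t) (AdjP C) u B else []))) (i := 25) (a := u) (by omega)
    (by omega) (by simp [stM_r]) (by simp [stM_r, hW0]; omega) (by omega)
  rw [stM_set25] at a4
  refine Ex.mono (a1.seq (e.seq a4)) ?_
  unfold cOuter
  omega

open Classical in
/-- The outer loop. -/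
lemma ex_outer {t o : ℕ} {out : List Bool} (ht : t ≤ C.W) (hB : B + 1 ≤ C.W)
    (hlen : out.length + B * B + 1 ≤ C.W) (hol : o = out.length) :
    Ex m V C.x (loop 28 outerB) (stM σB t 0 0 o B 0 out)
      (stM σB t B 0 (o + (matB (OkP C t) (AdjP C) B B).length) 0 0
        (out ++ matB (OkP C t) (AdjP C) B B)) (B * (cOuter C.W + 1) + 1) := by
  have hm29 : 29 < m := by
    have := wd_pos e1
    omega
  let P : ℕ → Mem := fun k => stM σB t (B - k) 0 (o + (matB (OkP C t) (AdjP C) B (B - k)).length) k 0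
    (out ++ matB (OkP C t) (AdjP C) B (B - k))
  have h := Ex.loop (m := m) (V := V) (x := C.x) (s := outerB) (P := P) (i := 28) (v := B)
    (c := cOuter C.W) (by omega)
    (fun k _ => by simp [P, stM_r])
    (fun k hk => by
      have h1 := matB_len (OkP C t) (AdjP C) B (B - (k + 1))
      have e0 : B - k = (B - (k + 1)) + 1 := by omega
      have h2 : (B - (k + 1) + 1) * B ≤ B * B := Nat.mul_le_mul_right _ (by omega)
      have h3 : (B - (k + 1) + 1) * B = (B - (k + 1)) * B + B := by ring
      have a := ex_outerB hV hm hb (t := t) (u := B - (k + 1))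
        (o := o + (matB (OkP C t) (AdjP C) B (B - (k + 1))).length) (k := k)
        (out := out ++ matB (OkP C t) (AdjP C) B (B - (k + 1))) ht (by omega) hB (by omega)
        (by simp only [List.length_append]; omega) (by simp [hol])
      have e1 : P (k + 1) = stM σB t (B - (k + 1)) 0
          (o + (matB (OkP C t) (AdjP C) B (B - (k + 1))).length) (k + 1) 0
          (out ++ matB (OkP C t) (AdjP C) B (B - (k + 1))) := rfl
      rw [e1]
      have e2 : P k = stM σB t (B - (k + 1) + 1) 0
          (o + (matB (OkP C t) (AdjP C) B (B - (k + 1))).length +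
            (if OkP C t (B - (k + 1)) then (rowB (OkP C t) (AdjP C) (B - (k + 1)) B).length else 0)) k 0
          (out ++ matB (OkP C t) (AdjP C) B (B - (k + 1)) ++
            (if OkP C t (B - (k + 1)) then rowB (OkP C t) (AdjP C) (B - (k + 1)) B else [])) := by
        simp only [P]
        rw [e0]
        simp only [matB, List.length_append, List.append_assoc]
        congr 1
        by_cases h : OkP C t (B - (k + 1)) <;> simp [h] <;> omega
      rw [e2]
      exact a)
  have e3 : P B = stM σB t 0 0 o B 0 out := by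
    simp [P, matB]
  have e4 : P 0 = stM σB t B 0 (o + (matB (OkP C t) (AdjP C) B B).length) 0 0
      (out ++ matB (OkP C t) (AdjP C) B B) := by
    simp [P]
  rw [e3, e4] at h
  exact h

open Classical in
/-- One value of the parity. -/
lemma ex_oneT {t o : ℕ} {out : List Bool} (ht : t ≤ C.W) (hB : B + 1 ≤ C.W)
    (hlen : out.length + B * B + 1 ≤ C.W) (hol : o = out.length) :
    Ex m V C.x oneT (stM σB t 0 0 o 0 0 out)
      (stM σB t 0 0 (o + (matB (OkP C t) (AdjP C) B B).length) 0 0
        (out ++ matB (OkP C t) (AdjP C) B B)) (cOne C.W) := by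
  have hW0 : σB.r 0 = C.W := hb.cap
  have hm40 : 40 < m := by
    have := wd_pos e1
    omega
  have hr23 : σB.r 23 = B := hb.box
  have c1 := ex_copy (m := m) (V := V) (x := C.x) (σ := stM σB t 0 0 o 0 0 out) (r := 23) (t := 28)
    (tmp := 40)
    (W := C.W) (by omega) (by omega) (by omega) (by omega) (by omega) (by omega) (by omega)
    (by omega) (by omega) (by simp [stM_r, hW0]) hV
    (by simp [stM_r, hr23]; omega) (by simp [stM_r]) (by
      simp [stM_r]
      exact hb.top 40 le_rfl)
  have e1' : (stM σB t 0 0 o 0 0 out).r 23 = B := by simp [stM_r, hr23]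
  rw [e1', stM_set28] at c1
  have c2 := ex_outer hV hm hb ht hB hlen hol
  have c3 := ex_clear (m := m) (V := V) (x := C.x)
    (σ := stM σB t B 0 (o + (matB (OkP C t) (AdjP C) B B).length) 0 0
        (out ++ matB (OkP C t) (AdjP C) B B)) (r := 25) (by omega) (by simp [stM_r]; omega)
  rw [stM_set25] at c3
  have e2' : (stM σB t B 0 (o + (matB (OkP C t) (AdjP C) B B).length) 0 0
        (out ++ matB (OkP C t) (AdjP C) B B)).r 25 = B := by simp [stM_r]
  rw [e2'] at c3
  refine Ex.mono (c1.seq (c2.seq c3)) ?_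
  have : B * (cOuter C.W + 1) ≤ C.W * (cOuter C.W + 1) :=
    Nat.mul_le_mul_right _ (by omega)
  unfold cOne
  omega

open Classical in
/-- The main part. -/
lemma ex_main (hB : B + 1 ≤ C.W) (hlen : 2 * (B * B) + 1 ≤ C.W) :
    Ex m V C.x mainS (stM σB 0 0 0 0 0 0 [])
      (stM σB 1 0 0 ((matB (OkP C 0) (AdjP C) B B).length + (matB (OkP C 1) (AdjP C) B B).length) 0 0
        (matB (OkP C 0) (AdjP C) B B ++ matB (OkP C 1) (AdjP C) B B)) (cOne C.W + (1 + cOne C.W)) := by
  have hW0 : σB.r 0 = C.W := hb.cap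
  have hm40 : 40 < m := by
    have := wd_pos e1
    omega
  have := C.hW
  have c1 := ex_oneT hV hm hb (t := 0) (o := 0) (out := []) (by omega) hB (by simp; omega) rfl
  rw [List.nil_append, Nat.zero_add] at c1
  have c2 := ex_inc_to (m := m) (V := V) (x := C.x)
    (τ := stM σB 0 0 0 (matB (OkP C 0) (AdjP C) B B).length 0 0 (matB (OkP C 0) (AdjP C) B B))
    (i := 24) (a := 0) (by omega)
    (by omega) (by simp [stM_r]) (by simp [stM_r, hW0]; omega) (by omega)
  rw [stM_set24] at c2
  have h5 := matB_len (OkP C 0) (AdjP C) B B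
  have c3 := ex_oneT hV hm hb (t := 1) (o := (matB (OkP C 0) (AdjP C) B B).length)
    (out := matB (OkP C 0) (AdjP C) B B) (by omega) hB (by omega) rfl
  exact c1.seq (c2.seq c3)

end

end Vale.Agent.Lib.P310V
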