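import Vale.Agent.Lib.P310V.Prog

/-!
Numeric forms of the parts of the graphs of a machine.  All the definitions here are about natural
numbers; the structure `Nu` holds the numeric parameters.
-/

namespace Vale.Agent.Lib.P310V

/-- The numeric parameters. -/
structure Nu : Type where
  inp : ℕ → ℕ
  n : ℕ
  γ : ℕ
  s : ℕ
  w : ℕ
  h : ℕ
  L : ℕ
  L1 : ℕ
  L2 : ℕ
  N : ℕ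
  N1 : ℕ
  pad : ℕ
  b : ℕ
  D : ℕ
  X : ℕ
  Y : ℕ
  GX : ℕ
  colB : ℕ
  BB : ℕ
  EE : ℕ
  CC : ℕ
  PW : ℕ
  PP : ℕ
  WW : ℕ

/-- Digit `k` of a number in base `D`. -/
def dgt (D k u : ℕ) : ℕ := u / D ^ k % D

/-- The value of a bit. -/
def tb (x i : ℕ) : ℕ := x / 2 ^ i % 2

namespace Nu

variable (ν : Nu)

/-- Head letter numbers: kind in the last place. -/
def isHd (h : ℕ) : Prop :=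
  h = 0 ∨ h = 1 ∨ (h % 5 = 2 ∧ h / 5 < ν.s) ∨ (h % 5 = 3 ∧ h / 5 / ν.s < ν.s) ∨
    (h % 5 = 4 ∧ h / 5 / ν.s / ν.s < ν.s)

/-- Letter numbers: a digit or a head letter. -/
def isLam (x : ℕ) : Prop := x < ν.n ∨ (ν.n ≤ x ∧ ν.isHd (x - ν.n))

/-- Tag numbers. -/
def isTag (t : ℕ) : Prop :=
  t ≤ 4 ∨ (t % 10 = 5 ∧ t / 10 < ν.L2) ∨ (t % 10 = 6 ∧ t / 10 < ν.L2) ∨
    (t % 10 = 7 ∧ t / 10 / ν.L < ν.L2) ∨ (t % 10 = 8 ∧ t / 10 < ν.s) ∨ (t % 10 = 9 ∧ t / 10 < ν.L1)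

/-- The digit of a number. -/
abbrev d (k u : ℕ) : ℕ := dgt ν.D k u

/-- Coordinate numbers. -/
def isCo (m : ℕ) : Prop :=
  (ν.d 0 m = 1 ∧ m / ν.D ^ 4 = 0 ∧ ν.d 1 m < 3 ∧ ν.d 2 m < 4 ∧ ν.d 3 m < ν.N1) ∨
  (ν.d 0 m = 2 ∧ m / ν.D ^ 3 = 0 ∧ ν.d 1 m < 4 ∧ ν.d 2 m < ν.N1) ∨
  (ν.d 0 m = 3 ∧ m / ν.D ^ 2 = 0 ∧ ν.d 1 m < ν.pad)

/-- Clause numbers. -/
def isCl (κ : ℕ) : Prop :=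
  (ν.d 0 κ = 0 ∧ κ / ν.D ^ 7 = 0 ∧ ν.d 1 κ < 3 ∧ ν.d 2 κ < 4 ∧ ν.d 3 κ < 4 ∧ ν.d 4 κ < ν.N1 ∧
    ν.d 5 κ < ν.b ∧ ν.d 6 κ < 2) ∨
  (ν.d 0 κ = 1 ∧ κ / ν.D ^ 4 = 0 ∧ ν.d 1 κ < 3 ∧ ν.d 2 κ < 4 ∧ ν.d 3 κ < ν.N1) ∨
  (ν.d 0 κ = 2 ∧ κ / ν.D ^ 6 = 0 ∧ ν.d 1 κ < 3 ∧ ν.d 2 κ < 4 ∧ ν.d 3 κ < ν.N1 ∧ ν.d 4 κ < ν.b ∧
    ν.d 5 κ < 2) ∨
  (ν.d 0 κ = 3 ∧ κ / ν.D ^ 3 = 0 ∧ ν.d 1 κ < 4 ∧ ν.d 2 κ < ν.N1) ∨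
  (ν.d 0 κ = 4 ∧ κ / ν.D ^ 5 = 0 ∧ ν.d 1 κ < 4 ∧ ν.d 2 κ < ν.N ∧ ν.d 3 κ < ν.b ∧ ν.d 4 κ < 2) ∨
  (ν.d 0 κ = 5 ∧ κ / ν.D ^ 3 = 0 ∧ ν.d 1 κ < 4 ∧ ν.d 2 κ < ν.N1) ∨
  (ν.d 0 κ = 6 ∧ κ / ν.D ^ 3 = 0 ∧ ν.d 1 κ < 4 ∧ ν.d 2 κ < ν.N1) ∨
  (ν.d 0 κ = 7 ∧ κ / ν.D ^ 3 = 0 ∧ ν.d 1 κ < 3 ∧ ν.d 2 κ < 4)

/-- Letter numbers of the string system. -/
def isLet (m : ℕ) : Prop :=
  (ν.d 0 m = 1 ∧ m / ν.D ^ 6 = 0 ∧ ν.d 1 m < 3 ∧ ν.d 2 m < 4 ∧ ν.d 3 m < ν.N1 ∧ ν.isLam (ν.d 4 m) ∧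
    ν.d 5 m < 2) ∨
  (ν.d 0 m = 2 ∧ m / ν.D ^ 9 = 0 ∧ ν.d 1 m < 4 ∧ ν.d 2 m < ν.N1 ∧ ν.isLam (ν.d 3 m) ∧
    ν.isLam (ν.d 4 m) ∧ ν.isLam (ν.d 5 m) ∧ ν.isTag (ν.d 6 m) ∧ ν.isTag (ν.d 7 m) ∧ ν.d 8 m < 3) ∨
  (ν.d 0 m = 3 ∧ m / ν.D ^ 2 = 0 ∧ ν.d 1 m < ν.pad)

/-- The class numbers: base vertices have digit 0 in the last place. -/
def isBaseA (A : ℕ) : Prop := A / 12 < ν.colB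

/-- The numbers of classes of base vertices. -/
def isB (m : ℕ) : Prop := m % ν.D = 0 ∧ ν.isBaseA (m / ν.D)

/-- The numbers of classes. -/
def isC (m : ℕ) : Prop := ν.isB m ∨ ν.isLet m

/-- The position in the table of a machine, with capped arithmetic. -/
def tpos (st sym f i : ℕ) : ℕ :=
  min (min (ν.h + min (min (min (min (min (st * ν.γ) ν.WW + sym) ν.WW * 3) ν.WW + f) ν.WW * ν.w)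
    ν.WW) ν.WW + i) ν.WW

open Classical in
/-- A field of the table of a machine. -/
noncomputable def tbl (st sym f : ℕ) : ℕ := Nat.count (fun i => ν.inp (ν.tpos st sym f i) = 1) ν.w

/-- The move number from a cell number: `k = 1` right, `k = 2` stay, `k = 0` left. -/
noncomputable def arr (k a : ℕ) : ℕ :=
  if a / ν.γ ≠ 0 ∧ ν.tbl (a / ν.γ - 1) (a % ν.γ) 2 = k then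
    capS ν.WW (ν.tbl (a / ν.γ - 1) (a % ν.γ) 0) else 0

/-- The head of the next cell. -/
noncomputable def nxH (a b c : ℕ) : ℕ :=
  if ν.arr 1 a ≠ 0 then ν.arr 1 a else if ν.arr 2 b ≠ 0 then ν.arr 2 b else ν.arr 0 c

/-- The symbol of the next cell. -/
noncomputable def nxY (b : ℕ) : ℕ :=
  if b / ν.γ ≠ 0 then ν.tbl (b / ν.γ - 1) (b % ν.γ) 1 else b % ν.γ

/-- The parts of a letter number that is a head letter: the kind. -/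
def hk (x : ℕ) : ℕ := (x - ν.n) % 5

/-- The parts of a letter number that is a head letter: the payload. -/
def hp (x : ℕ) : ℕ := (x - ν.n) / 5

/-- A number of kind `k` among the head letters. -/
def isK (k x : ℕ) : Prop := ν.n ≤ x ∧ ν.hk x = k

/-- A digit. -/
def isDig (x : ℕ) : Prop := x < ν.n

/-- The increment relation of digits. -/
def incN (j0 j d d' : ℕ) : Prop :=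
  (j < j0 ∧ capS ν.WW d = ν.n ∧ d' = 0) ∨ (j = j0 ∧ d' = capS ν.WW d) ∨ (j0 < j ∧ d' = d)

/-- The digits of triples of strings with a common time. -/
def digA (j l x0 x1 x2 : ℕ) : Prop :=
  (l ≤ ν.L ∧ ν.isDig x0 ∧ x1 = x0 ∧ x2 = x0) ∨
  (¬ l ≤ ν.L ∧ ν.isDig x0 ∧ ν.isDig x1 ∧ x2 = x0 ∧ ν.incN j (l - 1 - ν.L) x0 x1)

/-- The input symbol at a digit, with the head on digit 0. -/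
def xinN (d : ℕ) : ℕ := min (ν.inp d + (if d = 0 then ν.γ else 0)) ν.WW

/-- The number of the head letter `trap`. -/
def tr : ℕ := capS ν.WW ν.n

/-- The local condition of a triple of letters at a position of the strings, for a tag number. -/
noncomputable def body (t l x0 x1 x2 : ℕ) : Prop :=
  (t = 0 ∧ (l = 0 → x0 = ν.n ∧ x1 = ν.n ∧ x2 = ν.n)) ∨
  (t = 1 ∧ x1 = x2 ∧ (l = 0 → x0 = ν.n ∧ x1 ≠ ν.tr)) ∨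
  (t = 2 ∧ x0 = x2 ∧ (l = 0 → x1 = ν.n ∧ x0 ≠ ν.tr)) ∨
  (t = 3 ∧ x0 = x1 ∧ (l = 0 → x2 = ν.n ∧ x0 ≠ ν.tr)) ∨
  (t = 4 ∧ x1 = x2 ∧ (l = 0 → x0 = ν.tr ∧ ν.isK 2 x1 ∧ ν.hp x1 / ν.γ = 2)) ∨
  (5 ≤ t ∧ t % 10 = 5 ∧ ((l = 0 ∧ ν.isK 2 x0 ∧ ν.isK 2 x1 ∧ ν.isK 3 x2 ∧ ν.hp x2 % ν.s = ν.hp x0 ∧
      ν.hp x2 / ν.s = ν.hp x1) ∨ (l ≠ 0 ∧ ν.digA (t / 10) l x0 x1 x2))) ∨
  (5 ≤ t ∧ t % 10 = 6 ∧ ((l = 0 ∧ ν.isK 2 x0 ∧ ν.isK 3 x1 ∧ ν.isK 4 x2 ∧ ν.hp x2 % ν.s = ν.hp x0 ∧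
      ν.hp x2 / ν.s = ν.hp x1) ∨ (l ≠ 0 ∧ ν.digA (t / 10) l x0 x1 x2))) ∨
  (5 ≤ t ∧ t % 10 = 7 ∧ ((l = 0 ∧ ν.isK 4 x0 ∧ x1 = x0 ∧ ν.isK 2 x2 ∧
        ν.hp x2 % ν.γ = ν.nxY (ν.hp x0 / ν.s % ν.s) ∧
        ν.hp x2 / ν.γ = ν.nxH (ν.hp x0 % ν.s) (ν.hp x0 / ν.s % ν.s) (ν.hp x0 / ν.s / ν.s)) ∨
      (l ≠ 0 ∧ l ≤ ν.L ∧ ν.isDig x0 ∧ x1 = x0 ∧ ν.isDig x2 ∧
        ν.incN (t / 10 % ν.L) (l - 1) x0 x2) ∨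
      (¬ l ≤ ν.L ∧ ν.isDig x0 ∧ x1 = x0 ∧ ν.isDig x2 ∧
        ν.incN (t / 10 / ν.L) (l - 1 - ν.L) x0 x2))) ∨
  (5 ≤ t ∧ t % 10 = 8 ∧ ((l = 0 ∧ x0 = ν.n ∧ x1 = ν.n ∧ ν.isK 2 x2 ∧ ν.hp x2 = t / 10) ∨
      (l = ν.L1 ∧ ν.isDig x2 ∧ ν.xinN x2 = t / 10) ∨
      (l ≠ 0 ∧ l ≠ ν.L1 ∧ x2 = 0))) ∨
  (5 ≤ t ∧ t % 10 = 9 ∧ ((l = 0 ∧ x0 = ν.n ∧ x1 = ν.n ∧ ν.isK 2 x2 ∧ ν.hp x2 = 2 ∧ t / 10 ≠ 0) ∨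
      (l ≠ 0 ∧ ν.isDig x2 ∧ (l ≤ ν.L → x2 = 0) ∧ (l = min (ν.L1 + t / 10) ν.WW → x2 ≠ 0))))

/-- The local relation of the string system. -/
noncomputable def loc (l x0 x1 x2 u u' : ℕ) : Prop := u' = u ∧ ν.body u l x0 x1 x2

/-- The predicate of the good heads. -/
def isOK (τ x : ℕ) : Prop := (τ = 0 ∧ x = ν.tr) ∨ (τ ≠ 0 ∧ x = ν.n)

/-- The letter of a witness number for a track. -/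
def wc (τ ℓ : ℕ) : ℕ := if τ = 0 then ν.d 3 ℓ else if τ = 1 then ν.d 4 ℓ else ν.d 5 ℓ

/-- The coverage relation on clause and letter numbers. -/
noncomputable def cov (κ ℓ : ℕ) : Prop :=
  (ν.d 0 ℓ = 1 ∧ (
    (ν.d 0 κ = 0 ∧ ν.d 1 ℓ = ν.d 1 κ ∧ ν.d 3 ℓ = ν.d 4 κ ∧
      ((ν.d 2 ℓ = ν.d 2 κ ∧ (ν.d 5 ℓ = 1 ∨ tb (ν.d 4 ℓ) (ν.d 5 κ) = ν.d 6 κ)) ∨
       (ν.d 2 ℓ = ν.d 3 κ ∧ (ν.d 5 ℓ = 1 ∨ tb (ν.d 4 ℓ) (ν.d 5 κ) ≠ ν.d 6 κ)))) ∨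
    (ν.d 0 κ = 1 ∧ ν.d 1 ℓ = ν.d 1 κ ∧ ν.d 2 ℓ = ν.d 2 κ ∧ ν.d 3 ℓ = ν.d 3 κ ∧ ν.d 5 ℓ = 0) ∨
    (ν.d 0 κ = 2 ∧ ν.d 1 ℓ = ν.d 1 κ ∧ ν.d 2 ℓ = ν.d 2 κ ∧ ν.d 3 ℓ = ν.d 3 κ ∧
      tb (ν.d 4 ℓ) (ν.d 4 κ) ≠ ν.d 5 κ) ∨
    (ν.d 0 κ = 7 ∧ ν.d 1 ℓ = ν.d 1 κ ∧ ν.d 2 ℓ = ν.d 2 κ ∧ ν.d 3 ℓ = 0 ∧
      ν.isOK (ν.d 1 ℓ) (ν.d 4 ℓ)))) ∨
  (ν.d 0 ℓ = 2 ∧ (
    (ν.d 0 κ = 2 ∧ ν.d 1 ℓ = ν.d 2 κ ∧ ν.d 2 ℓ = ν.d 3 κ ∧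
      (ν.d 8 ℓ ≠ 2 ∨ tb (ν.wc (ν.d 1 κ) ℓ) (ν.d 4 κ) = ν.d 5 κ)) ∨
    (ν.d 0 κ = 3 ∧ ν.d 1 ℓ = ν.d 1 κ ∧ ν.d 2 ℓ = ν.d 2 κ ∧
      (ν.d 8 ℓ ≠ 2 ∨ ν.loc (ν.d 2 κ) (ν.d 3 ℓ) (ν.d 4 ℓ) (ν.d 5 ℓ) (ν.d 6 ℓ) (ν.d 7 ℓ))) ∨
    (ν.d 0 κ = 4 ∧ ν.d 1 ℓ = ν.d 1 κ ∧
      ((ν.d 2 ℓ = ν.d 2 κ ∧ (ν.d 8 ℓ ≠ 2 ∨ tb (ν.d 7 ℓ) (ν.d 3 κ) = ν.d 4 κ)) ∨
       (ν.d 2 ℓ = capS ν.WW (ν.d 2 κ) ∧ (ν.d 8 ℓ ≠ 2 ∨ tb (ν.d 6 ℓ) (ν.d 3 κ) ≠ ν.d 4 κ)))) ∨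
    (ν.d 0 κ = 5 ∧ ν.d 1 ℓ = ν.d 1 κ ∧ ν.d 2 ℓ = ν.d 2 κ ∧ ν.d 8 ℓ ≠ 1) ∨
    (ν.d 0 κ = 6 ∧ ν.d 1 ℓ = ν.d 1 κ ∧ ν.d 2 ℓ = ν.d 2 κ ∧ ν.d 8 ℓ ≠ 0)))

/-- The door group of a clause number. -/
def grK (κ : ℕ) : ℕ :=
  if ν.d 0 κ = 0 then (if ν.d 1 κ = 2 then 1 else 2)
  else if ν.d 0 κ = 1 then (if ν.d 1 κ = 0 then 1 else 0)
  else if ν.d 0 κ = 5 then 1
  else if ν.d 0 κ = 6 then 0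
  else if ν.d 0 κ = 7 then (if ν.d 1 κ = 0 then 3 else if ν.d 1 κ = 1 then 4 else 5)
  else 2

/-- The first room number of a door group. -/
def grAN (G : ℕ) : ℕ := if G = 0 then 1 else if G = 1 then 2 else if G = 2 then 0 else G - 3

/-- The second room number of a door group. -/
def grBN (G : ℕ) : ℕ := if G = 0 then 2 else if G = 1 then 0 else if G = 2 then 1 else G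

/-- Room of a base number. -/
def rmA (A : ℕ) : ℕ := A % 6

/-- Lane of a base number. -/
def lnA (A : ℕ) : ℕ := A / 6 % 2

/-- Column of a base number. -/
def clA (A : ℕ) : ℕ := A / 12

/-- The clause of a column in the clause part. -/
def kOf (c : ℕ) : ℕ := (c - ν.GX) % ν.Y

/-- A door of a clause between two base numbers. -/
def cDoor (A B : ℕ) : Prop :=
  lnA A = 0 ∧ lnA B = 0 ∧ clA A = clA B ∧ ν.GX ≤ clA A ∧ (clA A - ν.GX) / ν.Y < 4 ∧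
    ν.isCl (ν.kOf (clA A)) ∧ rmA A = grAN (ν.grK (ν.kOf (clA A))) ∧
    rmA B = grBN (ν.grK (ν.kOf (clA A)))

/-- A forcing door between two base numbers. -/
def fDoor (A B : ℕ) : Prop :=
  lnA A = 0 ∧ lnA B = 0 ∧ clA A < ν.GX ∧ clA B < ν.GX ∧ clA A % ν.X = clA B % ν.X ∧
    ν.isCo (clA A % ν.X / 6) ∧ rmA A = grAN (clA A % ν.X % 6) ∧ rmA B = grBN (clA A % ν.X % 6)

/-- The ladder edges. -/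
def ladder (A B : ℕ) : Prop :=
  rmA A = rmA B ∧ ((clA A = clA B ∧ lnA A ≠ lnA B) ∨
    (lnA A = lnA B ∧ ((clA A < clA B ∧ clA B - clA A = 1) ∨ (clA B < clA A ∧ clA A - clA B = 1))))

/-- Adjacency of base numbers. -/
def rbAdj (A B : ℕ) : Prop :=
  ladder A B ∨ ν.cDoor A B ∨ ν.fDoor A B ∨ ν.cDoor B A ∨ ν.fDoor B A

/-- The coordinate number `i` is the coordinate of the letter number `ℓ`. -/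
def coEq (ℓ i : ℕ) : Prop :=
  (ν.d 0 ℓ = 1 ∧ ν.d 0 i = 1 ∧ ν.d 1 i = ν.d 1 ℓ ∧ ν.d 2 i = ν.d 2 ℓ ∧ ν.d 3 i = ν.d 3 ℓ) ∨
  (ν.d 0 ℓ = 2 ∧ ν.d 0 i = 2 ∧ ν.d 1 i = ν.d 1 ℓ ∧ ν.d 2 i = ν.d 2 ℓ) ∨
  (ν.d 0 ℓ = 3 ∧ ν.d 0 i = 3 ∧ ν.d 1 i = ν.d 1 ℓ)

/-- A letter number reads a door given by two base numbers. -/
noncomputable def reads (ℓ A B : ℕ) : Prop :=
  (ν.cDoor A B ∧ ν.cov (ν.kOf (clA A)) ℓ) ∨ (ν.fDoor A B ∧ ν.coEq ℓ (clA A % ν.X / 6))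

/-- The edge numbers of a class number. -/
noncomputable def inE (m y : ℕ) : Prop :=
  y % ν.BB < y / ν.BB ∧ ν.isBaseA (y % ν.BB) ∧ ν.isBaseA (y / ν.BB) ∧
    ((ν.isB m ∧ (m / ν.D = y % ν.BB ∨ m / ν.D = y / ν.BB) ∧ ν.rbAdj (y % ν.BB) (y / ν.BB)) ∨
     (¬ ν.isB m ∧ (ν.reads m (y % ν.BB) (y / ν.BB) ∨ ν.reads m (y / ν.BB) (y % ν.BB))))

/-- The parity number of a class number: `t = 0` is the untwisted graph and `t ≠ 0` the twisted one. -/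
def parN (t m : ℕ) : ℕ := if t ≠ 0 ∧ m = 0 then 1 else 0

end Nu

end Vale.Agent.Lib.P310V
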