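import Vale.Agent.Lib.P310V.Num
import Vale.Agent.Lib.P310V.ELib

set_option linter.unusedSectionVars false
set_option linter.unusedSimpArgs false

/-!
The numeric predicates as expressions.
-/

namespace Vale.Agent.Lib.P310V

open E

/-- The numeric parameters in a context. -/
def Cx.nu (C : Cx) : Nu where
  inp := fun p => match C.x p with
    | some false => 0
    | some true => 1
    | none => 2
  n := C.p 1
  γ := C.p 2
  s := C.p 3
  w := C.p 4
  h := C.p 5
  L := C.p 6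
  L1 := C.p 7
  L2 := C.p 8
  N := C.p 9
  N1 := C.p 10
  pad := C.p 11
  b := C.p 12
  D := C.p 13
  X := C.p 14
  Y := C.p 15
  GX := C.p 16
  colB := C.p 17
  BB := C.p 18
  EE := C.p 19
  CC := C.p 20
  PW := C.p 21
  PP := C.p 22
  WW := C.W

def pN : E := par 1
def pG : E := par 2
def pS : E := par 3
def pW : E := par 4
def pH : E := par 5
def pL : E := par 6
def pL1 : E := par 7
def pL2 : E := par 8
def pNN : E := par 9
def pN1 : E := par 10
def pPad : E := par 11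
def pB : E := par 12
def pD : E := par 13
def pX : E := par 14
def pY : E := par 15
def pGX : E := par 16
def pColB : E := par 17
def pBB : E := par 18
def pEE : E := par 19
def pCC : E := par 20
def pPW : E := par 21
def pPP : E := par 22

section ParEval

variable (C : Cx) (env : ℕ → ℕ)

@[simp] lemma eval_pN : eval C pN env = C.nu.n := rfl
@[simp] lemma eval_pG : eval C pG env = C.nu.γ := rfl
@[simp] lemma eval_pS : eval C pS env = C.nu.s := rfl
@[simp] lemma eval_pW : eval C pW env = C.nu.w := rfl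
@[simp] lemma eval_pH : eval C pH env = C.nu.h := rfl
@[simp] lemma eval_pL : eval C pL env = C.nu.L := rfl
@[simp] lemma eval_pL1 : eval C pL1 env = C.nu.L1 := rfl
@[simp] lemma eval_pL2 : eval C pL2 env = C.nu.L2 := rfl
@[simp] lemma eval_pNN : eval C pNN env = C.nu.N := rfl
@[simp] lemma eval_pN1 : eval C pN1 env = C.nu.N1 := rfl
@[simp] lemma eval_pPad : eval C pPad env = C.nu.pad := rfl
@[simp] lemma eval_pB : eval C pB env = C.nu.b := rfl
@[simp] lemma eval_pD : eval C pD env = C.nu.D := rfl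
@[simp] lemma eval_pX : eval C pX env = C.nu.X := rfl
@[simp] lemma eval_pY : eval C pY env = C.nu.Y := rfl
@[simp] lemma eval_pGX : eval C pGX env = C.nu.GX := rfl
@[simp] lemma eval_pColB : eval C pColB env = C.nu.colB := rfl
@[simp] lemma eval_pBB : eval C pBB env = C.nu.BB := rfl
@[simp] lemma eval_pEE : eval C pEE env = C.nu.EE := rfl
@[simp] lemma eval_pCC : eval C pCC env = C.nu.CC := rfl
@[simp] lemma eval_pPW : eval C pPW env = C.nu.PW := rfl
@[simp] lemma eval_pPP : eval C pPP env = C.nu.PP := rfl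
@[simp] lemma nu_WW : C.nu.WW = C.W := rfl

@[simp] lemma eval_inp' (a : E) : eval C (E.inp a) env = C.nu.inp (eval C a env) := rfl

@[simp] lemma eval_lit_small {k : ℕ} (h : k ≤ 100) : eval C (lit k) env = k :=
  eval_lit C env (h.trans C.hW)

end ParEval

/-- Division by a power of `D`. -/
def dvE (k : ℕ) (a : E) : E := shr a (lit k) pD

/-- Digit `k` of a number. -/
def dgE (k : ℕ) (a : E) : E := E.mod (dvE k a) pD

/-- The value of a bit. -/
def tbE (x i : E) : E := E.mod (shr x i (lit 2)) (lit 2)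

section Digits

variable (C : Cx) (env : ℕ → ℕ)

@[simp] lemma eval_dvE {k : ℕ} (h : k ≤ 100) (a : E) :
    eval C (dvE k a) env = eval C a env / C.nu.D ^ k := by
  simp [dvE, h]

@[simp] lemma eval_dgE {k : ℕ} (h : k ≤ 100) (a : E) :
    eval C (dgE k a) env = C.nu.d k (eval C a env) := by
  simp [dgE, h, dgt]

@[simp] lemma eval_tbE (x i : E) : eval C (tbE x i) env = tb (eval C x env) (eval C i env) := by
  simp [tbE, tb]

end Digits

def isHdE (h : E) : E :=
  E.or (E.eq h zero) (E.or (E.eq h one) (E.or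
    (E.and (E.eq (E.mod h (lit 5)) (lit 2)) (E.lt (E.div h (lit 5)) pS)) (E.or
    (E.and (E.eq (E.mod h (lit 5)) (lit 3)) (E.lt (E.div (E.div h (lit 5)) pS) pS))
    (E.and (E.eq (E.mod h (lit 5)) (lit 4)) (E.lt (E.div (E.div (E.div h (lit 5)) pS) pS) pS)))))

def isLamE (x : E) : E :=
  E.or (E.lt x pN) (E.and (E.le pN x) (isHdE (sub x pN)))

def isTagE (t : E) : E :=
  E.or (E.le t (lit 4)) (E.or
    (E.and (E.eq (E.mod t (lit 10)) (lit 5)) (E.lt (E.div t (lit 10)) pL2)) (E.or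
    (E.and (E.eq (E.mod t (lit 10)) (lit 6)) (E.lt (E.div t (lit 10)) pL2)) (E.or
    (E.and (E.eq (E.mod t (lit 10)) (lit 7)) (E.lt (E.div (E.div t (lit 10)) pL) pL2)) (E.or
    (E.and (E.eq (E.mod t (lit 10)) (lit 8)) (E.lt (E.div t (lit 10)) pS))
    (E.and (E.eq (E.mod t (lit 10)) (lit 9)) (E.lt (E.div t (lit 10)) pL1))))))

/-- The conjunction of the list of tests. -/
def andL : List E → E
  | [] => one
  | a :: l => E.and a (andL l)

/-- The disjunction of the list of tests. -/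
def orL : List E → E
  | [] => zero
  | a :: l => E.or a (orL l)

section Lists

variable (C : Cx) (env : ℕ → ℕ)

@[simp] lemma tr_andL_nil : Tr C (andL []) env := tr_one C env
@[simp] lemma tr_andL_cons (a : E) (l : List E) :
    Tr C (andL (a :: l)) env ↔ Tr C a env ∧ Tr C (andL l) env := tr_and C env a _
@[simp] lemma tr_orL_nil : ¬ Tr C (orL []) env := not_tr_zero C env
@[simp] lemma tr_orL_cons (a : E) (l : List E) :
    Tr C (orL (a :: l)) env ↔ Tr C a env ∨ Tr C (orL l) env := tr_or C env a _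

end Lists

/-- Tests on digits. -/
def dEq (k c : ℕ) (a : E) : E := E.eq (dgE k a) (lit c)

def isCoE (m : E) : E :=
  orL [andL [dEq 0 1 m, E.eq (dvE 4 m) zero, E.lt (dgE 1 m) (lit 3), E.lt (dgE 2 m) (lit 4),
        E.lt (dgE 3 m) pN1],
       andL [dEq 0 2 m, E.eq (dvE 3 m) zero, E.lt (dgE 1 m) (lit 4), E.lt (dgE 2 m) pN1],
       andL [dEq 0 3 m, E.eq (dvE 2 m) zero, E.lt (dgE 1 m) pPad]]

def isClE (κ : E) : E :=
  orL [andL [dEq 0 0 κ, E.eq (dvE 7 κ) zero, E.lt (dgE 1 κ) (lit 3), E.lt (dgE 2 κ) (lit 4),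
        E.lt (dgE 3 κ) (lit 4), E.lt (dgE 4 κ) pN1, E.lt (dgE 5 κ) pB, E.lt (dgE 6 κ) (lit 2)],
       andL [dEq 0 1 κ, E.eq (dvE 4 κ) zero, E.lt (dgE 1 κ) (lit 3), E.lt (dgE 2 κ) (lit 4),
        E.lt (dgE 3 κ) pN1],
       andL [dEq 0 2 κ, E.eq (dvE 6 κ) zero, E.lt (dgE 1 κ) (lit 3), E.lt (dgE 2 κ) (lit 4),
        E.lt (dgE 3 κ) pN1, E.lt (dgE 4 κ) pB, E.lt (dgE 5 κ) (lit 2)],
       andL [dEq 0 3 κ, E.eq (dvE 3 κ) zero, E.lt (dgE 1 κ) (lit 4), E.lt (dgE 2 κ) pN1],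
       andL [dEq 0 4 κ, E.eq (dvE 5 κ) zero, E.lt (dgE 1 κ) (lit 4), E.lt (dgE 2 κ) pNN,
        E.lt (dgE 3 κ) pB, E.lt (dgE 4 κ) (lit 2)],
       andL [dEq 0 5 κ, E.eq (dvE 3 κ) zero, E.lt (dgE 1 κ) (lit 4), E.lt (dgE 2 κ) pN1],
       andL [dEq 0 6 κ, E.eq (dvE 3 κ) zero, E.lt (dgE 1 κ) (lit 4), E.lt (dgE 2 κ) pN1],
       andL [dEq 0 7 κ, E.eq (dvE 3 κ) zero, E.lt (dgE 1 κ) (lit 3), E.lt (dgE 2 κ) (lit 4)]]

def isLetE (m : E) : E :=
  orL [andL [dEq 0 1 m, E.eq (dvE 6 m) zero, E.lt (dgE 1 m) (lit 3), E.lt (dgE 2 m) (lit 4),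
        E.lt (dgE 3 m) pN1, isLamE (dgE 4 m), E.lt (dgE 5 m) (lit 2)],
       andL [dEq 0 2 m, E.eq (dvE 9 m) zero, E.lt (dgE 1 m) (lit 4), E.lt (dgE 2 m) pN1,
        isLamE (dgE 3 m), isLamE (dgE 4 m), isLamE (dgE 5 m), isTagE (dgE 6 m), isTagE (dgE 7 m),
        E.lt (dgE 8 m) (lit 3)],
       andL [dEq 0 3 m, E.eq (dvE 2 m) zero, E.lt (dgE 1 m) pPad]]

def isBaseAE (A : E) : E := E.lt (E.div A (lit 12)) pColB

def isBE (m : E) : E := E.and (E.eq (E.mod m pD) zero) (isBaseAE (E.div m pD))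

def isCE (m : E) : E := E.or (isBE m) (isLetE m)

section Tests

variable (C : Cx) (env : ℕ → ℕ)

@[simp] lemma tr_isHdE (h : E) : Tr C (isHdE h) env ↔ C.nu.isHd (eval C h env) := by
  simp [isHdE, Nu.isHd]

@[simp] lemma tr_isLamE (h : E) : Tr C (isLamE h) env ↔ C.nu.isLam (eval C h env) := by
  simp [isLamE, Nu.isLam]

@[simp] lemma tr_isTagE (h : E) : Tr C (isTagE h) env ↔ C.nu.isTag (eval C h env) := by
  simp [isTagE, Nu.isTag]

@[simp] lemma tr_dEq {k c : ℕ} (hk : k ≤ 100) (hc : c ≤ 100) (a : E) :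
    Tr C (dEq k c a) env ↔ C.nu.d k (eval C a env) = c := by
  simp [dEq, hk, hc]

@[simp] lemma tr_isCoE (m : E) : Tr C (isCoE m) env ↔ C.nu.isCo (eval C m env) := by
  simp [isCoE, Nu.isCo, and_assoc]

@[simp] lemma tr_isClE (m : E) : Tr C (isClE m) env ↔ C.nu.isCl (eval C m env) := by
  simp [isClE, Nu.isCl, and_assoc]

@[simp] lemma tr_isLetE (m : E) : Tr C (isLetE m) env ↔ C.nu.isLet (eval C m env) := by
  simp [isLetE, Nu.isLet, and_assoc]

@[simp] lemma tr_isBE (m : E) : Tr C (isBE m) env ↔ C.nu.isB (eval C m env) := by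
  simp [isBE, isBaseAE, Nu.isB, Nu.isBaseA]

@[simp] lemma tr_isBaseAE (m : E) : Tr C (isBaseAE m) env ↔ C.nu.isBaseA (eval C m env) := by
  simp [isBaseAE, Nu.isBaseA]

@[simp] lemma tr_isCE (m : E) : Tr C (isCE m) env ↔ C.nu.isC (eval C m env) := by
  simp [isCE, Nu.isC]

end Tests

end Vale.Agent.Lib.P310V
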