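import Vale.Agent.Lib.P310V.NumE
import Vale.Agent.Lib.P310V.GL

set_option linter.unusedSectionVars false
set_option linter.unusedSimpArgs false

/-!
The numeric predicates as expressions, continued.
-/

namespace Vale.Agent.Lib.P310V

open E

def tposE (st sym f i : E) : E :=
  add (add pH (mul (add (mul (add (mul st pG) sym) (lit 3)) f) pW)) i

/-- A field of the table. -/
def tblE (st sym f : E) : E :=
  count pW (E.eq (E.inp (tposE (var 1) (var 2) (var 3) (var 0))) one) st sym f zero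

def arrE (k a : E) : E :=
  ite (E.and (E.ne (E.div a pG) zero) (E.eq (tblE (pred (E.div a pG)) (E.mod a pG) (lit 2)) k))
    (succ (tblE (pred (E.div a pG)) (E.mod a pG) zero)) zero

def nxHE (a b c : E) : E :=
  ite (arrE one a) (arrE one a) (ite (arrE (lit 2) b) (arrE (lit 2) b) (arrE zero c))

def nxYE (b : E) : E :=
  ite (E.ne (E.div b pG) zero) (tblE (pred (E.div b pG)) (E.mod b pG) one) (E.mod b pG)

def hkE (x : E) : E := E.mod (sub x pN) (lit 5)

def hpE (x : E) : E := E.div (sub x pN) (lit 5)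

def isKE (k : ℕ) (x : E) : E := E.and (E.le pN x) (E.eq (hkE x) (lit k))

def isDigE (x : E) : E := E.lt x pN

def incNE (j0 j d d' : E) : E :=
  orL [andL [E.lt j j0, E.eq (succ d) pN, E.eq d' zero], andL [E.eq j j0, E.eq d' (succ d)],
    andL [E.lt j0 j, E.eq d' d]]

def digAE (j l x0 x1 x2 : E) : E :=
  orL [andL [E.le l pL, isDigE x0, E.eq x1 x0, E.eq x2 x0],
    andL [isZ (E.le l pL), isDigE x0, isDigE x1, E.eq x2 x0,
      incNE j (sub (pred l) pL) x0 x1]]

def xinNE (d : E) : E := add (E.inp d) (ite (E.eq d zero) pG zero)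

section Cap

variable (C : Cx) (env : ℕ → ℕ)

lemma count_congr {p q : ℕ → Prop} [DecidablePred p] [DecidablePred q] {n : ℕ}
    (h : ∀ i, i < n → (p i ↔ q i)) : Nat.count p n = Nat.count q n := by
  induction n with
  | zero => simp
  | succ n ih =>
    rw [Nat.count_succ, Nat.count_succ, ih fun i hi => h i (by omega)]
    by_cases h0 : p n
    · simp [h0, (h n (by omega)).mp h0]
    · have : ¬ q n := fun h1 => h0 ((h n (by omega)).mpr h1)
      simp [h0, this]

lemma eval_tposE (a b c d : E) : eval C (tposE a b c d) env =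
    C.nu.tpos (eval C a env) (eval C b env) (eval C c env) (eval C d env) := by
  simp [tposE, Nu.tpos]

lemma eval_tblE (a b c : E) : eval C (tblE a b c) env =
    C.nu.tbl (eval C a env) (eval C b env) (eval C c env) := by
  simp only [tblE, eval_count, Nu.tbl, eval_pW]
  refine count_congr fun i hi => ?_
  have hw : C.nu.w ≤ C.W := C.p_le 4
  simp only [Tr, eval_eq, eval_tposE, eval_inp', eval_one, eval_var, frame_0, frame_1, frame_2,
    frame_3, min_eval, ne_eq, ite_eq_right_iff, one_ne_zero, imp_false, Decidable.not_not,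
    min_eq_left (show i ≤ C.W by omega)]

lemma eval_arrE (k a : E) : eval C (arrE k a) env =
    C.nu.arr (eval C k env) (eval C a env) := by
  have hc : Tr C (E.and (E.ne (E.div a pG) zero) (E.eq (tblE (pred (E.div a pG)) (E.mod a pG) (lit 2))
      k)) env ↔ (eval C a env / C.nu.γ ≠ 0 ∧
        C.nu.tbl (eval C a env / C.nu.γ - 1) (eval C a env % C.nu.γ) 2 = eval C k env) := by
    rw [tr_and, tr_ne, tr_eq, eval_tblE, eval_lit_small C env (show 2 ≤ 100 by norm_num)]
    simp only [eval_div, eval_pG, eval_zero, eval_pred, eval_mod]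
  have hc' : eval C (E.and (E.ne (E.div a pG) zero) (E.eq (tblE (pred (E.div a pG)) (E.mod a pG)
      (lit 2)) k)) env ≠ 0 ↔ (eval C a env / C.nu.γ ≠ 0 ∧
        C.nu.tbl (eval C a env / C.nu.γ - 1) (eval C a env % C.nu.γ) 2 = eval C k env) := hc
  unfold arrE Nu.arr
  rw [eval_ite]
  by_cases h : eval C a env / C.nu.γ ≠ 0 ∧
      C.nu.tbl (eval C a env / C.nu.γ - 1) (eval C a env % C.nu.γ) 2 = eval C k env
  · rw [if_pos (hc'.mpr h), if_pos h, eval_succ, eval_tblE]
    simp only [eval_div, eval_pG, eval_zero, eval_pred, eval_mod, nu_WW]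
  · rw [if_neg (fun h' => h (hc'.mp h')), if_neg h, eval_zero]

lemma eval_nxHE (a b c : E) : eval C (nxHE a b c) env =
    C.nu.nxH (eval C a env) (eval C b env) (eval C c env) := by
  simp only [nxHE, Nu.nxH, eval_ite, eval_arrE, eval_one, eval_zero,
    eval_lit_small C env (show 2 ≤ 100 by norm_num)]

lemma eval_nxYE (b : E) : eval C (nxYE b) env = C.nu.nxY (eval C b env) := by
  simp only [nxYE, Nu.nxY, eval_ite, eval_ne, eval_tblE, eval_pred, eval_div, eval_mod, eval_pG,
    eval_zero, eval_one, ne_eq]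
  by_cases h : eval C b env / C.nu.γ = 0 <;> simp [h]

@[simp] lemma eval_hkE (x : E) : eval C (hkE x) env = C.nu.hk (eval C x env) := by
  simp [hkE, Nu.hk]

@[simp] lemma eval_hpE (x : E) : eval C (hpE x) env = C.nu.hp (eval C x env) := by
  simp [hpE, Nu.hp]

@[simp] lemma tr_isKE {k : ℕ} (hk : k ≤ 100) (x : E) :
    Tr C (isKE k x) env ↔ C.nu.isK k (eval C x env) := by
  simp [isKE, Nu.isK, hk]

@[simp] lemma tr_isDigE (x : E) : Tr C (isDigE x) env ↔ C.nu.isDig (eval C x env) := by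
  simp [isDigE, Nu.isDig]

@[simp] lemma tr_incNE (j0 j d d' : E) :
    Tr C (incNE j0 j d d') env ↔
      C.nu.incN (eval C j0 env) (eval C j env) (eval C d env) (eval C d' env) := by
  simp [incNE, Nu.incN, and_assoc]

@[simp] lemma tr_digAE (j l x0 x1 x2 : E) :
    Tr C (digAE j l x0 x1 x2) env ↔
      C.nu.digA (eval C j env) (eval C l env) (eval C x0 env) (eval C x1 env) (eval C x2 env) := by
  simp [digAE, Nu.digA, and_assoc]

@[simp] lemma eval_xinNE (d : E) :
    eval C (xinNE d) env = C.nu.xinN (eval C d env) := by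
  simp only [xinNE, eval_add, eval_inp', eval_ite, eval_eq, eval_pG, eval_zero, Nu.xinN, nu_WW]
  by_cases h : eval C d env = 0 <;> simp [h]

end Cap

/-- The local condition as an expression. -/
def bodyE (t l x0 x1 x2 : E) : E :=
  orL [
    andL [E.eq t zero, E.imp (E.eq l zero) (andL [E.eq x0 pN, E.eq x1 pN, E.eq x2 pN])],
    andL [E.eq t one, E.eq x1 x2, E.imp (E.eq l zero) (andL [E.eq x0 pN, E.ne x1 (succ pN)])],
    andL [E.eq t (lit 2), E.eq x0 x2, E.imp (E.eq l zero) (andL [E.eq x1 pN, E.ne x0 (succ pN)])],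
    andL [E.eq t (lit 3), E.eq x0 x1, E.imp (E.eq l zero) (andL [E.eq x2 pN, E.ne x0 (succ pN)])],
    andL [E.eq t (lit 4), E.eq x1 x2, E.imp (E.eq l zero)
      (andL [E.eq x0 (succ pN), isKE 2 x1, E.eq (E.div (hpE x1) pG) (lit 2)])],
    andL [E.le (lit 5) t, E.eq (E.mod t (lit 10)) (lit 5), E.or
      (andL [E.eq l zero, isKE 2 x0, isKE 2 x1, isKE 3 x2, E.eq (E.mod (hpE x2) pS) (hpE x0),
        E.eq (E.div (hpE x2) pS) (hpE x1)])
      (andL [E.ne l zero, digAE (E.div t (lit 10)) l x0 x1 x2])],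
    andL [E.le (lit 5) t, E.eq (E.mod t (lit 10)) (lit 6), E.or
      (andL [E.eq l zero, isKE 2 x0, isKE 3 x1, isKE 4 x2, E.eq (E.mod (hpE x2) pS) (hpE x0),
        E.eq (E.div (hpE x2) pS) (hpE x1)])
      (andL [E.ne l zero, digAE (E.div t (lit 10)) l x0 x1 x2])],
    andL [E.le (lit 5) t, E.eq (E.mod t (lit 10)) (lit 7), orL [
      andL [E.eq l zero, isKE 4 x0, E.eq x1 x0, isKE 2 x2,
        E.eq (E.mod (hpE x2) pG) (nxYE (E.mod (E.div (hpE x0) pS) pS)),
        E.eq (E.div (hpE x2) pG) (nxHE (E.mod (hpE x0) pS) (E.mod (E.div (hpE x0) pS) pS)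
          (E.div (E.div (hpE x0) pS) pS))],
      andL [E.ne l zero, E.le l pL, isDigE x0, E.eq x1 x0, isDigE x2,
        incNE (E.mod (E.div t (lit 10)) pL) (pred l) x0 x2],
      andL [isZ (E.le l pL), isDigE x0, E.eq x1 x0, isDigE x2,
        incNE (E.div (E.div t (lit 10)) pL) (sub (pred l) pL) x0 x2]]],
    andL [E.le (lit 5) t, E.eq (E.mod t (lit 10)) (lit 8), orL [
      andL [E.eq l zero, E.eq x0 pN, E.eq x1 pN, isKE 2 x2, E.eq (hpE x2) (E.div t (lit 10))],
      andL [E.eq l pL1, isDigE x2, E.eq (xinNE x2) (E.div t (lit 10))],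
      andL [E.ne l zero, E.ne l pL1, E.eq x2 zero]]],
    andL [E.le (lit 5) t, E.eq (E.mod t (lit 10)) (lit 9), E.or
      (andL [E.eq l zero, E.eq x0 pN, E.eq x1 pN, isKE 2 x2, E.eq (hpE x2) (lit 2),
        E.ne (E.div t (lit 10)) zero])
      (andL [E.ne l zero, isDigE x2, E.imp (E.le l pL) (E.eq x2 zero),
        E.imp (E.eq l (add pL1 (E.div t (lit 10)))) (E.ne x2 zero)])]]

/-- The closed form of the local condition. -/
def bodyB : E := bodyE (var 0) (var 1) (var 2) (var 3) (var 4)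

def locE (l x0 x1 x2 u u' : E) : E :=
  E.and (E.eq u' u) (c5 bodyB u l x0 x1 x2)

def isOKE (τ x : E) : E :=
  E.or (E.and (E.eq τ zero) (E.eq x (succ pN))) (E.and (E.ne τ zero) (E.eq x pN))

def wcE (τ ℓ : E) : E :=
  ite (E.eq τ zero) (dgE 3 ℓ) (ite (E.eq τ one) (dgE 4 ℓ) (dgE 5 ℓ))

section Body

variable (C : Cx) (env : ℕ → ℕ)

@[simp] lemma nu_tr : capS C.W C.nu.n = C.nu.tr := rfl

lemma tr_bodyE (t l x0 x1 x2 : E) : Tr C (bodyE t l x0 x1 x2) env ↔
    C.nu.body (eval C t env) (eval C l env) (eval C x0 env) (eval C x1 env) (eval C x2 env) := by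
  simp [bodyE, Nu.body, and_assoc, eval_nxYE, eval_nxHE, -eval_le_W]

end Body

end Vale.Agent.Lib.P310V
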