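import Vale.Agent.Lib.P310V.NumE2

set_option linter.unusedSectionVars false
set_option linter.unusedSimpArgs false

/-!
The numeric predicates as expressions, continued: coverage, doors and the vertices.
-/

namespace Vale.Agent.Lib.P310V

open E

def d2 (k k' : ℕ) (a b : E) : E := E.eq (dgE k a) (dgE k' b)

/-- The coverage relation as an expression. -/
def covE (κ ℓ : E) : E :=
  E.or
    (E.and (dEq 0 1 ℓ) (orL [
      andL [dEq 0 0 κ, d2 1 1 ℓ κ, d2 3 4 ℓ κ, E.or
        (andL [d2 2 2 ℓ κ, E.or (dEq 5 1 ℓ) (E.eq (tbE (dgE 4 ℓ) (dgE 5 κ)) (dgE 6 κ))])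
        (andL [d2 2 3 ℓ κ, E.or (dEq 5 1 ℓ) (E.ne (tbE (dgE 4 ℓ) (dgE 5 κ)) (dgE 6 κ))])],
      andL [dEq 0 1 κ, d2 1 1 ℓ κ, d2 2 2 ℓ κ, d2 3 3 ℓ κ, dEq 5 0 ℓ],
      andL [dEq 0 2 κ, d2 1 1 ℓ κ, d2 2 2 ℓ κ, d2 3 3 ℓ κ, E.ne (tbE (dgE 4 ℓ) (dgE 4 κ)) (dgE 5 κ)],
      andL [dEq 0 7 κ, d2 1 1 ℓ κ, d2 2 2 ℓ κ, dEq 3 0 ℓ, isOKE (dgE 1 ℓ) (dgE 4 ℓ)]]))
    (E.and (dEq 0 2 ℓ) (orL [
      andL [dEq 0 2 κ, d2 1 2 ℓ κ, d2 2 3 ℓ κ, E.or (isZ (dEq 8 2 ℓ))
        (E.eq (tbE (wcE (dgE 1 κ) ℓ) (dgE 4 κ)) (dgE 5 κ))],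
      andL [dEq 0 3 κ, d2 1 1 ℓ κ, d2 2 2 ℓ κ, E.or (isZ (dEq 8 2 ℓ))
        (locE (dgE 2 κ) (dgE 3 ℓ) (dgE 4 ℓ) (dgE 5 ℓ) (dgE 6 ℓ) (dgE 7 ℓ))],
      andL [dEq 0 4 κ, d2 1 1 ℓ κ, E.or
        (andL [d2 2 2 ℓ κ, E.or (isZ (dEq 8 2 ℓ)) (E.eq (tbE (dgE 7 ℓ) (dgE 3 κ)) (dgE 4 κ))])
        (andL [E.eq (dgE 2 ℓ) (succ (dgE 2 κ)), E.or (isZ (dEq 8 2 ℓ))
          (E.ne (tbE (dgE 6 ℓ) (dgE 3 κ)) (dgE 4 κ))])],
      andL [dEq 0 5 κ, d2 1 1 ℓ κ, d2 2 2 ℓ κ, isZ (dEq 8 1 ℓ)],
      andL [dEq 0 6 κ, d2 1 1 ℓ κ, d2 2 2 ℓ κ, isZ (dEq 8 0 ℓ)]]))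

def grKE (κ : E) : E :=
  ite (dEq 0 0 κ) (ite (dEq 1 2 κ) one (lit 2))
    (ite (dEq 0 1 κ) (ite (dEq 1 0 κ) one zero)
      (ite (dEq 0 5 κ) one (ite (dEq 0 6 κ) zero
        (ite (dEq 0 7 κ) (ite (dEq 1 0 κ) (lit 3) (ite (dEq 1 1 κ) (lit 4) (lit 5))) (lit 2)))))

def grANE (G : E) : E :=
  ite (E.eq G zero) one (ite (E.eq G one) (lit 2) (ite (E.eq G (lit 2)) zero (sub G (lit 3))))

def grBNE (G : E) : E :=
  ite (E.eq G zero) (lit 2) (ite (E.eq G one) zero (ite (E.eq G (lit 2)) one G))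

def rmAE (A : E) : E := E.mod A (lit 6)

def lnAE (A : E) : E := E.mod (E.div A (lit 6)) (lit 2)

def clAE (A : E) : E := E.div A (lit 12)

def kOfE (c : E) : E := E.mod (sub c pGX) pY

def cDoorE (A B : E) : E :=
  andL [E.eq (lnAE A) zero, E.eq (lnAE B) zero, E.eq (clAE A) (clAE B), E.le pGX (clAE A),
    E.lt (E.div (sub (clAE A) pGX) pY) (lit 4), isClE (kOfE (clAE A)),
    E.eq (rmAE A) (grANE (grKE (kOfE (clAE A)))), E.eq (rmAE B) (grBNE (grKE (kOfE (clAE A))))]

def fDoorE (A B : E) : E :=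
  andL [E.eq (lnAE A) zero, E.eq (lnAE B) zero, E.lt (clAE A) pGX, E.lt (clAE B) pGX,
    E.eq (E.mod (clAE A) pX) (E.mod (clAE B) pX), isCoE (E.div (E.mod (clAE A) pX) (lit 6)),
    E.eq (rmAE A) (grANE (E.mod (E.mod (clAE A) pX) (lit 6))),
    E.eq (rmAE B) (grBNE (E.mod (E.mod (clAE A) pX) (lit 6)))]

def ladderE (A B : E) : E :=
  E.and (E.eq (rmAE A) (rmAE B)) (E.or
    (E.and (E.eq (clAE A) (clAE B)) (E.ne (lnAE A) (lnAE B)))
    (E.and (E.eq (lnAE A) (lnAE B)) (E.or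
      (E.and (E.lt (clAE A) (clAE B)) (E.eq (sub (clAE B) (clAE A)) one))
      (E.and (E.lt (clAE B) (clAE A)) (E.eq (sub (clAE A) (clAE B)) one)))))

def rbAdjE (A B : E) : E :=
  orL [ladderE A B, cDoorE A B, fDoorE A B, cDoorE B A, fDoorE B A]

def coEqE (ℓ i : E) : E :=
  orL [andL [dEq 0 1 ℓ, dEq 0 1 i, d2 1 1 i ℓ, d2 2 2 i ℓ, d2 3 3 i ℓ],
    andL [dEq 0 2 ℓ, dEq 0 2 i, d2 1 1 i ℓ, d2 2 2 i ℓ],
    andL [dEq 0 3 ℓ, dEq 0 3 i, d2 1 1 i ℓ]]

/-- The coverage relation as a closed expression. -/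
def covB : E := covE (var 0) (var 1)

def readsE (ℓ A B : E) : E :=
  E.or (E.and (cDoorE A B) (c2 covB (kOfE (clAE A)) ℓ))
    (E.and (fDoorE A B) (coEqE ℓ (E.div (E.mod (clAE A) pX) (lit 6))))

def readsB : E := readsE (var 0) (var 1) (var 2)

def rbAdjB : E := rbAdjE (var 0) (var 1)

def inEE (m y : E) : E :=
  andL [E.lt (E.mod y pBB) (E.div y pBB), isBaseAE (E.mod y pBB), isBaseAE (E.div y pBB), E.or
    (andL [isBE m, E.or (E.eq (E.div m pD) (E.mod y pBB)) (E.eq (E.div m pD) (E.div y pBB)),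
      c2 rbAdjB (E.mod y pBB) (E.div y pBB)])
    (andL [isZ (isBE m), E.or (c3 readsB m (E.mod y pBB) (E.div y pBB))
      (c3 readsB m (E.div y pBB) (E.mod y pBB))])]

/-- The edge relation as a closed expression. -/
def inB : E := inEE (var 0) (var 1)

section Lemmas

variable (C : Cx) (env : ℕ → ℕ)

lemma tr_call (g a0 a1 a2 a3 a4 a5 : E) : Tr C (call g a0 a1 a2 a3 a4 a5) env ↔
    Tr C g (frame (eval C a0 env) (eval C a1 env) (eval C a2 env) (eval C a3 env)
        (eval C a4 env) (eval C a5 env)) := Iff.rfl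

lemma tr_body_call (t l x0 x1 x2 : E) : Tr C (c5 bodyB t l x0 x1 x2) env ↔
    C.nu.body (eval C t env) (eval C l env) (eval C x0 env) (eval C x1 env) (eval C x2 env) := by
  rw [tr_call, bodyB, tr_bodyE]
  simp

@[simp] lemma tr_locE (l x0 x1 x2 u u' : E) : Tr C (locE l x0 x1 x2 u u') env ↔
    C.nu.loc (eval C l env) (eval C x0 env) (eval C x1 env) (eval C x2 env) (eval C u env)
      (eval C u' env) := by
  simp only [locE, tr_and, tr_eq, tr_body_call, Nu.loc]

@[simp] lemma tr_isOKE (τ x : E) : Tr C (isOKE τ x) env ↔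
    C.nu.isOK (eval C τ env) (eval C x env) := by
  simp [isOKE, Nu.isOK]

@[simp] lemma eval_wcE (τ ℓ : E) : eval C (wcE τ ℓ) env =
    C.nu.wc (eval C τ env) (eval C ℓ env) := by
  simp only [wcE, eval_ite, eval_eq, eval_zero, eval_one, Nu.wc]
  by_cases h0 : eval C τ env = 0
  · simp [h0]
  · by_cases h1 : eval C τ env = 1
    · simp [h1]
    · simp [h0, h1]

@[simp] lemma tr_d2 {k k' : ℕ} (h : k ≤ 100) (h' : k' ≤ 100) (a b : E) : Tr C (d2 k k' a b) env ↔
    C.nu.d k (eval C a env) = C.nu.d k' (eval C b env) := by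
  simp [d2, h, h']

lemma tr_covE (κ ℓ : E) : Tr C (covE κ ℓ) env ↔ C.nu.cov (eval C κ env) (eval C ℓ env) := by
  simp [covE, Nu.cov, and_assoc]

@[simp] lemma tr_cov_call (κ ℓ : E) : Tr C (c2 covB κ ℓ) env ↔
    C.nu.cov (eval C κ env) (eval C ℓ env) := by
  rw [tr_call, covB, tr_covE]
  simp

@[simp] lemma eval_grKE (κ : E) : eval C (grKE κ) env = C.nu.grK (eval C κ env) := by
  simp [grKE, Nu.grK, dEq]

@[simp] lemma eval_grANE (G : E) : eval C (grANE G) env = Nu.grAN (eval C G env) := by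
  unfold grANE Nu.grAN
  by_cases h : eval C G env = 0 <;> simp [h]

@[simp] lemma eval_grBNE (G : E) : eval C (grBNE G) env = Nu.grBN (eval C G env) := by
  unfold grBNE Nu.grBN
  by_cases h : eval C G env = 0 <;> simp [h]

@[simp] lemma eval_rmAE (A : E) : eval C (rmAE A) env = Nu.rmA (eval C A env) := by
  simp [rmAE, Nu.rmA]

@[simp] lemma eval_lnAE (A : E) : eval C (lnAE A) env = Nu.lnA (eval C A env) := by
  simp [lnAE, Nu.lnA]

@[simp] lemma eval_clAE (A : E) : eval C (clAE A) env = Nu.clA (eval C A env) := by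
  simp [clAE, Nu.clA]

@[simp] lemma eval_kOfE (A : E) : eval C (kOfE A) env = C.nu.kOf (eval C A env) := by
  simp [kOfE, Nu.kOf]

@[simp] lemma tr_cDoorE (A B : E) : Tr C (cDoorE A B) env ↔
    C.nu.cDoor (eval C A env) (eval C B env) := by
  simp [cDoorE, Nu.cDoor, and_assoc]

@[simp] lemma tr_fDoorE (A B : E) : Tr C (fDoorE A B) env ↔
    C.nu.fDoor (eval C A env) (eval C B env) := by
  simp [fDoorE, Nu.fDoor, and_assoc]

@[simp] lemma tr_ladderE (A B : E) : Tr C (ladderE A B) env ↔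
    Nu.ladder (eval C A env) (eval C B env) := by
  simp [ladderE, Nu.ladder]

@[simp] lemma tr_rbAdjE (A B : E) : Tr C (rbAdjE A B) env ↔
    C.nu.rbAdj (eval C A env) (eval C B env) := by
  simp [rbAdjE, Nu.rbAdj]

@[simp] lemma tr_rbAdj_call (A B : E) : Tr C (c2 rbAdjB A B) env ↔
    C.nu.rbAdj (eval C A env) (eval C B env) := by
  rw [tr_call, rbAdjB, tr_rbAdjE]
  simp

@[simp] lemma tr_coEqE (ℓ i : E) : Tr C (coEqE ℓ i) env ↔
    C.nu.coEq (eval C ℓ env) (eval C i env) := by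
  simp [coEqE, Nu.coEq, and_assoc]

@[simp] lemma tr_readsE (ℓ A B : E) : Tr C (readsE ℓ A B) env ↔
    C.nu.reads (eval C ℓ env) (eval C A env) (eval C B env) := by
  simp [readsE, Nu.reads]

@[simp] lemma tr_reads_call (ℓ A B : E) : Tr C (c3 readsB ℓ A B) env ↔
    C.nu.reads (eval C ℓ env) (eval C A env) (eval C B env) := by
  rw [tr_call, readsB, tr_readsE]
  simp

lemma tr_inEE (m y : E) : Tr C (inEE m y) env ↔ C.nu.inE (eval C m env) (eval C y env) := by
  simp [inEE, Nu.inE, and_assoc]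

@[simp] lemma tr_in_call (m y : E) : Tr C (c2 inB m y) env ↔
    C.nu.inE (eval C m env) (eval C y env) := by
  rw [tr_call, inB, tr_inEE]
  simp

end Lemmas

/-- The class part of a vertex number. -/
def uME (u : E) : E := E.mod u pCC

/-- The index part of a vertex number. -/
def uIE (u : E) : E := E.mod (E.div u pCC) pPP

/-- The bits of a vertex number. -/
def uSE (u : E) : E := E.div (E.div u pCC) pPP

/-- The position of an edge number among the edges of a class. -/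
def posE (m y : E) : E := count y (c2 inB (var 1) (var 0)) m zero zero zero

/-- The number of bits below `k`. -/
def popE (s k : E) : E := count k (E.eq (tbE (var 1) (var 0)) one) s zero zero zero

/-- The parity number of a class number. -/
def parE (t m : E) : E := ite (E.and (E.ne t zero) (E.eq m zero)) one zero

/-- The test for vertex numbers. -/
def okE (t u : E) : E :=
  andL [isCE (uME u), E.eq (shr (uSE u) (posE (uME u) pEE) (lit 2)) zero,
    E.or (E.eq (uIE u) zero) (E.le (E.div (pred (uIE u)) pPW) (uME u)),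
    E.imp (isBE (uME u)) (E.eq (E.mod (popE (uSE u) (posE (uME u) pEE)) (lit 2)) (parE t (uME u)))]

/-- The closed test for vertex numbers. -/
def okB : E := okE (var 0) (var 1)

/-- Two bits agree. -/
def agreeP : E :=
  E.imp (c2 inB (var 1) (var 0)) (E.imp (c2 inB (var 2) (var 0))
    (E.eq (tbE (var 3) (posE (var 1) (var 0))) (tbE (var 4) (posE (var 2) (var 0)))))

/-- A common edge. -/
def shareP : E := E.and (c2 inB (var 1) (var 0)) (c2 inB (var 2) (var 0))

/-- The adjacency test for vertex numbers. -/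
def adjE (u v : E) : E :=
  E.or
    (andL [E.eq (uIE u) zero, E.eq (uIE v) zero, E.ne (uME u) (uME v),
      ex pEE shareP (uME u) (uME v) zero zero,
      all pEE agreeP (uME u) (uME v) (uSE u) (uSE v)])
    (andL [E.eq (uME u) (uME v), E.eq (uSE u) (uSE v), E.or
      (E.and (E.eq (uIE u) zero) (E.ne (uIE v) zero))
      (E.and (E.ne (uIE u) zero) (E.eq (uIE v) zero))])

/-- The closed adjacency test. -/
def adjB : E := adjE (var 0) (var 1)

section Vertices

variable (C : Cx) (env : ℕ → ℕ)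

@[simp] lemma eval_uME (u : E) : eval C (uME u) env = uM C.nu.CC (eval C u env) := by
  simp [uME, uM]

@[simp] lemma eval_uIE (u : E) : eval C (uIE u) env = uI C.nu.CC C.nu.PP (eval C u env) := by
  simp [uIE, uI]

@[simp] lemma eval_uSE (u : E) : eval C (uSE u) env = uS C.nu.CC C.nu.PP (eval C u env) := by
  simp [uSE, uS]

lemma eval_posE (m y : E) : eval C (posE m y) env =
    posN C.nu.inE (eval C m env) (eval C y env) := by
  classical
  simp only [posE, eval_count, posN]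
  refine count_congr fun i hi => ?_
  have hw := eval_le C y env
  rw [tr_in_call]
  simp only [eval_var, frame_0, frame_1, min_eval, min_eq_left (show i ≤ C.W by omega)]

@[simp] lemma eval_posE' (m y : E) : eval C (posE m y) env =
    posN C.nu.inE (eval C m env) (eval C y env) := eval_posE C env m y

lemma tb_eq_one {s j : ℕ} : tb s j = 1 ↔ bitP s j := by
  unfold tb bitP
  rw [Nat.testBit_eq_decide_div_mod_eq]
  simp

lemma eval_popE (s k : E) : eval C (popE s k) env = popN (eval C s env) (eval C k env) := by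
  classical
  simp only [popE, eval_count, popN]
  refine count_congr fun i hi => ?_
  have hw := eval_le C k env
  simp only [Tr, eval_eq, eval_tbE, eval_one, eval_var, frame_0, frame_1, min_eval,
    min_eq_left (show i ≤ C.W by omega), ne_eq, ite_eq_right_iff, one_ne_zero, imp_false,
    Decidable.not_not]
  exact tb_eq_one

@[simp] lemma eval_popE' (s k : E) : eval C (popE s k) env = popN (eval C s env) (eval C k env) :=
  eval_popE C env s k

@[simp] lemma eval_parE (t m : E) : eval C (parE t m) env =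
    Nu.parN (eval C t env) (eval C m env) := by
  by_cases h1 : eval C t env = 0 <;> by_cases h2 : eval C m env = 0 <;> simp [parE, Nu.parN, h1, h2]

lemma tr_okE (t u : E) : Tr C (okE t u) env ↔
    okN C.nu.isC C.nu.isB (Nu.parN (eval C t env)) C.nu.inE C.nu.CC C.nu.PP C.nu.PW C.nu.EE
      (eval C u env) := by
  simp [okE, okN, and_assoc]

@[simp] lemma tr_ok_call (t u : E) : Tr C (c2 okB t u) env ↔
    okN C.nu.isC C.nu.isB (Nu.parN (eval C t env)) C.nu.inE C.nu.CC C.nu.PP C.nu.PW C.nu.EE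
      (eval C u env) := by
  rw [tr_call, okB, tr_okE]
  simp

lemma tb_le_one (s j : ℕ) : tb s j = 0 ∨ tb s j = 1 := by
  unfold tb
  omega

lemma tb_eq_iff {s j s' j' : ℕ} : tb s j = tb s' j' ↔ (bitP s j ↔ bitP s' j') := by
  rw [← tb_eq_one, ← tb_eq_one]
  rcases tb_le_one s j with h | h <;> rcases tb_le_one s' j' with h' | h' <;> simp [h, h']

lemma tr_adjE (u v : E) : Tr C (adjE u v) env ↔
    adjN C.nu.inE C.nu.CC C.nu.PP C.nu.EE (eval C u env) (eval C v env) := by
  have hE : C.nu.EE ≤ C.W := C.p_le 19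
  simp only [adjE, adjN, tr_or, tr_andL_cons, tr_eq, eval_uIE, eval_zero, tr_ne, eval_uME, tr_ex,
    tr_all, eval_pEE, tr_andL_nil, and_true, tr_and, eval_uSE, eval_zero, and_assoc]
  have h1 : (∃ i, i < C.nu.EE ∧ Tr C shareP
      (frame i (uM C.nu.CC (eval C u env)) (uM C.nu.CC (eval C v env)) 0 0 0)) ↔
      ∃ y, y < C.nu.EE ∧ C.nu.inE (uM C.nu.CC (eval C u env)) y ∧
        C.nu.inE (uM C.nu.CC (eval C v env)) y := by
    refine exists_congr fun i => and_congr_right fun hi => ?_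
    have h2 : min i C.W = i := min_eq_left (by omega)
    have h3 : uM C.nu.CC (eval C u env) ≤ C.W := by
      have := eval_le C (uME u) env
      simpa using this
    have h4 : uM C.nu.CC (eval C v env) ≤ C.W := by
      have := eval_le C (uME v) env
      simpa using this
    rw [shareP, tr_and, tr_in_call, tr_in_call]
    simp only [eval_var, frame_0, frame_1, frame_2, h2, min_eq_left h3, min_eq_left h4]
  have h5 : (∀ i, i < C.nu.EE → Tr C agreeP
      (frame i (uM C.nu.CC (eval C u env)) (uM C.nu.CC (eval C v env))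
        (uS C.nu.CC C.nu.PP (eval C u env)) (uS C.nu.CC C.nu.PP (eval C v env)) 0)) ↔
      ∀ y, y < C.nu.EE → C.nu.inE (uM C.nu.CC (eval C u env)) y →
        C.nu.inE (uM C.nu.CC (eval C v env)) y →
        (bitP (uS C.nu.CC C.nu.PP (eval C u env)) (posN C.nu.inE (uM C.nu.CC (eval C u env)) y) ↔
          bitP (uS C.nu.CC C.nu.PP (eval C v env)) (posN C.nu.inE (uM C.nu.CC (eval C v env)) y)) := by
    refine forall_congr' fun i => imp_congr_right fun hi => ?_
    have h2 : min i C.W = i := min_eq_left (by omega)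
    have h3 : uM C.nu.CC (eval C u env) ≤ C.W := by
      have := eval_le C (uME u) env
      simpa using this
    have h4 : uM C.nu.CC (eval C v env) ≤ C.W := by
      have := eval_le C (uME v) env
      simpa using this
    have h6 : uS C.nu.CC C.nu.PP (eval C u env) ≤ C.W := by
      have := eval_le C (uSE u) env
      simpa using this
    have h7 : uS C.nu.CC C.nu.PP (eval C v env) ≤ C.W := by
      have := eval_le C (uSE v) env
      simpa using this
    rw [agreeP, tr_imp, tr_imp, tr_in_call, tr_in_call, tr_eq, eval_tbE, eval_tbE, eval_posE,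
      eval_posE]
    simp only [eval_var, frame_0, frame_1, frame_2, frame_3, frame_4, h2, min_eq_left h3,
      min_eq_left h4, min_eq_left h6, min_eq_left h7]
    rw [tb_eq_iff]
  rw [h1, h5]

@[simp] lemma tr_adj_call (u v : E) : Tr C (c2 adjB u v) env ↔
    adjN C.nu.inE C.nu.CC C.nu.PP C.nu.EE (eval C u env) (eval C v env) := by
  rw [tr_call, adjB, tr_adjE]
  simp

end Vertices

end Vale.Agent.Lib.P310V
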