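import Vale.Agent.Lib.P310V.Sem6

set_option linter.unusedSectionVars false

/-!
The numeric parameters as functions of the input length, the machine size and the dimension.
-/

namespace Vale.Agent.Lib.P310V

/-- The number of bits. -/
def bN (n : ℕ) : ℕ := Nat.clog 2 (2 * n)

/-- The exponent of the cap. -/
def eW : ℕ := 853

/-- The cap. -/
def wOf (n : ℕ) : ℕ := (n + 1) * (n + 2) ^ eW

/-- Numbers of base vertices. -/
def dBB (b g : ℕ) : ℕ := 12 * (g * (6 * (2 ^ b) ^ 4) + 4 * (2 ^ b) ^ 7)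

/-- Numbers of classes. -/
def dCC (b g : ℕ) : ℕ := 2 ^ b * dBB b g + (2 ^ b) ^ 9

/-- The width of a pendant block. -/
def dPW (b g : ℕ) : ℕ := dCC b g * 2 ^ mbN b g + 2

/-- The number of indices. -/
def dPP (b g : ℕ) : ℕ := dCC b g * dPW b g + 1

/-- The bound of the numbers of vertices. -/
def dBox (b g : ℕ) : ℕ := dCC b g * (dPP b g * 2 ^ mbN b g)

/-- The numeric parameters. -/
def mkNu (inp : ℕ → ℕ) (n q γ L d W : ℕ) : Nu where
  inp := inp
  n := n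
  γ := γ
  s := γ * (q + 1)
  w := q + γ + 3
  h := q + γ + 2
  L := L
  L1 := L + 1
  L2 := L + 2
  N := L + L + 1
  N1 := L + L + 1 + 1
  pad := d - (32 * L + 34)
  b := bN n
  D := 2 ^ bN n
  X := 6 * (2 ^ bN n) ^ 4
  Y := (2 ^ bN n) ^ 7
  GX := (d + 2) * (6 * (2 ^ bN n) ^ 4)
  colB := (d + 2) * (6 * (2 ^ bN n) ^ 4) + 4 * (2 ^ bN n) ^ 7
  BB := dBB (bN n) (d + 2)
  EE := dBB (bN n) (d + 2) * dBB (bN n) (d + 2)
  CC := dCC (bN n) (d + 2)
  PW := dPW (bN n) (d + 2)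
  PP := dPP (bN n) (d + 2)
  WW := W

/-- The size conditions. -/
structure Big (n q γ L d : ℕ) : Prop where
  γ3 : 3 ≤ γ
  q3 : 3 ≤ q
  L1 : 1 ≤ L
  lamB : 5 * (γ * (q + 1)) ^ 3 + 5 ≤ n
  tagB : 10 * (L * (L + 2) + γ * (q + 1) + L + 2) + 10 ≤ n
  NB : L + L + 12 ≤ n
  dB : d + 2 ≤ n
  gB : 2 ^ (6 * (d + 2) * (d + 2) + 2 * (d + 2) + 25) ≤ n
  n100 : 100 ≤ n

section

variable {n q γ L d : ℕ} (hB : Big n q γ L d)

include hB

lemma Big.le_D : 2 * n ≤ 2 ^ bN n := Nat.le_pow_clog (by omega) _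

lemma Big.D_le : 2 ^ bN n ≤ 4 * n := by
  have hn := hB.n100
  have h1 : 1 < 2 * n := by omega
  have h2 := Nat.pow_pred_clog_lt_self (b := 2) (by omega) h1
  have h3 : 0 < Nat.clog 2 (2 * n) := Nat.clog_pos (by omega) (by omega)
  have h4 : 2 ^ Nat.clog 2 (2 * n) = 2 * 2 ^ (Nat.clog 2 (2 * n)).pred := by
    rw [← pow_succ']
    congr 1
    have := Nat.succ_pred_eq_of_pos h3
    omega
  unfold bN
  omega

/-- The bound of the parameter in powers of `D`. -/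
lemma Big.box_le : dBox (bN n) (d + 2) ≤ (2 ^ bN n) ^ 213 := by
  have hn := hB.n100
  have hD := hB.le_D
  generalize hDd : 2 ^ bN n = D at hD
  have hD60 : 60 ≤ D := by omega
  have hg : d + 2 ≤ D := by
    have := hB.dB
    omega
  have hG : 2 ^ (6 * (d + 2) * (d + 2) + 2 * (d + 2) + 25) ≤ D := by
    have := hB.gB
    omega
  have hMB : 2 ^ mbN (bN n) (d + 2) ≤ D ^ 89 := by
    have e : mbN (bN n) (d + 2) = bN n * 88 + (6 * (d + 2) * (d + 2) + 2 * (d + 2) + 25) := by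
      unfold mbN
      ring
    rw [e, pow_add, pow_mul, hDd]
    calc D ^ 88 * 2 ^ (6 * (d + 2) * (d + 2) + 2 * (d + 2) + 25) ≤ D ^ 88 * D :=
          Nat.mul_le_mul_left _ hG
      _ = D ^ 89 := by ring
  have step : ∀ {c a k : ℕ}, c ≤ 60 → a ≤ c * D ^ k → a ≤ D ^ (k + 1) := by
    intro c a k hc h
    calc a ≤ c * D ^ k := h
      _ ≤ D * D ^ k := Nat.mul_le_mul_right _ (by omega)
      _ = D ^ (k + 1) := by ring
  have hcolB : (d + 2) * (6 * D ^ 4) + 4 * D ^ 7 ≤ D ^ 8 := by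
    refine step (c := 5) (by omega) ?_
    have h1 : (d + 2) * (6 * D ^ 4) ≤ D * (6 * D ^ 4) := Nat.mul_le_mul_right _ hg
    have h2 : D * (6 * D ^ 4) ≤ D ^ 7 := by
      have : 6 ≤ D ^ 2 := by nlinarith
      calc D * (6 * D ^ 4) = 6 * D ^ 5 := by ring
        _ ≤ D ^ 2 * D ^ 5 := Nat.mul_le_mul_right _ this
        _ = D ^ 7 := by ring
    omega
  have hBB : dBB (bN n) (d + 2) ≤ D ^ 9 := by
    unfold dBB
    rw [hDd]
    exact step (c := 12) (by omega) (Nat.mul_le_mul_left _ hcolB)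
  have hCC : dCC (bN n) (d + 2) ≤ D ^ 11 := by
    unfold dCC
    rw [hDd]
    have h1 : D * dBB (bN n) (d + 2) ≤ D * D ^ 9 := Nat.mul_le_mul_left _ hBB
    have h2 : D ^ 9 ≤ D ^ 10 := Nat.pow_le_pow_right (by omega) (by omega)
    refine step (c := 2) (by omega) ?_
    have h3 : D * D ^ 9 = D ^ 10 := by ring
    omega
  have hPW : dPW (bN n) (d + 2) ≤ D ^ 101 := by
    unfold dPW
    have h1 : dCC (bN n) (d + 2) * 2 ^ mbN (bN n) (d + 2) ≤ D ^ 11 * D ^ 89 :=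
      Nat.mul_le_mul hCC hMB
    have h2 : D ^ 11 * D ^ 89 = D ^ 100 := by ring
    have h3 : 1 ≤ D ^ 100 := Nat.one_le_pow _ _ (by omega)
    exact step (c := 3) (by omega) (by omega)
  have hPP : dPP (bN n) (d + 2) ≤ D ^ 113 := by
    unfold dPP
    have h1 : dCC (bN n) (d + 2) * dPW (bN n) (d + 2) ≤ D ^ 11 * D ^ 101 :=
      Nat.mul_le_mul hCC hPW
    have h2 : D ^ 11 * D ^ 101 = D ^ 112 := by ring
    have h3 : 1 ≤ D ^ 112 := Nat.one_le_pow _ _ (by omega)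
    exact step (c := 2) (by omega) (by omega)
  unfold dBox
  calc _ ≤ D ^ 11 * (D ^ 113 * D ^ 89) := Nat.mul_le_mul hCC (Nat.mul_le_mul hPP hMB)
    _ = D ^ 213 := by ring

/-- The parameter bound in terms of the input length. -/
lemma Big.box_le2 : dBox (bN n) (d + 2) ≤ n ^ 426 := by
  have hn := hB.n100
  have h1 := hB.box_le
  have h2 := hB.D_le
  have h3 : 2 ^ bN n ≤ n ^ 2 := by
    have : 4 * n ≤ n * n := Nat.mul_le_mul_right _ (by omega)
    rw [pow_two]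
    omega
  have h4 : (2 ^ bN n) ^ 213 ≤ (n ^ 2) ^ 213 := Nat.pow_le_pow_left h3 _
  have h5 : (n ^ 2) ^ 213 = n ^ 426 := by
    rw [← pow_mul]
  exact h1.trans (h4.trans h5.le)

lemma Big.box2_lt : 2 * (dBox (bN n) (d + 2) * dBox (bN n) (d + 2)) + 2 < wOf n := by
  have hn := hB.n100
  have h1 := hB.box_le2
  have h2 : dBox (bN n) (d + 2) * dBox (bN n) (d + 2) ≤ n ^ 426 * n ^ 426 := Nat.mul_le_mul h1 h1
  have h3 : n ^ 426 * n ^ 426 = n ^ 852 := by
    rw [← pow_add]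
  have h4 : n ^ eW = n * n ^ 852 := by
    show n ^ 853 = _
    rw [pow_succ']
  have h5 : 1 ≤ n ^ 852 := Nat.one_le_pow _ _ (by omega)
  have h6 : 4 * n ^ 852 ≤ n ^ eW := by
    rw [h4]
    exact Nat.mul_le_mul_right _ (by omega)
  have h7 : n ^ eW ≤ (n + 2) ^ eW := Nat.pow_le_pow_left (by omega) _
  have h8 : (n + 2) ^ eW < wOf n := by
    unfold wOf
    have h8 : 0 < (n + 2) ^ eW := Nat.pow_pos (by omega)
    calc (n + 2) ^ eW = 1 * (n + 2) ^ eW := (one_mul _).symm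
      _ < (n + 1) * (n + 2) ^ eW := Nat.mul_lt_mul_of_pos_right (by omega) h8
  omega

lemma Big.box_lt : dBox (bN n) (d + 2) < wOf n := by
  have h1 := hB.box2_lt
  have h2 : dBox (bN n) (d + 2) ≤ dBox (bN n) (d + 2) * dBox (bN n) (d + 2) :=
    Nat.le_mul_self _
  omega

lemma Big.D_ge : 200 ≤ 2 ^ bN n := by
  have := hB.le_D
  have := hB.n100
  omega

omit hB in
lemma dBB_pos (b g : ℕ) : 0 < dBB b g := by
  unfold dBB
  have : 0 < (2 ^ b) ^ 7 := by positivity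
  omega

omit hB in
lemma dCC_pos (b g : ℕ) : 0 < dCC b g := by
  unfold dCC
  have : 0 < (2 ^ b) ^ 9 := by positivity
  omega

omit hB in
lemma cc_le_box (b g : ℕ) : dCC b g ≤ dBox b g := by
  unfold dBox
  have h1 : 0 < dPP b g := by
    unfold dPP
    omega
  have h2 : 0 < 2 ^ mbN b g := by positivity
  exact Nat.le_mul_of_pos_right _ (Nat.mul_pos h1 h2)

omit hB in
lemma pp_le_box (b g : ℕ) : dPP b g ≤ dBox b g := by
  unfold dBox
  have h1 := dCC_pos b g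
  have h2 : 0 < 2 ^ mbN b g := by positivity
  calc dPP b g ≤ dPP b g * 2 ^ mbN b g := Nat.le_mul_of_pos_right _ h2
    _ ≤ _ := Nat.le_mul_of_pos_left _ h1

omit hB in
lemma pw_le_pp (b g : ℕ) : dPW b g ≤ dPP b g := by
  unfold dPP
  have h1 := dCC_pos b g
  have : dPW b g ≤ dCC b g * dPW b g := Nat.le_mul_of_pos_left _ h1
  omega

omit hB in
lemma cc_le_pp (b g : ℕ) : dCC b g ≤ dPP b g := by
  unfold dPP dPW
  have h1 : dCC b g ≤ dCC b g * (dCC b g * 2 ^ mbN b g + 2) :=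
    Nat.le_mul_of_pos_right _ (by omega)
  omega

omit hB in
lemma mb_le_box (b g : ℕ) : 2 ^ mbN b g ≤ dBox b g := by
  unfold dBox
  have h1 := dCC_pos b g
  have h2 : 0 < dPP b g := by
    unfold dPP
    omega
  calc 2 ^ mbN b g ≤ dPP b g * 2 ^ mbN b g := Nat.le_mul_of_pos_left _ h2
    _ ≤ _ := Nat.le_mul_of_pos_left _ h1

omit hB in
lemma bb_le_cc (b g : ℕ) : dBB b g ≤ dCC b g := by
  unfold dCC
  have h1 : 0 < 2 ^ b := by positivity
  have : dBB b g ≤ 2 ^ b * dBB b g := Nat.le_mul_of_pos_left _ h1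
  omega

omit hB in
lemma ee_le_box (b g : ℕ) : dBB b g * dBB b g ≤ dBox b g := by
  unfold dBox
  have h1 := bb_le_cc b g
  have h2 := cc_le_pp b g
  have h3 : 0 < 2 ^ mbN b g := by positivity
  calc dBB b g * dBB b g ≤ dCC b g * dPP b g := Nat.mul_le_mul h1 (by omega)
    _ ≤ dCC b g * (dPP b g * 2 ^ mbN b g) :=
      Nat.mul_le_mul_left _ (Nat.le_mul_of_pos_right _ h3)

omit hB in
lemma colB_le_bb (b g : ℕ) : g * (6 * (2 ^ b) ^ 4) + 4 * (2 ^ b) ^ 7 ≤ dBB b g := by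
  unfold dBB
  omega

omit hB in
lemma pow9_le_cc (b g : ℕ) : (2 ^ b) ^ 9 ≤ dCC b g := by
  unfold dCC
  omega

omit hB in
lemma dbb_le_cc (b g : ℕ) : 2 ^ b * dBB b g ≤ dCC b g := by
  unfold dCC
  omega

/-- All the parameters are below the cap. -/
lemma Big.D_lt : 2 ^ bN n < wOf n := by
  have h1 := hB.box_lt
  have h2 := cc_le_box (bN n) (d + 2)
  have h3 := dbb_le_cc (bN n) (d + 2)
  have h4 : 2 ^ bN n ≤ 2 ^ bN n * dBB (bN n) (d + 2) :=
    Nat.le_mul_of_pos_right _ (dBB_pos _ _)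
  omega

/-- The relations of the parameters. -/
theorem Big.V (inp : ℕ → ℕ) : (mkNu inp n q γ L d (wOf n)).V q (d + 2) := by
  have hn := hB.n100
  have hle := hB.le_D
  refine ⟨rfl, hB.γ3, hB.q3, by change 3 ≤ n; omega, hB.L1, rfl, rfl, rfl, rfl, rfl, ?_, ?_, ?_, ?_,
    ?_, rfl, rfl, rfl, rfl, rfl, rfl, rfl, rfl, rfl, hB.D_lt⟩
  · change n + 5 * (γ * (q + 1)) ^ 3 + 5 ≤ 2 ^ bN n
    have := hB.lamB
    omega
  · change 10 * (L * (L + 2) + γ * (q + 1) + L + 2) + 10 ≤ 2 ^ bN n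
    have := hB.tagB
    omega
  · change L + L + 1 + 1 + 10 ≤ 2 ^ bN n
    have := hB.NB
    omega
  · change bN n ≤ 2 ^ bN n
    exact Nat.lt_two_pow_self.le
  · change d - (32 * L + 34) ≤ 2 ^ bN n
    have := hB.dB
    omega

end

end Vale.Agent.Lib.P310V
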