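import Vale.Agent.Lib.P310V.Base

/-!
Counter programs with a read-only input and an output list.

Registers are numbered by the natural numbers and hold natural numbers.  The semantics `Exec m V x`
allows only the registers below `m` and values up to `V`.
-/

namespace Vale.Agent.Lib.P310V

/-- Counter programs. -/
inductive Stmt : Type
  | inc (i : ℕ)
  | dec (i : ℕ)
  | seq (s t : Stmt)
  | ifz (i : ℕ) (s t : Stmt)
  | loop (i : ℕ) (s : Stmt)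
  | read (i : ℕ) (s0 s1 s2 : Stmt)
  | emit (i : ℕ) (b : Bool)

/-- The memory: registers and output. -/
structure Mem : Type where
  r : ℕ → ℕ
  out : List Bool

/-- Setting a register. -/
def Mem.set (σ : Mem) (i v : ℕ) : Mem := ⟨Function.update σ.r i v, σ.out⟩

/-- The saturating increment below the cap `W`. -/
def capS (W a : ℕ) : ℕ := if a < W then a + 1 else a

/-- The new value of a register under `inc`: register 0 is the cap of the other registers. -/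
def Mem.incV (σ : Mem) (i : ℕ) : ℕ := if i = 0 then σ.r 0 + 1 else capS (σ.r 0) (σ.r i)

/-- The big-step semantics with a count of operations. -/
inductive Exec (m V : ℕ) (x : ℕ → Option Bool) : Stmt → Mem → Mem → ℕ → Prop
  | inc {i : ℕ} {σ : Mem} : i < m → σ.r i ≤ V → Exec m V x (Stmt.inc i) σ (σ.set i (σ.incV i)) 1
  | dec {i : ℕ} {σ : Mem} : i < m → σ.r i ≤ V → Exec m V x (Stmt.dec i) σ (σ.set i (σ.r i - 1)) 1
  | seq {s t : Stmt} {σ σ₁ σ₂ : Mem} {τ₁ τ₂ : ℕ} : Exec m V x s σ σ₁ τ₁ → Exec m V x t σ₁ σ₂ τ₂ →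
      Exec m V x (Stmt.seq s t) σ σ₂ (τ₁ + τ₂)
  | ifzT {i : ℕ} {s t : Stmt} {σ σ₁ : Mem} {τ : ℕ} : i < m → σ.r i = 0 → Exec m V x s σ σ₁ τ →
      Exec m V x (Stmt.ifz i s t) σ σ₁ (τ + 1)
  | ifzF {i : ℕ} {s t : Stmt} {σ σ₁ : Mem} {τ : ℕ} : i < m → σ.r i ≠ 0 → Exec m V x t σ σ₁ τ →
      Exec m V x (Stmt.ifz i s t) σ σ₁ (τ + 1)
  | loopF {i : ℕ} {s : Stmt} {σ : Mem} : i < m → σ.r i = 0 → Exec m V x (Stmt.loop i s) σ σ 1
  | loopT {i : ℕ} {s : Stmt} {σ σ₁ σ₂ : Mem} {τ₁ τ₂ : ℕ} : i < m → σ.r i ≠ 0 → Exec m V x s σ σ₁ τ₁ →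
      Exec m V x (Stmt.loop i s) σ₁ σ₂ τ₂ → Exec m V x (Stmt.loop i s) σ σ₂ (τ₁ + τ₂ + 1)
  | read0 {i : ℕ} {s0 s1 s2 : Stmt} {σ σ₁ : Mem} {τ : ℕ} : i < m → σ.r i ≤ V →
      x (σ.r i) = some false → Exec m V x s0 σ σ₁ τ → Exec m V x (Stmt.read i s0 s1 s2) σ σ₁ (τ + 1)
  | read1 {i : ℕ} {s0 s1 s2 : Stmt} {σ σ₁ : Mem} {τ : ℕ} : i < m → σ.r i ≤ V →
      x (σ.r i) = some true → Exec m V x s1 σ σ₁ τ → Exec m V x (Stmt.read i s0 s1 s2) σ σ₁ (τ + 1)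
  | read2 {i : ℕ} {s0 s1 s2 : Stmt} {σ σ₁ : Mem} {τ : ℕ} : i < m → σ.r i ≤ V →
      x (σ.r i) = none → Exec m V x s2 σ σ₁ τ → Exec m V x (Stmt.read i s0 s1 s2) σ σ₁ (τ + 1)
  | emit {i : ℕ} {b : Bool} {σ : Mem} : i < m → σ.r i = σ.out.length → σ.r i ≤ V →
      Exec m V x (Stmt.emit i b) σ ⟨σ.r, σ.out ++ [b]⟩ 1

end Vale.Agent.Lib.P310V
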