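import Vale.Agent.Lib.P310V.MainL

set_option linter.unusedSectionVars false
set_option linter.unusedSimpArgs false

/-!
The whole reduction as a counter program.
-/

namespace Vale.Agent.Lib.P310V

open Stmt

/-- The number of registers of the reduction. -/
def mR : ℕ := 40 + (wd e1 + wd e2 + wd e3) + wdL loadL

/-- The reduction. -/
def progR (L d : ℕ) : Stmt := seq (preS eW L d) (seq (loadS π₀ ρ₀ loadL) mainS)

/-- The test for a vertex number. -/
def OkV (ν : Nu) (t u : ℕ) : Prop :=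
  okN ν.isC ν.isB (Nu.parN t) ν.inE ν.CC ν.PP ν.PW ν.EE u

/-- The test for adjacency. -/
def AdjV (ν : Nu) (u v : ℕ) : Prop := adjN ν.inE ν.CC ν.PP ν.EE u v

/-- The bound for the reduction. -/
def costR (W : ℕ) : ℕ := preC eW W + (costL W loadL + (cOne W + (1 + cOne W)))

/-- The context of the main part. -/
def cx1 (x : ℕ → Option Bool) (W : ℕ) (hW : 100 ≤ W) (r : ℕ → ℕ) : Cx :=
  ⟨W, hW, fun i => r (π₁ i), x⟩

lemma π₁_eq {i : ℕ} (h1 : 1 ≤ i) (h2 : i ≤ 22) : π₁ i = i := if_pos ⟨h1, h2⟩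

lemma cx1_nu {x : ℕ → Option Bool} {n q γ L d W : ℕ} {hW : 100 ≤ W} {r : ℕ → ℕ}
    (hle : ∀ j, r j ≤ W) (hl : LoadedR r n q γ L d W) :
    (cx1 x W hW r).nu = mkNu (inpOf x) n q γ L d W := by
  have hp : ∀ i, 1 ≤ i → i ≤ 22 → (cx1 x W hW r).p i = r i := by
    intro i h1 h2
    show min (r (π₁ i)) W = r i
    rw [π₁_eq h1 h2]
    exact min_eq_left (hle i)
  simp only [Cx.nu, mkNu, hp 1 (by omega) (by omega), hp 2 (by omega) (by omega),
    hp 3 (by omega) (by omega), hp 4 (by omega) (by omega), hp 5 (by omega) (by omega),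
    hp 6 (by omega) (by omega), hp 7 (by omega) (by omega), hp 8 (by omega) (by omega),
    hp 9 (by omega) (by omega), hp 10 (by omega) (by omega), hp 11 (by omega) (by omega),
    hp 12 (by omega) (by omega), hp 13 (by omega) (by omega), hp 14 (by omega) (by omega),
    hp 15 (by omega) (by omega), hp 16 (by omega) (by omega), hp 17 (by omega) (by omega),
    hp 18 (by omega) (by omega), hp 19 (by omega) (by omega), hp 20 (by omega) (by omega),
    hp 21 (by omega) (by omega), hp 22 (by omega) (by omega), hl.r1, hl.r2, hl.r3, hl.r4, hl.r5,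
    hl.r6, hl.r7, hl.r8, hl.r9, hl.r10, hl.r11, hl.r12, hl.r13, hl.r14, hl.r15, hl.r16, hl.r17,
    hl.r18, hl.r19, hl.r20, hl.r21, hl.r22]
  rfl

/-- The reduction computes the two matrices. -/
theorem ex_progR {n q γ L d : ℕ} {x : ℕ → Option Bool} (hB : Big n q γ L d) (hx : Hdr x q γ)
    (hx1 : ∀ p, p < n → x p ≠ none) (hx2 : x n = none) :
    ∃ σf, Ex mR (wOf n) x (progR L d) mem0 σf (costR (wOf n)) ∧
      σf.out = matB (OkV (mkNu (inpOf x) n q γ L d (wOf n)) 0)
          (AdjV (mkNu (inpOf x) n q γ L d (wOf n))) (dBox (bN n) (d + 2)) (dBox (bN n) (d + 2)) ++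
        matB (OkV (mkNu (inpOf x) n q γ L d (wOf n)) 1)
          (AdjV (mkNu (inpOf x) n q γ L d (wOf n))) (dBox (bN n) (d + 2)) (dBox (bN n) (d + 2)) := by
  have hn := hB.n100
  have hW1 : n + 1 ≤ wOf n := Nat.le_mul_of_pos_right _ (by positivity)
  have hW : 100 ≤ wOf n := by omega
  have hL := hB.NB
  have hd := hB.dB
  have hm40 : 40 ≤ mR := by
    unfold mR
    omega
  have a1 := ex_pre (m := mR) (V := wOf n) (x := x) hm40 (n := n) (E' := eW) (L := L) (d := d)
    (W := wOf n) hx1 hx2 rfl le_rfl (by omega) (by omega)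
  obtain ⟨σ', b1, b2, b3, b4, b5, b6⟩ := ex_load (m := mR) (V := wOf n) (n := n) (q := q) (γ := γ)
    (L := L) (d := d) (x := x) (by unfold mR; omega) hB hx le_rfl hW
  set C := cx1 x (wOf n) hW σ'.r with hC
  have hnu : C.nu = mkNu (inpOf x) n q γ L d (wOf n) := cx1_nu b5 b6
  have hbase : BaseOK C σ' (dBox (bN n) (d + 2)) := by
    refine ⟨b4, b5, ?_, fun _ => rfl, b6.r23, ?_⟩
    · intro j hj
      rw [b3 j (by omega)]
      simp only [preM_r]
      rw [if_neg (by omega), if_neg (by omega), if_neg (by omega), if_neg (by omega),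
        if_neg (by omega), if_neg (by omega)]
    · rw [b3 38 (by omega)]
      simp [preM_r]
  have e0 : stM σ' 0 0 0 0 0 0 [] = σ' := by
    refine mem_eq b2.symm fun j => ?_
    simp only [stM_r]
    by_cases hj : 24 ≤ j ∧ j ≤ 29
    · have h0 : σ'.r j = 0 := by
        rw [b3 j hj.1]
        simp only [preM_r]
        rw [if_neg (by omega), if_neg (by omega), if_neg (by omega), if_neg (by omega),
          if_neg (by omega), if_neg (by omega)]
      rw [h0]
      split_ifs <;> first | exact (rfl : (0:ℕ) = 0) | skip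
    · rw [if_neg (by omega), if_neg (by omega), if_neg (by omega), if_neg (by omega),
        if_neg (by omega), if_neg (by omega)]
  have hbox := hB.box_lt
  have hbox2 := hB.box2_lt
  have a3 := ex_main (C := C) (m := mR) (V := wOf n) (σB := σ') (B := dBox (bN n) (d + 2)) le_rfl
    (by unfold mR; omega) hbase (by show _ + 1 ≤ wOf n; omega) (by show _ + 1 ≤ wOf n; omega)
  rw [e0] at a3
  refine ⟨_, a1.seq (b1.seq a3), ?_⟩
  show _ = _
  simp only [stM_out]
  have e1 : ∀ t, OkP C t = OkV (mkNu (inpOf x) n q γ L d (wOf n)) t := by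
    intro t
    funext u
    unfold OkP OkV
    rw [hnu]
  have e2 : AdjP C = AdjV (mkNu (inpOf x) n q γ L d (wOf n)) := by
    funext u v
    unfold AdjP AdjV
    rw [hnu]
  rw [e1, e1, e2]

/-- Polynomial bounds. -/
def PolyB (f : ℕ → ℕ) : Prop := ∃ K e : ℕ, ∀ W, f W ≤ K * (W + 1) ^ e

lemma PolyB.const (c : ℕ) : PolyB (fun _ => c) := ⟨c, 0, fun W => by simp⟩

lemma PolyB.id : PolyB (fun W => W) := ⟨1, 1, fun W => by simp⟩

lemma PolyB.add {f g : ℕ → ℕ} (hf : PolyB f) (hg : PolyB g) : PolyB (fun W => f W + g W) := by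
  obtain ⟨K1, e1, h1⟩ := hf
  obtain ⟨K2, e2, h2⟩ := hg
  refine ⟨K1 + K2, e1 + e2, fun W => ?_⟩
  have h3 : (W + 1) ^ e1 ≤ (W + 1) ^ (e1 + e2) := Nat.pow_le_pow_right (by omega) (by omega)
  have h4 : (W + 1) ^ e2 ≤ (W + 1) ^ (e1 + e2) := Nat.pow_le_pow_right (by omega) (by omega)
  calc f W + g W ≤ K1 * (W + 1) ^ e1 + K2 * (W + 1) ^ e2 := Nat.add_le_add (h1 W) (h2 W)
    _ ≤ K1 * (W + 1) ^ (e1 + e2) + K2 * (W + 1) ^ (e1 + e2) :=
      Nat.add_le_add (Nat.mul_le_mul_left _ h3) (Nat.mul_le_mul_left _ h4)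
    _ = (K1 + K2) * (W + 1) ^ (e1 + e2) := by ring

lemma PolyB.mul {f g : ℕ → ℕ} (hf : PolyB f) (hg : PolyB g) : PolyB (fun W => f W * g W) := by
  obtain ⟨K1, e1, h1⟩ := hf
  obtain ⟨K2, e2, h2⟩ := hg
  refine ⟨K1 * K2, e1 + e2, fun W => ?_⟩
  calc f W * g W ≤ (K1 * (W + 1) ^ e1) * (K2 * (W + 1) ^ e2) := Nat.mul_le_mul (h1 W) (h2 W)
    _ = K1 * K2 * (W + 1) ^ (e1 + e2) := by ring

lemma polyB_cost (e : E) : PolyB (fun W => cost W e) := ⟨costK e, dep e, fun W => cost_le W e⟩

lemma polyB_costL (l : List (ℕ × E)) : PolyB (fun W => costL W l) := by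
  induction l with
  | nil => exact PolyB.const 1
  | cons p l ih =>
    show PolyB (fun W => cost W p.2 + (3 * W + 1 + costL W l))
    exact (polyB_cost p.2).add ((((PolyB.const 3).mul PolyB.id).add (PolyB.const 1)).add ih)

lemma polyB_lin (a c : ℕ) : PolyB (fun W => a * W + c) :=
  ((PolyB.const a).mul PolyB.id).add (PolyB.const c)

lemma polyB_cInner : PolyB cInner := by
  show PolyB (fun W => 1 + (cost W e2 + ((cost W e3 + (1 + (2 * W + 1) + 1) + 1) + (2 * W + 1) + 1) + 1))
  exact (PolyB.const 1).add ((polyB_cost e2).add ((((((polyB_cost e3).add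
    (((PolyB.const 1).add (polyB_lin 2 1)).add (PolyB.const 1))).add (PolyB.const 1)).add
    (polyB_lin 2 1)).add (PolyB.const 1)).add (PolyB.const 1)))

lemma polyB_cOuter : PolyB cOuter := by
  show PolyB (fun W => 1 + (cost W e1 + ((7 * W + 2 + ((W * (cInner W + 1) + 1) + (2 * W + 1))) +
    (2 * W + 1) + 1) + 1))
  exact (PolyB.const 1).add ((polyB_cost e1).add ((((((polyB_lin 7 2).add
    (((PolyB.id.mul (polyB_cInner.add (PolyB.const 1))).add (PolyB.const 1)).add (polyB_lin 2 1))).add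
    (polyB_lin 2 1)).add (PolyB.const 1)).add (PolyB.const 1))))

lemma polyB_cOne : PolyB cOne := by
  show PolyB (fun W => 7 * W + 2 + ((W * (cOuter W + 1) + 1) + (2 * W + 1)))
  exact (polyB_lin 7 2).add (((PolyB.id.mul (polyB_cOuter.add (PolyB.const 1))).add
    (PolyB.const 1)).add (polyB_lin 2 1))

lemma polyB_cstepF : PolyB cstepF := by
  show PolyB (fun V => 3 * V + 1 + (V * ((1 + 1 + (V * 5 + 1) + (3 * V + 1)) + 1) + 1))
  repeat' first
    | exact PolyB.const _
    | exact PolyB.id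
    | apply PolyB.add
    | apply PolyB.mul

lemma polyB_preC : PolyB (preC eW) := by
  have h1 : PolyB (fun V => eW * cstepF V) := (PolyB.const eW).mul polyB_cstepF
  generalize eW = E' at h1
  show PolyB (fun V => 6 * V + 6 + 3 + 2 * (7 * V + 2) + 2 + (E' * cstepF V + 1) + 2 * V + 2)
  repeat' first
    | exact PolyB.const _
    | exact PolyB.id
    | exact h1
    | apply PolyB.add
    | apply PolyB.mul

/-- The time of the reduction is polynomial in the cap, with absolute constants. -/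
theorem costR_poly : PolyB costR := by
  show PolyB (fun W => preC eW W + (costL W loadL + (cOne W + (1 + cOne W))))
  exact polyB_preC.add ((polyB_costL loadL).add (polyB_cOne.add ((PolyB.const 1).add polyB_cOne)))

end Vale.Agent.Lib.P310V
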