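import Vale.Agent.Lib.P310V.Final

set_option linter.unusedSectionVars false
set_option linter.unusedSimpArgs false

/-!
A machine that decides WL equivalence has to read the second graph: the bound for small dimensions.
Then the lower bound for all dimensions with a real exponent.
-/

namespace Vale.Agent.Lib.P310V

section Agree

variable {Q Γ : Type} (A : DTM Q Γ)

/-- Two runs are the same as long as the head sees the same cells. -/
lemma run_agree {n n' : ℕ} (x : Fin n → Γ) (x' : Fin n' → Γ) (T : ℕ)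
    (h : ∀ p : ℤ, |p| ≤ T → (A.init x).tape p = (A.init x').tape p) (s : ℕ) (hs : s ≤ T) :
    (A.run x s).st = (A.run x' s).st ∧ (A.run x s).pos = (A.run x' s).pos ∧
      ∀ p, (A.init x).tape p = (A.init x').tape p → (A.run x s).tape p = (A.run x' s).tape p := by
  induction s with
  | zero =>
    exact ⟨rfl, rfl, fun p hp => hp⟩
  | succ s ih =>
    obtain ⟨h1, h2, h3⟩ := ih (by omega)
    have hpos : |(A.run x s).pos| ≤ T := by
      have := A.abs_pos_le x s
      have h4 : ((s : ℕ) : ℤ) ≤ T := by exact_mod_cast (by omega : s ≤ T)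
      exact this.trans h4
    have h5 : (A.run x s).tape (A.run x' s).pos = (A.run x' s).tape (A.run x' s).pos :=
      h3 _ (h _ (by rw [← h2]; exact hpos))
    rw [DTM.run_succ, DTM.run_succ]
    unfold DTM.step
    simp only [h1, h2, h5, true_and]
    intro p hp
    by_cases hp' : p = (A.run x' s).pos
    · subst hp'
      simp only [Function.update_self]
    · simp only [Function.update_of_ne hp']
      exact h3 p hp

end Agree

open Classical in
lemma adjBits_length {N : ℕ} (G : SimpleGraph (Fin N)) : (adjBits G).length = N * N := by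
  unfold adjBits
  simp [List.length_flatMap]

/-- The initial tape of a word that begins with a given word. -/
lemma init_append {Q Γ : Type} (A : DTM Q Γ) (ι : Bool → Γ) (a b c : List Bool) (p : ℤ)
    (hp : p < a.length) (hbc : b.length = c.length) :
    (A.init fun i : Fin (a ++ b).length => ι ((a ++ b).get i)).tape p =
      (A.init fun i : Fin (a ++ c).length => ι ((a ++ c).get i)).tape p := by
  show (if h : 0 ≤ p ∧ p < ((a ++ b).length : ℤ) then ι ((a ++ b).get ⟨p.toNat, by omega⟩) else A.blank) =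
    (if h : 0 ≤ p ∧ p < ((a ++ c).length : ℤ) then ι ((a ++ c).get ⟨p.toNat, by omega⟩) else A.blank)
  by_cases h0 : 0 ≤ p
  · have h1 : 0 ≤ p ∧ p < ((a ++ b).length : ℤ) := by
      simp only [List.length_append]
      push_cast
      omega
    have h2 : 0 ≤ p ∧ p < ((a ++ c).length : ℤ) := by
      simp only [List.length_append]
      push_cast
      omega
    rw [dif_pos h1, dif_pos h2]
    congr 1
    simp only [List.get_eq_getElem]
    rw [List.getElem_append_left (by omega), List.getElem_append_left (by omega)]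
  · have h1 : ¬ (0 ≤ p ∧ p < ((a ++ b).length : ℤ)) := fun h => h0 h.1
    have h2 : ¬ (0 ≤ p ∧ p < ((a ++ c).length : ℤ)) := fun h => h0 h.1
    rw [dif_neg h1, dif_neg h2]

/-- The empty and the complete graph on at least two vertices are not WL-equivalent. -/
lemma not_wl_bot_top {k N : ℕ} (hk : 2 ≤ k) (hN : 2 ≤ N) :
    ¬ WLEquiv k (⊥ : SimpleGraph (Fin N)) (⊤ : SimpleGraph (Fin N)) := by
  intro h
  have h0 := h 0
  let n0 : Fin N := ⟨0, by omega⟩
  let n1 : Fin N := ⟨1, by omega⟩
  let k0 : Fin k := ⟨0, by omega⟩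
  let k1 : Fin k := ⟨1, by omega⟩
  let y : Fin k → Fin N := fun i => if i = k0 then n0 else n1
  have hy : wlColor (⊤ : SimpleGraph (Fin N)) 0 y ∈
      (Finset.univ : Finset (Fin k → Fin N)).val.map (wlColor (⊤ : SimpleGraph (Fin N)) 0) :=
    Multiset.mem_map_of_mem _ (Finset.mem_univ y)
  rw [← h0] at hy
  obtain ⟨x, -, hx⟩ := Multiset.mem_map.mp hy
  have h1 := congrArg (fun c => (c k0 k1).2) hx
  have hne : n0 ≠ n1 := by
    simp [n0, n1, Fin.ext_iff]
  have hk01 : k1 ≠ k0 := by
    simp [k0, k1, Fin.ext_iff]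
  have h2 : (⊥ : SimpleGraph (Fin N)).Adj (x k0) (x k1) = (⊤ : SimpleGraph (Fin N)).Adj (y k0) (y k1) := h1
  have h3 : (⊤ : SimpleGraph (Fin N)).Adj (y k0) (y k1) := by
    simp only [SimpleGraph.top_adj]
    simp [y, hk01, hne]
  rw [← h2] at h3
  exact h3

/-- No machine decides WL equivalence in linear time: it has to read the second graph. -/
theorem no_linear {k : ℕ} (hk : 2 ≤ k) {Q Γ : Type} (A : DTM Q Γ) (ι : Bool → Γ) (C : ℕ) :
    ¬ DecidesWL A ι k (fun N => C * (N + 1)) := by
  intro H
  let N := C + 3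
  have hN : 2 ≤ N := by
    show 2 ≤ C + 3
    omega
  have hT : C * (N + 1) < N * N := by
    show C * (C + 3 + 1) < (C + 3) * (C + 3)
    nlinarith
  obtain ⟨t₁, b₁, h1, h2, h3⟩ := H N ⊥ ⊥
  obtain ⟨t₂, b₂, h4, h5, h6⟩ := H N ⊥ ⊤
  have hb1 : b₁ = true := h3.mpr (fun r => rfl)
  have hb2 : b₂ = false := by
    cases b₂
    · rfl
    · exact absurd (h6.mp rfl) (not_wl_bot_top hk hN)
  subst hb1 hb2
  unfold encPair at h2 h5
  have hagree : ∀ p : ℤ, |p| ≤ ((C * (N + 1) : ℕ) : ℤ) →
      (A.init fun i : Fin (adjBits (⊥ : SimpleGraph (Fin N)) ++ adjBits (⊥ : SimpleGraph (Fin N))).length =>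
        ι ((adjBits (⊥ : SimpleGraph (Fin N)) ++ adjBits (⊥ : SimpleGraph (Fin N))).get i)).tape p =
      (A.init fun i : Fin (adjBits (⊥ : SimpleGraph (Fin N)) ++ adjBits (⊤ : SimpleGraph (Fin N))).length =>
        ι ((adjBits (⊥ : SimpleGraph (Fin N)) ++ adjBits (⊤ : SimpleGraph (Fin N))).get i)).tape p := by
    intro p hp
    refine init_append A ι _ _ _ p ?_ (by rw [adjBits_length, adjBits_length])
    rw [adjBits_length]
    have h7 := (abs_le.mp hp).2
    have h8 : ((C * (N + 1) : ℕ) : ℤ) < ((N * N : ℕ) : ℤ) := by exact_mod_cast hT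
    omega
  have ha := run_agree A _ _ (C * (N + 1)) hagree
  rcases Nat.lt_trichotomy t₁ t₂ with hlt | heq | hgt
  · have e1 := (ha t₁ h1).1
    have e2 := h2.1
    simp only [if_true] at e2
    rw [e1] at e2
    exact (h5.2 t₁ hlt).1 e2
  · subst heq
    have e1 := (ha t₁ h1).1
    have e2 := h2.1
    have e3 := h5.1
    simp only [if_true] at e2
    simp only [Bool.false_eq_true, if_false] at e3
    rw [e1, e3] at e2
    exact A.acc_ne_rej e2.symm
  · have e1 := (ha t₂ h4).1
    have e2 := h5.1
    simp only [Bool.false_eq_true, if_false] at e2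
    rw [← e1] at e2
    exact (h2.2 t₂ hgt).2 e2

end Vale.Agent.Lib.P310V
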