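import Vale.Agent.Lib.P310V.SEq

/-!
The clause system of a string system.

Parameters: strings of length `N + 1` over an alphabet `Λ` on three tracks, a finite state set `St`,
injective bit encodings `enc`, `encS`, a local relation `Loc` that checks a triple of strings with
an automaton, and a predicate `isOK` on head letters.

Coordinates: a field for each track, copy and position, a witness for each copy and position, and
`pad` padding coordinates.  Letters give a value to a coordinate.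
-/

namespace Vale.Agent.Lib.P310V

variable {Λ St : Type} {N pad bL bS : ℕ}

theorem finite_SCo : Finite (SCo N pad) := Finite.of_equiv _ SCo.equiv.symm

theorem finite_SLet [Finite Λ] [Finite St] : Finite (SLet Λ St N pad) :=
  Finite.of_equiv _ SLet.equiv.symm

theorem finite_SCl : Finite (SCl N bL bS) := Finite.of_equiv _ SCl.equiv.symm

noncomputable instance : Fintype (SCo N pad) := @Fintype.ofFinite _ finite_SCo

noncomputable instance [Finite Λ] [Finite St] : Fintype (SLet Λ St N pad) :=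
  @Fintype.ofFinite _ finite_SLet

noncomputable instance : Fintype (SCl N bL bS) := @Fintype.ofFinite _ finite_SCl

noncomputable instance : DecidableEq (SCo N pad) := Classical.decEq _

noncomputable instance : DecidableEq (SLet Λ St N pad) := Classical.decEq _

noncomputable instance : DecidableEq (SCl N bL bS) := Classical.decEq _

/-- The coordinate of a letter. -/
def coS : SLet Λ St N pad → SCo N pad
  | SLet.fld τ j l _ _ => SCo.cf τ j l
  | SLet.wit j l _ _ _ _ => SCo.cw j l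
  | SLet.pd i => SCo.cp i

/-- The group of a clause. -/
def grS : SCl N bL bS → Gr
  | SCl.cq τ _ _ _ _ _ => if τ = 2 then Sum.inl 1 else Sum.inl 2
  | SCl.fl τ _ _ => if τ = 0 then Sum.inl 1 else Sum.inl 0
  | SCl.rl _ _ _ _ _ => Sum.inl 2
  | SCl.vl _ _ => Sum.inl 2
  | SCl.ad _ _ _ _ => Sum.inl 2
  | SCl.dc _ _ => Sum.inl 1
  | SCl.ec _ _ => Sum.inl 0
  | SCl.zc τ _ => Sum.inr τ

variable (enc : Λ → Fin bL → Bool) (encS : St → Fin bS → Bool)
  (Loc : Fin (N + 1) → Λ → Λ → Λ → St → St → Prop) (isOK : Fin 3 → Λ → Prop)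

/-- Which clauses a field letter covers. -/
def covF (τ₁ : Fin 3) (j₁ : Fin 4) (l₁ : Fin (N + 1)) (a : Λ) (f : Bool) : SCl N bL bS → Prop
  | SCl.cq τ j j' l bit x => τ₁ = τ ∧ l₁ = l ∧ ((j₁ = j ∧ (f = true ∨ enc a bit = x)) ∨
      (j₁ = j' ∧ (f = true ∨ enc a bit ≠ x)))
  | SCl.fl τ j l => τ₁ = τ ∧ j₁ = j ∧ l₁ = l ∧ f = false
  | SCl.rl τ j l bit x => τ₁ = τ ∧ j₁ = j ∧ l₁ = l ∧ enc a bit ≠ x
  | SCl.zc τ j => τ₁ = τ ∧ j₁ = j ∧ l₁ = 0 ∧ isOK τ a
  | SCl.vl _ _ | SCl.ad _ _ _ _ | SCl.dc _ _ | SCl.ec _ _ => False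

/-- Which clauses a witness letter covers. -/
def covW (j₁ : Fin 4) (l₁ : Fin (N + 1)) (c : Fin 3 → Λ) (u u' : St) (m : Fin 3) :
    SCl N bL bS → Prop
  | SCl.rl τ j l bit x => j₁ = j ∧ l₁ = l ∧ (m ≠ 2 ∨ enc (c τ) bit = x)
  | SCl.vl j l => j₁ = j ∧ l₁ = l ∧ (m ≠ 2 ∨ Loc l (c 0) (c 1) (c 2) u u')
  | SCl.ad j l bit x => j₁ = j ∧ ((l₁ = l.castSucc ∧ (m ≠ 2 ∨ encS u' bit = x)) ∨
      (l₁ = l.succ ∧ (m ≠ 2 ∨ encS u bit ≠ x)))
  | SCl.dc j l => j₁ = j ∧ l₁ = l ∧ m ≠ 1
  | SCl.ec j l => j₁ = j ∧ l₁ = l ∧ m ≠ 0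
  | SCl.cq _ _ _ _ _ _ | SCl.fl _ _ _ | SCl.zc _ _ => False

/-- Which letters cover which clauses. -/
def covS (κ : SCl N bL bS) : SLet Λ St N pad → Prop
  | SLet.fld τ j l a f => covF enc isOK τ j l a f κ
  | SLet.wit j l c u u' m => covW enc encS Loc j l c u u' m κ
  | SLet.pd _ => False

/-- A run of the automaton on a triple of strings. -/
def RunS (a : Fin 3 → Fin (N + 1) → Λ) (u : Fin (N + 2) → St) : Prop :=
  ∀ l : Fin (N + 1), Loc l (a 0 l) (a 1 l) (a 2 l) (u l.castSucc) (u l.succ)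

/-- The strings derivable on a track: seeds on tracks 1 and 2, and for a triple with a run, two
derivable entries give the third. -/
inductive Deriv : Fin 3 → (Fin (N + 1) → Λ) → Prop
  | seed (τ : Fin 3) (v : Fin (N + 1) → Λ) : τ ≠ 0 → isOK τ (v 0) → Deriv τ v
  | rule (a : Fin 3 → Fin (N + 1) → Λ) (u : Fin (N + 2) → St) (τ : Fin 3) :
      RunS Loc a u → (∀ τ', τ' ≠ τ → Deriv τ' (a τ')) → Deriv τ (a τ)

end Vale.Agent.Lib.P310V
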