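import Vale.Agent.Lib.P310V.Num
import Vale.Agent.Lib.P310V.CADefs

set_option linter.unusedSectionVars false

/-!
Numbers for the letters and tags of the string system.
-/

namespace Vale.Agent.Lib.P310V

open Finset

/-- Numbers from lists of digits. -/
def pk (D : ℕ) : List ℕ → ℕ
  | [] => 0
  | a :: l => a + D * pk D l

section Digits

variable {D : ℕ}

lemma dgt_succ (hD : 0 < D) (k u : ℕ) : dgt D (k + 1) u = dgt D k (u / D) := by
  unfold dgt
  rw [pow_succ', Nat.div_div_eq_div_mul]

lemma dgt_zero (u : ℕ) : dgt D 0 u = u % D := by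
  simp [dgt]

lemma dgt_pk (hD : 0 < D) {l : List ℕ} (h : ∀ x ∈ l, x < D) (k : ℕ) :
    dgt D k (pk D l) = l.getD k 0 := by
  induction l generalizing k with
  | nil => simp [pk, dgt]
  | cons a l ih =>
    have ha : a < D := h a (by simp)
    have hl : ∀ x ∈ l, x < D := fun x hx => h x (by simp [hx])
    cases k with
    | zero =>
      rw [dgt_zero]
      simp only [pk, List.getD_cons_zero]
      rw [Nat.add_mul_mod_self_left, Nat.mod_eq_of_lt ha]
    | succ k =>
      rw [dgt_succ hD]
      simp only [pk, List.getD_cons_succ]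
      rw [Nat.add_mul_div_left _ _ hD, Nat.div_eq_of_lt ha, zero_add]
      exact ih hl k

lemma pk_lt (hD : 0 < D) {l : List ℕ} (h : ∀ x ∈ l, x < D) : pk D l < D ^ l.length := by
  induction l with
  | nil => simp [pk]
  | cons a l ih =>
    have ha : a < D := h a (by simp)
    have hl : ∀ x ∈ l, x < D := fun x hx => h x (by simp [hx])
    have := ih hl
    simp only [pk, List.length_cons, pow_succ']
    have h2 : D * (pk D l + 1) ≤ D * D ^ l.length := Nat.mul_le_mul_left _ this
    rw [Nat.mul_succ] at h2
    omega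

lemma pk_div_eq_zero (hD : 0 < D) {l : List ℕ} (h : ∀ x ∈ l, x < D) {k : ℕ} (hk : l.length ≤ k) :
    pk D l / D ^ k = 0 :=
  Nat.div_eq_of_lt (lt_of_lt_of_le (pk_lt hD h) (Nat.pow_le_pow_right hD hk))

/-- A number is recovered from its digits. -/
lemma pk_of_digits (hD : 0 < D) (l : List ℕ) (m : ℕ) (hl : ∀ i, i < l.length → l.getD i 0 = dgt D i m)
    (hm : m / D ^ l.length = 0) : pk D l = m := by
  induction l generalizing m with
  | nil =>
    simp only [List.length_nil, pow_zero, Nat.div_one] at hm
    simp [pk, hm]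
  | cons a l ih =>
    have h0 := hl 0 (by simp)
    simp only [List.getD_cons_zero] at h0
    rw [dgt_zero] at h0
    have h1 : pk D l = m / D := by
      refine ih (m / D) (fun i hi => ?_) ?_
      · have := hl (i + 1) (by simp; omega)
        simp only [List.getD_cons_succ] at this
        rw [this, dgt_succ hD]
      · simp only [List.length_cons, pow_succ'] at hm
        rwa [Nat.div_div_eq_div_mul]
    simp only [pk]
    rw [h1, h0, Nat.mod_add_div]

/-- Two digits. -/
lemma mul_add_unique {s a b a' b' : ℕ} (ha : a < s) (ha' : a' < s) (h : a + s * b = a' + s * b') :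
    a = a' ∧ b = b' := by
  have hs : 0 < s := by omega
  have h1 := congrArg (· % s) h
  have h2 := congrArg (· / s) h
  simp only [Nat.add_mul_mod_self_left, Nat.mod_eq_of_lt ha, Nat.mod_eq_of_lt ha'] at h1
  simp only [Nat.add_mul_div_left _ _ hs, Nat.div_eq_of_lt ha, Nat.div_eq_of_lt ha', zero_add] at h2
  exact ⟨h1, h2⟩

lemma mod_div_add {s a b : ℕ} (ha : a < s) : (a + s * b) % s = a ∧ (a + s * b) / s = b := by
  have hs : 0 < s := by omega
  rw [Nat.add_mul_mod_self_left, Nat.mod_eq_of_lt ha, Nat.add_mul_div_left _ _ hs,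
    Nat.div_eq_of_lt ha, zero_add]
  exact ⟨rfl, rfl⟩

end Digits

section Sg

variable {γ q : ℕ}

/-- The number of the head part of a cell. -/
def hN : Option (Fin q) → ℕ
  | none => 0
  | some h => h.val + 1

lemma hN_le (h : Option (Fin q)) : hN h ≤ q := by
  cases h with
  | none => simp [hN]
  | some h =>
    have := h.isLt
    simp only [hN]
    omega

lemma hN_inj {h h' : Option (Fin q)} (e : hN h = hN h') : h = h' := by
  cases h <;> cases h' <;> simp_all [hN, Fin.ext_iff]

/-- The number of a cell. -/
def sgN (a : Fin γ × Option (Fin q)) : ℕ := a.1.val + γ * hN a.2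

lemma sgN_lt (a : Fin γ × Option (Fin q)) : sgN a < γ * (q + 1) := by
  unfold sgN
  have h1 := a.1.isLt
  have h2 := hN_le a.2
  have h3 : γ * (hN a.2 + 1) ≤ γ * (q + 1) := Nat.mul_le_mul_left _ (by omega)
  rw [Nat.mul_succ] at h3
  omega

lemma sgN_mod (a : Fin γ × Option (Fin q)) : sgN a % γ = a.1.val := (mod_div_add a.1.isLt).1

lemma sgN_div (a : Fin γ × Option (Fin q)) : sgN a / γ = hN a.2 := (mod_div_add a.1.isLt).2

lemma sgN_inj {a a' : Fin γ × Option (Fin q)} (h : sgN a = sgN a') : a = a' := by
  obtain ⟨h1, h2⟩ := mul_add_unique a.1.isLt a'.1.isLt h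
  have e1 : a.1 = a'.1 := Fin.ext h1
  have e2 : hN a.2 = hN a'.2 := by
    rcases Nat.eq_zero_or_pos γ with h0 | h0
    · have := a.1.isLt
      omega
    · exact h2
  exact Prod.ext e1 (hN_inj e2)

lemma sgN_surj {k : ℕ} (hk : k < γ * (q + 1)) : ∃ a : Fin γ × Option (Fin q), sgN a = k := by
  have h0 : 0 < γ := by
    rcases Nat.eq_zero_or_pos γ with h | h
    · subst h
      simp at hk
    · exact h
  have h1 : k % γ < γ := Nat.mod_lt _ h0
  have h2 : k / γ < q + 1 := (Nat.div_lt_iff_lt_mul h0).mpr (by rw [Nat.mul_comm]; exact hk)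
  have h4 := Nat.mod_add_div k γ
  generalize k / γ = p at h2 h4
  by_cases h3 : p = 0
  · refine ⟨(⟨k % γ, h1⟩, none), ?_⟩
    unfold sgN
    simp only [hN]
    rw [h3] at h4
    simpa using h4
  · refine ⟨(⟨k % γ, h1⟩, some ⟨p - 1, by omega⟩), ?_⟩
    unfold sgN
    simp only [hN]
    have e : p - 1 + 1 = p := by omega
    rw [e, h4]

end Sg

section Hd

variable {γ q : ℕ} (s : ℕ)

/-- The number of a head letter. -/
def hdN : Hd (Fin γ × Option (Fin q)) → ℕ
  | Hd.kap => 0
  | Hd.trap => 1
  | Hd.cell a => 2 + 5 * sgN a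
  | Hd.pair a b => 3 + 5 * (sgN a + s * sgN b)
  | Hd.trip a b c => 4 + 5 * (sgN a + s * (sgN b + s * sgN c))

variable {s}
variable (hs : s = γ * (q + 1))

include hs

lemma sgN_lt_s (a : Fin γ × Option (Fin q)) : sgN a < s := hs ▸ sgN_lt a

lemma hdN_inj {H H' : Hd (Fin γ × Option (Fin q))} (h : hdN s H = hdN s H') : H = H' := by
  have hlt := sgN_lt_s (γ := γ) (q := q) hs
  cases H with
  | kap => cases H' <;> simp only [hdN] at h <;> first | omega | rfl
  | trap => cases H' <;> simp only [hdN] at h <;> first | omega | rfl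
  | cell a =>
    cases H' with
    | cell a' =>
      simp only [hdN] at h
      have h1 : sgN a = sgN a' := by omega
      rw [sgN_inj h1]
    | _ => simp only [hdN] at h; omega
  | pair a b =>
    cases H' with
    | pair a' b' =>
      simp only [hdN] at h
      have h1 := mul_add_unique (hlt a) (hlt a') (show sgN a + s * sgN b = sgN a' + s * sgN b' by omega)
      rw [sgN_inj h1.1, sgN_inj h1.2]
    | _ => simp only [hdN] at h; omega
  | trip a b c =>
    cases H' with
    | trip a' b' c' =>
      simp only [hdN] at h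
      have h1 := mul_add_unique (hlt a) (hlt a')
        (show sgN a + s * (sgN b + s * sgN c) = sgN a' + s * (sgN b' + s * sgN c') by omega)
      have h2 := mul_add_unique (hlt b) (hlt b') h1.2
      rw [sgN_inj h1.1, sgN_inj h2.1, sgN_inj h2.2]
    | _ => simp only [hdN] at h; omega

lemma two_digits_lt {a b : ℕ} (ha : a < s) (hb : b < s) : a + s * b < s * s := by
  have h3 : s * (b + 1) ≤ s * s := Nat.mul_le_mul_left _ hb
  rw [Nat.mul_succ] at h3
  omega

lemma hdN_le (H : Hd (Fin γ × Option (Fin q))) : hdN s H ≤ 5 * s ^ 3 + 1 := by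
  have hlt := sgN_lt_s (γ := γ) (q := q) hs
  have h1 : ∀ a b c : Fin γ × Option (Fin q), sgN a + s * (sgN b + s * sgN c) < s ^ 3 := by
    intro a b c
    have h2 := two_digits_lt hs (hlt b) (hlt c)
    have h3 : s * (sgN b + s * sgN c + 1) ≤ s * (s * s) := Nat.mul_le_mul_left _ h2
    rw [Nat.mul_succ] at h3
    have h4 := hlt a
    have h5 : s ^ 3 = s * (s * s) := by ring
    omega
  cases H with
  | kap => simp only [hdN]; omega
  | trap =>
    simp only [hdN]
    omega
  | cell a =>
    have h6 := h1 a a a
    simp only [hdN]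
    have : sgN a ≤ sgN a + s * (sgN a + s * sgN a) := by omega
    omega
  | pair a b =>
    have h6 := h1 a b b
    simp only [hdN]
    have : s * sgN b ≤ s * (sgN b + s * sgN b) := Nat.mul_le_mul_left _ (by omega)
    omega
  | trip a b c =>
    have h6 := h1 a b c
    simp only [hdN]
    omega

end Hd

section Lam

variable {γ q n : ℕ} (s : ℕ)

/-- The number of a string letter. -/
def lamN : Fin n ⊕ Hd (Fin γ × Option (Fin q)) → ℕ
  | Sum.inl d => d.val
  | Sum.inr H => n + hdN s H

variable {s}
variable (hs : s = γ * (q + 1))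

include hs

lemma lamN_inj {x x' : Fin n ⊕ Hd (Fin γ × Option (Fin q))} (h : lamN s x = lamN s x') : x = x' := by
  rcases x with d | H <;> rcases x' with d' | H' <;> simp only [lamN] at h
  · rw [Fin.ext h]
  · have := d.isLt
    omega
  · have := d'.isLt
    omega
  · have : hdN s H = hdN s H' := by omega
    rw [hdN_inj hs this]

lemma lamN_lt (x : Fin n ⊕ Hd (Fin γ × Option (Fin q))) : lamN s x < n + 5 * s ^ 3 + 5 := by
  rcases x with d | H
  · have := d.isLt
    simp only [lamN]
    omega
  · have := hdN_le hs H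
    simp only [lamN]
    omega

end Lam

section Tag

variable {γ q L : ℕ}

/-- The number of a tag. -/
def tagN : Tag (Fin γ × Option (Fin q)) L L → ℕ
  | Tag.kkk => 0
  | Tag.e0 => 1
  | Tag.e1 => 2
  | Tag.e2 => 3
  | Tag.fin => 4
  | Tag.and1 j => 5 + 10 * j.val
  | Tag.and2 j => 6 + 10 * j.val
  | Tag.one i j => 7 + 10 * (i.val + L * j.val)
  | Tag.iin a => 8 + 10 * sgN a
  | Tag.iout j => 9 + 10 * j.val

lemma tagN_inj {t t' : Tag (Fin γ × Option (Fin q)) L L} (h : tagN t = tagN t') : t = t' := by
  cases t with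
  | kkk => cases t' <;> simp only [tagN] at h <;> first | omega | rfl
  | e0 => cases t' <;> simp only [tagN] at h <;> first | omega | rfl
  | e1 => cases t' <;> simp only [tagN] at h <;> first | omega | rfl
  | e2 => cases t' <;> simp only [tagN] at h <;> first | omega | rfl
  | fin => cases t' <;> simp only [tagN] at h <;> first | omega | rfl
  | and1 j =>
    cases t' with
    | and1 j' =>
      simp only [tagN] at h
      rw [Fin.ext (show j.val = j'.val by omega)]
    | _ => simp only [tagN] at h; omega
  | and2 j =>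
    cases t' with
    | and2 j' =>
      simp only [tagN] at h
      rw [Fin.ext (show j.val = j'.val by omega)]
    | _ => simp only [tagN] at h; omega
  | one i j =>
    cases t' with
    | one i' j' =>
      simp only [tagN] at h
      have h1 := mul_add_unique i.isLt i'.isLt (show i.val + L * j.val = i'.val + L * j'.val by omega)
      rw [Fin.ext h1.1, Fin.ext h1.2]
    | _ => simp only [tagN] at h; omega
  | iin a =>
    cases t' with
    | iin a' =>
      simp only [tagN] at h
      rw [sgN_inj (show sgN a = sgN a' by omega)]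
    | _ => simp only [tagN] at h; omega
  | iout j =>
    cases t' with
    | iout j' =>
      simp only [tagN] at h
      rw [Fin.ext (show j.val = j'.val by omega)]
    | _ => simp only [tagN] at h; omega

lemma tagN_lt {s : ℕ} (hs : s = γ * (q + 1)) (t : Tag (Fin γ × Option (Fin q)) L L) :
    tagN t < 10 * (L * (L + 2) + s + L + 2) + 10 := by
  cases t with
  | kkk => simp only [tagN]; omega
  | e0 => simp only [tagN]; omega
  | e1 => simp only [tagN]; omega
  | e2 => simp only [tagN]; omega
  | fin => simp only [tagN]; omega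
  | and1 j =>
    have := j.isLt
    simp only [tagN]
    omega
  | and2 j =>
    have := j.isLt
    simp only [tagN]
    omega
  | one i j =>
    have h1 := i.isLt
    have h2 := j.isLt
    have h3 := two_digits_lt_aux h1 h2
    simp only [tagN]
    omega
  | iin a =>
    have := sgN_lt_s hs a
    simp only [tagN]
    omega
  | iout j =>
    have := j.isLt
    simp only [tagN]
    omega
where
  two_digits_lt_aux {i j : ℕ} (h1 : i < L) (h2 : j < L + 2) : i + L * j < L * (L + 2) := by
    have h3 : L * (j + 1) ≤ L * (L + 2) := Nat.mul_le_mul_left _ h2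
    rw [Nat.mul_succ] at h3
    omega

end Tag

end Vale.Agent.Lib.P310V
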