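import Vale.Agent.Lib.P310V.Sem1
import Vale.Agent.Lib.P310V.TMCA

set_option linter.unusedSectionVars false

/-!
The hypotheses on the numeric parameters and the numbers of letters and tags.
-/

namespace Vale.Agent.Lib.P310V

open Finset

/-- The bound for the number of edges of a class. -/
def mbN (b g : ℕ) : ℕ := 4 * (18 * b + 4 * b + 4) + 6 * g * g + 2 * g + 9

/-- The relations between the numeric parameters. -/
structure Nu.V (ν : Nu) (q g : ℕ) : Prop where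
  s_eq : ν.s = ν.γ * (q + 1)
  γ3 : 3 ≤ ν.γ
  q3 : 3 ≤ q
  n3 : 3 ≤ ν.n
  L_pos : 1 ≤ ν.L
  L1_eq : ν.L1 = ν.L + 1
  L2_eq : ν.L2 = ν.L + 2
  N_eq : ν.N = ν.L + ν.L + 1
  N1_eq : ν.N1 = ν.N + 1
  D_eq : ν.D = 2 ^ ν.b
  lam_lt : ν.n + 5 * ν.s ^ 3 + 5 ≤ ν.D
  tag_lt : 10 * (ν.L * (ν.L + 2) + ν.s + ν.L + 2) + 10 ≤ ν.D
  N1_lt : ν.N1 + 10 ≤ ν.D
  b_lt : ν.b ≤ ν.D
  pad_lt : ν.pad ≤ ν.D
  X_eq : ν.X = 6 * ν.D ^ 4
  Y_eq : ν.Y = ν.D ^ 7
  GX_eq : ν.GX = g * ν.X
  colB_eq : ν.colB = ν.GX + 4 * ν.Y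
  BB_eq : ν.BB = 12 * ν.colB
  EE_eq : ν.EE = ν.BB * ν.BB
  CC_eq : ν.CC = ν.D * ν.BB + ν.D ^ 9
  PW_eq : ν.PW = ν.CC * 2 ^ mbN ν.b g + 2
  PP_eq : ν.PP = ν.CC * ν.PW + 1
  D_W : ν.D < ν.WW

/-- The value of a bit and `testBit`. -/
lemma tb_eq_bool {y i : ℕ} {b : Bool} : tb y i = b.toNat ↔ y.testBit i = b := by
  unfold tb
  rw [Nat.testBit_eq_decide_div_mod_eq]
  cases b <;> simp <;> omega

section

variable {ν : Nu} {q g : ℕ} (hν : ν.V q g)

include hν

lemma Nu.V.D_pos : 0 < ν.D := by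
  have := hν.lam_lt
  omega

lemma Nu.V.n_lt_D : ν.n < ν.D := by
  have := hν.lam_lt
  omega

lemma Nu.V.s_pos : 0 < ν.s := by
  rw [hν.s_eq]
  have := hν.γ3
  exact Nat.mul_pos (by omega) (by omega)

lemma Nu.V.γ_pos : 0 < ν.γ := by
  have := hν.γ3
  omega

lemma Nu.V.n_lt_W : ν.n < ν.WW := by
  have := hν.n_lt_D
  have := hν.D_W
  omega

/-- The head letter numbers. -/
lemma Nu.V.isHd_iff (h : ℕ) :
    ν.isHd h ↔ ∃ H : Hd (Fin ν.γ × Option (Fin q)), hdN ν.s H = h := by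
  have hs0 := hν.s_pos
  have hsl : ∀ a : Fin ν.γ × Option (Fin q), sgN a < ν.s := sgN_lt_s hν.s_eq
  have hsu : ∀ k, k < ν.s → ∃ a : Fin ν.γ × Option (Fin q), sgN a = k := fun k hk =>
    sgN_surj (hν.s_eq ▸ hk)
  constructor
  · rintro (h1 | h1 | ⟨h1, h2⟩ | ⟨h1, h2⟩ | ⟨h1, h2⟩)
    · exact ⟨Hd.kap, h1.symm⟩
    · exact ⟨Hd.trap, h1.symm⟩
    · obtain ⟨a, ha⟩ := hsu _ h2
      refine ⟨Hd.cell a, ?_⟩
      simp only [hdN]
      omega
    · generalize hp : h / 5 = p at h2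
      obtain ⟨b, hb⟩ := hsu _ h2
      obtain ⟨a, ha⟩ := hsu (p % ν.s) (Nat.mod_lt _ hs0)
      refine ⟨Hd.pair a b, ?_⟩
      simp only [hdN]
      rw [ha, hb, Nat.mod_add_div]
      omega
    · generalize hp : h / 5 = p at h2
      obtain ⟨c, hc⟩ := hsu _ h2
      obtain ⟨b, hb⟩ := hsu (p / ν.s % ν.s) (Nat.mod_lt _ hs0)
      obtain ⟨a, ha⟩ := hsu (p % ν.s) (Nat.mod_lt _ hs0)
      refine ⟨Hd.trip a b c, ?_⟩
      simp only [hdN]
      rw [ha, hb, hc, Nat.mod_add_div, Nat.mod_add_div]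
      omega
  · rintro ⟨H, rfl⟩
    cases H with
    | kap => exact Or.inl rfl
    | trap => exact Or.inr (Or.inl rfl)
    | cell a =>
      have := hsl a
      refine Or.inr (Or.inr (Or.inl ⟨?_, ?_⟩)) <;> simp only [hdN] <;> omega
    | pair a b =>
      have h1 := hsl a
      have h2 := hsl b
      refine Or.inr (Or.inr (Or.inr (Or.inl ⟨?_, ?_⟩)))
      · simp only [hdN]
        omega
      · simp only [hdN]
        have e : (3 + 5 * (sgN a + ν.s * sgN b)) / 5 = sgN a + ν.s * sgN b := by omega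
        rw [e, (mod_div_add h1).2]
        exact h2
    | trip a b c =>
      have h1 := hsl a
      have h2 := hsl b
      have h3 := hsl c
      refine Or.inr (Or.inr (Or.inr (Or.inr ⟨?_, ?_⟩)))
      · simp only [hdN]
        omega
      · simp only [hdN]
        have e : (4 + 5 * (sgN a + ν.s * (sgN b + ν.s * sgN c))) / 5 =
            sgN a + ν.s * (sgN b + ν.s * sgN c) := by omega
        rw [e, (mod_div_add h1).2, (mod_div_add h2).2]
        exact h3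

/-- The string letter numbers. -/
lemma Nu.V.isLam_iff (x : ℕ) :
    ν.isLam x ↔ ∃ a : LamC (Fin ν.γ × Option (Fin q)) ν.n, lamN ν.s a = x := by
  constructor
  · rintro (h | ⟨h1, h2⟩)
    · exact ⟨Sum.inl ⟨x, h⟩, rfl⟩
    · obtain ⟨H, hH⟩ := (hν.isHd_iff (x - ν.n)).mp h2
      refine ⟨Sum.inr H, ?_⟩
      simp only [lamN]
      omega
  · rintro ⟨a | H, rfl⟩
    · exact Or.inl a.isLt
    · refine Or.inr ⟨?_, ?_⟩
      · simp only [lamN]
        omega
      · refine (hν.isHd_iff _).mpr ⟨H, ?_⟩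
        simp only [lamN]
        omega

/-- The tag numbers. -/
lemma Nu.V.isTag_iff (t : ℕ) :
    ν.isTag t ↔ ∃ τ : Tag (Fin ν.γ × Option (Fin q)) ν.L ν.L, tagN τ = t := by
  have hsl : ∀ a : Fin ν.γ × Option (Fin q), sgN a < ν.s := sgN_lt_s hν.s_eq
  have hsu : ∀ k, k < ν.s → ∃ a : Fin ν.γ × Option (Fin q), sgN a = k := fun k hk =>
    sgN_surj (hν.s_eq ▸ hk)
  have hL := hν.L_pos
  have e1 := hν.L1_eq
  have e2 := hν.L2_eq
  constructor
  · rintro (h | ⟨h1, h2⟩ | ⟨h1, h2⟩ | ⟨h1, h2⟩ | ⟨h1, h2⟩ | ⟨h1, h2⟩)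
    · have : t = 0 ∨ t = 1 ∨ t = 2 ∨ t = 3 ∨ t = 4 := by omega
      rcases this with rfl | rfl | rfl | rfl | rfl
      · exact ⟨Tag.kkk, rfl⟩
      · exact ⟨Tag.e0, rfl⟩
      · exact ⟨Tag.e1, rfl⟩
      · exact ⟨Tag.e2, rfl⟩
      · exact ⟨Tag.fin, rfl⟩
    · refine ⟨Tag.and1 ⟨t / 10, by omega⟩, ?_⟩
      simp only [tagN]
      omega
    · refine ⟨Tag.and2 ⟨t / 10, by omega⟩, ?_⟩
      simp only [tagN]
      omega
    · generalize hp : t / 10 = p at h2
      refine ⟨Tag.one ⟨p % ν.L, Nat.mod_lt _ (by omega)⟩ ⟨p / ν.L, by omega⟩, ?_⟩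
      simp only [tagN]
      rw [Nat.mod_add_div]
      omega
    · obtain ⟨a, ha⟩ := hsu _ h2
      refine ⟨Tag.iin a, ?_⟩
      simp only [tagN]
      omega
    · refine ⟨Tag.iout ⟨t / 10, by omega⟩, ?_⟩
      simp only [tagN]
      omega
  · rintro ⟨τ, rfl⟩
    cases τ with
    | kkk => exact Or.inl (by simp [tagN])
    | e0 => exact Or.inl (by simp [tagN])
    | e1 => exact Or.inl (by simp [tagN])
    | e2 => exact Or.inl (by simp [tagN])
    | fin => exact Or.inl (by simp [tagN])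
    | and1 j =>
      have := j.isLt
      refine Or.inr (Or.inl ⟨?_, ?_⟩) <;> simp only [tagN] <;> omega
    | and2 j =>
      have := j.isLt
      refine Or.inr (Or.inr (Or.inl ⟨?_, ?_⟩)) <;> simp only [tagN] <;> omega
    | one i j =>
      have h1 := i.isLt
      have h2 := j.isLt
      refine Or.inr (Or.inr (Or.inr (Or.inl ⟨?_, ?_⟩)))
      · simp only [tagN]
        omega
      · simp only [tagN]
        have e : (7 + 10 * (i.val + ν.L * j.val)) / 10 = i.val + ν.L * j.val := by omega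
        rw [e, (mod_div_add h1).2]
        omega
    | iin a =>
      have := hsl a
      refine Or.inr (Or.inr (Or.inr (Or.inr (Or.inl ⟨?_, ?_⟩)))) <;> simp only [tagN] <;> omega
    | iout j =>
      have := j.isLt
      refine Or.inr (Or.inr (Or.inr (Or.inr (Or.inr ⟨?_, ?_⟩)))) <;> simp only [tagN] <;> omega

lemma Nu.V.lamN_lt_D (a : LamC (Fin ν.γ × Option (Fin q)) ν.n) : lamN ν.s a < ν.D := by
  have h1 := lamN_lt hν.s_eq a
  have h2 := hν.lam_lt
  rcases a with d | H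
  · have := d.isLt
    simp only [lamN]
    omega
  · have := hdN_le hν.s_eq H
    simp only [lamN] at *
    omega

lemma Nu.V.tagN_lt_D (t : Tag (Fin ν.γ × Option (Fin q)) ν.L ν.L) : tagN t < ν.D := by
  have h1 := tagN_lt hν.s_eq t
  have h2 := hν.tag_lt
  omega

/-- The inversions of the letter numbers. -/
lemma Nu.V.lam_isK2 {x : LamC (Fin ν.γ × Option (Fin q)) ν.n} :
    ν.isK 2 (lamN ν.s x) ↔ ∃ a, x = Sum.inr (Hd.cell a) := by
  unfold Nu.isK Nu.hk
  rcases x with d | H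
  · have := d.isLt
    simp only [lamN]
    constructor
    · intro h
      omega
    · rintro ⟨a, h⟩
      cases h
  · simp only [lamN]
    cases H with
    | cell a =>
      simp only [hdN]
      exact ⟨fun _ => ⟨a, rfl⟩, fun _ => ⟨by omega, by omega⟩⟩
    | _ =>
      simp only [hdN]
      constructor
      · intro h
        omega
      · rintro ⟨a, h⟩
        cases h

lemma Nu.V.lam_isK3 {x : LamC (Fin ν.γ × Option (Fin q)) ν.n} :
    ν.isK 3 (lamN ν.s x) ↔ ∃ a b, x = Sum.inr (Hd.pair a b) := by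
  unfold Nu.isK Nu.hk
  rcases x with d | H
  · have := d.isLt
    simp only [lamN]
    constructor
    · intro h
      omega
    · rintro ⟨a, b, h⟩
      cases h
  · simp only [lamN]
    cases H with
    | pair a b =>
      simp only [hdN]
      exact ⟨fun _ => ⟨a, b, rfl⟩, fun _ => ⟨by omega, by omega⟩⟩
    | _ =>
      simp only [hdN]
      constructor
      · intro h
        omega
      · rintro ⟨a, b, h⟩
        cases h

lemma Nu.V.lam_isK4 {x : LamC (Fin ν.γ × Option (Fin q)) ν.n} :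
    ν.isK 4 (lamN ν.s x) ↔ ∃ a b c, x = Sum.inr (Hd.trip a b c) := by
  unfold Nu.isK Nu.hk
  rcases x with d | H
  · have := d.isLt
    simp only [lamN]
    constructor
    · intro h
      omega
    · rintro ⟨a, b, c, h⟩
      cases h
  · simp only [lamN]
    cases H with
    | trip a b c =>
      simp only [hdN]
      exact ⟨fun _ => ⟨a, b, c, rfl⟩, fun _ => ⟨by omega, by omega⟩⟩
    | _ =>
      simp only [hdN]
      constructor
      · intro h
        omega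
      · rintro ⟨a, b, c, h⟩
        cases h

lemma Nu.V.lam_isDig {x : LamC (Fin ν.γ × Option (Fin q)) ν.n} :
    ν.isDig (lamN ν.s x) ↔ ∃ d, x = Sum.inl d := by
  unfold Nu.isDig
  rcases x with d | H
  · exact ⟨fun _ => ⟨d, rfl⟩, fun _ => d.isLt⟩
  · simp only [lamN]
    constructor
    · intro h
      omega
    · rintro ⟨d, h⟩
      cases h

lemma Nu.V.lam_inj {x x' : LamC (Fin ν.γ × Option (Fin q)) ν.n}
    (h : lamN ν.s x = lamN ν.s x') : x = x' := lamN_inj hν.s_eq h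

lemma Nu.V.lam_eq {x x' : LamC (Fin ν.γ × Option (Fin q)) ν.n} :
    lamN ν.s x = lamN ν.s x' ↔ x = x' := ⟨hν.lam_inj, fun h => h ▸ rfl⟩

lemma lam_kap {γ q n s : ℕ} : lamN (γ := γ) (q := q) (n := n) s (Sum.inr Hd.kap) = n := rfl

lemma Nu.V.tr_eq : ν.tr = ν.n + 1 := by
  unfold Nu.tr capS
  rw [if_pos hν.n_lt_W]

lemma Nu.V.lam_eq_n {x : LamC (Fin ν.γ × Option (Fin q)) ν.n} :
    lamN ν.s x = ν.n ↔ x = Sum.inr Hd.kap := hν.lam_eq (x' := Sum.inr Hd.kap)

lemma Nu.V.lam_eq_tr {x : LamC (Fin ν.γ × Option (Fin q)) ν.n} :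
    lamN ν.s x = ν.tr ↔ x = Sum.inr Hd.trap := by
  rw [hν.tr_eq]
  exact hν.lam_eq (x' := Sum.inr Hd.trap)

end

lemma hp_cell {ν : Nu} {q : ℕ} (a : Fin ν.γ × Option (Fin q)) :
    ν.hp (lamN ν.s (n := ν.n) (Sum.inr (Hd.cell a))) = sgN a := by
  unfold Nu.hp
  simp only [lamN, hdN]
  omega

lemma hp_pair {ν : Nu} {q : ℕ} (a b : Fin ν.γ × Option (Fin q)) :
    ν.hp (lamN ν.s (n := ν.n) (Sum.inr (Hd.pair a b))) = sgN a + ν.s * sgN b := by
  unfold Nu.hp
  simp only [lamN, hdN]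
  omega

lemma hp_trip {ν : Nu} {q : ℕ} (a b c : Fin ν.γ × Option (Fin q)) :
    ν.hp (lamN ν.s (n := ν.n) (Sum.inr (Hd.trip a b c))) = sgN a + ν.s * (sgN b + ν.s * sgN c) := by
  unfold Nu.hp
  simp only [lamN, hdN]
  omega

end Vale.Agent.Lib.P310V
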