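import Vale.Agent.Lib.P310V.Sem2

set_option linter.unusedSectionVars false

/-!
The local condition in numbers and the local condition of a machine.
-/

namespace Vale.Agent.Lib.P310V

open Finset

/-- How the numeric table fits a machine. -/
structure Nu.MFit (ν : Nu) {q : ℕ} (M : DTM (Fin q) (Fin ν.γ)) (x : Fin ν.n → Fin ν.γ) : Prop where
  start0 : M.start.val = 0
  acc1 : M.acc.val = 1
  blank2 : M.blank.val = 2
  inp_eq : ∀ d : Fin ν.n, (x d).val = ν.inp d.val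
  tbl0 : ∀ (st : Fin q) (y : Fin ν.γ), ν.tbl st.val y.val 0 = (M.δ st y).1.val
  tbl1 : ∀ (st : Fin q) (y : Fin ν.γ), ν.tbl st.val y.val 1 = (M.δ st y).2.1.val
  tbl2 : ∀ (st : Fin q) (y : Fin ν.γ), ν.tbl st.val y.val 2 = (M.δ st y).2.2.code

lemma hN_orElse {q : ℕ} (u : Option (Fin q)) (v : Unit → Option (Fin q)) :
    hN (u.orElse v) = if hN u ≠ 0 then hN u else hN (v ()) := by
  cases u with
  | none => simp [hN]
  | some u => simp [hN]

section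

variable {ν : Nu} {q g : ℕ} (hν : ν.V q g)
variable {M : DTM (Fin q) (Fin ν.γ)} {x : Fin ν.n → Fin ν.γ} (hM : ν.MFit M x)

include hν

lemma Nu.V.q_lt_W : q < ν.WW := by
  have h1 := hν.s_eq
  have h2 := hν.lam_lt
  have h3 := hν.D_W
  have h4 := hν.γ3
  have h5 : q + 1 ≤ ν.γ * (q + 1) := Nat.le_mul_of_pos_left _ (by omega)
  have h6 : ν.s ≤ ν.s ^ 3 := Nat.le_self_pow (by omega) _
  omega

lemma Nu.V.s_lt_W : ν.s < ν.WW := by
  have h2 := hν.lam_lt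
  have h3 := hν.D_W
  have h6 : ν.s ≤ ν.s ^ 3 := Nat.le_self_pow (by omega) _
  omega

/-- The increment relation. -/
lemma Nu.V.incN_iff (j0 j : ℕ) (d d' : Fin ν.n) : ν.incN j0 j d.val d'.val ↔ incAt j0 j d d' := by
  have hd := d.isLt
  have hW := hν.n_lt_W
  have hc : capS ν.WW d.val = d.val + 1 := by
    unfold capS
    rw [if_pos (by omega)]
  unfold Nu.incN incAt
  rw [hc, Fin.ext_iff]

/-- The digit condition. -/
lemma Nu.V.digA_iff (j : Fin (ν.L + 2)) (l : ℕ) (x0 x1 x2 : LamC (Fin ν.γ × Option (Fin q)) ν.n) :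
    ν.digA j.val l (lamN ν.s x0) (lamN ν.s x1) (lamN ν.s x2) ↔
      DigA (Lt := ν.L) j l x0 x1 x2 := by
  unfold Nu.digA DigA
  rw [hν.lam_isDig, hν.lam_isDig, hν.lam_eq, hν.lam_eq]
  by_cases hl : l ≤ ν.L
  · rw [if_pos hl]
    constructor
    · rintro (⟨-, ⟨d, rfl⟩, rfl, rfl⟩ | ⟨h, -⟩)
      · exact ⟨d, rfl, rfl, rfl⟩
      · exact absurd hl h
    · rintro ⟨d, rfl, rfl, rfl⟩
      exact Or.inl ⟨hl, ⟨d, rfl⟩, rfl, rfl⟩
  · rw [if_neg hl]
    constructor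
    · rintro (⟨h, -⟩ | ⟨-, ⟨d, rfl⟩, ⟨d', rfl⟩, rfl, hi⟩)
      · exact absurd h hl
      · exact ⟨d, d', rfl, rfl, rfl, (hν.incN_iff _ _ _ _).mp hi⟩
    · rintro ⟨d, d', rfl, rfl, rfl, hi⟩
      exact Or.inr ⟨hl, ⟨d, rfl⟩, ⟨d', rfl⟩, rfl, (hν.incN_iff _ _ _ _).mpr hi⟩

include hM

/-- The next symbol of a cell. -/
lemma Nu.V.nxY_eq (a b c : Fin ν.γ × Option (Fin q)) :
    ν.nxY (sgN b) = (M.caRule a b c).1.val := by
  unfold Nu.nxY
  rw [sgN_div, sgN_mod]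
  rcases b with ⟨y, _ | st⟩
  · simp [hN, DTM.caRule]
  · simp only [hN, DTM.caRule]
    have := hM.tbl1 st y
    simpa using this

/-- The move numbers. -/
lemma Nu.V.arr_eq (k : ℕ) (a : Fin ν.γ × Option (Fin q)) :
    ν.arr k (sgN a) = hN (M.fromD k a) := by
  unfold Nu.arr
  rw [sgN_div, sgN_mod]
  rcases a with ⟨y, _ | st⟩
  · simp [hN, DTM.fromD]
  · simp only [hN, DTM.fromD, Option.bind_some]
    have h1 := hM.tbl2 st y
    have h2 := hM.tbl0 st y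
    simp only [ne_eq, Nat.add_eq_zero_iff, one_ne_zero, and_false, not_false_eq_true,
      Nat.add_sub_cancel, true_and]
    rw [h1, h2]
    have hW := hν.q_lt_W
    have hq := (M.δ st y).1.isLt
    have hc : capS ν.WW (M.δ st y).1.val = (M.δ st y).1.val + 1 := by
      unfold capS
      rw [if_pos (by omega)]
    rw [hc]
    split_ifs <;> simp [hN]

/-- The next head of a cell. -/
lemma Nu.V.nxH_eq (a b c : Fin ν.γ × Option (Fin q)) :
    ν.nxH (sgN a) (sgN b) (sgN c) = hN (M.caRule a b c).2 := by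
  unfold Nu.nxH
  rw [hν.arr_eq hM, hν.arr_eq hM, hν.arr_eq hM]
  simp only [DTM.caRule]
  rw [hN_orElse]
  show _ = if _ then _ else hN ((M.fromD 2 b).orElse fun _ => M.fromD 0 c)
  rw [hN_orElse]

/-- The rule in numbers. -/
lemma Nu.V.rule_iff (a b c d : Fin ν.γ × Option (Fin q)) :
    (sgN d % ν.γ = ν.nxY (sgN b) ∧ sgN d / ν.γ = ν.nxH (sgN a) (sgN b) (sgN c)) ↔
      d = M.caRule a b c := by
  rw [hν.nxY_eq hM a b c, hν.nxH_eq hM, sgN_mod, sgN_div]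
  constructor
  · rintro ⟨h1, h2⟩
    exact Prod.ext (Fin.ext h1) (hN_inj h2)
  · rintro rfl
    exact ⟨rfl, rfl⟩

/-- The input in numbers. -/
lemma Nu.V.xinN_eq (d : Fin ν.n) : ν.xinN d.val = sgN (M.xinC x d) := by
  unfold Nu.xinN DTM.xinC sgN
  have hlt := sgN_lt_s hν.s_eq (M.xinC x d)
  unfold DTM.xinC sgN at hlt
  have hW := hν.s_lt_W
  rw [hM.inp_eq] at hlt ⊢
  by_cases h0 : d.val = 0
  · simp only [h0, if_true] at hlt ⊢
    simp only [hN, hM.start0] at hlt ⊢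
    rw [min_eq_left (by simp only [zero_add, mul_one] at hlt ⊢; omega)]
    simp
  · simp only [h0, if_false] at hlt ⊢
    simp only [hN] at hlt ⊢
    rw [min_eq_left (by simp only [mul_zero, add_zero] at hlt ⊢; omega)]
    simp

omit hν hM in
lemma Nu.body4 (ν : Nu) (l x0 x1 x2 : ℕ) :
    ν.body 4 l x0 x1 x2 ↔ (x1 = x2 ∧ (l = 0 → x0 = ν.tr ∧ ν.isK 2 x1 ∧ ν.hp x1 / ν.γ = 2)) := by
  unfold Nu.body
  constructor
  · rintro (⟨h, -⟩ | ⟨h, -⟩ | ⟨h, -⟩ | ⟨h, -⟩ | ⟨-, h⟩ | ⟨h, h', -⟩ | ⟨h, h', -⟩ | ⟨h, h', -⟩ |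
      ⟨h, h', -⟩ | ⟨h, h', -⟩) <;> first | omega | exact h
  · intro h
    exact Or.inr (Or.inr (Or.inr (Or.inr (Or.inl ⟨rfl, h⟩))))

omit hν hM in
lemma Nu.body5 (ν : Nu) (j l x0 x1 x2 : ℕ) :
    ν.body (5 + 10 * j) l x0 x1 x2 ↔
      ((l = 0 ∧ ν.isK 2 x0 ∧ ν.isK 2 x1 ∧ ν.isK 3 x2 ∧ ν.hp x2 % ν.s = ν.hp x0 ∧
        ν.hp x2 / ν.s = ν.hp x1) ∨ (l ≠ 0 ∧ ν.digA j l x0 x1 x2)) := by
  have h1 : (5 + 10 * j) % 10 = 5 := by omega
  have h2 : (5 + 10 * j) / 10 = j := by omega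
  unfold Nu.body
  rw [h1, h2]
  constructor
  · rintro (⟨h, -⟩ | ⟨h, -⟩ | ⟨h, -⟩ | ⟨h, -⟩ | ⟨h, -⟩ | ⟨-, -, h⟩ | ⟨-, h, -⟩ | ⟨-, h, -⟩ |
      ⟨-, h, -⟩ | ⟨-, h, -⟩) <;> first | omega | exact h
  · intro h
    exact Or.inr (Or.inr (Or.inr (Or.inr (Or.inr (Or.inl ⟨by omega, rfl, h⟩)))))

omit hν hM in
lemma Nu.body6 (ν : Nu) (j l x0 x1 x2 : ℕ) :
    ν.body (6 + 10 * j) l x0 x1 x2 ↔
      ((l = 0 ∧ ν.isK 2 x0 ∧ ν.isK 3 x1 ∧ ν.isK 4 x2 ∧ ν.hp x2 % ν.s = ν.hp x0 ∧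
        ν.hp x2 / ν.s = ν.hp x1) ∨ (l ≠ 0 ∧ ν.digA j l x0 x1 x2)) := by
  have h1 : (6 + 10 * j) % 10 = 6 := by omega
  have h2 : (6 + 10 * j) / 10 = j := by omega
  unfold Nu.body
  rw [h1, h2]
  constructor
  · rintro (⟨h, -⟩ | ⟨h, -⟩ | ⟨h, -⟩ | ⟨h, -⟩ | ⟨h, -⟩ | ⟨-, h, -⟩ | ⟨-, -, h⟩ | ⟨-, h, -⟩ |
      ⟨-, h, -⟩ | ⟨-, h, -⟩) <;> first | omega | exact h
  · intro h
    exact Or.inr (Or.inr (Or.inr (Or.inr (Or.inr (Or.inr (Or.inl ⟨by omega, rfl, h⟩))))))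

omit hν hM in
lemma Nu.body7 (ν : Nu) (j l x0 x1 x2 : ℕ) :
    ν.body (7 + 10 * j) l x0 x1 x2 ↔
      ((l = 0 ∧ ν.isK 4 x0 ∧ x1 = x0 ∧ ν.isK 2 x2 ∧
        ν.hp x2 % ν.γ = ν.nxY (ν.hp x0 / ν.s % ν.s) ∧
        ν.hp x2 / ν.γ = ν.nxH (ν.hp x0 % ν.s) (ν.hp x0 / ν.s % ν.s) (ν.hp x0 / ν.s / ν.s)) ∨
      (l ≠ 0 ∧ l ≤ ν.L ∧ ν.isDig x0 ∧ x1 = x0 ∧ ν.isDig x2 ∧
        ν.incN (j % ν.L) (l - 1) x0 x2) ∨
      (¬ l ≤ ν.L ∧ ν.isDig x0 ∧ x1 = x0 ∧ ν.isDig x2 ∧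
        ν.incN (j / ν.L) (l - 1 - ν.L) x0 x2)) := by
  have h1 : (7 + 10 * j) % 10 = 7 := by omega
  have h2 : (7 + 10 * j) / 10 = j := by omega
  unfold Nu.body
  rw [h1, h2]
  constructor
  · rintro (⟨h, -⟩ | ⟨h, -⟩ | ⟨h, -⟩ | ⟨h, -⟩ | ⟨h, -⟩ | ⟨-, h, -⟩ | ⟨-, h, -⟩ | ⟨-, -, h⟩ |
      ⟨-, h, -⟩ | ⟨-, h, -⟩) <;> first | omega | exact h
  · intro h
    exact Or.inr (Or.inr (Or.inr (Or.inr (Or.inr (Or.inr (Or.inr (Or.inl ⟨by omega, rfl, h⟩)))))))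

omit hν hM in
lemma Nu.body8 (ν : Nu) (j l x0 x1 x2 : ℕ) :
    ν.body (8 + 10 * j) l x0 x1 x2 ↔
      ((l = 0 ∧ x0 = ν.n ∧ x1 = ν.n ∧ ν.isK 2 x2 ∧ ν.hp x2 = j) ∨
      (l = ν.L1 ∧ ν.isDig x2 ∧ ν.xinN x2 = j) ∨
      (l ≠ 0 ∧ l ≠ ν.L1 ∧ x2 = 0)) := by
  have h1 : (8 + 10 * j) % 10 = 8 := by omega
  have h2 : (8 + 10 * j) / 10 = j := by omega
  unfold Nu.body
  rw [h1, h2]
  constructor
  · rintro (⟨h, -⟩ | ⟨h, -⟩ | ⟨h, -⟩ | ⟨h, -⟩ | ⟨h, -⟩ | ⟨-, h, -⟩ | ⟨-, h, -⟩ | ⟨-, h, -⟩ |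
      ⟨-, -, h⟩ | ⟨-, h, -⟩) <;> first | omega | exact h
  · intro h
    exact Or.inr (Or.inr (Or.inr (Or.inr (Or.inr (Or.inr (Or.inr (Or.inr (Or.inl
      ⟨by omega, rfl, h⟩))))))))

omit hν hM in
lemma Nu.body9 (ν : Nu) (j l x0 x1 x2 : ℕ) :
    ν.body (9 + 10 * j) l x0 x1 x2 ↔
      ((l = 0 ∧ x0 = ν.n ∧ x1 = ν.n ∧ ν.isK 2 x2 ∧ ν.hp x2 = 2 ∧ j ≠ 0) ∨
      (l ≠ 0 ∧ ν.isDig x2 ∧ (l ≤ ν.L → x2 = 0) ∧ (l = min (ν.L1 + j) ν.WW → x2 ≠ 0))) := by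
  have h1 : (9 + 10 * j) % 10 = 9 := by omega
  have h2 : (9 + 10 * j) / 10 = j := by omega
  unfold Nu.body
  rw [h1, h2]
  constructor
  · rintro (⟨h, -⟩ | ⟨h, -⟩ | ⟨h, -⟩ | ⟨h, -⟩ | ⟨h, -⟩ | ⟨-, h, -⟩ | ⟨-, h, -⟩ | ⟨-, h, -⟩ |
      ⟨-, h, -⟩ | ⟨-, -, h⟩) <;> first | omega | exact h
  · intro h
    exact Or.inr (Or.inr (Or.inr (Or.inr (Or.inr (Or.inr (Or.inr (Or.inr (Or.inr
      ⟨by omega, rfl, h⟩))))))))

/-- The conditions for the tags below five. -/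
lemma Nu.V.body_small (t : Tag (Fin ν.γ × Option (Fin q)) ν.L ν.L) (ht : tagN t ≤ 4) (l : ℕ)
    (x0 x1 x2 : LamC (Fin ν.γ × Option (Fin q)) ν.n) :
    ν.body (tagN t) l (lamN ν.s x0) (lamN ν.s x1) (lamN ν.s x2) ↔
      BodyC M.caRule (M.xinC x) M.blC M.accC t l x0 x1 x2 := by
  have hk : ∀ y : LamC (Fin ν.γ × Option (Fin q)) ν.n, lamN ν.s y = ν.n ↔ y = Sum.inr Hd.kap :=
    fun _ => hν.lam_eq_n
  have ht' : ∀ y : LamC (Fin ν.γ × Option (Fin q)) ν.n, lamN ν.s y = ν.tr ↔ y = Sum.inr Hd.trap :=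
    fun _ => hν.lam_eq_tr
  have he : ∀ y y' : LamC (Fin ν.γ × Option (Fin q)) ν.n, lamN ν.s y = lamN ν.s y' ↔ y = y' :=
    fun _ _ => hν.lam_eq
  cases t with
  | kkk => simp [Nu.body, tagN, BodyC, hk]
  | e0 => simp [Nu.body, tagN, BodyC, hk, ht', he]
  | e1 => simp [Nu.body, tagN, BodyC, hk, ht', he]
  | e2 => simp [Nu.body, tagN, BodyC, hk, ht', he]
  | fin =>
    simp only [tagN, BodyC]
    rw [ν.body4, he, ht', hν.lam_isK2]
    refine and_congr_right fun _ => imp_congr_right fun _ => and_congr_right fun _ => ?_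
    constructor
    · rintro ⟨⟨a, rfl⟩, h2⟩
      refine ⟨a, rfl, ?_⟩
      rw [hp_cell, sgN_div] at h2
      unfold DTM.accC
      rcases a with ⟨y, _ | st⟩
      · simp [hN] at h2
      · simp only [hN] at h2
        have : st = M.acc := Fin.ext (by have := hM.acc1; omega)
        rw [this]
    · rintro ⟨a, rfl, h2⟩
      refine ⟨⟨a, rfl⟩, ?_⟩
      rw [hp_cell, sgN_div]
      unfold DTM.accC at h2
      rw [h2]
      simp only [hN]
      have := hM.acc1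
      omega
  | and1 j => simp only [tagN] at ht; omega
  | and2 j => simp only [tagN] at ht; omega
  | one i j => simp only [tagN] at ht; omega
  | iin a => simp only [tagN] at ht; omega
  | iout j => simp only [tagN] at ht; omega

/-- The local condition in numbers and the local condition of the machine. -/
lemma Nu.V.body_iff (t : Tag (Fin ν.γ × Option (Fin q)) ν.L ν.L) (l : ℕ)
    (x0 x1 x2 : LamC (Fin ν.γ × Option (Fin q)) ν.n) :
    ν.body (tagN t) l (lamN ν.s x0) (lamN ν.s x1) (lamN ν.s x2) ↔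
      BodyC M.caRule (M.xinC x) M.blC M.accC t l x0 x1 x2 := by
  have hs := hν.s_eq
  have hs0 := hν.s_pos
  have hsl : ∀ a : Fin ν.γ × Option (Fin q), sgN a < ν.s := sgN_lt_s hν.s_eq
  have hk : ∀ y : LamC (Fin ν.γ × Option (Fin q)) ν.n, lamN ν.s y = ν.n ↔ y = Sum.inr Hd.kap :=
    fun _ => hν.lam_eq_n
  have he : ∀ y y' : LamC (Fin ν.γ × Option (Fin q)) ν.n, lamN ν.s y = lamN ν.s y' ↔ y = y' :=
    fun _ _ => hν.lam_eq
  cases t with
  | kkk => exact hν.body_small hM _ (by simp [tagN]) _ _ _ _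
  | e0 => exact hν.body_small hM _ (by simp [tagN]) _ _ _ _
  | e1 => exact hν.body_small hM _ (by simp [tagN]) _ _ _ _
  | e2 => exact hν.body_small hM _ (by simp [tagN]) _ _ _ _
  | fin => exact hν.body_small hM _ (by simp [tagN]) _ _ _ _
  | and1 j =>
    simp only [tagN, BodyC]
    rw [ν.body5, hν.digA_iff]
    by_cases hl : l = 0
    · rw [if_pos hl]
      constructor
      · rintro (⟨-, h1, h2, h3, h4, h5⟩ | ⟨h, -⟩)
        · obtain ⟨a, rfl⟩ := hν.lam_isK2.mp h1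
          obtain ⟨b, rfl⟩ := hν.lam_isK2.mp h2
          obtain ⟨a', b', rfl⟩ := hν.lam_isK3.mp h3
          rw [hp_pair, hp_cell, (mod_div_add (hsl a')).1] at h4
          rw [hp_pair, hp_cell, (mod_div_add (hsl a')).2] at h5
          rw [sgN_inj h4, sgN_inj h5]
          exact ⟨a, b, rfl, rfl, rfl⟩
        · exact absurd hl h
      · rintro ⟨a, b, rfl, rfl, rfl⟩
        refine Or.inl ⟨hl, hν.lam_isK2.mpr ⟨a, rfl⟩, hν.lam_isK2.mpr ⟨b, rfl⟩,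
          hν.lam_isK3.mpr ⟨a, b, rfl⟩, ?_, ?_⟩
        · rw [hp_pair, hp_cell, (mod_div_add (hsl a)).1]
        · rw [hp_pair, hp_cell, (mod_div_add (hsl a)).2]
    · rw [if_neg hl]
      constructor
      · rintro (⟨h, -⟩ | ⟨-, h⟩)
        · exact absurd h hl
        · exact h
      · intro h
        exact Or.inr ⟨hl, h⟩
  | and2 j =>
    simp only [tagN, BodyC]
    rw [ν.body6, hν.digA_iff]
    by_cases hl : l = 0
    · rw [if_pos hl]
      constructor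
      · rintro (⟨-, h1, h2, h3, h4, h5⟩ | ⟨h, -⟩)
        · obtain ⟨a, rfl⟩ := hν.lam_isK2.mp h1
          obtain ⟨b, c, rfl⟩ := hν.lam_isK3.mp h2
          obtain ⟨a', b', c', rfl⟩ := hν.lam_isK4.mp h3
          rw [hp_trip, hp_cell, (mod_div_add (hsl a')).1] at h4
          rw [hp_trip, hp_pair, (mod_div_add (hsl a')).2] at h5
          obtain ⟨e1, e2⟩ := mul_add_unique (hsl b') (hsl b) h5
          rw [sgN_inj h4, sgN_inj e1, sgN_inj e2]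
          exact ⟨a, b, c, rfl, rfl, rfl⟩
        · exact absurd hl h
      · rintro ⟨a, b, c, rfl, rfl, rfl⟩
        refine Or.inl ⟨hl, hν.lam_isK2.mpr ⟨a, rfl⟩, hν.lam_isK3.mpr ⟨b, c, rfl⟩,
          hν.lam_isK4.mpr ⟨a, b, c, rfl⟩, ?_, ?_⟩
        · rw [hp_trip, hp_cell, (mod_div_add (hsl a)).1]
        · rw [hp_trip, hp_pair, (mod_div_add (hsl a)).2]
    · rw [if_neg hl]
      constructor
      · rintro (⟨h, -⟩ | ⟨-, h⟩)
        · exact absurd h hl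
        · exact h
      · intro h
        exact Or.inr ⟨hl, h⟩
  | one i j =>
    simp only [tagN, BodyC]
    rw [ν.body7, (mod_div_add i.isLt).1, (mod_div_add i.isLt).2, hν.lam_isDig, hν.lam_isDig, he]
    by_cases hl : l = 0
    · rw [if_pos hl]
      constructor
      · rintro (⟨-, h1, rfl, h3, h4, h5⟩ | ⟨h, -⟩ | ⟨h, -⟩)
        · obtain ⟨a, b, c, rfl⟩ := hν.lam_isK4.mp h1
          obtain ⟨d, rfl⟩ := hν.lam_isK2.mp h3
          have hb := hsl b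
          have hc := hsl c
          have ha := hsl a
          rw [hp_trip, (mod_div_add ha).2, (mod_div_add hb).1, hp_cell] at h4
          rw [hp_trip, (mod_div_add ha).2, (mod_div_add hb).1, (mod_div_add hb).2,
            (mod_div_add ha).1, hp_cell] at h5
          rw [(hν.rule_iff hM a b c d).mp ⟨h4, h5⟩]
          exact ⟨a, b, c, rfl, rfl, rfl⟩
        · exact absurd hl h
        · omega
      · rintro ⟨a, b, c, rfl, rfl, rfl⟩
        have ha := hsl a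
        have hb := hsl b
        refine Or.inl ⟨hl, hν.lam_isK4.mpr ⟨a, b, c, rfl⟩, rfl, hν.lam_isK2.mpr ⟨_, rfl⟩, ?_, ?_⟩
        · rw [hp_trip, (mod_div_add ha).2, (mod_div_add hb).1, hp_cell]
          exact ((hν.rule_iff hM a b c _).mpr rfl).1
        · rw [hp_trip, (mod_div_add ha).2, (mod_div_add hb).1, (mod_div_add hb).2,
            (mod_div_add ha).1, hp_cell]
          exact ((hν.rule_iff hM a b c _).mpr rfl).2
    · rw [if_neg hl]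
      by_cases hl2 : l ≤ ν.L
      · rw [if_pos hl2]
        constructor
        · rintro (⟨h, -⟩ | ⟨-, -, ⟨d, rfl⟩, rfl, ⟨d', rfl⟩, hi⟩ | ⟨h, -⟩)
          · exact absurd h hl
          · exact ⟨d, d', rfl, rfl, rfl, (hν.incN_iff _ _ _ _).mp hi⟩
          · exact absurd hl2 h
        · rintro ⟨d, d', rfl, rfl, rfl, hi⟩
          exact Or.inr (Or.inl ⟨hl, hl2, ⟨d, rfl⟩, rfl, ⟨d', rfl⟩, (hν.incN_iff _ _ _ _).mpr hi⟩)
      · rw [if_neg hl2]
        constructor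
        · rintro (⟨h, -⟩ | ⟨-, h, -⟩ | ⟨-, ⟨d, rfl⟩, rfl, ⟨d', rfl⟩, hi⟩)
          · exact absurd h hl
          · exact absurd h hl2
          · exact ⟨d, d', rfl, rfl, rfl, (hν.incN_iff _ _ _ _).mp hi⟩
        · rintro ⟨d, d', rfl, rfl, rfl, hi⟩
          exact Or.inr (Or.inr ⟨hl2, ⟨d, rfl⟩, rfl, ⟨d', rfl⟩, (hν.incN_iff _ _ _ _).mpr hi⟩)
  | iin a =>
    simp only [tagN, BodyC]
    rw [ν.body8, hk, hk, hν.lam_isDig]
    have hL1 := hν.L1_eq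
    by_cases hl : l = 0
    · rw [if_pos hl]
      constructor
      · rintro (⟨-, h1, h2, h3, h4⟩ | ⟨h, -⟩ | ⟨h, -⟩)
        · obtain ⟨a', rfl⟩ := hν.lam_isK2.mp h3
          rw [hp_cell] at h4
          rw [sgN_inj h4]
          exact ⟨h1, h2, rfl⟩
        · omega
        · exact absurd hl h
      · rintro ⟨rfl, rfl, rfl⟩
        exact Or.inl ⟨hl, rfl, rfl, hν.lam_isK2.mpr ⟨a, rfl⟩, hp_cell a⟩
    · rw [if_neg hl]
      by_cases hl2 : l = ν.L + 1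
      · rw [if_pos hl2]
        constructor
        · rintro (⟨h, -⟩ | ⟨-, ⟨d, rfl⟩, h⟩ | ⟨-, h, -⟩)
          · exact absurd h hl
          · rw [show lamN ν.s (Sum.inl d : LamC (Fin ν.γ × Option (Fin q)) ν.n) = d.val from rfl,
              hν.xinN_eq hM] at h
            exact ⟨d, rfl, sgN_inj h⟩
          · omega
        · rintro ⟨d, rfl, h⟩
          refine Or.inr (Or.inl ⟨by omega, ⟨d, rfl⟩, ?_⟩)
          rw [show lamN ν.s (Sum.inl d : LamC (Fin ν.γ × Option (Fin q)) ν.n) = d.val from rfl,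
            hν.xinN_eq hM, h]
      · rw [if_neg hl2]
        constructor
        · rintro (⟨h, -⟩ | ⟨h, -⟩ | ⟨-, -, h⟩)
          · exact absurd h hl
          · omega
          · rcases x2 with d | H
            · exact ⟨d, rfl, h⟩
            · simp only [lamN] at h
              have := hν.n3
              omega
        · rintro ⟨d, rfl, h⟩
          exact Or.inr (Or.inr ⟨hl, by omega, h⟩)
  | iout j =>
    simp only [tagN, BodyC]
    rw [ν.body9, hk, hk, hν.lam_isDig]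
    have hL1 := hν.L1_eq
    have hjlt : ν.L1 + j.val < ν.WW := by
      have := j.isLt
      have := hν.N1_lt
      have := hν.D_W
      have := hν.N_eq
      have := hν.N1_eq
      omega
    rw [min_eq_left hjlt.le]
    by_cases hl : l = 0
    · rw [if_pos hl]
      constructor
      · rintro (⟨-, h1, h2, h3, h4, h5⟩ | ⟨h, -⟩)
        · obtain ⟨a', rfl⟩ := hν.lam_isK2.mp h3
          rw [hp_cell] at h4
          refine ⟨h1, h2, ?_, h5⟩
          have e : sgN a' = sgN (M.blC) := by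
            rw [h4]
            unfold DTM.blC sgN
            simp only [hN, hM.blank2]
            omega
          rw [sgN_inj e]
        · exact absurd hl h
      · rintro ⟨rfl, rfl, rfl, h⟩
        refine Or.inl ⟨hl, rfl, rfl, hν.lam_isK2.mpr ⟨_, rfl⟩, ?_, h⟩
        rw [hp_cell]
        unfold DTM.blC sgN
        simp only [hN, hM.blank2]
        omega
    · rw [if_neg hl]
      constructor
      · rintro (⟨h, -⟩ | ⟨-, ⟨d, rfl⟩, h2, h3⟩)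
        · exact absurd h hl
        · refine ⟨d, rfl, h2, fun h4 => h3 (by omega)⟩
      · rintro ⟨d, rfl, h2, h3⟩
        exact Or.inr ⟨hl, ⟨d, rfl⟩, h2, fun h4 => h3 (by omega)⟩

end

end Vale.Agent.Lib.P310V
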