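import Vale.Agent.Lib.P310V.Sem3

set_option linter.unusedSectionVars false

/-!
The numbers of coordinates, clauses and letters of the string system of a machine.
-/

namespace Vale.Agent.Lib.P310V

open Finset

/-- The tableau letters. -/
abbrev SgT (ν : Nu) (q : ℕ) : Type := Fin ν.γ × Option (Fin q)

/-- The coordinates. -/
abbrev IT (ν : Nu) : Type := SCo (ν.L + ν.L + 1) ν.pad

/-- The clauses. -/
abbrev ClT (ν : Nu) : Type := SCl (ν.L + ν.L + 1) ν.b ν.b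

/-- The letters. -/
abbrev LetT (ν : Nu) (q : ℕ) : Type :=
  SLet (LamC (SgT ν q) ν.n) (Tag (SgT ν q) ν.L ν.L) (ν.L + ν.L + 1) ν.pad

/-- The digits of a coordinate. -/
def coL {ν : Nu} : IT ν → List ℕ
  | SCo.cf τ j l => [1, τ.val, j.val, l.val]
  | SCo.cw j l => [2, j.val, l.val]
  | SCo.cp i => [3, i.val]

/-- The digits of a clause. -/
def clL {ν : Nu} : ClT ν → List ℕ
  | SCl.cq τ j j' l bit x => [0, τ.val, j.val, j'.val, l.val, bit.val, x.toNat]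
  | SCl.fl τ j l => [1, τ.val, j.val, l.val]
  | SCl.rl τ j l bit x => [2, τ.val, j.val, l.val, bit.val, x.toNat]
  | SCl.vl j l => [3, j.val, l.val]
  | SCl.ad j l bit x => [4, j.val, l.val, bit.val, x.toNat]
  | SCl.dc j l => [5, j.val, l.val]
  | SCl.ec j l => [6, j.val, l.val]
  | SCl.zc τ j => [7, τ.val, j.val]

/-- The digits of a letter. -/
def letL {ν : Nu} {q : ℕ} : LetT ν q → List ℕ
  | SLet.fld τ j l a f => [1, τ.val, j.val, l.val, lamN ν.s a, f.toNat]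
  | SLet.wit j l c u u' m => [2, j.val, l.val, lamN ν.s (c 0), lamN ν.s (c 1), lamN ν.s (c 2),
      tagN u, tagN u', m.val]
  | SLet.pd i => [3, i.val]

/-- The number of a coordinate. -/
def coN {ν : Nu} (i : IT ν) : ℕ := pk ν.D (coL i)

/-- The number of a clause. -/
def clN {ν : Nu} (κ : ClT ν) : ℕ := pk ν.D (clL κ)

/-- The number of a letter. -/
def letN {ν : Nu} {q : ℕ} (ℓ : LetT ν q) : ℕ := pk ν.D (letL ℓ)

section

variable {ν : Nu} {q g : ℕ} (hν : ν.V q g)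

include hν

lemma Nu.V.D_big : 13 ≤ ν.D := by
  have h1 := hν.lam_lt
  have h2 := hν.n3
  have h3 := hν.s_pos
  have h4 : 1 ≤ ν.s ^ 3 := Nat.one_le_pow _ _ h3
  omega

lemma Nu.V.N_lt : ν.L + ν.L + 1 + 1 + 10 ≤ ν.D := by
  have h1 := hν.N1_lt
  have h2 := hν.N1_eq
  have h3 := hν.N_eq
  omega

lemma Nu.V.coL_lt (i : IT ν) : ∀ x ∈ coL i, x < ν.D := by
  have hD := hν.D_big
  have hN := hν.N_lt
  have hp := hν.pad_lt
  rcases i with ⟨τ, j, l⟩ | ⟨j, l⟩ | ⟨i⟩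
  · simp only [coL, List.mem_cons, List.not_mem_nil, or_false, forall_eq_or_imp, forall_eq]
    omega
  · simp only [coL, List.mem_cons, List.not_mem_nil, or_false, forall_eq_or_imp, forall_eq]
    omega
  · simp only [coL, List.mem_cons, List.not_mem_nil, or_false, forall_eq_or_imp, forall_eq]
    omega

lemma Nu.V.clL_lt (κ : ClT ν) : ∀ x ∈ clL κ, x < ν.D := by
  have hD := hν.D_big
  have hN := hν.N_lt
  have hb := hν.b_lt
  have hB : ∀ x : Bool, x.toNat < 2 := fun x => by cases x <;> simp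
  rcases κ with ⟨τ, j, j', l, bit, x⟩ | ⟨τ, j, l⟩ | ⟨τ, j, l, bit, x⟩ | ⟨j, l⟩ | ⟨j, l, bit, x⟩ |
    ⟨j, l⟩ | ⟨j, l⟩ | ⟨τ, j⟩ <;>
  · simp only [clL, List.mem_cons, List.not_mem_nil, or_false, forall_eq_or_imp, forall_eq]
    try have := hB x
    omega

lemma Nu.V.letL_lt (ℓ : LetT ν q) : ∀ x ∈ letL ℓ, x < ν.D := by
  have hD := hν.D_big
  have hN := hν.N_lt
  have hp := hν.pad_lt
  have hB : ∀ x : Bool, x.toNat < 2 := fun x => by cases x <;> simp
  have hl := hν.lamN_lt_D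
  have ht := hν.tagN_lt_D
  rcases ℓ with ⟨τ, j, l, a, f⟩ | ⟨j, l, c, u, u', m⟩ | ⟨i⟩
  · simp only [letL, List.mem_cons, List.not_mem_nil, or_false, forall_eq_or_imp, forall_eq]
    have := hB f
    have := hl a
    omega
  · simp only [letL, List.mem_cons, List.not_mem_nil, or_false, forall_eq_or_imp, forall_eq]
    have := hl (c 0)
    have := hl (c 1)
    have := hl (c 2)
    have := ht u
    have := ht u'
    omega
  · simp only [letL, List.mem_cons, List.not_mem_nil, or_false, forall_eq_or_imp, forall_eq]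
    omega

lemma Nu.V.d_co (i : IT ν) (k : ℕ) : ν.d k (coN i) = (coL i).getD k 0 :=
  dgt_pk hν.D_pos (hν.coL_lt i) k

lemma Nu.V.d_cl (κ : ClT ν) (k : ℕ) : ν.d k (clN κ) = (clL κ).getD k 0 :=
  dgt_pk hν.D_pos (hν.clL_lt κ) k

lemma Nu.V.d_let (ℓ : LetT ν q) (k : ℕ) : ν.d k (letN ℓ) = (letL ℓ).getD k 0 :=
  dgt_pk hν.D_pos (hν.letL_lt ℓ) k

lemma Nu.V.coN_lt (i : IT ν) : coN i < ν.D ^ 4 := by
  have h := pk_lt hν.D_pos (hν.coL_lt i)
  have hD := hν.D_pos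
  refine lt_of_lt_of_le h (Nat.pow_le_pow_right hD ?_)
  rcases i with ⟨τ, j, l⟩ | ⟨j, l⟩ | ⟨i⟩ <;> simp [coL]

lemma Nu.V.clN_lt (κ : ClT ν) : clN κ < ν.D ^ 7 := by
  have h := pk_lt hν.D_pos (hν.clL_lt κ)
  have hD := hν.D_pos
  refine lt_of_lt_of_le h (Nat.pow_le_pow_right hD ?_)
  rcases κ with ⟨τ, j, j', l, bit, x⟩ | ⟨τ, j, l⟩ | ⟨τ, j, l, bit, x⟩ | ⟨j, l⟩ | ⟨j, l, bit, x⟩ |
    ⟨j, l⟩ | ⟨j, l⟩ | ⟨τ, j⟩ <;> simp [clL]

lemma Nu.V.letN_lt (ℓ : LetT ν q) : letN ℓ < ν.D ^ 9 := by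
  have h := pk_lt hν.D_pos (hν.letL_lt ℓ)
  have hD := hν.D_pos
  refine lt_of_lt_of_le h (Nat.pow_le_pow_right hD ?_)
  rcases ℓ with ⟨τ, j, l, a, f⟩ | ⟨j, l, c, u, u', m⟩ | ⟨i⟩ <;> simp [letL]

/-- The numbers of coordinates are injective. -/
lemma Nu.V.coN_inj : Function.Injective (coN (ν := ν)) := by
  intro i i' h
  have h0 := congrArg (ν.d 0) h
  have h1 := congrArg (ν.d 1) h
  have h2 := congrArg (ν.d 2) h
  have h3 := congrArg (ν.d 3) h
  simp only [hν.d_co] at h0 h1 h2 h3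
  rcases i with ⟨τ, j, l⟩ | ⟨j, l⟩ | ⟨i⟩ <;> rcases i' with ⟨τ', j', l'⟩ | ⟨j', l'⟩ | ⟨i'⟩ <;>
    simp [coL] at h0 h1 h2 h3 ⊢ <;> simp_all [Fin.ext_iff]

/-- The numbers of clauses are injective. -/
lemma Nu.V.clN_inj : Function.Injective (clN (ν := ν)) := by
  intro i i' h
  have h0 := congrArg (ν.d 0) h
  have h1 := congrArg (ν.d 1) h
  have h2 := congrArg (ν.d 2) h
  have h3 := congrArg (ν.d 3) h
  have h4 := congrArg (ν.d 4) h
  have h5 := congrArg (ν.d 5) h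
  have h6 := congrArg (ν.d 6) h
  simp only [hν.d_cl] at h0 h1 h2 h3 h4 h5 h6
  have hB : ∀ x y : Bool, x.toNat = y.toNat → x = y := by decide
  rcases i with ⟨τ, j, j2, l, bit, x⟩ | ⟨τ, j, l⟩ | ⟨τ, j, l, bit, x⟩ | ⟨j, l⟩ | ⟨j, l, bit, x⟩ |
    ⟨j, l⟩ | ⟨j, l⟩ | ⟨τ, j⟩ <;>
  rcases i' with ⟨τ', j', j2', l', bit', x'⟩ | ⟨τ', j', l'⟩ | ⟨τ', j', l', bit', x'⟩ | ⟨j', l'⟩ |
    ⟨j', l', bit', x'⟩ | ⟨j', l'⟩ | ⟨j', l'⟩ | ⟨τ', j'⟩ <;>
  simp only [clL, List.getD_cons_zero, List.getD_cons_succ, List.getD_nil,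
    OfNat.ofNat_ne_zero, zero_ne_one, one_ne_zero, OfNat.zero_ne_ofNat, Nat.reduceEqDiff,
    OfNat.ofNat_ne_one, OfNat.one_ne_ofNat] at h0 h1 h2 h3 h4 h5 h6
  all_goals first
    | (simp only [SCl.cq.injEq, SCl.fl.injEq, SCl.rl.injEq, SCl.vl.injEq, SCl.ad.injEq,
        SCl.dc.injEq, SCl.ec.injEq, SCl.zc.injEq, Fin.ext_iff]
       first
        | exact ⟨h1, h2, h3, h4, h5, hB _ _ h6⟩
        | exact ⟨h1, h2, h3⟩
        | exact ⟨h1, h2, h3, h4, hB _ _ h5⟩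
        | exact ⟨h1, h2⟩
        | exact ⟨h1, h2, h3, hB _ _ h4⟩)

/-- The numbers of letters are injective. -/
lemma Nu.V.letN_inj : Function.Injective (letN (ν := ν) (q := q)) := by
  intro i i' h
  have h0 := congrArg (ν.d 0) h
  have h1 := congrArg (ν.d 1) h
  have h2 := congrArg (ν.d 2) h
  have h3 := congrArg (ν.d 3) h
  have h4 := congrArg (ν.d 4) h
  have h5 := congrArg (ν.d 5) h
  have h6 := congrArg (ν.d 6) h
  have h7 := congrArg (ν.d 7) h
  have h8 := congrArg (ν.d 8) h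
  simp only [hν.d_let] at h0 h1 h2 h3 h4 h5 h6 h7 h8
  have hB : ∀ x y : Bool, x.toNat = y.toNat → x = y := by decide
  rcases i with ⟨τ, j, l, a, f⟩ | ⟨j, l, c, u, v, m⟩ | ⟨i⟩ <;>
  rcases i' with ⟨τ', j', l', a', f'⟩ | ⟨j', l', c', u', v', m'⟩ | ⟨i'⟩ <;>
  simp only [letL, List.getD_cons_zero, List.getD_cons_succ, List.getD_nil,
    OfNat.ofNat_ne_zero, zero_ne_one, one_ne_zero, OfNat.zero_ne_ofNat, Nat.reduceEqDiff,
    OfNat.ofNat_ne_one, OfNat.one_ne_ofNat] at h0 h1 h2 h3 h4 h5 h6 h7 h8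
  · simp only [SLet.fld.injEq, Fin.ext_iff]
    exact ⟨h1, h2, h3, hν.lam_inj h4, hB _ _ h5⟩
  · simp only [SLet.wit.injEq, Fin.ext_iff]
    refine ⟨h1, h2, ?_, tagN_inj h6, tagN_inj h7, h8⟩
    funext τ
    fin_cases τ
    · exact hν.lam_inj h3
    · exact hν.lam_inj h4
    · exact hν.lam_inj h5
  · simp only [SLet.pd.injEq, Fin.ext_iff]
    exact h1

/-- The numbers of coordinates. -/
lemma Nu.V.isCo_iff (m : ℕ) : ν.isCo m ↔ ∃ i : IT ν, coN i = m := by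
  have hD := hν.D_pos
  have hN1 := hν.N1_eq
  have hN := hν.N_eq
  constructor
  · rintro (⟨h0, h, h1, h2, h3⟩ | ⟨h0, h, h1, h2⟩ | ⟨h0, h, h1⟩)
    · refine ⟨SCo.cf ⟨_, h1⟩ ⟨_, h2⟩ ⟨ν.d 3 m, by omega⟩, ?_⟩
      refine pk_of_digits hD _ m (fun i hi => ?_) h
      simp only [coL, List.length_cons, List.length_nil] at hi
      interval_cases i <;> simp [coL, h0]
    · refine ⟨SCo.cw ⟨_, h1⟩ ⟨ν.d 2 m, by omega⟩, ?_⟩
      refine pk_of_digits hD _ m (fun i hi => ?_) h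
      simp only [coL, List.length_cons, List.length_nil] at hi
      interval_cases i <;> simp [coL, h0]
    · refine ⟨SCo.cp ⟨_, h1⟩, ?_⟩
      refine pk_of_digits hD _ m (fun i hi => ?_) h
      simp only [coL, List.length_cons, List.length_nil] at hi
      interval_cases i <;> simp [coL, h0]
  · rintro ⟨i, rfl⟩
    have hz := fun k (hk : (coL i).length ≤ k) => pk_div_eq_zero hD (hν.coL_lt i) hk
    unfold Nu.isCo
    simp only [hν.d_co]
    rcases i with ⟨τ, j, l⟩ | ⟨j, l⟩ | ⟨i⟩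
    · refine Or.inl ⟨by simp [coL], hz 4 (by simp [coL]), by simp [coL], by simp [coL], ?_⟩
      simp only [coL, List.getD_cons_succ, List.getD_cons_zero]
      omega
    · refine Or.inr (Or.inl ⟨by simp [coL], hz 3 (by simp [coL]), by simp [coL], ?_⟩)
      simp only [coL, List.getD_cons_succ, List.getD_cons_zero]
      omega
    · refine Or.inr (Or.inr ⟨by simp [coL], hz 2 (by simp [coL]), by simp [coL]⟩)

/-- The numbers of clauses. -/
lemma Nu.V.isCl_iff (m : ℕ) : ν.isCl m ↔ ∃ i : ClT ν, clN i = m := by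
  have hD := hν.D_pos
  have hN1 := hν.N1_eq
  have hN := hν.N_eq
  have hb : ∀ k, k < 2 → ∃ x : Bool, x.toNat = k := by
    intro k hk
    interval_cases k
    · exact ⟨false, rfl⟩
    · exact ⟨true, rfl⟩
  constructor
  · rintro (⟨h0, h, h1, h2, h3, h4, h5, h6⟩ | ⟨h0, h, h1, h2, h3⟩ | ⟨h0, h, h1, h2, h3, h4, h5⟩ |
      ⟨h0, h, h1, h2⟩ | ⟨h0, h, h1, h2, h3, h4⟩ | ⟨h0, h, h1, h2⟩ | ⟨h0, h, h1, h2⟩ | ⟨h0, h, h1, h2⟩)
    · obtain ⟨x, hx⟩ := hb _ h6
      refine ⟨SCl.cq ⟨_, h1⟩ ⟨_, h2⟩ ⟨_, h3⟩ ⟨ν.d 4 m, by omega⟩ ⟨_, h5⟩ x, ?_⟩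
      refine pk_of_digits hD _ m (fun i hi => ?_) h
      simp only [clL, List.length_cons, List.length_nil] at hi
      interval_cases i <;> simp [clL, h0, hx]
    · refine ⟨SCl.fl ⟨_, h1⟩ ⟨_, h2⟩ ⟨ν.d 3 m, by omega⟩, ?_⟩
      refine pk_of_digits hD _ m (fun i hi => ?_) h
      simp only [clL, List.length_cons, List.length_nil] at hi
      interval_cases i <;> simp [clL, h0]
    · obtain ⟨x, hx⟩ := hb _ h5
      refine ⟨SCl.rl ⟨_, h1⟩ ⟨_, h2⟩ ⟨ν.d 3 m, by omega⟩ ⟨_, h4⟩ x, ?_⟩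
      refine pk_of_digits hD _ m (fun i hi => ?_) h
      simp only [clL, List.length_cons, List.length_nil] at hi
      interval_cases i <;> simp [clL, h0, hx]
    · refine ⟨SCl.vl ⟨_, h1⟩ ⟨ν.d 2 m, by omega⟩, ?_⟩
      refine pk_of_digits hD _ m (fun i hi => ?_) h
      simp only [clL, List.length_cons, List.length_nil] at hi
      interval_cases i <;> simp [clL, h0]
    · obtain ⟨x, hx⟩ := hb _ h4
      refine ⟨SCl.ad ⟨_, h1⟩ ⟨ν.d 2 m, by omega⟩ ⟨_, h3⟩ x, ?_⟩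
      refine pk_of_digits hD _ m (fun i hi => ?_) h
      simp only [clL, List.length_cons, List.length_nil] at hi
      interval_cases i <;> simp [clL, h0, hx]
    · refine ⟨SCl.dc ⟨_, h1⟩ ⟨ν.d 2 m, by omega⟩, ?_⟩
      refine pk_of_digits hD _ m (fun i hi => ?_) h
      simp only [clL, List.length_cons, List.length_nil] at hi
      interval_cases i <;> simp [clL, h0]
    · refine ⟨SCl.ec ⟨_, h1⟩ ⟨ν.d 2 m, by omega⟩, ?_⟩
      refine pk_of_digits hD _ m (fun i hi => ?_) h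
      simp only [clL, List.length_cons, List.length_nil] at hi
      interval_cases i <;> simp [clL, h0]
    · refine ⟨SCl.zc ⟨_, h1⟩ ⟨_, h2⟩, ?_⟩
      refine pk_of_digits hD _ m (fun i hi => ?_) h
      simp only [clL, List.length_cons, List.length_nil] at hi
      interval_cases i <;> simp [clL, h0]
  · rintro ⟨i, rfl⟩
    have hz := fun k (hk : (clL i).length ≤ k) => pk_div_eq_zero hD (hν.clL_lt i) hk
    have hB : ∀ x : Bool, x.toNat < 2 := fun x => by cases x <;> simp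
    unfold Nu.isCl
    simp only [hν.d_cl]
    rcases i with ⟨τ, j, j2, l, bit, x⟩ | ⟨τ, j, l⟩ | ⟨τ, j, l, bit, x⟩ | ⟨j, l⟩ | ⟨j, l, bit, x⟩ |
      ⟨j, l⟩ | ⟨j, l⟩ | ⟨τ, j⟩
    · refine Or.inl ⟨by simp [clL], hz 7 (by simp [clL]), ?_⟩
      simp only [clL, List.getD_cons_succ, List.getD_cons_zero]
      have := hB x
      omega
    · refine Or.inr (Or.inl ⟨by simp [clL], hz 4 (by simp [clL]), ?_⟩)
      simp only [clL, List.getD_cons_succ, List.getD_cons_zero]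
      omega
    · refine Or.inr (Or.inr (Or.inl ⟨by simp [clL], hz 6 (by simp [clL]), ?_⟩))
      simp only [clL, List.getD_cons_succ, List.getD_cons_zero]
      have := hB x
      omega
    · refine Or.inr (Or.inr (Or.inr (Or.inl ⟨by simp [clL], hz 3 (by simp [clL]), ?_⟩)))
      simp only [clL, List.getD_cons_succ, List.getD_cons_zero]
      omega
    · refine Or.inr (Or.inr (Or.inr (Or.inr (Or.inl ⟨by simp [clL], hz 5 (by simp [clL]), ?_⟩))))
      simp only [clL, List.getD_cons_succ, List.getD_cons_zero]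
      have := hB x
      omega
    · refine Or.inr (Or.inr (Or.inr (Or.inr (Or.inr (Or.inl ⟨by simp [clL], hz 3 (by simp [clL]),
        ?_⟩)))))
      simp only [clL, List.getD_cons_succ, List.getD_cons_zero]
      omega
    · refine Or.inr (Or.inr (Or.inr (Or.inr (Or.inr (Or.inr (Or.inl ⟨by simp [clL],
        hz 3 (by simp [clL]), ?_⟩))))))
      simp only [clL, List.getD_cons_succ, List.getD_cons_zero]
      omega
    · refine Or.inr (Or.inr (Or.inr (Or.inr (Or.inr (Or.inr (Or.inr ⟨by simp [clL],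
        hz 3 (by simp [clL]), ?_⟩))))))
      simp only [clL, List.getD_cons_succ, List.getD_cons_zero]
      omega

/-- The numbers of letters. -/
lemma Nu.V.isLet_iff (m : ℕ) : ν.isLet m ↔ ∃ i : LetT ν q, letN i = m := by
  have hD := hν.D_pos
  have hN1 := hν.N1_eq
  have hN := hν.N_eq
  have hb : ∀ k, k < 2 → ∃ x : Bool, x.toNat = k := by
    intro k hk
    interval_cases k
    · exact ⟨false, rfl⟩
    · exact ⟨true, rfl⟩
  constructor
  · rintro (⟨h0, h, h1, h2, h3, h4, h5⟩ | ⟨h0, h, h1, h2, h3, h4, h5, h6, h7, h8⟩ | ⟨h0, h, h1⟩)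
    · obtain ⟨x, hx⟩ := hb _ h5
      obtain ⟨a, ha⟩ := (hν.isLam_iff _).mp h4
      refine ⟨SLet.fld ⟨_, h1⟩ ⟨_, h2⟩ ⟨ν.d 3 m, by omega⟩ a x, ?_⟩
      refine pk_of_digits hD _ m (fun i hi => ?_) h
      simp only [letL, List.length_cons, List.length_nil] at hi
      interval_cases i <;> simp [letL, h0, hx, ha]
    · obtain ⟨a0, ha0⟩ := (hν.isLam_iff _).mp h3
      obtain ⟨a1, ha1⟩ := (hν.isLam_iff _).mp h4
      obtain ⟨a2, ha2⟩ := (hν.isLam_iff _).mp h5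
      obtain ⟨t1, ht1⟩ := (hν.isTag_iff _).mp h6
      obtain ⟨t2, ht2⟩ := (hν.isTag_iff _).mp h7
      refine ⟨SLet.wit ⟨_, h1⟩ ⟨ν.d 2 m, by omega⟩ ![a0, a1, a2] t1 t2 ⟨_, h8⟩, ?_⟩
      refine pk_of_digits hD _ m (fun i hi => ?_) h
      simp only [letL, List.length_cons, List.length_nil] at hi
      interval_cases i <;> simp [letL, h0, ha0, ha1, ha2, ht1, ht2]
    · refine ⟨SLet.pd ⟨_, h1⟩, ?_⟩
      refine pk_of_digits hD _ m (fun i hi => ?_) h
      simp only [letL, List.length_cons, List.length_nil] at hi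
      interval_cases i <;> simp [letL, h0]
  · rintro ⟨i, rfl⟩
    have hz := fun k (hk : (letL i).length ≤ k) => pk_div_eq_zero hD (hν.letL_lt i) hk
    have hB : ∀ x : Bool, x.toNat < 2 := fun x => by cases x <;> simp
    have hLa := fun a => (hν.isLam_iff (lamN ν.s a)).mpr ⟨a, rfl⟩
    have hTa := fun a => (hν.isTag_iff (tagN a)).mpr ⟨a, rfl⟩
    unfold Nu.isLet
    simp only [hν.d_let]
    rcases i with ⟨τ, j, l, a, f⟩ | ⟨j, l, c, u, v, m⟩ | ⟨i⟩
    · refine Or.inl ⟨by simp [letL], hz 6 (by simp [letL]), ?_⟩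
      simp only [letL, List.getD_cons_succ, List.getD_cons_zero]
      have := hB f
      refine ⟨by omega, by omega, by omega, hLa a, by omega⟩
    · refine Or.inr (Or.inl ⟨by simp [letL], hz 9 (by simp [letL]), ?_⟩)
      simp only [letL, List.getD_cons_succ, List.getD_cons_zero]
      refine ⟨by omega, by omega, hLa _, hLa _, hLa _, hTa _, hTa _, by omega⟩
    · refine Or.inr (Or.inr ⟨by simp [letL], hz 2 (by simp [letL]), by simp [letL]⟩)

/-- The coordinate of a letter. -/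
lemma Nu.V.coEq_iff (ℓ : LetT ν q) (i : IT ν) : ν.coEq (letN ℓ) (coN i) ↔ coS ℓ = i := by
  unfold Nu.coEq
  simp only [hν.d_let, hν.d_co]
  rcases ℓ with ⟨τ, j, l, a, f⟩ | ⟨j, l, c, u, v, m⟩ | ⟨i'⟩ <;>
  rcases i with ⟨τ', j', l'⟩ | ⟨j', l'⟩ | ⟨i⟩ <;>
  simp only [letL, coL, coS, List.getD_cons_zero, List.getD_cons_succ, SCo.cf.injEq, SCo.cw.injEq,
    SCo.cp.injEq, reduceCtorEq, Fin.ext_iff, Nat.reduceEqDiff, OfNat.ofNat_ne_one,
    OfNat.one_ne_ofNat, true_and, false_and, or_false, false_or] <;> omega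

end

/-- The bit encoding of letters. -/
def encLam (ν : Nu) (q : ℕ) (a : LamC (SgT ν q) ν.n) (i : Fin ν.b) : Bool :=
  (lamN ν.s a).testBit i.val

/-- The bit encoding of tags. -/
def encTag (ν : Nu) (q : ℕ) (a : Tag (SgT ν q) ν.L ν.L) (i : Fin ν.b) : Bool :=
  (tagN a).testBit i.val

section

variable {ν : Nu} {q g : ℕ} (hν : ν.V q g)

include hν

lemma Nu.V.eq_of_bits {a a' : ℕ} (h : a < ν.D) (h' : a' < ν.D)
    (hb : ∀ i : Fin ν.b, a.testBit i.val = a'.testBit i.val) : a = a' := by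
  apply Nat.eq_of_testBit_eq
  intro j
  by_cases hj : j < ν.b
  · exact hb ⟨j, hj⟩
  · have hD := hν.D_eq
    have h2 : ν.D ≤ 2 ^ j := by
      rw [hD]
      exact Nat.pow_le_pow_right (by omega) (by omega)
    rw [Nat.testBit_lt_two_pow (lt_of_lt_of_le h h2), Nat.testBit_lt_two_pow (lt_of_lt_of_le h' h2)]

lemma Nu.V.encLam_inj : Function.Injective (encLam ν q) := by
  intro a a' h
  refine hν.lam_inj (hν.eq_of_bits (hν.lamN_lt_D a) (hν.lamN_lt_D a') fun i => ?_)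
  exact congrFun h i

lemma Nu.V.encTag_inj : Function.Injective (encTag ν q) := by
  intro a a' h
  refine tagN_inj (hν.eq_of_bits (hν.tagN_lt_D a) (hν.tagN_lt_D a') fun i => ?_)
  exact congrFun h i

variable {M : DTM (Fin q) (Fin ν.γ)} {x : Fin ν.n → Fin ν.γ} (hM : ν.MFit M x)

include hM

/-- The coverage relation in numbers. -/
lemma Nu.V.cov_iff (κ : ClT ν) (ℓ : LetT ν q) :
    ν.cov (clN κ) (letN ℓ) ↔
      covS (pad := ν.pad) (encLam ν q) (encTag ν q) (LocC M.caRule (M.xinC x) M.blC M.accC) isOKC κ ℓ := by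
  have hW : ∀ l : Fin (ν.L + ν.L + 1), capS ν.WW l.val = l.val + 1 := by
    intro l
    have h1 := hν.N_lt
    have h2 := hν.D_W
    have h3 := l.isLt
    unfold capS
    rw [if_pos (by omega)]
  have hOK : ∀ (τ : Fin 3) (a : LamC (SgT ν q) ν.n), ν.isOK τ.val (lamN ν.s a) ↔ isOKC τ a := by
    intro τ a
    unfold Nu.isOK isOKC
    by_cases h : τ = 0
    · subst h
      simp [hν.lam_eq_tr]
    · have h' : τ.val ≠ 0 := fun e => h (Fin.ext e)
      simp [h, h', hν.lam_eq_n]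
  have hTb : ∀ (a : LamC (SgT ν q) ν.n) (i : Fin ν.b) (y : Bool),
      tb (lamN ν.s a) i.val = y.toNat ↔ encLam ν q a i = y := fun _ _ _ => tb_eq_bool
  have hTb' : ∀ (a : Tag (SgT ν q) ν.L ν.L) (i : Fin ν.b) (y : Bool),
      tb (tagN a) i.val = y.toNat ↔ encTag ν q a i = y := fun _ _ _ => tb_eq_bool
  have hB : ∀ (f : Bool), f.toNat = 1 ↔ f = true := by decide
  have hB0 : ∀ (f : Bool), f.toNat = 0 ↔ f = false := by decide
  have hv0 : ((0 : Fin 3) : ℕ) = 0 := rfl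
  have hv1 : ((1 : Fin 3) : ℕ) = 1 := rfl
  have hv2 : ((2 : Fin 3) : ℕ) = 2 := rfl
  have hWc : ∀ (τ : Fin 3) (j' : Fin 4) (l' : Fin (ν.L + ν.L + 1 + 1)) (c : Fin 3 → LamC (SgT ν q) ν.n)
      (u v : Tag (SgT ν q) ν.L ν.L) (m : Fin 3),
      ν.wc τ.val (letN (ν := ν) (q := q) (SLet.wit j' l' c u v m)) = lamN ν.s (c τ) := by
    intro τ j' l' c u v m
    unfold Nu.wc
    simp only [hν.d_let]
    fin_cases τ <;> simp [letL]
  have hLoc : ∀ (l : Fin (ν.L + ν.L + 1 + 1)) (c0 c1 c2 : LamC (SgT ν q) ν.n)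
      (u v : Tag (SgT ν q) ν.L ν.L),
      ν.loc l.val (lamN ν.s c0) (lamN ν.s c1) (lamN ν.s c2) (tagN u) (tagN v) ↔
        LocC M.caRule (M.xinC x) M.blC M.accC l c0 c1 c2 u v := by
    intro l c0 c1 c2 u v
    unfold Nu.loc LocC
    rw [hν.body_iff hM]
    exact and_congr_left fun _ => ⟨fun h => tagN_inj h, fun h => h ▸ rfl⟩
  unfold Nu.cov
  simp only [hν.d_cl, hν.d_let]
  rcases κ with ⟨τ, j, j2, l, bit, y⟩ | ⟨τ, j, l⟩ | ⟨τ, j, l, bit, y⟩ | ⟨j, l⟩ | ⟨j, l, bit, y⟩ |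
    ⟨j, l⟩ | ⟨j, l⟩ | ⟨τ, j⟩ <;>
  rcases ℓ with ⟨τ', j', l', a, f⟩ | ⟨j', l', c, u, v, m⟩ | ⟨i⟩ <;>
  simp only [clL, letL, covS, covF, covW, List.getD_cons_zero, List.getD_cons_succ, List.getD_nil,
    Nat.reduceEqDiff, OfNat.ofNat_ne_one, OfNat.one_ne_ofNat, OfNat.ofNat_ne_zero,
    OfNat.zero_ne_ofNat, zero_ne_one, one_ne_zero, true_and, false_and, or_false, false_or, Fin.ext_iff,
    and_false, iff_false, not_false_eq_true, or_self, hB, hTb, hTb', hOK, ne_eq, hB0, hWc, hv0, hv1,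
    hv2, Fin.val_zero, hW, Fin.val_castSucc, Fin.val_succ, hLoc]
  case zc.fld =>
    constructor
    · rintro ⟨h1, h2, h3, h4⟩
      have e : τ' = τ := Fin.ext h1
      subst e
      exact ⟨h1, h2, h3, h4⟩
    · rintro ⟨h1, h2, h3, h4⟩
      have e : τ' = τ := Fin.ext h1
      subst e
      exact ⟨h1, h2, h3, h4⟩

end

end Vale.Agent.Lib.P310V
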