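import Vale.Agent.Lib.P310V.Sem4

set_option linter.unusedSectionVars false

/-!
The numbers of the base vertices of the room graph of a machine.
-/

namespace Vale.Agent.Lib.P310V

open Finset

/-- The facts for the numbering of columns. -/
class Nu.Num0 (ν : Nu) : Prop where
  X_eq : ν.X = 6 * ν.D ^ 4
  coN_lt : ∀ i : IT ν, coN i < ν.D ^ 4
  coN_inj : Function.Injective (coN (ν := ν))
  clN_lt : ∀ κ : ClT ν, clN κ < ν.Y
  clN_inj : Function.Injective (clN (ν := ν))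

lemma Nu.V.num0 {ν : Nu} {q g : ℕ} (hν : ν.V q g) : ν.Num0 where
  X_eq := hν.X_eq
  coN_lt := hν.coN_lt
  coN_inj := hν.coN_inj
  clN_lt := fun κ => by
    rw [hν.Y_eq]
    exact hν.clN_lt κ
  clN_inj := hν.clN_inj

/-- The number of a door group. -/
def grN : Gr → ℕ
  | Sum.inl ρ => ρ.val
  | Sum.inr τ => 3 + τ.val

lemma grN_lt (G : Gr) : grN G < 6 := by
  rcases G with ρ | τ
  · have := ρ.isLt
    simp only [grN]
    omega
  · have := τ.isLt
    simp only [grN]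
    omega

lemma grN_inj {G G' : Gr} (h : grN G = grN G') : G = G' := by
  rcases G with ρ | τ <;> rcases G' with ρ' | τ' <;> simp only [grN] at h
  · rw [Fin.ext h]
  · have := ρ.isLt
    omega
  · have := ρ'.isLt
    omega
  · rw [Fin.ext (show τ.val = τ'.val by omega)]

lemma grN_surj {k : ℕ} (h : k < 6) : ∃ G : Gr, grN G = k := by
  by_cases h3 : k < 3
  · exact ⟨Sum.inl ⟨k, h3⟩, rfl⟩
  · exact ⟨Sum.inr ⟨k - 3, by omega⟩, by simp only [grN]; omega⟩

/-- The number of a room. -/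
def roomN (r : Room) : ℕ := r.1.val + 3 * r.2.toNat

lemma roomN_lt (r : Room) : roomN r < 6 := by
  obtain ⟨a, b⟩ := r
  have := a.isLt
  cases b <;> simp only [roomN, Bool.toNat_false, Bool.toNat_true] <;> omega

lemma roomN_inj {r r' : Room} (h : roomN r = roomN r') : r = r' := by
  obtain ⟨a, b⟩ := r
  obtain ⟨a', b'⟩ := r'
  have := a.isLt
  have := a'.isLt
  cases b <;> cases b' <;> simp only [roomN, Bool.toNat_false, Bool.toNat_true] at h
  · rw [Fin.ext (show a.val = a'.val by omega)]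
  · omega
  · omega
  · rw [Fin.ext (show a.val = a'.val by omega)]

lemma roomN_surj {k : ℕ} (h : k < 6) : ∃ r : Room, roomN r = k := by
  by_cases h3 : k < 3
  · exact ⟨(⟨k, h3⟩, false), by simp [roomN]⟩
  · exact ⟨(⟨k - 3, by omega⟩, true), by simp only [roomN, Bool.toNat_true]; omega⟩

lemma roomN_grA : ∀ G : Gr, roomN (grA G) = Nu.grAN (grN G) := by decide

lemma roomN_grB : ∀ G : Gr, roomN (grB G) = Nu.grBN (grN G) := by decide

section

variable {ν : Nu}

/-- The door group of a clause in numbers. -/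
lemma Nu.V.grK_eq {q g : ℕ} (hν : ν.V q g) (κ : ClT ν) : ν.grK (clN κ) = grN (grS κ) := by
  unfold Nu.grK
  simp only [hν.d_cl]
  rcases κ with ⟨τ, j, j2, l, bit, y⟩ | ⟨τ, j, l⟩ | ⟨τ, j, l, bit, y⟩ | ⟨j, l⟩ | ⟨j, l, bit, y⟩ |
    ⟨j, l⟩ | ⟨j, l⟩ | ⟨τ, j⟩
  · fin_cases τ <;> simp [clL, grS, grN]
  · fin_cases τ <;> simp [clL, grS, grN]
  · simp [clL, grS, grN]
  · simp [clL, grS, grN]
  · simp [clL, grS, grN]
  · simp [clL, grS, grN]
  · simp [clL, grS, grN]
  · fin_cases τ <;> simp [clL, grS, grN]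

variable [hn : ν.Num0]

instance numsNu : Nums (IT ν) (ClT ν) where
  X := ν.X
  nX x := grN x.1 + 6 * coN x.2
  hX_ x := by
    have h1 := grN_lt x.1
    have h2 := hn.coN_lt x.2
    rw [hn.X_eq]
    omega
  injX_ := by
    rintro ⟨G, i⟩ ⟨G', i'⟩ h
    simp only at h
    have h1 := grN_lt G
    have h2 := grN_lt G'
    have e1 : grN G = grN G' := by omega
    have e2 : coN i = coN i' := by omega
    rw [grN_inj e1, hn.coN_inj e2]
  Y := ν.Y
  nC := clN
  hY_ := hn.clN_lt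
  injC_ := hn.clN_inj

variable {g : ℕ}

/-- The number of a base vertex. -/
def bvN (v : RV (IT ν) (ClT ν) g) : ℕ := roomN v.1 + 6 * (v.2.2.toNat + 2 * v.2.1.val)

lemma rmA_bvN (v : RV (IT ν) (ClT ν) g) : Nu.rmA (bvN v) = roomN v.1 := by
  have := roomN_lt v.1
  unfold Nu.rmA bvN
  omega

lemma lnA_bvN (v : RV (IT ν) (ClT ν) g) : Nu.lnA (bvN v) = v.2.2.toNat := by
  have := roomN_lt v.1
  have h2 : v.2.2.toNat < 2 := by cases v.2.2 <;> simp
  unfold Nu.lnA bvN
  omega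

lemma clA_bvN (v : RV (IT ν) (ClT ν) g) : Nu.clA (bvN v) = v.2.1.val := by
  have := roomN_lt v.1
  have h2 : v.2.2.toNat < 2 := by cases v.2.2 <;> simp
  unfold Nu.clA bvN
  omega

lemma bvN_inj {u v : RV (IT ν) (ClT ν) g} (h : bvN u = bvN v) : u = v := by
  have h1 : roomN u.1 = roomN v.1 := by rw [← rmA_bvN, ← rmA_bvN, h]
  have h2 : u.2.2.toNat = v.2.2.toNat := by rw [← lnA_bvN, ← lnA_bvN, h]
  have h3 : u.2.1.val = v.2.1.val := by rw [← clA_bvN, ← clA_bvN, h]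
  have h4 : u.2.2 = v.2.2 := by
    revert h2
    cases u.2.2 <;> cases v.2.2 <;> simp
  exact Prod.ext (roomN_inj h1) (Prod.ext (Fin.ext h3) h4)

lemma lane_false {v : RV (IT ν) (ClT ν) g} : Nu.lnA (bvN v) = 0 ↔ v.2.2 = false := by
  rw [lnA_bvN]
  cases v.2.2 <;> simp

end

section

variable {ν : Nu} {q g : ℕ} (hν : ν.V q g) [hn : ν.Num0]

include hν

lemma Nu.V.colB_eq' : ν.colB = g * Nums.X (IT ν) (ClT ν) + 4 * Nums.Y (IT ν) (ClT ν) := by
  rw [hν.colB_eq, hν.GX_eq]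
  rfl

lemma Nu.V.GX_eq' : ν.GX = g * Nums.X (IT ν) (ClT ν) := hν.GX_eq

lemma Nu.V.X_pos : 0 < ν.X := by
  rw [hν.X_eq]
  have := hν.D_pos
  positivity

lemma Nu.V.Y_pos : 0 < ν.Y := by
  rw [hν.Y_eq]
  have := hν.D_pos
  positivity

/-- The base numbers are exactly the numbers of base vertices. -/
lemma Nu.V.isBaseA_iff (A : ℕ) : ν.isBaseA A ↔ ∃ v : RV (IT ν) (ClT ν) g, bvN v = A := by
  constructor
  · intro h
    unfold Nu.isBaseA at h
    rw [hν.colB_eq' (g := g) (ν := ν) (q := q)] at h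
    obtain ⟨r, hr⟩ := roomN_surj (k := A % 6) (Nat.mod_lt _ (by omega))
    have hl : (A / 6 % 2 = 1) ∨ (A / 6 % 2 = 0) := by omega
    rcases hl with hl | hl
    · refine ⟨(r, ⟨A / 12, h⟩, true), ?_⟩
      simp only [bvN, hr, Bool.toNat_true]
      omega
    · refine ⟨(r, ⟨A / 12, h⟩, false), ?_⟩
      simp only [bvN, hr, Bool.toNat_false]
      omega
  · rintro ⟨v, rfl⟩
    unfold Nu.isBaseA
    rw [show bvN v / 12 = v.2.1.val from clA_bvN v, hν.colB_eq' (g := g) (ν := ν) (q := q)]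
    exact v.2.1.isLt

/-- The bound for the numbers of base vertices. -/
lemma Nu.V.bvN_lt (v : RV (IT ν) (ClT ν) g) : bvN v < ν.BB := by
  have h1 := (hν.isBaseA_iff (bvN v)).mpr ⟨v, rfl⟩
  unfold Nu.isBaseA at h1
  rw [hν.BB_eq]
  omega

/-- The value of a column of a clause. -/
lemma Nu.V.colC_val (P : Fin 4) (κ : ClT ν) :
    (colC (I := IT ν) (g := g) P κ).val = ν.GX + P.val * ν.Y + clN κ := by
  rw [hν.GX_eq]
  rfl

/-- The value of a column of a forcing door. -/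
lemma Nu.V.colF_val' (a : Fin g) (G : Gr) (i : IT ν) :
    (colF (Cl := ClT ν) a (G, i)).val = a.val * ν.X + (grN G + 6 * coN i) := rfl

/-- The doors of clauses in numbers. -/
lemma Nu.V.cDoor_iff (u v : RV (IT ν) (ClT ν) g) :
    ν.cDoor (bvN u) (bvN v) ↔ ∃ (κ : ClT ν) (P : Fin 4),
      u = dA grS (Sum.inl (κ, P)) ∧ v = dB grS (Sum.inl (κ, P)) := by
  have hY := hν.Y_pos
  unfold Nu.cDoor
  rw [lane_false, lane_false, clA_bvN, clA_bvN, rmA_bvN, rmA_bvN]
  constructor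
  · rintro ⟨h1, h2, h3, h4, h5, h6, h7, h8⟩
    obtain ⟨κ, hκ⟩ := (hν.isCl_iff _).mp h6
    refine ⟨κ, ⟨_, h5⟩, ?_, ?_⟩
    · have hc : (colC (I := IT ν) (g := g) ⟨(u.2.1.val - ν.GX) / ν.Y, h5⟩ κ).val = u.2.1.val := by
        rw [hν.colC_val, hκ]
        unfold Nu.kOf
        have := Nat.div_add_mod (u.2.1.val - ν.GX) ν.Y
        rw [Nat.mul_comm] at this
        simp only
        omega
      refine Prod.ext ?_ (Prod.ext (Fin.ext hc.symm) h1)
      apply roomN_inj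
      simp only [dA]
      rw [roomN_grA, ← hν.grK_eq, hκ]
      exact h7
    · have hc : (colC (I := IT ν) (g := g) ⟨(u.2.1.val - ν.GX) / ν.Y, h5⟩ κ).val = v.2.1.val := by
        rw [hν.colC_val, hκ, ← h3]
        unfold Nu.kOf
        have := Nat.div_add_mod (u.2.1.val - ν.GX) ν.Y
        rw [Nat.mul_comm] at this
        simp only
        omega
      refine Prod.ext ?_ (Prod.ext (Fin.ext hc.symm) h2)
      apply roomN_inj
      simp only [dB]
      rw [roomN_grB, ← hν.grK_eq, hκ]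
      exact h8
  · rintro ⟨κ, P, rfl, rfl⟩
    simp only [dA, dB]
    have hc := hν.colC_val (g := g) P κ
    have hlt : clN κ < ν.Y := hn.clN_lt κ
    have h1 : (ν.GX + P.val * ν.Y + clN κ - ν.GX) = clN κ + ν.Y * P.val := by
      rw [Nat.mul_comm]
      omega
    have h2 : ν.kOf (colC (I := IT ν) (g := g) P κ).val = clN κ := by
      unfold Nu.kOf
      rw [hc, h1, (mod_div_add hlt).1]
    refine ⟨trivial, trivial, trivial, ?_, ?_, ?_, ?_, ?_⟩
    · rw [hc]
      omega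
    · rw [hc, h1, (mod_div_add hlt).2]
      exact P.isLt
    · rw [h2]
      exact (hν.isCl_iff _).mpr ⟨κ, rfl⟩
    · rw [h2, hν.grK_eq, roomN_grA]
    · rw [h2, hν.grK_eq, roomN_grB]

/-- The forcing doors in numbers. -/
lemma Nu.V.fDoor_iff (u v : RV (IT ν) (ClT ν) g) :
    ν.fDoor (bvN u) (bvN v) ↔ ∃ (x : Gr × IT ν) (a b : Fin g),
      u = dA grS (Sum.inr (x, a, b)) ∧ v = dB grS (Sum.inr (x, a, b)) := by
  have hX := hν.X_pos
  have hGX := hν.GX_eq
  unfold Nu.fDoor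
  rw [lane_false, lane_false, clA_bvN, clA_bvN, rmA_bvN, rmA_bvN]
  constructor
  · rintro ⟨h1, h2, h3, h4, h5, h6, h7, h8⟩
    obtain ⟨i, hi⟩ := (hν.isCo_iff _).mp h6
    obtain ⟨G, hG⟩ := grN_surj (k := u.2.1.val % ν.X % 6) (Nat.mod_lt _ (by omega))
    have hc0 : grN G + 6 * coN i = u.2.1.val % ν.X := by omega
    have ha : u.2.1.val / ν.X < g := (Nat.div_lt_iff_lt_mul hX).mpr (by omega)
    have hb : v.2.1.val / ν.X < g := (Nat.div_lt_iff_lt_mul hX).mpr (by omega)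
    refine ⟨(G, i), ⟨_, ha⟩, ⟨_, hb⟩, ?_, ?_⟩
    · have hc : (colF (Cl := ClT ν) ⟨u.2.1.val / ν.X, ha⟩ (G, i)).val = u.2.1.val := by
        rw [hν.colF_val', hc0, Nat.mul_comm]
        exact Nat.div_add_mod _ _
      refine Prod.ext ?_ (Prod.ext (Fin.ext hc.symm) h1)
      apply roomN_inj
      simp only [dA]
      rw [roomN_grA, hG]
      exact h7
    · have hc : (colF (Cl := ClT ν) ⟨v.2.1.val / ν.X, hb⟩ (G, i)).val = v.2.1.val := by
        rw [hν.colF_val', hc0, h5, Nat.mul_comm]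
        exact Nat.div_add_mod _ _
      refine Prod.ext ?_ (Prod.ext (Fin.ext hc.symm) h2)
      apply roomN_inj
      simp only [dB]
      rw [roomN_grB, hG]
      exact h8
  · rintro ⟨⟨G, i⟩, a, b, rfl, rfl⟩
    simp only [dA, dB]
    have hnx : grN G + 6 * coN i < ν.X := Nums.hX (ClT ν) (G, i)
    have hl1 : ∀ c : Fin g, (colF (Cl := ClT ν) c (G, i)).val < ν.GX := by
      intro c
      have h3 : (c.val + 1) * ν.X ≤ g * ν.X := Nat.mul_le_mul_right _ c.isLt
      have h4 : (c.val + 1) * ν.X = c.val * ν.X + ν.X := by ring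
      rw [hν.colF_val', hGX]
      omega
    have hm : ∀ c : Fin g, (colF (Cl := ClT ν) c (G, i)).val % ν.X = grN G + 6 * coN i := by
      intro c
      rw [hν.colF_val', Nat.mul_add_mod', Nat.mod_eq_of_lt hnx]
    have hG6 := grN_lt G
    have e1 : (grN G + 6 * coN i) / 6 = coN i := by omega
    have e2 : (grN G + 6 * coN i) % 6 = grN G := by omega
    refine ⟨trivial, trivial, hl1 a, hl1 b, ?_, ?_, ?_, ?_⟩
    · rw [hm, hm]
    · rw [hm, e1]
      exact (hν.isCo_iff _).mpr ⟨i, rfl⟩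
    · rw [hm, e2, roomN_grA]
    · rw [hm, e2, roomN_grB]

end

end Vale.Agent.Lib.P310V
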