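import Vale.Agent.Lib.P310V.Size
import Vale.Agent.Lib.P310V.GL

set_option linter.unusedSectionVars false

/-!
The hypotheses on the numbers of the graphs of a machine.
-/

namespace Vale.Agent.Lib.P310V

open Finset

section

variable {ν : Nu} {q g : ℕ} [hn : ν.Num0]

/-- The ladder edges in numbers. -/
lemma ladder_iff (u v : RV (IT ν) (ClT ν) g) :
    Nu.ladder (bvN u) (bvN v) ↔ (u.1 = v.1 ∧ ((u.2.1 = v.2.1 ∧ u.2.2 ≠ v.2.2) ∨
      (u.2.2 = v.2.2 ∧ (u.2.1.val + 1 = v.2.1.val ∨ v.2.1.val + 1 = u.2.1.val)))) := by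
  unfold Nu.ladder
  rw [rmA_bvN, rmA_bvN, clA_bvN, clA_bvN, lnA_bvN, lnA_bvN]
  have e1 : roomN u.1 = roomN v.1 ↔ u.1 = v.1 := ⟨roomN_inj, fun h => h ▸ rfl⟩
  have e2 : u.2.2.toNat = v.2.2.toNat ↔ u.2.2 = v.2.2 := by
    cases u.2.2 <;> cases v.2.2 <;> simp
  have e3 : u.2.2.toNat ≠ v.2.2.toNat ↔ u.2.2 ≠ v.2.2 := not_congr e2
  rw [e1, e2, e3, Fin.ext_iff]
  refine and_congr_right fun _ => or_congr_right (and_congr_right fun _ => ?_)
  omega

variable (hν : ν.V q g)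

include hν

/-- The base graph in numbers. -/
lemma Nu.V.rbAdj_iff (u v : RV (IT ν) (ClT ν) g) :
    ν.rbAdj (bvN u) (bvN v) ↔ (rb (I := IT ν) (g := g) grS).Adj u v := by
  unfold Nu.rbAdj
  rw [ladder_iff, hν.cDoor_iff, hν.fDoor_iff, hν.cDoor_iff, hν.fDoor_iff]
  change _ ↔ (_ ∨ _)
  refine or_congr_right ?_
  constructor
  · rintro (⟨κ, P, h1, h2⟩ | ⟨x, a, b, h1, h2⟩ | ⟨κ, P, h1, h2⟩ | ⟨x, a, b, h1, h2⟩)
    · exact ⟨Sum.inl (κ, P), Or.inl ⟨h1, h2⟩⟩
    · exact ⟨Sum.inr (x, a, b), Or.inl ⟨h1, h2⟩⟩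
    · exact ⟨Sum.inl (κ, P), Or.inr ⟨h2, h1⟩⟩
    · exact ⟨Sum.inr (x, a, b), Or.inr ⟨h2, h1⟩⟩
  · rintro ⟨⟨κ, P⟩ | ⟨x, a, b⟩, ⟨h1, h2⟩ | ⟨h1, h2⟩⟩
    · exact Or.inl ⟨κ, P, h1, h2⟩
    · exact Or.inr (Or.inr (Or.inl ⟨κ, P, h2, h1⟩))
    · exact Or.inr (Or.inl ⟨x, a, b, h1, h2⟩)
    · exact Or.inr (Or.inr (Or.inr ⟨x, a, b, h2, h1⟩))

variable {M : DTM (Fin q) (Fin ν.γ)} {x : Fin ν.n → Fin ν.γ} (hM : ν.MFit M x)

include hM

/-- Reading doors in numbers. -/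
lemma Nu.V.reads_iff (ℓ : LetT ν q) (u v : RV (IT ν) (ClT ν) g) :
    ν.reads (letN ℓ) (bvN u) (bvN v) ↔ ∃ d : Door (IT ν) (ClT ν) g,
      _root_.Vale.Agent.Lib.P310V.reads (g := g) coS (covS (pad := ν.pad) (encLam ν q) (encTag ν q)
        (LocC M.caRule (M.xinC x) M.blC M.accC) isOKC) ℓ d ∧
      u = dA grS d ∧ v = dB grS d := by
  unfold Nu.reads
  rw [hν.cDoor_iff, hν.fDoor_iff, clA_bvN]
  have hX := hν.X_pos
  constructor
  · rintro (⟨⟨κ, P, h1, h2⟩, h3⟩ | ⟨⟨⟨G, i⟩, a, b, h1, h2⟩, h3⟩)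
    · refine ⟨Sum.inl (κ, P), ?_, h1, h2⟩
      subst h1
      simp only [dA] at h3
      have hc := hν.colC_val (g := g) P κ
      have hlt : clN κ < ν.Y := hn.clN_lt κ
      have h4 : ν.kOf (colC (I := IT ν) (g := g) P κ).val = clN κ := by
        unfold Nu.kOf
        have h1 : (ν.GX + P.val * ν.Y + clN κ - ν.GX) = clN κ + ν.Y * P.val := by
          rw [Nat.mul_comm]
          omega
        rw [hc, h1, (mod_div_add hlt).1]
      rw [h4, hν.cov_iff hM] at h3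
      exact h3
    · refine ⟨Sum.inr ((G, i), a, b), ?_, h1, h2⟩
      subst h1
      simp only [dA] at h3
      have hnx : grN G + 6 * coN i < ν.X := Nums.hX (ClT ν) (G, i)
      have hG6 := grN_lt G
      have hm : (colF (Cl := ClT ν) a (G, i)).val % ν.X = grN G + 6 * coN i := by
        rw [hν.colF_val', Nat.mul_add_mod', Nat.mod_eq_of_lt hnx]
      have e1 : (grN G + 6 * coN i) / 6 = coN i := by omega
      rw [hm, e1, hν.coEq_iff] at h3
      exact h3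
  · rintro ⟨⟨κ, P⟩ | ⟨⟨G, i⟩, a, b⟩, h3, h1, h2⟩
    · refine Or.inl ⟨⟨κ, P, h1, h2⟩, ?_⟩
      subst h1
      simp only [dA]
      have hc := hν.colC_val (g := g) P κ
      have hlt : clN κ < ν.Y := hn.clN_lt κ
      have h4 : ν.kOf (colC (I := IT ν) (g := g) P κ).val = clN κ := by
        unfold Nu.kOf
        have h1 : (ν.GX + P.val * ν.Y + clN κ - ν.GX) = clN κ + ν.Y * P.val := by
          rw [Nat.mul_comm]
          omega
        rw [hc, h1, (mod_div_add hlt).1]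
      rw [h4, hν.cov_iff hM]
      exact h3
    · refine Or.inr ⟨⟨(G, i), a, b, h1, h2⟩, ?_⟩
      subst h1
      simp only [dA]
      have hnx : grN G + 6 * coN i < ν.X := Nums.hX (ClT ν) (G, i)
      have hG6 := grN_lt G
      have hm : (colF (Cl := ClT ν) a (G, i)).val % ν.X = grN G + 6 * coN i := by
        rw [hν.colF_val', Nat.mul_add_mod', Nat.mod_eq_of_lt hnx]
      have e1 : (grN G + 6 * coN i) / 6 = coN i := by omega
      rw [hm, e1, hν.coEq_iff]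
      exact h3

end

section

variable {ν : Nu} {g : ℕ} [hn : ν.Num0]

/-- The number of an edge of the base graph. -/
def eidN (e : Sym2 (RV (IT ν) (ClT ν) g)) : ℕ :=
  Sym2.lift ⟨fun u v => min (bvN u) (bvN v) + ν.BB * max (bvN u) (bvN v), fun u v => by
    simp only [min_comm, max_comm]⟩ e

lemma eidN_mk (u v : RV (IT ν) (ClT ν) g) :
    eidN s(u, v) = min (bvN u) (bvN v) + ν.BB * max (bvN u) (bvN v) := rfl

variable {q : ℕ} (hν : ν.V q g)

include hν

lemma Nu.V.minN_lt (u v : RV (IT ν) (ClT ν) g) : min (bvN u) (bvN v) < ν.BB :=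
  lt_of_le_of_lt (min_le_left _ _) (hν.bvN_lt u)

lemma Nu.V.maxN_lt (u v : RV (IT ν) (ClT ν) g) : max (bvN u) (bvN v) < ν.BB :=
  _root_.max_lt (hν.bvN_lt u) (hν.bvN_lt v)

lemma Nu.V.eidN_lt (e : Sym2 (RV (IT ν) (ClT ν) g)) : eidN e < ν.EE := by
  induction e using Sym2.ind with
  | _ u v =>
    rw [eidN_mk, hν.EE_eq]
    have h3 : ν.BB * (max (bvN u) (bvN v) + 1) ≤ ν.BB * ν.BB :=
      Nat.mul_le_mul_left _ (hν.maxN_lt u v)
    rw [Nat.mul_succ] at h3
    have h4 := hν.minN_lt u v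
    omega

lemma Nu.V.eidN_mod (u v : RV (IT ν) (ClT ν) g) :
    eidN s(u, v) % ν.BB = min (bvN u) (bvN v) := (mod_div_add (hν.minN_lt u v)).1

lemma Nu.V.eidN_div (u v : RV (IT ν) (ClT ν) g) :
    eidN s(u, v) / ν.BB = max (bvN u) (bvN v) := (mod_div_add (hν.minN_lt u v)).2

lemma Nu.V.eidN_inj : Function.Injective (eidN (ν := ν) (g := g)) := by
  intro e e' h
  induction e using Sym2.ind with
  | _ u v =>
    induction e' using Sym2.ind with
    | _ u' v' =>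
      have h1 : min (bvN u) (bvN v) = min (bvN u') (bvN v') := by
        rw [← hν.eidN_mod, ← hν.eidN_mod, h]
      have h2 : max (bvN u) (bvN v) = max (bvN u') (bvN v') := by
        rw [← hν.eidN_div, ← hν.eidN_div, h]
      rw [Sym2.eq_iff]
      rcases le_total (bvN u) (bvN v) with a | a <;> rcases le_total (bvN u') (bvN v') with b | b
      · rw [min_eq_left a, min_eq_left b] at h1
        rw [max_eq_right a, max_eq_right b] at h2
        exact Or.inl ⟨bvN_inj h1, bvN_inj h2⟩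
      · rw [min_eq_left a, min_eq_right b] at h1
        rw [max_eq_right a, max_eq_left b] at h2
        exact Or.inr ⟨bvN_inj h1, bvN_inj h2⟩
      · rw [min_eq_right a, min_eq_left b] at h1
        rw [max_eq_left a, max_eq_right b] at h2
        exact Or.inr ⟨bvN_inj h2, bvN_inj h1⟩
      · rw [min_eq_right a, min_eq_right b] at h1
        rw [max_eq_left a, max_eq_left b] at h2
        exact Or.inl ⟨bvN_inj h2, bvN_inj h1⟩

/-- An edge number with different ends as a pair of vertices. -/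
lemma Nu.V.edge_of_num {y : ℕ} (h1 : y % ν.BB < y / ν.BB) (h2 : ν.isBaseA (y % ν.BB))
    (h3 : ν.isBaseA (y / ν.BB)) : ∃ a a' : RV (IT ν) (ClT ν) g, bvN a = y % ν.BB ∧
      bvN a' = y / ν.BB ∧ eidN s(a, a') = y := by
  obtain ⟨a, ha⟩ := (hν.isBaseA_iff (g := g) _).mp h2
  obtain ⟨a', ha'⟩ := (hν.isBaseA_iff (g := g) _).mp h3
  refine ⟨a, a', ha, ha', ?_⟩
  rw [eidN_mk, ha, ha', min_eq_left h1.le, max_eq_right h1.le, Nat.mod_add_div]

end

section

variable {ν : Nu} {q g : ℕ} [hn : ν.Num0] (hν : ν.V q g)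
variable {M : DTM (Fin q) (Fin ν.γ)} {x : Fin ν.n → Fin ν.γ} (hM : ν.MFit M x)

/-- The number of a class. -/
def clOf : RV (IT ν) (ClT ν) g ⊕ LetT ν q → ℕ
  | Sum.inl v => ν.D * bvN v
  | Sum.inr ℓ => letN ℓ

include hν

lemma Nu.V.letN_mod (ℓ : LetT ν q) : letN ℓ % ν.D ≠ 0 := by
  have h := hν.d_let ℓ 0
  rw [show ν.d 0 (letN ℓ) = letN ℓ % ν.D from dgt_zero _] at h
  rw [h]
  rcases ℓ with ⟨τ, j, l, a, f⟩ | ⟨j, l, c, u, v, m⟩ | ⟨i⟩ <;> simp [letL]

lemma Nu.V.isB_bv (v : RV (IT ν) (ClT ν) g) : ν.isB (ν.D * bvN v) := by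
  have hD := hν.D_pos
  refine ⟨Nat.mul_mod_right _ _, ?_⟩
  rw [Nat.mul_div_cancel_left _ hD]
  exact (hν.isBaseA_iff _).mpr ⟨v, rfl⟩

lemma Nu.V.not_isB_let (ℓ : LetT ν q) : ¬ ν.isB (letN ℓ) := fun h => hν.letN_mod ℓ h.1

lemma Nu.V.div_bv (v : RV (IT ν) (ClT ν) g) : ν.D * bvN v / ν.D = bvN v :=
  Nat.mul_div_cancel_left _ hν.D_pos

lemma Nu.V.clOf_lt (c : RV (IT ν) (ClT ν) g ⊕ LetT ν q) : clOf c < ν.CC := by
  have hD := hν.D_pos
  rw [hν.CC_eq]
  rcases c with v | ℓ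
  · have h1 := hν.bvN_lt v
    have h2 : ν.D * (bvN v + 1) ≤ ν.D * ν.BB := Nat.mul_le_mul_left _ h1
    rw [Nat.mul_succ] at h2
    have h3 : 0 < ν.D ^ 9 := by positivity
    simp only [clOf]
    omega
  · have h1 := hν.letN_lt ℓ
    simp only [clOf]
    omega

lemma Nu.V.clOf_inj : Function.Injective (clOf (ν := ν) (q := q) (g := g)) := by
  have hD := hν.D_pos
  rintro (v | ℓ) (v' | ℓ') h
  · simp only [clOf] at h
    rw [bvN_inj (Nat.eq_of_mul_eq_mul_left hD h)]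
  · simp only [clOf] at h
    exact absurd (by rw [← h]; exact Nat.mul_mod_right _ _) (hν.letN_mod ℓ')
  · simp only [clOf] at h
    exact absurd (by rw [h]; exact Nat.mul_mod_right _ _) (hν.letN_mod ℓ)
  · simp only [clOf] at h
    rw [hν.letN_inj h]

lemma Nu.V.isC_iff (m : ℕ) : ν.isC m ↔ ∃ c : RV (IT ν) (ClT ν) g ⊕ LetT ν q, clOf c = m := by
  constructor
  · rintro (⟨h1, h2⟩ | h)
    · obtain ⟨v, hv⟩ := (hν.isBaseA_iff _).mp h2
      refine ⟨Sum.inl v, ?_⟩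
      simp only [clOf]
      rw [hv]
      exact Nat.mul_div_cancel' (Nat.dvd_of_mod_eq_zero h1)
    · obtain ⟨ℓ, hℓ⟩ := (hν.isLet_iff _).mp h
      exact ⟨Sum.inr ℓ, hℓ⟩
  · rintro ⟨v | ℓ, rfl⟩
    · exact Or.inl (hν.isB_bv v)
    · exact Or.inr ((hν.isLet_iff _).mpr ⟨ℓ, rfl⟩)

lemma Nu.V.isB_iff (c : RV (IT ν) (ClT ν) g ⊕ LetT ν q) : ν.isB (clOf c) ↔ ∃ v, c = Sum.inl v := by
  rcases c with v | ℓ
  · exact ⟨fun _ => ⟨v, rfl⟩, fun _ => hν.isB_bv v⟩
  · constructor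
    · intro h
      exact absurd h (hν.not_isB_let ℓ)
    · rintro ⟨v, h⟩
      cases h

/-- The edges of a base class in numbers. -/
lemma Nu.V.inE_bv (v : RV (IT ν) (ClT ν) g) (Fr : LetT ν q → Finset (Sym2 (RV (IT ν) (ClT ν) g))) (y : ℕ) :
    ν.inE (ν.D * bvN v) y ↔ ∃ e ∈ edgesOf (rb (I := IT ν) (g := g) grS) Fr (Sum.inl v), eidN e = y := by
  unfold Nu.inE
  rw [hν.div_bv]
  constructor
  · rintro ⟨h1, h2, h3, ⟨-, h4, h5⟩ | ⟨h4, -⟩⟩
    · obtain ⟨a, a', ha, ha', he⟩ := hν.edge_of_num h1 h2 h3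
      rw [← ha, ← ha', hν.rbAdj_iff] at h5
      rw [← ha, ← ha'] at h4
      rcases h4 with h4 | h4
      · have e := bvN_inj h4
        subst e
        refine ⟨s(v, a'), ?_, he⟩
        simp only [edgesOf, mem_image, SimpleGraph.mem_neighborFinset]
        exact ⟨a', h5, rfl⟩
      · have e := bvN_inj h4
        subst e
        refine ⟨s(a, v), ?_, he⟩
        simp only [edgesOf, mem_image, SimpleGraph.mem_neighborFinset]
        exact ⟨a, h5.symm, Sym2.eq_swap⟩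
    · exact absurd (hν.isB_bv v) h4
  · rintro ⟨e, he, rfl⟩
    simp only [edgesOf, mem_image, SimpleGraph.mem_neighborFinset] at he
    obtain ⟨u, hu, rfl⟩ := he
    rw [hν.eidN_mod, hν.eidN_div]
    have hne : bvN v ≠ bvN u := fun h => hu.ne (bvN_inj h)
    have hb : ∀ w : RV (IT ν) (ClT ν) g, ν.isBaseA (bvN w) :=
      fun w => (hν.isBaseA_iff _).mpr ⟨w, rfl⟩
    rcases lt_or_gt_of_ne hne with h | h
    · rw [min_eq_left h.le, max_eq_right h.le]
      refine ⟨h, hb v, hb u, Or.inl ⟨hν.isB_bv v, Or.inl rfl, (hν.rbAdj_iff _ _).mpr hu⟩⟩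
    · rw [min_eq_right h.le, max_eq_left h.le]
      refine ⟨h, hb u, hb v, Or.inl ⟨hν.isB_bv v, Or.inr rfl, (hν.rbAdj_iff _ _).mpr hu.symm⟩⟩

include hM

/-- The edges of a letter in numbers. -/
lemma Nu.V.inE_let (ℓ : LetT ν q) (y : ℕ) :
    ν.inE (letN ℓ) y ↔ ∃ e ∈ frL (g := g) grS coS (covS (pad := ν.pad) (encLam ν q) (encTag ν q)
        (LocC M.caRule (M.xinC x) M.blC M.accC) isOKC) ℓ, eidN e = y := by
  classical
  unfold Nu.inE
  constructor
  · rintro ⟨h1, h2, h3, ⟨h4, -⟩ | ⟨-, h4⟩⟩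
    · exact absurd h4 (hν.not_isB_let ℓ)
    · obtain ⟨a, a', ha, ha', he⟩ := hν.edge_of_num h1 h2 h3
      rw [← ha, ← ha', hν.reads_iff hM, hν.reads_iff hM] at h4
      rcases h4 with ⟨d, hd, rfl, rfl⟩ | ⟨d, hd, rfl, rfl⟩
      · refine ⟨s(dA grS d, dB grS d), ?_, he⟩
        unfold frL
        refine mem_image.mpr ⟨d, ?_, rfl⟩
        exact mem_filter.mpr ⟨mem_univ _, hd⟩
      · refine ⟨s(dB grS d, dA grS d), ?_, he⟩
        unfold frL
        refine mem_image.mpr ⟨d, ?_, Sym2.eq_swap⟩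
        exact mem_filter.mpr ⟨mem_univ _, hd⟩
  · rintro ⟨e, he, rfl⟩
    unfold frL at he
    obtain ⟨d, hd, rfl⟩ := mem_image.mp he
    have hd' := (mem_filter.mp hd).2
    unfold edge
    rw [hν.eidN_mod, hν.eidN_div]
    have hb : ∀ w : RV (IT ν) (ClT ν) g, ν.isBaseA (bvN w) :=
      fun w => (hν.isBaseA_iff _).mpr ⟨w, rfl⟩
    have hne : bvN (dA grS d) ≠ bvN (dB grS d) := fun h =>
      dA_room_ne grS d (congrArg Prod.fst (bvN_inj h))
    have hr : ν.reads (letN ℓ) (bvN (dA grS d)) (bvN (dB grS d)) :=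
      (hν.reads_iff hM _ _ _).mpr ⟨d, hd', rfl, rfl⟩
    rcases lt_or_gt_of_ne hne with h | h
    · rw [min_eq_left h.le, max_eq_right h.le]
      exact ⟨h, hb _, hb _, Or.inr ⟨hν.not_isB_let ℓ, Or.inl hr⟩⟩
    · rw [min_eq_right h.le, max_eq_left h.le]
      exact ⟨h, hb _, hb _, Or.inr ⟨hν.not_isB_let ℓ, Or.inr hr⟩⟩

omit hM in
/-- The number of edges of a class. -/
lemma Nu.V.card_edges_le (Cov : ClT ν → LetT ν q → Prop)
    (hc : ∀ (ℓ : LetT ν q) (S : Finset (ClT ν)), (∀ κ ∈ S, Cov κ ℓ) →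
      S.card ≤ 18 * ν.b + 4 * ν.b + 4)
    (c : RV (IT ν) (ClT ν) g ⊕ LetT ν q) :
    (edgesOf (rb (I := IT ν) (g := g) grS) (frL (g := g) grS coS Cov) c).card ≤ mbN ν.b g := by
  unfold mbN
  rcases c with v | ℓ
  · have := card_edges_base (Let := LetT ν q) grS (frL (g := g) grS coS Cov) v
    omega
  · have := card_frL_le (g := g) grS coS Cov ℓ (hc ℓ)
    change (frL (g := g) grS coS Cov ℓ).card ≤ _
    omega

omit hM in
/-- The number of nodes. -/
lemma Nu.V.card_node_le (Cov : ClT ν → LetT ν q → Prop)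
    (hc : ∀ (ℓ : LetT ν q) (S : Finset (ClT ν)), (∀ κ ∈ S, Cov κ ℓ) →
      S.card ≤ 18 * ν.b + 4 * ν.b + 4) :
    Fintype.card (Node (rb (I := IT ν) (g := g) grS) (frL (g := g) grS coS Cov)) + 2 ≤ ν.PW := by
  rw [hν.PW_eq, card_Node]
  refine Nat.add_le_add_right ?_ 2
  calc _ ≤ ∑ _c : RV (IT ν) (ClT ν) g ⊕ LetT ν q, 2 ^ mbN ν.b g :=
        Finset.sum_le_sum fun c _ => Nat.pow_le_pow_right (by omega) (hν.card_edges_le Cov hc c)
    _ = Fintype.card (RV (IT ν) (ClT ν) g ⊕ LetT ν q) * 2 ^ mbN ν.b g := by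
        rw [Finset.sum_const, card_univ, smul_eq_mul]
    _ ≤ _ := by
        refine Nat.mul_le_mul_right _ ?_
        have h := Fintype.card_le_of_injective
          (fun c : RV (IT ν) (ClT ν) g ⊕ LetT ν q => (⟨clOf c, hν.clOf_lt c⟩ : Fin ν.CC))
          (fun a b h => hν.clOf_inj (Fin.ext_iff.mp h))
        simpa using h

end

/-- The graph data of a machine. -/
noncomputable abbrev baseG (ν : Nu) [ν.Num0] (g : ℕ) : SimpleGraph (RV (IT ν) (ClT ν) g) :=
  rb (I := IT ν) (g := g) grS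

/-- The probe edges of a machine. -/
noncomputable abbrev frG (ν : Nu) [ν.Num0] (q g : ℕ) (M : DTM (Fin q) (Fin ν.γ))
    (x : Fin ν.n → Fin ν.γ) (ℓ : LetT ν q) : Finset (Sym2 (RV (IT ν) (ClT ν) g)) :=
  frL (g := g) grS coS (covS (pad := ν.pad) (encLam ν q) (encTag ν q)
    (LocC M.caRule (M.xinC x) M.blC M.accC) isOKC) ℓ

section

variable {ν : Nu} {q g : ℕ} [hn : ν.Num0] (hν : ν.V q g)
variable {M : DTM (Fin q) (Fin ν.γ)} {x : Fin ν.n → Fin ν.γ}

/-- The numbers of pendant vertices of the graphs of a machine. -/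
@[reducible] noncomputable def Nu.V.pendOf : PendData (baseG ν g) (frG ν q g M x) where
  cl := clOf
  cl_inj := hν.clOf_inj
  W := ν.PW
  hW := hν.card_node_le _ fun ℓ S hS =>
    card_cov_le (encLam ν q) (encTag ν q) (LocC M.caRule (M.xinC x) M.blC M.accC) isOKC ℓ S hS
  P := ν.CC * ν.PW
  hP c := Nat.mul_le_mul_right _ (hν.clOf_lt c)

/-- The parity function of a number `t`. -/
noncomputable def tParity (ν : Nu) [ν.Num0] (g : ℕ) (t : ℕ) : RV (IT ν) (ClT ν) g → ZMod 2 :=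
  if t = 0 then fun _ => 0 else twistR

include hν

/-- The numeric data satisfy the hypotheses. -/
lemma Nu.V.glHyp (hM : ν.MFit M x) (t : ℕ) :
    letI := hν.pendOf (M := M) (x := x)
    GLHyp (baseG ν g) (frG ν q g M x)
      ν.isC ν.isB (Nu.parN t) ν.inE ν.CC ν.EE (mbN ν.b g) eidN (tParity ν g t) := by
  letI := hν.pendOf (M := M) (x := x)
  refine ⟨hν.clOf_lt, hν.isC_iff, hν.isB_iff, ?_, ?_, hν.eidN_inj, hν.eidN_lt, ?_, ?_⟩
  · intro v
    change ((Nu.parN t (ν.D * bvN v) : ℕ) : ZMod 2) = tParity ν g t v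
    unfold tParity Nu.parN
    by_cases ht : t = 0
    · simp [ht]
    · rw [if_neg ht]
      have hD := hν.D_pos
      have e : (ν.D * bvN v = 0) ↔ (v.1 = (0, false) ∧ v.2.1.val = 0 ∧ v.2.2 = false) := by
        constructor
        · intro h
          have h1 : bvN v = 0 := by
            rcases Nat.mul_eq_zero.mp h with h | h
            · omega
            · exact h
          unfold bvN at h1
          have h2 : roomN v.1 = 0 := by omega
          have h3 : v.2.1.val = 0 := by omega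
          have h4 : v.2.2.toNat = 0 := by omega
          refine ⟨roomN_inj (r' := (0, false)) h2, h3, ?_⟩
          revert h4
          cases v.2.2 <;> simp
        · rintro ⟨h1, h2, h3⟩
          unfold bvN
          rw [h1, h2, h3]
          simp [roomN]
      unfold twistR
      by_cases h : ν.D * bvN v = 0
      · rw [if_pos ⟨ht, h⟩, if_pos (e.mp h)]
        simp
      · rw [if_neg (fun a => h a.2), if_neg (fun a => h (e.mpr a))]
        simp
  · intro v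
    change Nu.parN t (ν.D * bvN v) < 2
    unfold Nu.parN
    split_ifs <;> omega
  · rintro (v | ℓ) y
    · exact hν.inE_bv v _ y
    · exact hν.inE_let hM ℓ y
  · intro c
    exact hν.card_edges_le _ (fun ℓ S hS =>
      card_cov_le (encLam ν q) (encTag ν q) (LocC M.caRule (M.xinC x) M.blC M.accC) isOKC ℓ S hS) c

end

end Vale.Agent.Lib.P310V
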