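import Vale.Agent.Lib.P310V.Sem5
import Vale.Agent.Lib.P310V.DerR

set_option linter.unusedSectionVars false

/-!
Bounds for the sizes of the parts of the graphs.
-/

namespace Vale.Agent.Lib.P310V

open Finset

section Generic

variable {BV Pr : Type} [Fintype BV] [DecidableEq BV] [Fintype Pr] [DecidableEq Pr]
variable {B : SimpleGraph BV} [DecidableRel B.Adj] {Fr : Pr → Finset (Sym2 BV)}

/-- A classwise translation gives a bijection of vertex sets. -/
noncomputable def vtEquiv [PendData B Fr] {t t' : BV → ZMod 2} (φ : BV ⊕ Pr → Sym2 BV → ZMod 2)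
    (h : ∀ v, t' v = t v + bd B (φ (Sum.inl v)) v) : VT B Fr t ≃ VT B Fr t' where
  toFun a := ⟨trA B Fr (φ a.1.1.1) a.1,
    parity_trN B Fr t t' _ _ (fun v hv => by rw [hv]; exact h v) a.2.1, a.2.2⟩
  invFun b := ⟨trA B Fr (φ b.1.1.1) b.1,
    parity_trN B Fr t' t _ _ (fun v hv => by rw [hv, h v, zmod2_add_add_self]) b.2.1, b.2.2⟩
  left_inv a := Subtype.ext (trA_trA B Fr _ a.1)
  right_inv b := Subtype.ext (trA_trA B Fr _ b.1)

lemma card_VT_le [PendData B Fr] (t : BV → ZMod 2) :
    Fintype.card (VT B Fr t) ≤ Fintype.card (Node B Fr) * (pendMax B Fr + 1) := by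
  have h := Fintype.card_le_of_injective (fun a : VT B Fr t => a.1) Subtype.val_injective
  simpa [Fintype.card_prod] using h

lemma card_Node :
    Fintype.card (Node B Fr) = ∑ c : BV ⊕ Pr, 2 ^ (edgesOf B Fr c).card := by
  rw [Fintype.card_sigma]
  apply Finset.sum_congr rfl
  intro c _
  rw [Fintype.card_fun, ZMod.card, Fintype.card_coe]

end Generic

section Base

variable {I Cl Let : Type} [Fintype I] [DecidableEq I] [Fintype Cl] [DecidableEq Cl]
  [Fintype Let] [DecidableEq Let] [Nums I Cl]
variable {g : ℕ} (gr : Cl → Gr) (co : Let → I) (cov : Cl → Let → Prop)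

/-- The two parity functions give equally many vertices. -/
lemma card_VT_twistR (hℓ : 0 < g * Nums.X I Cl + 4 * Nums.Y I Cl)
    (Fr : Let → Finset (Sym2 (RV I Cl g))) [PendData (rb (I := I) (g := g) gr) Fr] :
    Fintype.card (VT (rb (I := I) (g := g) gr) Fr (fun _ => 0)) =
      Fintype.card (VT (rb (I := I) (g := g) gr) Fr twistR) := by
  let v₀ : RV I Cl g := ((0, false), ⟨0, hℓ⟩, false)
  let u₀ : RV I Cl g := ((0, false), ⟨0, hℓ⟩, true)
  have hadj : (rb (I := I) (g := g) gr).Adj v₀ u₀ := Or.inl ⟨rfl, Or.inl ⟨rfl, by simp [v₀, u₀]⟩⟩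
  let φ : RV I Cl g ⊕ Let → Sym2 (RV I Cl g) → ZMod 2 := fun c e =>
    if c = Sum.inl v₀ ∧ e = s(v₀, u₀) then 1 else 0
  refine Fintype.card_congr (vtEquiv φ fun v => ?_)
  rw [twistR_eq_unit hℓ v, zero_add]
  by_cases hv : v = v₀
  · subst hv
    have : φ (Sum.inl v₀) = fun e => if e = s(v₀, u₀) then 1 else 0 := by
      funext e
      simp [φ]
    rw [this, bd_single (rb (I := I) (g := g) gr) hadj, if_pos rfl, if_neg hadj.ne, add_zero]
    simp [unitC, v₀]
  · have : φ (Sum.inl v) = fun _ => 0 := by
      funext e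
      simp [φ, hv]
    rw [this]
    unfold bd unitC
    simp only [Finset.sum_const_zero]
    rw [if_neg]
    exact hv

/-- Columns of forcing doors are injective. -/
lemma colF_inj' {a a' : Fin g} {x x' : Gr × I} (h : colF (Cl := Cl) a x = colF (Cl := Cl) a' x') :
    a = a' ∧ x = x' := colF_inj h

/-- The number of neighbors of a base vertex. -/
lemma card_neighbors_rb (v : RV I Cl g) :
    ((rb (I := I) (g := g) gr).neighborFinset v).card ≤ 2 * g + 9 := by
  classical
  obtain ⟨r, c, l⟩ := v
  let S1 : Finset (RV I Cl g) := univ.filter fun u => u.1 = r ∧ ((u.2.1 = c ∧ u.2.2 ≠ l) ∨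
    (u.2.2 = l ∧ (c.val + 1 = u.2.1.val ∨ u.2.1.val + 1 = c.val)))
  let S2 : Finset (RV I Cl g) := (univ : Finset Room).image fun r' => (r', c, false)
  let A : Finset (Fin g × (Gr × I)) := univ.filter fun ax => colF ax.1 ax.2 = c
  let S3 : Finset (RV I Cl g) := A.biUnion fun ax =>
    (univ : Finset (Fin g)).image (fun b => (grB ax.2.1, colF b ax.2, false)) ∪
    (univ : Finset (Fin g)).image (fun b => (grA ax.2.1, colF b ax.2, false))
  have hS1 : S1.card ≤ 3 := by
    let φ : RV I Cl g → Fin 3 := fun u =>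
      if u.2.1 = c then 0 else if c.val + 1 = u.2.1.val then 1 else 2
    have : S1.card ≤ (univ : Finset (Fin 3)).card := by
      apply Finset.card_le_card_of_injOn φ (fun _ _ => by simp)
      rintro ⟨r₁, c₁, l₁⟩ hu ⟨r₂, c₂, l₂⟩ hu' hφ
      simp only [S1, mem_coe, mem_filter, mem_univ, true_and] at hu hu'
      obtain ⟨e1, hu⟩ := hu
      obtain ⟨e2, hu'⟩ := hu'
      simp only [φ] at hφ
      have hcne : ∀ c' : Cols I Cl g, (c.val + 1 = c'.val ∨ c'.val + 1 = c.val) → c' ≠ c := by
        intro c' h h'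
        subst h'
        omega
      subst e1 e2
      have bool_ne : ∀ a b c : Bool, a ≠ c → b ≠ c → a = b := by decide
      rcases hu with ⟨h1, h2⟩ | ⟨h1, h2⟩ <;> rcases hu' with ⟨h3, h4⟩ | ⟨h3, h4⟩
      · rw [h1, h3, bool_ne _ _ _ h2 h4]
      · have := hcne c₂ h4
        subst h1
        rw [if_pos rfl, if_neg this] at hφ
        split_ifs at hφ <;> simp at hφ
      · have := hcne c₁ h2
        subst h3
        rw [if_pos rfl, if_neg this] at hφ
        split_ifs at hφ <;> simp at hφ
      · have h5 := hcne c₁ h2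
        have h6 := hcne c₂ h4
        rw [if_neg h5, if_neg h6] at hφ
        have hval : c₁.val = c₂.val := by
          by_cases a1 : c.val + 1 = c₁.val <;> by_cases a2 : c.val + 1 = c₂.val
          · omega
          · rw [if_pos a1, if_neg a2] at hφ
            simp at hφ
          · rw [if_neg a1, if_pos a2] at hφ
            simp at hφ
          · omega
        rw [Fin.ext hval, h1, h3]
    simpa using this
  have hS2 : S2.card ≤ 6 := card_image_le.trans (by simp [Room])
  have hA : A.card ≤ 1 := by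
    rw [Finset.card_le_one]
    rintro ⟨a, x⟩ h ⟨a', x'⟩ h'
    simp only [A, mem_filter, mem_univ, true_and] at h h'
    obtain ⟨e1, e2⟩ := colF_inj' (h.trans h'.symm)
    rw [e1, e2]
  have hS3 : S3.card ≤ 2 * g := by
    calc S3.card ≤ ∑ ax ∈ A, ((univ : Finset (Fin g)).image
          (fun b => ((grB ax.2.1, colF b ax.2, false) : RV I Cl g)) ∪
        (univ : Finset (Fin g)).image (fun b => ((grA ax.2.1, colF b ax.2, false) : RV I Cl g))).card :=
          card_biUnion_le
      _ ≤ ∑ _ax ∈ A, 2 * g := by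
          apply Finset.sum_le_sum
          intro ax _
          refine (card_union_le _ _).trans ?_
          have h1 : ((univ : Finset (Fin g)).image
            (fun b => ((grB ax.2.1, colF b ax.2, false) : RV I Cl g))).card ≤ g :=
            card_image_le.trans (by simp)
          have h2 : ((univ : Finset (Fin g)).image
            (fun b => ((grA ax.2.1, colF b ax.2, false) : RV I Cl g))).card ≤ g :=
            card_image_le.trans (by simp)
          omega
      _ = A.card * (2 * g) := by rw [Finset.sum_const, smul_eq_mul]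
      _ ≤ 1 * (2 * g) := Nat.mul_le_mul_right _ hA
      _ = 2 * g := one_mul _
  have hsub : (rb (I := I) (g := g) gr).neighborFinset (r, c, l) ⊆ S1 ∪ S2 ∪ S3 := by
    intro u hu
    rw [SimpleGraph.mem_neighborFinset] at hu
    rcases hu with ⟨h1, h2⟩ | ⟨d, h⟩
    · refine mem_union_left _ (mem_union_left _ ?_)
      simp only [S1, mem_filter, mem_univ, true_and]
      refine ⟨h1.symm, ?_⟩
      rcases h2 with ⟨h2, h3⟩ | ⟨h2, h3⟩
      · exact Or.inl ⟨h2.symm, fun h => h3 h.symm⟩
      · exact Or.inr ⟨h2.symm, h3⟩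
    · rcases d with q | q
      · rcases h with ⟨h1, h2⟩ | ⟨h1, h2⟩
        · refine mem_union_left _ (mem_union_right _ ?_)
          simp only [S2, mem_image, mem_univ, true_and]
          simp only [dA, dB] at h1 h2
          have e := (Prod.mk.inj (Prod.mk.inj h1).2).1
          refine ⟨grB (gr q.1), ?_⟩
          rw [h2, e]
        · refine mem_union_left _ (mem_union_right _ ?_)
          simp only [S2, mem_image, mem_univ, true_and]
          simp only [dA, dB] at h1 h2
          have e := (Prod.mk.inj (Prod.mk.inj h1).2).1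
          refine ⟨grA (gr q.1), ?_⟩
          rw [h2, e]
      · refine mem_union_right _ ?_
        rcases h with ⟨h1, h2⟩ | ⟨h1, h2⟩
        · simp only [dA, dB] at h1 h2
          have e := (Prod.mk.inj (Prod.mk.inj h1).2).1
          refine mem_biUnion.mpr ⟨(q.2.1, q.1), ?_, ?_⟩
          · simp only [A, mem_filter, mem_univ, true_and]
            exact e.symm
          · refine mem_union_left _ (mem_image.mpr ⟨q.2.2, mem_univ _, ?_⟩)
            rw [h2]
        · simp only [dA, dB] at h1 h2
          have e := (Prod.mk.inj (Prod.mk.inj h1).2).1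
          refine mem_biUnion.mpr ⟨(q.2.2, q.1), ?_, ?_⟩
          · simp only [A, mem_filter, mem_univ, true_and]
            exact e.symm
          · refine mem_union_right _ (mem_image.mpr ⟨q.2.1, mem_univ _, ?_⟩)
            rw [h2]
  calc _ ≤ (S1 ∪ S2 ∪ S3).card := card_le_card hsub
    _ ≤ (S1 ∪ S2).card + S3.card := card_union_le _ _
    _ ≤ S1.card + S2.card + S3.card := by
        have := card_union_le S1 S2
        omega
    _ ≤ 2 * g + 9 := by omega

lemma card_edges_base (Fr : Let → Finset (Sym2 (RV I Cl g))) (v : RV I Cl g) :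
    (edgesOf (rb (I := I) (g := g) gr) Fr (Sum.inl v)).card ≤ 2 * g + 9 :=
  card_image_le.trans (card_neighbors_rb gr v)

/-- The number of edges read by a letter. -/
lemma card_frL_le (l : Let) {c : ℕ}
    (hc : ∀ S : Finset Cl, (∀ κ ∈ S, cov κ l) → S.card ≤ c) :
    (frL (g := g) gr co cov l).card ≤ 4 * c + 6 * g * g := by
  classical
  unfold frL
  refine card_image_le.trans ?_
  let A : Finset Cl := univ.filter fun κ => cov κ l
  have hA : A.card ≤ c := hc A fun κ hκ => (mem_filter.mp hκ).2
  let T1 : Finset (Door I Cl g) := (A ×ˢ (univ : Finset (Fin 4))).image Sum.inl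
  let T2 : Finset (Door I Cl g) := ((univ : Finset Gr) ×ˢ (univ : Finset (Fin g × Fin g))).image
    fun z => Sum.inr ((z.1, co l), z.2.1, z.2.2)
  have hsub : (univ.filter (reads (g := g) co cov l)) ⊆ T1 ∪ T2 := by
    intro d hd
    have hd' := (mem_filter.mp hd).2
    rcases d with q | q
    · refine mem_union_left _ (mem_image.mpr ⟨q, ?_, rfl⟩)
      simp only [mem_product, mem_univ, and_true]
      exact mem_filter.mpr ⟨mem_univ _, hd'⟩
    · refine mem_union_right _ (mem_image.mpr ⟨(q.1.1, q.2.1, q.2.2), ?_, ?_⟩)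
      · simp
      · have : co l = q.1.2 := hd'
        simp [this]
  have h1 : T1.card ≤ 4 * c := by
    refine card_image_le.trans ?_
    rw [card_product]
    simp only [card_univ, Fintype.card_fin]
    rw [Nat.mul_comm]
    exact Nat.mul_le_mul_left _ hA
  have h2 : T2.card ≤ 6 * g * g := by
    refine card_image_le.trans ?_
    rw [card_product]
    have e : Fintype.card Gr = 6 := by simp [Gr]
    simp only [card_univ, e, Fintype.card_prod, Fintype.card_fin]
    rw [Nat.mul_assoc]
  calc _ ≤ (T1 ∪ T2).card := card_le_card (by convert hsub)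
    _ ≤ T1.card + T2.card := card_union_le _ _
    _ ≤ 4 * c + 6 * g * g := Nat.add_le_add h1 h2

end Base

section Cov

variable {Λ St : Type} [DecidableEq Λ] [DecidableEq St] {N pad bL bS : ℕ}
variable (enc : Λ → Fin bL → Bool) (encS : St → Fin bS → Bool)
  (Loc : Fin (N + 1) → Λ → Λ → Λ → St → St → Prop) (isOK : Fin 3 → Λ → Prop)

/-- A letter covers few clauses. -/
lemma card_cov_le (l : SLet Λ St N pad) (S : Finset (SCl N bL bS))
    (hS : ∀ κ ∈ S, covS (pad := pad) enc encS Loc isOK κ l) :
    S.card ≤ 18 * bL + 4 * bS + 4 := by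
  classical
  rcases l with ⟨τ, j, l₀, a, f⟩ | ⟨j, l₀, c, u, u', m⟩ | ⟨i⟩
  · let T1 : Finset (SCl N bL bS) := (univ : Finset (Fin 4 × Fin bL × Bool)).image
      fun z => SCl.cq τ j z.1 l₀ z.2.1 z.2.2
    let T2 : Finset (SCl N bL bS) := (univ : Finset (Fin 4 × Fin bL × Bool)).image
      fun z => SCl.cq τ z.1 j l₀ z.2.1 z.2.2
    let T3 : Finset (SCl N bL bS) := (univ : Finset (Fin bL × Bool)).image
      fun z => SCl.rl τ j l₀ z.1 z.2
    have hsub : S ⊆ T1 ∪ T2 ∪ T3 ∪ {SCl.fl τ j l₀, SCl.zc τ j} := by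
      intro κ hκ
      have h := hS κ hκ
      rcases κ with ⟨τ', j1, j2, l', bit, x⟩ | ⟨τ', j1, l'⟩ | ⟨τ', j1, l', bit, x⟩ | ⟨j1, l'⟩ |
        ⟨j1, l', bit, x⟩ | ⟨j1, l'⟩ | ⟨j1, l'⟩ | ⟨τ', j1⟩
      · simp only [covS, covF, covW] at h
        obtain ⟨rfl, rfl, h | h⟩ := h
        · obtain ⟨rfl, -⟩ := h
          refine mem_union_left _ (mem_union_left _ (mem_union_left _ ?_))
          exact mem_image.mpr ⟨(j2, bit, x), mem_univ _, rfl⟩
        · obtain ⟨rfl, -⟩ := h
          refine mem_union_left _ (mem_union_left _ (mem_union_right _ ?_))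
          exact mem_image.mpr ⟨(j1, bit, x), mem_univ _, rfl⟩
      · simp only [covS, covF, covW] at h
        obtain ⟨rfl, rfl, rfl, -⟩ := h
        simp
      · simp only [covS, covF, covW] at h
        obtain ⟨rfl, rfl, rfl, -⟩ := h
        refine mem_union_left _ (mem_union_right _ ?_)
        exact mem_image.mpr ⟨(bit, x), mem_univ _, rfl⟩
      · simp only [covS, covF, covW] at h
      · simp only [covS, covF, covW] at h
      · simp only [covS, covF, covW] at h
      · simp only [covS, covF, covW] at h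
      · simp only [covS, covF, covW] at h
        obtain ⟨rfl, rfl, -⟩ := h
        simp
    have h1 : T1.card ≤ 8 * bL := by
      refine card_image_le.trans ?_
      simp only [card_univ, Fintype.card_prod, Fintype.card_fin, Fintype.card_bool]
      nlinarith
    have h2 : T2.card ≤ 8 * bL := by
      refine card_image_le.trans ?_
      simp only [card_univ, Fintype.card_prod, Fintype.card_fin, Fintype.card_bool]
      nlinarith
    have h3 : T3.card ≤ 2 * bL := by
      refine card_image_le.trans ?_
      simp only [card_univ, Fintype.card_prod, Fintype.card_fin, Fintype.card_bool]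
      nlinarith
    have h4 : ({SCl.fl τ j l₀, SCl.zc τ j} : Finset (SCl N bL bS)).card ≤ 2 := card_le_two
    have h5 := card_union_le (T1 ∪ T2 ∪ T3) {SCl.fl τ j l₀, SCl.zc τ j}
    have h6 := card_union_le (T1 ∪ T2) T3
    have h7 := card_union_le T1 T2
    have := card_le_card hsub
    omega
  · let T1 : Finset (SCl N bL bS) := (univ : Finset (Fin 3 × Fin bL × Bool)).image
      fun z => SCl.rl z.1 j l₀ z.2.1 z.2.2
    let A1 : Finset (Fin N) := univ.filter fun l' => l'.castSucc = l₀
    let A2 : Finset (Fin N) := univ.filter fun l' => l'.succ = l₀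
    let T2 : Finset (SCl N bL bS) := ((A1 ∪ A2) ×ˢ (univ : Finset (Fin bS × Bool))).image
      fun z => SCl.ad j z.1 z.2.1 z.2.2
    have hsub : S ⊆ T1 ∪ T2 ∪ {SCl.vl j l₀, SCl.dc j l₀, SCl.ec j l₀} := by
      intro κ hκ
      have h := hS κ hκ
      rcases κ with ⟨τ', j1, j2, l', bit, x⟩ | ⟨τ', j1, l'⟩ | ⟨τ', j1, l', bit, x⟩ | ⟨j1, l'⟩ |
        ⟨j1, l', bit, x⟩ | ⟨j1, l'⟩ | ⟨j1, l'⟩ | ⟨τ', j1⟩
      · simp only [covS, covF, covW] at h
      · simp only [covS, covF, covW] at h
      · simp only [covS, covF, covW] at h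
        obtain ⟨rfl, rfl, -⟩ := h
        refine mem_union_left _ (mem_union_left _ ?_)
        exact mem_image.mpr ⟨(τ', bit, x), mem_univ _, rfl⟩
      · simp only [covS, covF, covW] at h
        obtain ⟨rfl, rfl, -⟩ := h
        simp
      · simp only [covS, covF, covW] at h
        obtain ⟨rfl, h⟩ := h
        refine mem_union_left _ (mem_union_right _ ?_)
        refine mem_image.mpr ⟨(l', bit, x), ?_, rfl⟩
        simp only [mem_product, mem_univ, and_true, mem_union, A1, A2, mem_filter, true_and]
        rcases h with ⟨h, -⟩ | ⟨h, -⟩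
        · exact Or.inl h.symm
        · exact Or.inr h.symm
      · simp only [covS, covF, covW] at h
        obtain ⟨rfl, rfl, -⟩ := h
        simp
      · simp only [covS, covF, covW] at h
        obtain ⟨rfl, rfl, -⟩ := h
        simp
      · simp only [covS, covF, covW] at h
    have h1 : T1.card ≤ 6 * bL := by
      refine card_image_le.trans ?_
      simp only [card_univ, Fintype.card_prod, Fintype.card_fin, Fintype.card_bool]
      nlinarith
    have hA1 : A1.card ≤ 1 := by
      rw [Finset.card_le_one]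
      intro a ha b hb
      simp only [A1, mem_filter, mem_univ, true_and] at ha hb
      exact Fin.castSucc_injective _ (ha.trans hb.symm)
    have hA2 : A2.card ≤ 1 := by
      rw [Finset.card_le_one]
      intro a ha b hb
      simp only [A2, mem_filter, mem_univ, true_and] at ha hb
      exact Fin.succ_injective _ (ha.trans hb.symm)
    have hA := card_union_le A1 A2
    have h2 : T2.card ≤ 4 * bS := by
      refine card_image_le.trans ?_
      rw [card_product]
      simp only [card_univ, Fintype.card_prod, Fintype.card_fin, Fintype.card_bool]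
      have : (A1 ∪ A2).card ≤ 2 := by omega
      nlinarith
    have h4 : ({SCl.vl j l₀, SCl.dc j l₀, SCl.ec j l₀} : Finset (SCl N bL bS)).card ≤ 3 :=
      card_le_three
    have h5 := card_union_le (T1 ∪ T2) {SCl.vl j l₀, SCl.dc j l₀, SCl.ec j l₀}
    have h6 := card_union_le T1 T2
    have := card_le_card hsub
    omega
  · have : S = ∅ := by
      rw [Finset.eq_empty_iff_forall_notMem]
      intro κ hκ
      have h := hS κ hκ
      rcases κ with ⟨τ', j1, j2, l', bit, x⟩ | ⟨τ', j1, l'⟩ | ⟨τ', j1, l', bit, x⟩ | ⟨j1, l'⟩ |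
        ⟨j1, l', bit, x⟩ | ⟨j1, l'⟩ | ⟨j1, l'⟩ | ⟨τ', j1⟩ <;> simp only [covS, covF, covW] at h
    rw [this]
    simp

lemma card_SLet [Fintype Λ] [Fintype St] : Fintype.card (SLet Λ St N pad) =
    3 * 4 * (N + 1) * Fintype.card Λ * 2 +
      4 * (N + 1) * Fintype.card Λ ^ 3 * Fintype.card St ^ 2 * 3 + pad := by
  rw [Fintype.card_congr SLet.equiv]
  simp only [Fintype.card_sum, Fintype.card_prod, Fintype.card_fin, Fintype.card_bool,
    Fintype.card_fun]
  ring

lemma card_SCl : Fintype.card (SCl N bL bS) =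
    3 * 4 * 4 * (N + 1) * bL * 2 + 3 * 4 * (N + 1) + 3 * 4 * (N + 1) * bL * 2 + 4 * (N + 1) +
      4 * N * bS * 2 + 4 * (N + 1) + 4 * (N + 1) + 3 * 4 := by
  rw [Fintype.card_congr SCl.equiv]
  simp only [Fintype.card_sum, Fintype.card_prod, Fintype.card_fin, Fintype.card_bool]
  ring

end Cov

end Vale.Agent.Lib.P310V
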