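import Vale.Agent.Lib.P310V.Line

set_option linter.unusedSectionVars false

namespace Vale.Agent.Lib.P310V

open Finset

lemma mul_add_inj {n a a' b b' : ℕ} (hb : b < n) (hb' : b' < n) (h : a * n + b = a' * n + b') :
    a = a' ∧ b = b' := by
  have hn : 0 < n := by omega
  have h1 : (a * n + b) / n = a := by
    rw [Nat.mul_comm, Nat.mul_add_div hn, Nat.div_eq_of_lt hb, add_zero]
  have h2 : (a' * n + b') / n = a' := by
    rw [Nat.mul_comm, Nat.mul_add_div hn, Nat.div_eq_of_lt hb', add_zero]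
  have h3 : a = a' := by rw [← h1, ← h2, h]
  subst h3
  exact ⟨rfl, by omega⟩

lemma sum_ite_atmostone {α : Type} [Fintype α] (P : α → Prop) [DecidablePred P] (c : ZMod 2)
    (hP : ∀ a a', P a → P a' → a = a') [Decidable (∃ a, P a)] :
    ∑ a, (if P a then c else 0) = if ∃ a, P a then c else 0 := by
  by_cases h : ∃ a, P a
  · obtain ⟨a, ha⟩ := h
    rw [if_pos ⟨a, ha⟩, Finset.sum_eq_single a]
    · rw [if_pos ha]
    · intro b _ hb
      rw [if_neg fun hb' => hb (hP _ _ hb' ha)]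
    · intro h'
      exact absurd (mem_univ a) h'
  · rw [if_neg h]
    apply Finset.sum_eq_zero
    intro a _
    rw [if_neg fun ha => h ⟨a, ha⟩]

lemma grA_grB_no_swap {G G' : Gr} (h1 : grA G = grB G') (h2 : grB G = grA G') : False := by
  rcases G with ρ | τ <;> rcases G' with ρ' | τ'
  · simp only [grA, grB, Prod.mk.injEq, and_true] at h1 h2
    revert ρ ρ'
    decide
  · simp [grA, grB] at h1
  · simp [grA, grB] at h2
  · simp [grA, grB] at h2

section

variable {I Cl Let : Type} [Fintype I] [DecidableEq I] [Fintype Cl] [DecidableEq Cl]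
  [Fintype Let] [DecidableEq Let]
variable [Nums I Cl] {g : ℕ} (gr : Cl → Gr) (co : Let → I) (cov : Cl → Let → Prop)
  [PendData (rb (I := I) (g := g) gr) (frL gr co cov)]

lemma colF_val (a : Fin g) (x : Gr × I) :
    (colF (Cl := Cl) a x).val = a.val * Nums.X I Cl + Nums.nX Cl x :=
  rfl

lemma colC_val (P : Fin 4) (κ : Cl) :
    (colC (I := I) (g := g) P κ).val =
      g * Nums.X I Cl + P.val * Nums.Y I Cl + Nums.nC I κ :=
  rfl

lemma colF_lt (a : Fin g) (x : Gr × I) :
    (colF (Cl := Cl) a x).val < g * Nums.X I Cl := by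
  rw [colF_val]
  have h1 := Nums.hX Cl x
  have h2 : (a.val + 1) * Nums.X I Cl ≤ g * Nums.X I Cl :=
    Nat.mul_le_mul_right _ a.isLt
  have h3 : (a.val + 1) * Nums.X I Cl =
    a.val * Nums.X I Cl + Nums.X I Cl := by ring
  omega

lemma colF_inj {a a' : Fin g} {x x' : Gr × I} (h : colF (Cl := Cl) a x = colF a' x') :
    a = a' ∧ x = x' := by
  have h1 := congrArg Fin.val h
  rw [colF_val, colF_val] at h1
  obtain ⟨h2, h3⟩ := mul_add_inj (Nums.hX Cl x)
    (Nums.hX Cl x') h1
  exact ⟨Fin.ext h2, Nums.injX Cl h3⟩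

lemma colC_inj {P P' : Fin 4} {κ κ' : Cl} (h : colC (I := I) (g := g) P κ = colC P' κ') :
    P = P' ∧ κ = κ' := by
  have h1 := congrArg Fin.val h
  rw [colC_val, colC_val] at h1
  have h2 : P.val * Nums.Y I Cl + Nums.nC I κ =
      P'.val * Nums.Y I Cl + Nums.nC I κ' := by omega
  obtain ⟨h3, h4⟩ := mul_add_inj (Nums.hY I κ) (Nums.hY I κ') h2
  exact ⟨Fin.ext h3, Nums.injC I h4⟩

lemma colF_ne_colC (a : Fin g) (x : Gr × I) (P : Fin 4) (κ : Cl) :
    colF (Cl := Cl) a x ≠ colC P κ := by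
  intro h
  have h1 := congrArg Fin.val h
  have h2 := colF_lt (Cl := Cl) a x
  rw [colC_val] at h1
  omega

/-- A door is determined by its two ends. -/
lemma door_inj {d d' : Door I Cl g} (h1 : dA gr d = dA gr d') (h2 : dB gr d = dB gr d') :
    d = d' := by
  rcases d with ⟨κ, P⟩ | ⟨x, a, b⟩ <;> rcases d' with ⟨κ', P'⟩ | ⟨x', a', b'⟩
  · simp only [dA, Prod.mk.injEq, and_true] at h1
    obtain ⟨h3, h4⟩ := colC_inj h1.2
    rw [h3, h4]
  · simp only [dA, Prod.mk.injEq, and_true] at h1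
    exact absurd h1.2.symm (colF_ne_colC _ _ _ _)
  · simp only [dA, Prod.mk.injEq, and_true] at h1
    exact absurd h1.2 (colF_ne_colC _ _ _ _)
  · simp only [dA, Prod.mk.injEq, and_true] at h1
    simp only [dB, Prod.mk.injEq, and_true] at h2
    obtain ⟨h3, h4⟩ := colF_inj h1.2
    obtain ⟨h5, -⟩ := colF_inj h2.2
    rw [h3, h4, h5]

lemma door_no_swap {d d' : Door I Cl g} (h1 : dA gr d = dB gr d') (h2 : dB gr d = dA gr d') :
    False := by
  have e1 := congrArg Prod.fst h1
  have e2 := congrArg Prod.fst h2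
  rcases d with ⟨κ, P⟩ | ⟨x, a, b⟩ <;> rcases d' with ⟨κ', P'⟩ | ⟨x', a', b'⟩ <;>
    exact grA_grB_no_swap e1 e2

/-- The ladder relation. -/
def Lad (u v : RV I Cl g) : Prop :=
  u.1 = v.1 ∧ ((u.2.1 = v.2.1 ∧ u.2.2 ≠ v.2.2) ∨
      (u.2.2 = v.2.2 ∧ (u.2.1.val + 1 = v.2.1.val ∨ v.2.1.val + 1 = u.2.1.val)))

instance (u v : RV I Cl g) : Decidable (Lad u v) := by
  unfold Lad
  infer_instance

lemma rb_adj_iff {u v : RV I Cl g} :
    (rb gr).Adj u v ↔ Lad u v ∨ ∃ d : Door I Cl g, (u = dA gr d ∧ v = dB gr d) ∨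
      (u = dB gr d ∧ v = dA gr d) := Iff.rfl

lemma door_not_lad (d : Door I Cl g) : ¬ Lad (dA gr d) (dB gr d) := fun h => dA_room_ne gr d h.1

lemma door_not_lad' (d : Door I Cl g) : ¬ Lad (dB gr d) (dA gr d) :=
  fun h => dA_room_ne gr d h.1.symm

lemma adj_door (d : Door I Cl g) : (rb gr).Adj (dA gr d) (dB gr d) :=
  Or.inr ⟨d, Or.inl ⟨rfl, rfl⟩⟩

/-- Neighbor sums split into ladder neighbors and doors. -/
lemma sum_nbr (v : RV I Cl g) (Φ : RV I Cl g → ZMod 2) :
    ∑ u ∈ (rb gr).neighborFinset v, Φ u =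
      (∑ u, if Lad v u then Φ u else 0) +
        (∑ δ, if dA gr δ = v then Φ (dB gr δ) else 0) +
        (∑ δ, if dB gr δ = v then Φ (dA gr δ) else 0) := by
  classical
  rw [SimpleGraph.neighborFinset_eq_filter, Finset.sum_filter]
  have h1 : (∑ δ, if dA gr δ = v then Φ (dB gr δ) else 0) =
      ∑ u, if ∃ δ, dA gr δ = v ∧ dB gr δ = u then Φ u else 0 := by
    have : ∀ δ : Door I Cl g, (if dA gr δ = v then Φ (dB gr δ) else 0) =
        ∑ u, if dA gr δ = v ∧ dB gr δ = u then Φ u else 0 := by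
      intro δ
      by_cases h : dA gr δ = v
      · simp [h]
      · simp [h]
    rw [Finset.sum_congr rfl fun δ _ => this δ, Finset.sum_comm]
    apply Finset.sum_congr rfl
    intro u _
    apply sum_ite_atmostone
    rintro δ δ' ⟨h1, h2⟩ ⟨h3, h4⟩
    exact door_inj gr (h1.trans h3.symm) (h2.trans h4.symm)
  have h2 : (∑ δ, if dB gr δ = v then Φ (dA gr δ) else 0) =
      ∑ u, if ∃ δ, dB gr δ = v ∧ dA gr δ = u then Φ u else 0 := by
    have : ∀ δ : Door I Cl g, (if dB gr δ = v then Φ (dA gr δ) else 0) =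
        ∑ u, if dB gr δ = v ∧ dA gr δ = u then Φ u else 0 := by
      intro δ
      by_cases h : dB gr δ = v
      · simp [h]
      · simp [h]
    rw [Finset.sum_congr rfl fun δ _ => this δ, Finset.sum_comm]
    apply Finset.sum_congr rfl
    intro u _
    apply sum_ite_atmostone
    rintro δ δ' ⟨h1, h2⟩ ⟨h3, h4⟩
    exact door_inj gr (h2.trans h4.symm) (h1.trans h3.symm)
  rw [h1, h2, ← Finset.sum_add_distrib, ← Finset.sum_add_distrib]
  apply Finset.sum_congr rfl
  intro u _
  by_cases hL : Lad v u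
  · have e1 : ¬ ∃ δ, dA gr δ = v ∧ dB gr δ = u := by
      rintro ⟨δ, rfl, rfl⟩
      exact door_not_lad gr δ hL
    have e2 : ¬ ∃ δ, dB gr δ = v ∧ dA gr δ = u := by
      rintro ⟨δ, rfl, rfl⟩
      exact door_not_lad' gr δ hL
    rw [if_pos ((rb_adj_iff gr).mpr (Or.inl hL)), if_pos hL, if_neg e1, if_neg e2]
    simp
  · by_cases hA : ∃ δ, dA gr δ = v ∧ dB gr δ = u
    · have e2 : ¬ ∃ δ, dB gr δ = v ∧ dA gr δ = u := by
        rintro ⟨δ', h3, h4⟩
        obtain ⟨δ, h1, h2⟩ := hA
        exact door_no_swap gr (h1.trans h3.symm) (h2.trans h4.symm)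
      have hadj : (rb gr).Adj v u := by
        obtain ⟨δ, rfl, rfl⟩ := hA
        exact adj_door gr δ
      rw [if_pos hadj, if_neg hL, if_pos hA, if_neg e2]
      simp
    · by_cases hB : ∃ δ, dB gr δ = v ∧ dA gr δ = u
      · have hadj : (rb gr).Adj v u := by
          obtain ⟨δ, rfl, rfl⟩ := hB
          exact (adj_door gr δ).symm
        rw [if_pos hadj, if_neg hL, if_neg hA, if_pos hB]
        simp
      · have hadj : ¬ (rb gr).Adj v u := by
          intro h
          rcases (rb_adj_iff gr).mp h with h | ⟨δ, h | h⟩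
          · exact hL h
          · exact hA ⟨δ, h.1.symm, h.2.symm⟩
          · exact hB ⟨δ, h.1.symm, h.2.symm⟩
        rw [if_neg hadj, if_neg hL, if_neg hA, if_neg hB]
        simp

/-- The coefficient of a door in the equation of a charge `ι` on rooms. -/
noncomputable def cfOf (ι : Room → ZMod 2) (δ : Door I Cl g) : ZMod 2 := ι (dA gr δ).1 + ι (dB gr δ).1

/-- The equation of a charge on rooms. -/
def Line (t' : RV I Cl g → ZMod 2) (d : ℕ) (ι : Room → ZMod 2) (F : Finset Let) (R : ℕ) : Prop :=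
  LineG (B := rb gr) (Fr := frL gr co cov) (edge gr) t' d (cfOf gr ι) (fun v => ι v.1) F R

/-- The indicator charge of a room. -/
def indR (r : Room) : Room → ZMod 2 := fun r' => if r' = r then 1 else 0

/-- Sweep index. -/
def sidx (p : Cols I Cl g × Bool) : ℕ := 2 * p.1.val + (if p.2 then 1 else 0)

lemma sidx_lt (p : Cols I Cl g × Bool) :
    sidx p < 2 * (g * Nums.X I Cl + 4 * Nums.Y I Cl) := by
  unfold sidx
  have := p.1.isLt
  split_ifs <;> omega

lemma sidx_inj {p q : Cols I Cl g × Bool} (h : sidx p = sidx q) : p = q := by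
  obtain ⟨c, l⟩ := p
  obtain ⟨c', l'⟩ := q
  unfold sidx at h
  simp only at h
  cases l <;> cases l' <;> simp at h <;> first | omega | (simp only [Prod.mk.injEq, and_true]; exact Fin.ext h)

/-- The vertex of room `r` at step `s`. -/
def vAtR (hℓ : 0 < g * Nums.X I Cl + 4 * Nums.Y I Cl) (r : Room) (s : ℕ) :
    RV I Cl g :=
  (r, ⟨s / 2 % (g * Nums.X I Cl + 4 * Nums.Y I Cl), Nat.mod_lt _ hℓ⟩,
    decide (s % 2 = 1))

lemma vAtR_sidx (hℓ : 0 < g * Nums.X I Cl + 4 * Nums.Y I Cl) (r : Room)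
    (p : Cols I Cl g × Bool) : vAtR hℓ r (sidx p) = (r, p) := by
  obtain ⟨c, l⟩ := p
  unfold vAtR sidx
  have hc := c.isLt
  simp only [Prod.mk.injEq, true_and]
  constructor
  · apply Fin.ext
    simp only
    have : (2 * c.val + if l = true then 1 else 0) / 2 = c.val := by
      split_ifs <;> omega
    rw [this, Nat.mod_eq_of_lt hc]
  · cases l <;> simp

lemma sidx_close {p q : Cols I Cl g × Bool} {r : Room} (h : Lad (r, p) (r, q)) :
    sidx p ≠ sidx q ∧ sidx p ≤ sidx q + 2 ∧ sidx q ≤ sidx p + 2 := by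
  obtain ⟨c, l⟩ := p
  obtain ⟨c', l'⟩ := q
  obtain ⟨-, h2⟩ := h
  simp only at h2
  unfold sidx
  simp only
  rcases h2 with ⟨rfl, h3⟩ | ⟨rfl, h3⟩
  · cases l <;> cases l' <;> first | exact absurd rfl h3 | (simp; done) | (simp; omega)
  · cases l <;> simp <;> omega

lemma Lad_symm {u v : RV I Cl g} (h : Lad u v) : Lad v u := by
  obtain ⟨h1, h2⟩ := h
  refine ⟨h1.symm, ?_⟩
  rcases h2 with ⟨h2, h3⟩ | ⟨h2, h3⟩
  · exact Or.inl ⟨h2.symm, fun h => h3 h.symm⟩
  · exact Or.inr ⟨h2.symm, h3.symm⟩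

lemma Lad_irrefl (u : RV I Cl g) : ¬ Lad u u := by
  rintro ⟨-, ⟨-, h⟩ | ⟨-, h⟩⟩
  · exact h rfl
  · omega

lemma sum_room_single (r : Room) (Φ : RV I Cl g → ZMod 2) :
    ∑ v : RV I Cl g, (if v.1 = r then Φ v else 0) = ∑ p : Cols I Cl g × Bool, Φ (r, p) := by
  rw [Fintype.sum_prod_type, Finset.sum_eq_single r]
  · simp
  · intro r' _ hr
    simp [hr]
  · intro h
    exact absurd (mem_univ r) h

lemma sum_door_single (r : Room) (v₀ : RV I Cl g) (Φ : Cols I Cl g × Bool → ZMod 2) (c : ZMod 2)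
    (h : ∀ p, v₀ = (r, p) → Φ p = c) :
    ∑ p : Cols I Cl g × Bool, (if v₀ = (r, p) then Φ p else 0) = if v₀.1 = r then c else 0 := by
  by_cases hr : v₀.1 = r
  · rw [if_pos hr, Finset.sum_eq_single v₀.2]
    · have : v₀ = (r, v₀.2) := Prod.ext hr rfl
      rw [if_pos this, h _ this]
    · intro p _ hp
      rw [if_neg]
      intro he
      apply hp
      rw [he]
    · intro h'
      exact absurd (mem_univ _) h'
  · rw [if_neg hr]
    apply Finset.sum_eq_zero
    intro p _
    rw [if_neg]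
    intro he
    apply hr
    rw [he]

lemma two_free {d : ℕ} (A : Finset (Fin d)) (h : A.card + 2 ≤ d) :
    ∃ s0 s1 : Fin d, s0 ≠ s1 ∧ s0 ∉ A ∧ s1 ∉ A := by
  have h1 : 1 < (univ \ A).card := by
    have := card_sdiff_add_card_eq_card (subset_univ A)
    simp only [card_univ, Fintype.card_fin] at this
    omega
  obtain ⟨a, ha, b, hb, hab⟩ := one_lt_card.mp h1
  exact ⟨a, b, hab, (mem_sdiff.mp ha).2, (mem_sdiff.mp hb).2⟩

variable {t' : RV I Cl g → ZMod 2} {d : ℕ}

/-- The sweep: if all doors of a room are read by `F`, the equation of the room holds. -/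
theorem line_sweep (hd : 2 ≤ d) (hℓ : 0 < g * Nums.X I Cl + 4 * Nums.Y I Cl)
    (r : Room) {F : Finset Let} (hF : F.card + 2 ≤ d)
    (hcov : ∀ δ : Door I Cl g, cfOf gr (indR r) δ ≠ 0 → ∃ q ∈ F, edge gr δ ∈ frL gr co cov q) :
    Line gr co cov t' d (indR r) F (2 * (g * Nums.X I Cl + 4 * Nums.Y I Cl) + 2) := by
  classical
  intro x y hc hx
  set ℓ := g * Nums.X I Cl + 4 * Nums.Y I Cl with hℓdef
  obtain ⟨rep, hrep⟩ := exists_reps (by omega) hx
  obtain ⟨s0, s1, hs01, hs0, hs1⟩ := two_free (F.image rep) ((Nat.add_le_add_right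
    (card_image_le (s := F) (f := rep)) 2).trans hF)
  let seqS : ℕ → Fin d := fun s => if s % 2 = 0 then s0 else s1
  let seqC : ℕ → RV I Cl g ⊕ Let := fun s => Sum.inl (vAtR hℓ r s)
  obtain ⟨-, -, z, h1, h2, -, -, h5, h6⟩ := schedule hd t' seqC seqS x y (2 * ℓ + 2) (2 * ℓ)
    le_rfl hc
  have hC : ∀ p, seqC (sidx p) = Sum.inl (r, p) := by
    intro p
    simp only [seqC]
    rw [vAtR_sidx]
  have hcl : ∀ p, (z (sidx p)).1.1.1 = Sum.inl (r, p) := by
    intro p
    rw [(h2 _ (sidx_lt p)).2, hC]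
  have hpar : ∀ p : Cols I Cl g × Bool, ∑ u ∈ (rb gr).neighborFinset (r, p),
      ext (z (sidx p)).1.1 s((r, p), u) = t' (r, p) :=
    fun p => parity_sum (hcl p) (z (sidx p)).2.1
  have hali : ∀ a b, b ≤ a + 2 → Alive seqS a b := by
    intro a b hb s h3 h4 h
    have hs : s = a + 1 := by omega
    subst hs
    simp only [seqS] at h
    by_cases ha : a % 2 = 0
    · have : (a + 1) % 2 ≠ 0 := by omega
      rw [if_neg this, if_pos ha] at h
      exact hs01 h.symm
    · have : (a + 1) % 2 = 0 := by omega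
      rw [if_pos this, if_neg ha] at h
      exact hs01 h
  have hLadj : ∀ {p q : Cols I Cl g × Bool}, Lad (r, p) (r, q) →
      (rb gr).Adj (r, p) (r, q) := fun h => (rb_adj_iff gr).mpr (Or.inl h)
  have hpair : ∀ p q : Cols I Cl g × Bool, Lad (r, p) (r, q) →
      ext (z (sidx p)).1.1 s((r, p), (r, q)) = ext (z (sidx q)).1.1 s((r, p), (r, q)) := by
    intro p q hL
    obtain ⟨hne, hle1, hle2⟩ := sidx_close hL
    have hne' : (r, p) ≠ (r, q) := (hLadj hL).ne
    have hneC : ∀ {a b : Cols I Cl g × Bool}, (r, a) ≠ (r, b) →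
        seqC (sidx a) ≠ seqC (sidx b) := by
      intro a b hab
      rw [hC, hC]
      exact fun h => hab (Sum.inl.inj h)
    rcases lt_or_gt_of_ne hne with hlt | hlt
    · refine h5 _ _ hlt (sidx_lt q) (hali _ _ hle2) (hneC hne') _ ?_ ?_
      · rw [hC]
        exact mem_edges_inl (hLadj hL)
      · rw [hC, Sym2.eq_swap]
        exact mem_edges_inl (hLadj hL).symm
    · refine (h5 _ _ hlt (sidx_lt p) (hali _ _ hle1) (hneC hne'.symm) _ ?_ ?_).symm
      · rw [hC, Sym2.eq_swap]
        exact mem_edges_inl (hLadj hL).symm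
      · rw [hC]
        exact mem_edges_inl (hLadj hL)
  have hcf : ∀ δ : Door I Cl g, ((dA gr δ).1 = r ∨ (dB gr δ).1 = r) →
      cfOf gr (indR r) δ ≠ 0 := by
    intro δ h
    unfold cfOf indR
    have hne := dA_room_ne gr δ
    rcases h with h | h
    · have : (dB gr δ).1 ≠ r := fun h' => hne (h.trans h'.symm)
      rw [if_pos h, if_neg this]
      decide
    · have : (dA gr δ).1 ≠ r := fun h' => hne (h'.trans h.symm)
      rw [if_neg this, if_pos h]
      decide
  have hread : ∀ (δ : Door I Cl g) (p : Cols I Cl g × Bool), ((dA gr δ).1 = r ∨ (dB gr δ).1 = r) →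
      edge gr δ ∈ edgesOf (rb gr) (frL gr co cov) (Sum.inl (r, p)) →
      ext (z (sidx p)).1.1 (edge gr δ) = rd x y (edge gr δ) := by
    intro δ p hδ hmem
    obtain ⟨q, hq, hqe⟩ := hcov δ (hcf δ hδ)
    rw [rd_eq hd (r := 2 * ℓ + 1) hc (hrep q hq) hqe]
    refine (h6 (sidx p) (sidx_lt p) (rep q) ?_ (Sum.inr q) (hrep q hq) ?_ (edge gr δ) hqe ?_).symm
    · intro s _ hs
      have hm : rep q ∈ F.image rep := mem_image_of_mem rep hq
      simp only [seqS] at hs
      split_ifs at hs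
      · exact hs0 (hs ▸ hm)
      · exact hs1 (hs ▸ hm)
    · rw [hC]
      simp
    · rw [hC]
      exact hmem
  -- the count
  have e1 : ∑ v : RV I Cl g, indR r v.1 * t' v = ∑ p, t' (r, p) := by
    rw [← sum_room_single r t']
    apply Finset.sum_congr rfl
    intro v _
    unfold indR
    split_ifs <;> simp
  simp only [e1]
  have e2 : ∑ p, t' (r, p) = ∑ p : Cols I Cl g × Bool,
      ((∑ u, if Lad (r, p) u then ext (z (sidx p)).1.1 s((r, p), u) else 0) +
        (∑ δ, if dA gr δ = (r, p) then ext (z (sidx p)).1.1 s((r, p), dB gr δ) else 0) +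
        (∑ δ, if dB gr δ = (r, p) then ext (z (sidx p)).1.1 s((r, p), dA gr δ) else 0)) := by
    apply Finset.sum_congr rfl
    intro p _
    rw [← hpar p, sum_nbr]
  rw [e2, Finset.sum_add_distrib, Finset.sum_add_distrib]
  have e3 : ∑ p : Cols I Cl g × Bool, (∑ u, if Lad (r, p) u then
      ext (z (sidx p)).1.1 s((r, p), u) else 0) = 0 := by
    have : ∀ p : Cols I Cl g × Bool, (∑ u, if Lad (r, p) u then
        ext (z (sidx p)).1.1 s((r, p), u) else 0) =
        ∑ q : Cols I Cl g × Bool, if Lad (r, p) (r, q) then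
          ext (z (sidx p)).1.1 s((r, p), (r, q)) else 0 := by
      intro p
      refine Eq.trans ?_ (sum_room_single r (fun u => if Lad (r, p) u then
        ext (z (sidx p)).1.1 s((r, p), u) else 0))
      apply Finset.sum_congr rfl
      intro u _
      by_cases hu : u.1 = r
      · rw [if_pos hu]
      · rw [if_neg hu, if_neg]
        intro h
        exact hu h.1.symm
    rw [Finset.sum_congr rfl fun p _ => this p]
    apply sum_sum_symm_eq_zero
    · intro p q
      by_cases hL : Lad (r, p) (r, q)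
      · rw [if_pos hL, if_pos (Lad_symm hL), hpair p q hL, Sym2.eq_swap]
      · rw [if_neg hL, if_neg fun h => hL (Lad_symm h)]
    · intro p
      rw [if_neg (Lad_irrefl _)]
  have e4 : ∑ p : Cols I Cl g × Bool,
      (∑ δ, if dA gr δ = (r, p) then ext (z (sidx p)).1.1 s((r, p), dB gr δ) else 0) =
      ∑ δ : Door I Cl g, if (dA gr δ).1 = r then rd x y (edge gr δ) else 0 := by
    rw [Finset.sum_comm]
    apply Finset.sum_congr rfl
    intro δ _
    apply sum_door_single
    intro p hp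
    have he : s((r, p), dB gr δ) = edge gr δ := by
      unfold edge
      rw [hp]
    rw [he]
    refine hread δ p (Or.inl (by rw [hp])) ?_
    rw [← he, ← hp]
    exact mem_edges_inl (adj_door gr δ)
  have e5 : ∑ p : Cols I Cl g × Bool,
      (∑ δ, if dB gr δ = (r, p) then ext (z (sidx p)).1.1 s((r, p), dA gr δ) else 0) =
      ∑ δ : Door I Cl g, if (dB gr δ).1 = r then rd x y (edge gr δ) else 0 := by
    rw [Finset.sum_comm]
    apply Finset.sum_congr rfl
    intro δ _
    apply sum_door_single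
    intro p hp
    have he : s((r, p), dA gr δ) = edge gr δ := by
      unfold edge
      rw [hp, Sym2.eq_swap]
    rw [he]
    refine hread δ p (Or.inr (by rw [hp])) ?_
    rw [← he, ← hp]
    exact mem_edges_inl (adj_door gr δ).symm
  rw [e3, e4, e5, zero_add, ← Finset.sum_add_distrib]
  apply Finset.sum_congr rfl
  intro δ _
  unfold cfOf indR
  split_ifs <;> ring

end

end Vale.Agent.Lib.P310V
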