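import Vale.Agent.Lib.P310V.Params
import Vale.Agent.Lib.P310V.NumE3

set_option linter.unusedSectionVars false
set_option linter.unusedSimpArgs false

/-!
The numeric parameters as expressions in the input length and the dimension.
-/

namespace Vale.Agent.Lib.P310V

open E

def t0N : E := par 0
def t0L : E := par 1
def t0d : E := par 2

def qP : E := E.all (succ (var 0)) (E.eq (E.inp (var 0)) one) zero zero zero zero
def tQ : E := E.count t0N qP zero zero zero zero
def gP : E := E.all (succ (var 0)) (E.eq (E.inp (add (add (var 1) one) (var 0))) one) (var 1) zero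
  zero zero
def tGa : E := E.count t0N gP tQ zero zero zero
def tS : E := mul tGa (succ tQ)
def tW : E := add (add tQ tGa) (lit 3)
def tH : E := add (add tQ tGa) (lit 2)
def tL1 : E := succ t0L
def tL2 : E := succ tL1
def tNN : E := succ (add t0L t0L)
def tN1 : E := succ tNN
def tPad : E := sub t0d (add (mul (lit 32) t0L) (lit 34))

/-- Powers of two, capped. -/
def pw2 (a : E) : E := c1 (fold (var 0) one (add (var 0) (var 0))) a

def bP : E := E.lt (pw2 (var 0)) (var 1)
def tB : E := E.count t0N bP (add t0N t0N) zero zero zero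
def tD : E := pw2 tB

/-- Powers, capped. -/
def pwE (a : E) : ℕ → E
  | 0 => one
  | k + 1 => mul a (pwE a k)

def tG : E := add t0d (lit 2)
def tX : E := mul (lit 6) (pwE tD 4)
def tY : E := pwE tD 7
def tGX : E := mul tG tX
def tColB : E := add tGX (mul (lit 4) tY)
def tBB : E := mul (lit 12) tColB
def tEE : E := mul tBB tBB
def tCC : E := add (mul tD tBB) (pwE tD 9)
def tMB : E := add (add (add (mul (lit 4) (add (add (mul (lit 18) tB) (mul (lit 4) tB)) (lit 4)))
  (mul (mul (lit 6) tG) tG)) (mul (lit 2) tG)) (lit 9)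
def tP2 : E := pw2 tMB
def tPW : E := add (mul tCC tP2) (lit 2)
def tPP : E := succ (mul tCC tPW)
def tBox : E := mul tCC (mul tPP tP2)

/-- The number of a read. -/
def inpOf (x : ℕ → Option Bool) (p : ℕ) : ℕ :=
  match x p with
  | some false => 0
  | some true => 1
  | none => 2

/-- The header of the input: `q` ones, a zero, `γ` ones and a zero. -/
structure Hdr (x : ℕ → Option Bool) (q γ : ℕ) : Prop where
  one_q : ∀ p, p < q → x p = some true
  zero_q : x q = some false
  one_g : ∀ j, j < γ → x (q + 1 + j) = some true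
  zero_g : x (q + 1 + γ) = some false

lemma count_lt_eq {q : ℕ} (n : ℕ) [DecidablePred fun i => i < q] :
    Nat.count (fun i => i < q) n = min n q := by
  induction n with
  | zero => simp
  | succ n ih =>
    rw [Nat.count_succ, ih]
    by_cases h : n < q
    · simp only [h, if_true]
      omega
    · simp only [h, if_false]
      omega

section Pow

variable (C : Cx) (env : ℕ → ℕ)

lemma eval_pw2 (a : E) : eval C (pw2 a) env = min (2 ^ eval C a env) C.W := by
  have h1 : 1 ≤ C.W := by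
    have := C.hW
    omega
  simp only [pw2, c1, eval_call, eval_zero]
  rw [eval_fold]
  simp only [eval_var, frame_0, min_eval, eval_one, eval_add, push2_0]
  refine iter_of (F := fun i => min (2 ^ i) C.W) ?_ ?_
  · simp [h1]
  · intro i _
    simp only [min_le_iff, le_refl, or_true, min_eq_left, pow_succ]
    omega

lemma eval_pwE {a : E} {A : ℕ} (ha : eval C a env = A) (hA : 1 ≤ A) {k : ℕ} (hk : A ^ k ≤ C.W) :
    eval C (pwE a k) env = A ^ k := by
  induction k with
  | zero => simp [pwE]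
  | succ k ih =>
    have h1 : A ^ k ≤ A ^ (k + 1) := Nat.pow_le_pow_right hA (by omega)
    rw [pwE, eval_mul, ih (by omega), ha, pow_succ', min_eq_left]
    rwa [pow_succ'] at hk

end Pow

section Load

variable {C : Cx} {n q γ L d : ℕ} (hB : Big n q γ L d) (hW : C.W = wOf n)
  (h0 : C.Pi 0 = n) (h1 : C.Pi 1 = L) (h2 : C.Pi 2 = d) (hx : Hdr C.x q γ) (env : ℕ → ℕ)

include hB hW

lemma Big.box_W : dBox (bN n) (d + 2) < C.W := by
  rw [hW]
  exact hB.box_lt

/-- Bound by the box. -/
lemma Big.n_lt_D : 2 * n ≤ 2 ^ bN n := hB.le_D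

lemma Big.D_lt_W : 2 ^ bN n < C.W := by
  rw [hW]
  exact hB.D_lt

lemma Big.n2_lt_W : 2 * n < C.W := by
  have := hB.le_D
  have := hB.D_lt_W hW
  omega

lemma Big.n_lt_W : n < C.W := by
  have := hB.n2_lt_W hW
  have := hB.n100
  omega

include h0

lemma ev_t0N : eval C t0N env = n := by
  show min (C.Pi 0) C.W = n
  rw [h0, min_eq_left (hB.n_lt_W hW).le]

include hx

lemma ev_tQ : eval C tQ env = q := by
  have hn := hB.n_lt_W hW
  have hgq := hB.lamB
  have h3 : q ≤ n := by
    have h4 := hB.γ3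
    have h5 : q + 1 ≤ γ * (q + 1) := Nat.le_mul_of_pos_left _ (by omega)
    have h6 : γ * (q + 1) ≤ (γ * (q + 1)) ^ 3 := Nat.le_self_pow (by omega) _
    omega
  rw [tQ, eval_count, ev_t0N hB hW h0]
  refine (count_congr (q := fun i => i < q) ?_).trans ((count_lt_eq n).trans (min_eq_right h3))
  intro i hi
  have hi' : i + 1 ≤ n := hi
  have e1 : eval C (succ (var 0)) (frame i 0 0 0 0 0) = i + 1 := by
    simp only [eval_succ, eval_var, frame_0, min_eq_left (show i ≤ C.W by omega)]
    exact capS_of_lt (by omega)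
  simp only [eval_zero]
  unfold qP
  rw [tr_all, e1]
  simp only [eval_zero, tr_eq, eval_inp', eval_var, frame_0, eval_one]
  constructor
  · intro h
    by_contra hc
    have h7 := h q (by omega)
    rw [min_eq_left (show q ≤ C.W by omega)] at h7
    simp [Cx.nu, hx.zero_q] at h7
  · intro h j hj
    rw [min_eq_left (show j ≤ C.W by omega)]
    simp [Cx.nu, hx.one_q j (by omega)]

end Load

/-- The context for computing the parameters. -/
structure Ctx0 (C : Cx) (n q γ L d : ℕ) : Prop where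
  hB : Big n q γ L d
  hW : C.W = wOf n
  h0 : C.Pi 0 = n
  h1 : C.Pi 1 = L
  h2 : C.Pi 2 = d
  hx : Hdr C.x q γ

section Ev

variable {C : Cx} {n q γ L d : ℕ} (H : Ctx0 C n q γ L d) (env : ℕ → ℕ)

include H

lemma Ctx0.s_le : γ * (q + 1) ≤ n := by
  have hgq := H.hB.lamB
  have h6 : γ * (q + 1) ≤ (γ * (q + 1)) ^ 3 := Nat.le_self_pow (by omega) _
  omega

lemma Ctx0.qg_le : q + γ + 3 ≤ n := by
  have h1 := H.s_le
  have h2 := H.hB.γ3
  have h3 := H.hB.q3
  have h4 : γ * (q + 1) = γ * q + γ := by ring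
  have h5 : 3 * q ≤ γ * q := Nat.mul_le_mul_right _ h2
  omega

lemma Ctx0.n_lt : n < C.W := H.hB.n_lt_W H.hW

lemma Ctx0.n2_lt : 2 * n < C.W := H.hB.n2_lt_W H.hW

lemma Ctx0.box : dBox (bN n) (d + 2) < C.W := H.hB.box_W H.hW

lemma ev_N : eval C t0N env = n := ev_t0N H.hB H.hW H.h0 env

lemma ev_L : eval C t0L env = L := by
  show min (C.Pi 1) C.W = L
  rw [H.h1, min_eq_left]
  have := H.hB.NB
  have := H.n_lt
  omega

lemma ev_d : eval C t0d env = d := by
  show min (C.Pi 2) C.W = d
  rw [H.h2, min_eq_left]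
  have := H.hB.dB
  have := H.n_lt
  omega

lemma ev_Q : eval C tQ env = q := ev_tQ H.hB H.hW H.h0 H.hx env

lemma ev_Ga : eval C tGa env = γ := by
  have hn := H.n_lt
  have h2n := H.n2_lt
  have hq := H.qg_le
  rw [tGa, eval_count, ev_N H, ev_Q H]
  refine (count_congr (q := fun i => i < γ) ?_).trans ((count_lt_eq n).trans (min_eq_right (by omega)))
  intro i hi
  have hi' : i + 1 ≤ n := hi
  have e1 : eval C (succ (var 0)) (frame i q 0 0 0 0) = i + 1 := by
    simp only [eval_succ, eval_var, frame_0, min_eq_left (show i ≤ C.W by omega)]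
    exact capS_of_lt (by omega)
  have e2 : eval C (var 1) (frame i q 0 0 0 0) = q := by
    simp only [eval_var, frame_1, min_eq_left (show q ≤ C.W by omega)]
  simp only [eval_zero]
  unfold gP
  rw [tr_all, e1, e2]
  have e3 : ∀ j, j ≤ i → eval C (add (add (var 1) one) (var 0)) (frame j q (eval C zero (frame i q 0 0 0 0))
      (eval C zero (frame i q 0 0 0 0)) (eval C zero (frame i q 0 0 0 0)) 0) = q + 1 + j := by
    intro j hj
    simp only [eval_add, eval_var, frame_0, frame_1, eval_one, eval_zero,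
      min_eq_left (show q ≤ C.W by omega), min_eq_left (show j ≤ C.W by omega),
      min_eq_left (show q + 1 ≤ C.W by omega)]
    omega
  constructor
  · intro h
    by_contra hc
    have h7 := h γ (by omega)
    rw [tr_eq, eval_inp', e3 γ (by omega), eval_one] at h7
    simp [Cx.nu, H.hx.zero_g] at h7
  · intro h j hj
    rw [tr_eq, eval_inp', e3 j (by omega), eval_one]
    simp [Cx.nu, H.hx.one_g j (by omega)]

lemma ev_S : eval C tS env = γ * (q + 1) := by
  have := H.s_le
  have := H.n_lt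
  have := H.qg_le
  rw [tS, eval_mul, ev_Ga H, eval_succ, ev_Q H, capS_of_lt (by omega), min_eq_left (by omega)]

lemma ev_W : eval C tW env = q + γ + 3 := by
  have := H.n_lt
  have := H.qg_le
  rw [tW, eval_add, eval_add, ev_Ga H, ev_Q H, eval_lit_small C env (by norm_num),
    min_eq_left (by omega), min_eq_left (by omega)]

lemma ev_H : eval C tH env = q + γ + 2 := by
  have := H.n_lt
  have := H.qg_le
  rw [tH, eval_add, eval_add, ev_Ga H, ev_Q H, eval_lit_small C env (by norm_num),
    min_eq_left (by omega), min_eq_left (by omega)]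

lemma ev_L1 : eval C tL1 env = L + 1 := by
  have := H.n_lt
  have := H.hB.NB
  rw [tL1, eval_succ, ev_L H, capS_of_lt (by omega)]

lemma ev_L2 : eval C tL2 env = L + 2 := by
  have := H.n_lt
  have := H.hB.NB
  rw [tL2, eval_succ, ev_L1 H, capS_of_lt (by omega)]

lemma ev_NN : eval C tNN env = L + L + 1 := by
  have := H.n_lt
  have := H.hB.NB
  rw [tNN, eval_succ, eval_add, ev_L H, min_eq_left (by omega), capS_of_lt (by omega)]

lemma ev_N1 : eval C tN1 env = L + L + 1 + 1 := by
  have := H.n_lt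
  have := H.hB.NB
  rw [tN1, eval_succ, ev_NN H, capS_of_lt (by omega)]

lemma ev_Pad : eval C tPad env = d - (32 * L + 34) := by
  have h1 := H.n_lt
  have h2 := H.hB.tagB
  have h3 := H.hB.L1
  have h4 : 3 * L ≤ L * (L + 2) := by nlinarith
  have h5 : 32 * L + 34 ≤ n := by omega
  rw [tPad, eval_sub, ev_d H, eval_add, eval_mul, ev_L H, eval_lit_small C env (by norm_num),
    eval_lit_small C env (by norm_num), min_eq_left (by omega), min_eq_left (by omega)]

lemma ev_B : eval C tB env = bN n := by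
  have h1 := H.n_lt
  have h2 := H.n2_lt
  have h3 := H.hB.n100
  have e2 : eval C (add t0N t0N) env = 2 * n := by
    rw [eval_add, ev_N H, min_eq_left (by omega)]
    omega
  rw [tB, eval_count, ev_N H]
  have h4 : bN n ≤ n := by
    unfold bN
    refine Nat.clog_le_of_le_pow ?_
    have : n < 2 ^ n := Nat.lt_two_pow_self
    have h5 : n + 1 ≤ 2 ^ n := this
    have h6 : 2 ^ n = 2 * 2 ^ (n - 1) := by
      rw [← pow_succ']
      congr 1
      omega
    have h7 : n - 1 < 2 ^ (n - 1) := Nat.lt_two_pow_self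
    omega
  refine (count_congr (q := fun i => i < bN n) ?_).trans ((count_lt_eq n).trans (min_eq_right h4))
  intro i hi
  unfold bP
  simp only [eval_zero, e2]
  rw [tr_lt, eval_pw2]
  simp only [eval_var, frame_0, frame_1, min_eq_left (show i ≤ C.W by omega),
    min_eq_left (show 2 * n ≤ C.W by omega)]
  have e : (min (2 ^ i) C.W < 2 * n) ↔ 2 ^ i < 2 * n := by omega
  rw [e]
  exact (Nat.lt_clog_iff_pow_lt (by omega)).symm

lemma ev_D : eval C tD env = 2 ^ bN n := by
  have h := H.hB.D_lt_W H.hW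
  rw [tD, eval_pw2, ev_B H, min_eq_left h.le]

lemma ev_G : eval C tG env = d + 2 := by
  have := H.n_lt
  have := H.hB.dB
  rw [tG, eval_add, ev_d H, eval_lit_small C env (by norm_num), min_eq_left (by omega)]

lemma Ctx0.D_pos : 1 ≤ 2 ^ bN n := Nat.one_le_two_pow

lemma Ctx0.pow_le {k : ℕ} (hk : k ≤ 9) : (2 ^ bN n) ^ k ≤ C.W := by
  have h1 := H.box
  have h2 := cc_le_box (bN n) (d + 2)
  have h3 := pow9_le_cc (bN n) (d + 2)
  have h4 : (2 ^ bN n) ^ k ≤ (2 ^ bN n) ^ 9 := Nat.pow_le_pow_right Nat.one_le_two_pow hk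
  omega

lemma ev_pw {k : ℕ} (hk : k ≤ 9) : eval C (pwE tD k) env = (2 ^ bN n) ^ k :=
  eval_pwE C env (ev_D H env) Nat.one_le_two_pow (H.pow_le hk)

lemma Ctx0.colB_le : (d + 2) * (6 * (2 ^ bN n) ^ 4) + 4 * (2 ^ bN n) ^ 7 ≤ C.W := by
  have h1 := H.box
  have h2 := cc_le_box (bN n) (d + 2)
  have h3 := bb_le_cc (bN n) (d + 2)
  have h4 := colB_le_bb (bN n) (d + 2)
  omega

lemma ev_X : eval C tX env = 6 * (2 ^ bN n) ^ 4 := by
  have h1 := H.colB_le
  have h2 : 6 * (2 ^ bN n) ^ 4 ≤ (d + 2) * (6 * (2 ^ bN n) ^ 4) :=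
    Nat.le_mul_of_pos_left _ (by omega)
  rw [tX, eval_mul, eval_lit_small C env (by norm_num), ev_pw H env (by norm_num),
    min_eq_left (by omega)]

lemma ev_Y : eval C tY env = (2 ^ bN n) ^ 7 := ev_pw H env (by norm_num)

lemma ev_GX : eval C tGX env = (d + 2) * (6 * (2 ^ bN n) ^ 4) := by
  have h1 := H.colB_le
  rw [tGX, eval_mul, ev_G H, ev_X H, min_eq_left (by omega)]

lemma ev_ColB : eval C tColB env = (d + 2) * (6 * (2 ^ bN n) ^ 4) + 4 * (2 ^ bN n) ^ 7 := by
  have h1 := H.colB_le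
  rw [tColB, eval_add, eval_mul, ev_GX H, ev_Y H, eval_lit_small C env (by norm_num),
    min_eq_left (by omega), min_eq_left (by omega)]

lemma Ctx0.bb_le : dBB (bN n) (d + 2) ≤ C.W := by
  have h1 := H.box
  have h2 := cc_le_box (bN n) (d + 2)
  have h3 := bb_le_cc (bN n) (d + 2)
  omega

lemma ev_BB : eval C tBB env = dBB (bN n) (d + 2) := by
  have h1 := H.bb_le
  rw [tBB, eval_mul, ev_ColB H, eval_lit_small C env (by norm_num), min_eq_left (by exact h1)]
  rfl

lemma ev_EE : eval C tEE env = dBB (bN n) (d + 2) * dBB (bN n) (d + 2) := by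
  have h1 := H.box
  have h2 := ee_le_box (bN n) (d + 2)
  rw [tEE, eval_mul, ev_BB H, min_eq_left (by omega)]

lemma Ctx0.cc_le : dCC (bN n) (d + 2) ≤ C.W := by
  have h1 := H.box
  have h2 := cc_le_box (bN n) (d + 2)
  omega

lemma ev_CC : eval C tCC env = dCC (bN n) (d + 2) := by
  have h1 := H.cc_le
  have h2 := dbb_le_cc (bN n) (d + 2)
  rw [tCC, eval_add, eval_mul, ev_D H, ev_BB H, ev_pw H env (by norm_num),
    min_eq_left (show 2 ^ bN n * dBB (bN n) (d + 2) ≤ C.W by omega)]
  unfold dCC at h1 ⊢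
  exact min_eq_left h1

lemma Ctx0.mb_le : 2 ^ mbN (bN n) (d + 2) ≤ C.W := by
  have h1 := H.box
  have h2 := mb_le_box (bN n) (d + 2)
  omega

lemma ev_MB : eval C tMB env = mbN (bN n) (d + 2) := by
  have h1 := H.mb_le
  have h2 : mbN (bN n) (d + 2) < 2 ^ mbN (bN n) (d + 2) := Nat.lt_two_pow_self
  have h3 : mbN (bN n) (d + 2) ≤ C.W := by omega
  have e : mbN (bN n) (d + 2) = 4 * (18 * bN n + 4 * bN n + 4) + 6 * (d + 2) * (d + 2) +
      2 * (d + 2) + 9 := rfl
  rw [e] at h3 ⊢
  have l4 : eval C (lit 4) env = 4 := eval_lit_small C env (by norm_num)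
  have l18 : eval C (lit 18) env = 18 := eval_lit_small C env (by norm_num)
  have l6 : eval C (lit 6) env = 6 := eval_lit_small C env (by norm_num)
  have l2 : eval C (lit 2) env = 2 := eval_lit_small C env (by norm_num)
  have l9 : eval C (lit 9) env = 9 := eval_lit_small C env (by norm_num)
  simp only [tMB, eval_add, eval_mul, ev_B H, ev_G H, l4, l18, l6, l2, l9]
  have h4 : 6 * (d + 2) ≤ 6 * (d + 2) * (d + 2) := Nat.le_mul_of_pos_right _ (by omega)
  rw [min_eq_left (show 18 * bN n ≤ C.W by omega), min_eq_left (show 4 * bN n ≤ C.W by omega),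
    min_eq_left (show 18 * bN n + 4 * bN n ≤ C.W by omega),
    min_eq_left (show 18 * bN n + 4 * bN n + 4 ≤ C.W by omega),
    min_eq_left (show 4 * (18 * bN n + 4 * bN n + 4) ≤ C.W by omega),
    min_eq_left (show 6 * (d + 2) ≤ C.W by omega),
    min_eq_left (show 6 * (d + 2) * (d + 2) ≤ C.W by omega),
    min_eq_left (show 2 * (d + 2) ≤ C.W by omega),
    min_eq_left (show 4 * (18 * bN n + 4 * bN n + 4) + 6 * (d + 2) * (d + 2) ≤ C.W by omega),
    min_eq_left (show 4 * (18 * bN n + 4 * bN n + 4) + 6 * (d + 2) * (d + 2) + 2 * (d + 2) ≤ C.W by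
      omega), min_eq_left h3]

lemma ev_P2 : eval C tP2 env = 2 ^ mbN (bN n) (d + 2) := by
  have h1 := H.mb_le
  rw [tP2, eval_pw2, ev_MB H, min_eq_left h1]

lemma Ctx0.pp_le : dPP (bN n) (d + 2) ≤ C.W := by
  have h1 := H.box
  have h2 := pp_le_box (bN n) (d + 2)
  omega

lemma Ctx0.pw_le : dPW (bN n) (d + 2) ≤ C.W := by
  have h1 := H.pp_le
  have h2 := pw_le_pp (bN n) (d + 2)
  omega

lemma ev_PW : eval C tPW env = dPW (bN n) (d + 2) := by
  have h1 := H.pw_le
  have e : dPW (bN n) (d + 2) = dCC (bN n) (d + 2) * 2 ^ mbN (bN n) (d + 2) + 2 := rfl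
  rw [e] at h1 ⊢
  rw [tPW, eval_add, eval_mul, ev_CC H, ev_P2 H, eval_lit_small C env (by norm_num),
    min_eq_left (by omega), min_eq_left (by omega)]

lemma ev_PP : eval C tPP env = dPP (bN n) (d + 2) := by
  have h1 := H.pp_le
  have e : dPP (bN n) (d + 2) = dCC (bN n) (d + 2) * dPW (bN n) (d + 2) + 1 := rfl
  rw [e] at h1 ⊢
  rw [tPP, eval_succ, eval_mul, ev_CC H, ev_PW H, min_eq_left (by omega), capS_of_lt (by omega)]

lemma ev_Box : eval C tBox env = dBox (bN n) (d + 2) := by
  have h1 := H.box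
  have h2 : dPP (bN n) (d + 2) * 2 ^ mbN (bN n) (d + 2) ≤ dBox (bN n) (d + 2) := by
    unfold dBox
    exact Nat.le_mul_of_pos_left _ (dCC_pos _ _)
  rw [tBox, eval_mul, eval_mul, ev_CC H, ev_PP H, ev_P2 H,
    min_eq_left (show dPP (bN n) (d + 2) * 2 ^ mbN (bN n) (d + 2) ≤ C.W by omega)]
  unfold dBox at h1 ⊢
  exact min_eq_left h1.le

end Ev

end Vale.Agent.Lib.P310V
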