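import Vale.Agent.Lib.P310V.Base

/-!
Refinement colors and WL equivalence.

* `Color`, `wlColor`, `WLEquiv`: k-dimensional joint-update Weisfeiler-Leman refinement exactly as
  in the problem file.
-/

namespace Vale.Agent.Lib.P310V

open Finset

/-- The colors of k-dimensional refinement after `r` rounds. -/
def Color (k : ℕ) : ℕ → Type
  | 0 => Fin k → Fin k → Prop × Prop
  | r + 1 => Color k r × Multiset (Fin k → Color k r)

/-- The color of a k-tuple after `r` rounds: round 0 records which entries are equal and which are
adjacent; round `r+1` records the old color and the multiset over `y` of the tuples of old colors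
of `x[i ← y]`. -/
def wlColor {k : ℕ} {V : Type} [Fintype V] (G : SimpleGraph V) : (r : ℕ) → (Fin k → V) → Color k r
  | 0, x => fun i j => (x i = x j, G.Adj (x i) (x j))
  | r + 1, x =>
    (wlColor G r x,
      (Finset.univ : Finset V).val.map fun y => fun i => wlColor G r (Function.update x i y))

/-- `G` and `H` are k-WL equivalent: for every `r` the multisets of round-`r` colors of k-tuples
coincide. -/
def WLEquiv (k : ℕ) {V W : Type} [Fintype V] [Fintype W]
    (G : SimpleGraph V) (H : SimpleGraph W) : Prop :=
  ∀ r, (Finset.univ : Finset (Fin k → V)).val.map (wlColor G r) =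
    (Finset.univ : Finset (Fin k → W)).val.map (wlColor H r)

end Vale.Agent.Lib.P310V
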