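import Vale.Agent.Lib.P310V.XorDefs

namespace Vale.Agent.Lib.P310V

open Finset

section Multisets

variable {α β γ : Type} [Fintype α] [Fintype β]

lemma exists_equiv_of_map_eq (f : α → γ) (g : β → γ)
    (h : (univ : Finset α).val.map f = (univ : Finset β).val.map g) :
    ∃ e : α ≃ β, ∀ a, f a = g (e a) := by
  classical
  have hcard : ∀ c : γ, Fintype.card {a // f a = c} = Fintype.card {b // g b = c} := by
    intro c
    have h1 := congrArg (Multiset.count c) h
    rw [Multiset.count_map, Multiset.count_map] at h1
    rw [Fintype.card_subtype, Fintype.card_subtype]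
    have e1 : ((univ : Finset α).filter fun a => f a = c).card =
        (Multiset.filter (fun a => c = f a) (univ : Finset α).val).card := by
      rw [Finset.card_def, Finset.filter_val]
      congr 1
      apply Multiset.filter_congr
      intro a _
      exact eq_comm
    have e2 : ((univ : Finset β).filter fun a => g a = c).card =
        (Multiset.filter (fun a => c = g a) (univ : Finset β).val).card := by
      rw [Finset.card_def, Finset.filter_val]
      congr 1
      apply Multiset.filter_congr
      intro a _
      exact eq_comm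
    rw [e1, e2]
    exact h1
  let E : ∀ c, {a // f a = c} ≃ {b // g b = c} := fun c => Fintype.equivOfCardEq (hcard c)
  refine ⟨Equiv.ofFiberEquiv E, fun a => ?_⟩
  exact (Equiv.ofFiberEquiv_map E a).symm

lemma map_eq_of_equiv (f : α → γ) (g : β → γ) (e : α ≃ β) (h : ∀ a, f a = g (e a)) :
    (univ : Finset α).val.map f = (univ : Finset β).val.map g := by
  have h2 : f = g ∘ e := funext h
  rw [h2, ← Multiset.map_map, Multiset.map_univ_val_equiv]

end Multisets

variable {k : ℕ} {V W : Type} [Fintype V] [Fintype W] {G : SimpleGraph V} {H : SimpleGraph W}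

lemma wlColor_succ_eq_iff {r : ℕ} {x : Fin k → V} {y : Fin k → W} :
    wlColor G (r + 1) x = wlColor H (r + 1) y ↔
      wlColor G r x = wlColor H r y ∧
        ∃ π : V ≃ W, ∀ v i, wlColor G r (Function.update x i v) =
          wlColor H r (Function.update y i (π v)) := by
  change ((wlColor G r x, (Finset.univ : Finset V).val.map
      fun y => fun i => wlColor G r (Function.update x i y)) :
        Color k r × Multiset (Fin k → Color k r)) = (wlColor H r y, (Finset.univ : Finset W).val.map
      fun z => fun i => wlColor H r (Function.update y i z)) ↔ _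
  rw [Prod.mk.injEq]
  constructor
  · rintro ⟨h3, h4⟩
    obtain ⟨e, he⟩ := exists_equiv_of_map_eq _ _ h4
    exact ⟨h3, e, fun v i => congrFun (he v) i⟩
  · rintro ⟨h3, e, he⟩
    exact ⟨h3, map_eq_of_equiv _ _ e fun v => funext fun i => he v i⟩

lemma wlColor_eq_of_succ {r : ℕ} {x : Fin k → V} {y : Fin k → W}
    (h : wlColor G (r + 1) x = wlColor H (r + 1) y) : wlColor G r x = wlColor H r y :=
  (wlColor_succ_eq_iff.mp h).1

lemma wlColor_eq_of_le {r s : ℕ} (hrs : r ≤ s) {x : Fin k → V} {y : Fin k → W}
    (h : wlColor G s x = wlColor H s y) : wlColor G r x = wlColor H r y := by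
  induction s, hrs using Nat.le_induction with
  | base => exact h
  | succ s _ ih => exact ih (wlColor_eq_of_succ h)

/-- Equal colors have equal atomic types. -/
lemma atomic_of_eq {r : ℕ} {x : Fin k → V} {y : Fin k → W}
    (h : wlColor G r x = wlColor H r y) (i j : Fin k) :
    (x i = x j ↔ y i = y j) ∧ (G.Adj (x i) (x j) ↔ H.Adj (y i) (y j)) := by
  have h0 : wlColor G 0 x = wlColor H 0 y := wlColor_eq_of_le (Nat.zero_le r) h
  have h1 := congrFun (congrFun h0 i) j
  have h2 : (x i = x j, G.Adj (x i) (x j)) = (y i = y j, H.Adj (y i) (y j)) := h1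
  rw [Prod.mk.injEq] at h2
  exact ⟨iff_of_eq h2.1, iff_of_eq h2.2⟩

/-- The tuples that agree with `x` at all coordinates of index at least `m`. -/
noncomputable def agreeSet (m : ℕ) (x : Fin k → V) : Finset (Fin k → V) :=
  by classical exact univ.filter fun z => ∀ j : Fin k, m ≤ j.val → z j = x j

lemma mem_agreeSet {m : ℕ} {x z : Fin k → V} :
    z ∈ agreeSet m x ↔ ∀ j : Fin k, m ≤ j.val → z j = x j := by
  classical
  simp [agreeSet]

lemma agreeSet_zero (x : Fin k → V) : agreeSet 0 x = {x} := by
  classical
  ext z
  simp only [mem_agreeSet, mem_singleton]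
  constructor
  · intro h
    funext j
    exact h j (Nat.zero_le _)
  · rintro rfl j _
    rfl

lemma agreeSet_succ {m : ℕ} (hm : m < k) (x : Fin k → V) :
    (agreeSet (m + 1) x).val = (univ : Finset V).val.bind fun v =>
      (agreeSet m (Function.update x ⟨m, hm⟩ v)).val := by
  classical
  have hd : (↑(univ : Finset V) : Set V).PairwiseDisjoint fun v =>
      agreeSet m (Function.update x ⟨m, hm⟩ v) := by
    intro v _ v' _ hne
    refine Finset.disjoint_left.mpr fun z hz hz' => hne ?_
    rw [mem_agreeSet] at hz hz'
    have e1 := hz ⟨m, hm⟩ le_rfl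
    have e2 := hz' ⟨m, hm⟩ le_rfl
    simp only [Function.update_self] at e1 e2
    exact e1.symm.trans e2
  have key : agreeSet (m + 1) x = (univ : Finset V).disjiUnion
      (fun v => agreeSet m (Function.update x ⟨m, hm⟩ v)) hd := by
    ext z
    simp only [mem_agreeSet, mem_disjiUnion, mem_univ, true_and]
    constructor
    · intro h
      refine ⟨z ⟨m, hm⟩, fun j hj => ?_⟩
      by_cases hjm : j = ⟨m, hm⟩
      · subst hjm
        simp
      · have : m + 1 ≤ j.val := by
          have hne : j.val ≠ m := fun h' => hjm (Fin.ext h')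
          omega
        rw [Function.update_of_ne hjm]
        exact h j this
    · rintro ⟨v, hv⟩ j hj
      have hne : j ≠ ⟨m, hm⟩ := by
        intro h'
        rw [h'] at hj
        simp at hj
      rw [hv j (by omega), Function.update_of_ne hne]
  rw [key]
  rfl

lemma map_agreeSet_eq {r : ℕ} : ∀ m : ℕ, m ≤ k → ∀ (x : Fin k → V) (y : Fin k → W),
    wlColor G (r + m) x = wlColor H (r + m) y →
      (agreeSet m x).val.map (wlColor G r) = (agreeSet m y).val.map (wlColor H r) := by
  intro m
  induction m with
  | zero =>
    intro _ x y h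
    rw [agreeSet_zero, agreeSet_zero]
    simpa using h
  | succ m ih =>
    intro hm x y h
    have hmk : m < k := hm
    rw [agreeSet_succ hmk, agreeSet_succ hmk, Multiset.map_bind, Multiset.map_bind]
    obtain ⟨-, π, hπ⟩ := wlColor_succ_eq_iff.mp (show wlColor G (r + m + 1) x = _ from h)
    have hstep : ∀ v, (agreeSet m (Function.update x ⟨m, hmk⟩ v)).val.map (wlColor G r) =
        (agreeSet m (Function.update y ⟨m, hmk⟩ (π v))).val.map (wlColor H r) := fun v =>
      ih (by omega) _ _ (hπ v ⟨m, hmk⟩)
    have : (fun v => (agreeSet m (Function.update x ⟨m, hmk⟩ v)).val.map (wlColor G r)) =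
        (fun w => (agreeSet m (Function.update y ⟨m, hmk⟩ w)).val.map (wlColor H r)) ∘ π :=
      funext hstep
    rw [this, Multiset.bind, Multiset.bind, ← Multiset.map_map, Multiset.map_univ_val_equiv]

lemma agreeSet_top (x : Fin k → V) : agreeSet k x = univ := by
  classical
  ext z
  simp only [mem_agreeSet, mem_univ, iff_true]
  intro j hj
  exact absurd j.isLt (by omega)

/-- Equal colors of one pair of tuples at all rounds give WL equivalence. -/
theorem wlEquiv_of_start (x₀ : Fin k → V) (y₀ : Fin k → W)
    (h : ∀ r, wlColor G r x₀ = wlColor H r y₀) : WLEquiv k G H := by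
  intro r
  have := map_agreeSet_eq (r := r) k le_rfl x₀ y₀ (h _)
  rwa [agreeSet_top, agreeSet_top] at this

/-- WL equivalence gives, for each tuple and round, a tuple of the same color. -/
theorem exists_of_wlEquiv (hE : WLEquiv k G H) (r : ℕ) (x : Fin k → V) :
    ∃ y : Fin k → W, wlColor G r x = wlColor H r y := by
  have hmem : wlColor G r x ∈ (univ : Finset (Fin k → V)).val.map (wlColor G r) :=
    Multiset.mem_map.mpr ⟨x, mem_univ _, rfl⟩
  rw [hE r] at hmem
  obtain ⟨y, -, hy⟩ := Multiset.mem_map.mp hmem
  exact ⟨y, hy.symm⟩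

/-- Number of neighbors, with a classical instance. -/
noncomputable def dg {U : Type} [Fintype U] (Γ : SimpleGraph U) (a : U) : ℕ :=
  by classical exact Fintype.card {b // Γ.Adj a b}

lemma dg_eq_of_eq (hk : 2 ≤ k) {r : ℕ} {x : Fin k → V} {y : Fin k → W}
    (h : wlColor G (r + 1) x = wlColor H (r + 1) y) (j : Fin k) :
    dg G (x j) = dg H (y j) := by
  classical
  obtain ⟨-, π, hπ⟩ := wlColor_succ_eq_iff.mp h
  have : Nontrivial (Fin k) := Fin.nontrivial_iff_two_le.mpr hk
  obtain ⟨i, hi⟩ := exists_ne j
  have hadj : ∀ v, G.Adj (x j) v ↔ H.Adj (y j) (π v) := by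
    intro v
    have h1 := (atomic_of_eq (hπ v i) j i).2
    simp only [Function.update_self, Function.update_of_ne hi.symm] at h1
    exact h1
  unfold dg
  exact Fintype.card_congr (π.subtypeEquiv hadj)

end Vale.Agent.Lib.P310V
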