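import Vale.Agent.Lib.P310V.Diag

set_option linter.unusedSectionVars false
set_option linter.unusedSimpArgs false

/-!
Renaming a machine to numbered states and symbols, and the input word that holds the table of a
numbered machine.
-/

namespace Vale.Agent.Lib.P310V

open Function

section Rename

variable {Q Γ Q' Γ' : Type} (D : DTM Q Γ) (e : Q ≃ Q') (f : Γ ≃ Γ')

/-- Renaming the states and symbols of a machine. -/
def DTM.rename : DTM Q' Γ' where
  δ q s := (e (D.δ (e.symm q) (f.symm s)).1, f (D.δ (e.symm q) (f.symm s)).2.1,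
    (D.δ (e.symm q) (f.symm s)).2.2)
  start := e D.start
  acc := e D.acc
  rej := e D.rej
  blank := f D.blank
  acc_ne_rej := fun h => D.acc_ne_rej (e.injective h)

/-- The renamed machine runs in the same way. -/
lemma rename_run {n : ℕ} (x : Fin n → Γ) (t : ℕ) :
    ((D.rename e f).run (fun i => f (x i)) t).st = e (D.run x t).st ∧
      ((D.rename e f).run (fun i => f (x i)) t).pos = (D.run x t).pos ∧
      ∀ p, ((D.rename e f).run (fun i => f (x i)) t).tape p = f ((D.run x t).tape p) := by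
  induction t with
  | zero =>
    refine ⟨rfl, rfl, fun p => ?_⟩
    show (if h : 0 ≤ p ∧ p < n then f (x ⟨p.toNat, by omega⟩) else f D.blank) =
      f (if h : 0 ≤ p ∧ p < n then x ⟨p.toNat, by omega⟩ else D.blank)
    split_ifs <;> rfl
  | succ t ih =>
    obtain ⟨h1, h2, h3⟩ := ih
    rw [DTM.run_succ, DTM.run_succ]
    unfold DTM.step
    simp only [h1, h2, h3]
    refine ⟨?_, ?_, fun p => ?_⟩
    · simp [DTM.rename]
    · simp [DTM.rename]
    · by_cases hp : p = (D.run x t).pos
      · subst hp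
        simp [DTM.rename]
      · simp [update_of_ne hp, h3]

lemma rename_accepts {n : ℕ} (x : Fin n → Γ) (T : ℕ) :
    (D.rename e f).AcceptsWithin (fun i => f (x i)) T ↔ D.AcceptsWithin x T := by
  unfold DTM.AcceptsWithin
  constructor
  · rintro ⟨t, h1, h2⟩
    refine ⟨t, h1, ?_⟩
    rw [(rename_run D e f x t).1] at h2
    exact e.injective h2
  · rintro ⟨t, h1, h2⟩
    refine ⟨t, h1, ?_⟩
    rw [(rename_run D e f x t).1, h2]
    rfl

end Rename

/-- Numbering a finite type with three given elements first. -/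
lemma exists_equiv3 {X : Type} [Fintype X] {a b c : X} (hab : a ≠ b) (hac : a ≠ c) (hbc : b ≠ c) :
    3 ≤ Fintype.card X ∧
    ∃ e : X ≃ Fin (Fintype.card X), (e a).val = 0 ∧ (e b).val = 1 ∧ (e c).val = 2 := by
  classical
  have h3 : 3 ≤ Fintype.card X := by
    have h : ({a, b, c} : Finset X).card = 3 := by
      rw [Finset.card_insert_of_notMem (by simp [hab, hac]), Finset.card_insert_of_notMem (by simp [hbc]),
        Finset.card_singleton]
    rw [← h]
    exact Finset.card_le_univ _
  refine ⟨h3, ?_⟩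
  set n := Fintype.card X with hn
  let n0 : Fin n := ⟨0, by omega⟩
  let n1 : Fin n := ⟨1, by omega⟩
  let n2 : Fin n := ⟨2, by omega⟩
  have h01 : n0 ≠ n1 := by simp [n0, n1, Fin.ext_iff]
  have h02 : n0 ≠ n2 := by simp [n0, n2, Fin.ext_iff]
  have h12 : n1 ≠ n2 := by simp [n1, n2, Fin.ext_iff]
  let e₀ : X ≃ Fin n := Fintype.equivFin X
  let e₁ : X ≃ Fin n := e₀.trans (Equiv.swap (e₀ a) n0)
  have a1 : e₁ a = n0 := by simp [e₁]
  let e₂ : X ≃ Fin n := e₁.trans (Equiv.swap (e₁ b) n1)
  have b2 : e₂ b = n1 := by simp [e₂]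
  have a2 : e₂ a = n0 := by
    show Equiv.swap (e₁ b) n1 (e₁ a) = n0
    rw [a1]
    refine Equiv.swap_apply_of_ne_of_ne ?_ h01
    rw [← a1]
    exact fun h => hab (e₁.injective h)
  let e₃ : X ≃ Fin n := e₂.trans (Equiv.swap (e₂ c) n2)
  have c3 : e₃ c = n2 := by simp [e₃]
  have a3 : e₃ a = n0 := by
    show Equiv.swap (e₂ c) n2 (e₂ a) = n0
    rw [a2]
    refine Equiv.swap_apply_of_ne_of_ne ?_ h02
    rw [← a2]
    exact fun h => hac (e₂.injective h)
  have b3 : e₃ b = n1 := by
    show Equiv.swap (e₂ c) n2 (e₂ b) = n1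
    rw [b2]
    refine Equiv.swap_apply_of_ne_of_ne ?_ h12
    rw [← b2]
    exact fun h => hbc (e₂.injective h)
  refine ⟨e₃, ?_, ?_, ?_⟩
  · rw [a3]
  · rw [b3]
  · rw [c3]

section Word

variable {q γ : ℕ} (M : DTM (Fin q) (Fin γ))

/-- The value of a field of the table. -/
def tblV (st sym f : ℕ) : ℕ :=
  if h : st < q ∧ sym < γ then
    (if f = 0 then (M.δ ⟨st, h.1⟩ ⟨sym, h.2⟩).1.val
     else if f = 1 then (M.δ ⟨st, h.1⟩ ⟨sym, h.2⟩).2.1.val
     else (M.δ ⟨st, h.1⟩ ⟨sym, h.2⟩).2.2.code)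
  else 0

/-- The bits of the input word with the table of a machine. -/
def wordBit (p : ℕ) : Bool :=
  if p < q then true
  else if p = q then false
  else if p < q + 1 + γ then true
  else if p = q + 1 + γ then false
  else decide ((p - (q + γ + 2)) % (q + γ + 3) <
    tblV M ((p - (q + γ + 2)) / (q + γ + 3) / 3 / γ) ((p - (q + γ + 2)) / (q + γ + 3) / 3 % γ)
      ((p - (q + γ + 2)) / (q + γ + 3) % 3))

/-- The input word. -/
def wordX (n p : ℕ) : Option Bool := if p < n then some (wordBit M p) else none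

lemma wordX_lt {n p : ℕ} (h : p < n) : wordX M n p = some (wordBit M p) := if_pos h

lemma wordX_ge {n p : ℕ} (h : n ≤ p) : wordX M n p = none := if_neg (by omega)

lemma dir_code_lt (d : Dir) : d.code < 3 := by
  cases d <;> simp [Dir.code]

/-- The header of the word. -/
lemma word_hdr {n : ℕ} (hn : q + γ + 2 ≤ n) : Hdr (wordX M n) q γ where
  one_q := fun p hp => by
    rw [wordX_lt M (by omega)]
    simp [wordBit, hp]
  zero_q := by
    rw [wordX_lt M (by omega)]
    simp [wordBit]
  one_g := fun j hj => by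
    rw [wordX_lt M (by omega)]
    have h1 : ¬ q + 1 + j < q := by omega
    have h2 : ¬ q + 1 + j = q := by omega
    have h3 : q + 1 + j < q + 1 + γ := by omega
    simp [wordBit, h1, h2, h3]
  zero_g := by
    rw [wordX_lt M (by omega)]
    have h1 : ¬ q + 1 + γ < q := by omega
    have h2 : ¬ q + 1 + γ = q := by omega
    simp [wordBit, h1, h2]

/-- The bit of a table position. -/
lemma wordBit_tab {a b f i : ℕ} (hb : b < γ) (hf : f < 3) (hi : i < q + γ + 3) :
    wordBit M (q + γ + 2 + (((a * γ + b) * 3 + f) * (q + γ + 3) + i)) = decide (i < tblV M a b f) := by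
  set P := (a * γ + b) * 3 + f with hP
  set p := q + γ + 2 + (P * (q + γ + 3) + i) with hp
  have h1 : ¬ p < q := by omega
  have h2 : ¬ p = q := by omega
  have h3 : ¬ p < q + 1 + γ := by omega
  have h4 : ¬ p = q + 1 + γ := by omega
  have e0 : p - (q + γ + 2) = P * (q + γ + 3) + i := by omega
  have hw : 0 < q + γ + 3 := by omega
  have e1 : (P * (q + γ + 3) + i) % (q + γ + 3) = i := by
    rw [Nat.mul_comm, Nat.mul_add_mod, Nat.mod_eq_of_lt hi]
  have e2 : (P * (q + γ + 3) + i) / (q + γ + 3) = P := by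
    rw [Nat.mul_comm, Nat.mul_add_div hw, Nat.div_eq_of_lt hi, Nat.add_zero]
  have e3 : P / 3 = a * γ + b := by
    rw [hP]
    omega
  have e4 : P % 3 = f := by
    rw [hP]
    omega
  have hγ : 0 < γ := by omega
  have e5 : (a * γ + b) / γ = a := by
    rw [Nat.mul_comm, Nat.mul_add_div hγ, Nat.div_eq_of_lt hb, Nat.add_zero]
  have e6 : (a * γ + b) % γ = b := by
    rw [Nat.mul_comm, Nat.mul_add_mod, Nat.mod_eq_of_lt hb]
  unfold wordBit
  rw [if_neg h1, if_neg h2, if_neg h3, if_neg h4, e0, e1, e2, e3, e4, e5, e6]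

end Word

end Vale.Agent.Lib.P310V
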