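import Vale.Agent.Lib.P310V.WL

/-!
The XOR structure over a base graph with extra probe classes.  A node is a class together with a bit
for each edge of that class.  Pendant vertices code the class; the numbers of pendant vertices are
given by `PendData`.
-/

namespace Vale.Agent.Lib.P310V

open Finset

section Structure

variable {BV Pr : Type} [Fintype BV] [DecidableEq BV] [Fintype Pr] [DecidableEq Pr]

/-- The edges of a class: a base vertex owns its incident edges, a probe owns a given edge set. -/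
def edgesOf (B : SimpleGraph BV) [DecidableRel B.Adj] (Fr : Pr → Finset (Sym2 BV)) :
    BV ⊕ Pr → Finset (Sym2 BV)
  | Sum.inl v => (B.neighborFinset v).image fun u => s(v, u)
  | Sum.inr p => Fr p

/-- A node: a class with one bit for each edge of the class. -/
abbrev Node (B : SimpleGraph BV) [DecidableRel B.Adj] (Fr : Pr → Finset (Sym2 BV)) : Type :=
  Σ c : BV ⊕ Pr, (↥(edgesOf B Fr c) → ZMod 2)

variable (B : SimpleGraph BV) [DecidableRel B.Adj] (Fr : Pr → Finset (Sym2 BV))

/-- A node of a base vertex `v` must have bit sum `t v`; nodes of probes are unconstrained. -/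
def parityOK (t : BV → ZMod 2) : Node B Fr → Prop
  | ⟨Sum.inl v, σ⟩ => ∑ e, σ e = t v
  | ⟨Sum.inr _, _⟩ => True

/-- Two nodes are adjacent when their classes differ, share an edge and agree on all shared edges. -/
def nodeAdj (u u' : Node B Fr) : Prop :=
  u.1 ≠ u'.1 ∧ (∃ e, e ∈ edgesOf B Fr u.1 ∧ e ∈ edgesOf B Fr u'.1) ∧
    ∀ e (h : e ∈ edgesOf B Fr u.1) (h' : e ∈ edgesOf B Fr u'.1), u.2 ⟨e, h⟩ = u'.2 ⟨e, h'⟩

/-- The data for the numbers of pendant vertices. -/
class PendData (B : SimpleGraph BV) [DecidableRel B.Adj] (Fr : Pr → Finset (Sym2 BV)) where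
  cl : BV ⊕ Pr → ℕ
  cl_inj : Function.Injective cl
  W : ℕ
  hW : Fintype.card (Node B Fr) + 2 ≤ W
  P : ℕ
  hP : ∀ c, (cl c + 1) * W ≤ P

variable [PendData B Fr]

/-- The number of pendant vertices of a node of class `c`; it encodes the class in the degree. -/
def pend (c : BV ⊕ Pr) : ℕ := (PendData.cl (B := B) (Fr := Fr) c + 1) * PendData.W (B := B) (Fr := Fr)

/-- An upper bound for `pend`. -/
def pendMax : ℕ := PendData.P (B := B) (Fr := Fr)

/-- The ambient graph on pairs (node, index): index 0 is the root of the node; the other indices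
are pendant vertices at the root. -/
def ambGraph : SimpleGraph (Node B Fr × Fin (pendMax B Fr + 1)) where
  Adj a b :=
    (a.2.val = 0 ∧ b.2.val = 0 ∧ nodeAdj B Fr a.1 b.1) ∨
      (a.1 = b.1 ∧ ((a.2.val = 0 ∧ b.2.val ≠ 0) ∨ (a.2.val ≠ 0 ∧ b.2.val = 0)))
  symm := ⟨by
    intro a b h
    rcases h with ⟨h1, h2, h3, ⟨e, he, he'⟩, h5⟩ | ⟨h1, h2 | h2⟩
    · exact Or.inl ⟨h2, h1, h3.symm, ⟨e, he', he⟩, fun e he he' => (h5 e he' he).symm⟩
    · exact Or.inr ⟨h1.symm, Or.inr ⟨h2.2, h2.1⟩⟩
    · exact Or.inr ⟨h1.symm, Or.inl ⟨h2.2, h2.1⟩⟩⟩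
  loopless := ⟨by
    intro a h
    rcases h with ⟨-, -, h3, -⟩ | ⟨-, h2 | h2⟩
    · exact h3 rfl
    · exact h2.2 h2.1
    · exact h2.1 h2.2⟩

/-- Admissibility of an ambient vertex under the parity function `t`. -/
def vtOK (t : BV → ZMod 2) (a : Node B Fr × Fin (pendMax B Fr + 1)) : Prop :=
  parityOK B Fr t a.1 ∧ a.2.val ≤ pend B Fr a.1.1

/-- The vertices of the graph with parity function `t`. -/
abbrev VT (t : BV → ZMod 2) : Type := {a : Node B Fr × Fin (pendMax B Fr + 1) // vtOK B Fr t a}

noncomputable instance (t : BV → ZMod 2) : Fintype (VT B Fr t) := Fintype.ofFinite _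

/-- The graph with parity function `t`: the ambient graph induced on admissible vertices. -/
def vtGraph (t : BV → ZMod 2) : SimpleGraph (VT B Fr t) :=
  (ambGraph B Fr).comap Subtype.val

end Structure

end Vale.Agent.Lib.P310V
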